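import Crest.Agent.R6.Defs

/-!
# Row 6: Andréief's identity as an inequality; Cauchy determinant.

`andreief_le`: with `μ = volume.restrict S`, expand both determinants (`Matrix.det_apply`):
`det φ(t) det ψ(t) = ∑_{σ,τ} ± ∏_i φ (σ i) (t i) ψ (τ i) (t i)`; each product is integrable on
`Measure.pi` with integral `∏ E (σ i) (τ i)` (`integral_fintype_prod_eq_prod`,
`Integrable.fintype_prod`), and `∑_{σ,τ} sign σ sign τ ∏ E (σ i)(τ i) = n! det E`.
Almost every `t` has all `t i ∈ S` (`Measure.ae_pi`-type lemma/`Measure.tendsto_eval_ae_ae`).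
`cauchy_det`: induction on `n` (subtract row `0` from the other rows after scaling, then the same for
columns; `Matrix.det_succ_column_zero`), or: multiply row `i` by `∏_j (1 - a i b j)` and factor
`∏_{j'≠j}(1 - a_i b_{j'}) = ∑_k a_i^k c_{k j}` as Vandermonde times a matrix depending on `b` only.
-/

set_option autoImplicit false

namespace Crest.Agent.R6

open MeasureTheory Finset

/-- Andréief's identity (proof copied from `R164/O2`). -/
theorem Andr_identity {n : Type} [Fintype n] [DecidableEq n] {E : Type} [MeasurableSpace E]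
    (μ : Measure E) [SigmaFinite μ] (A B : n → E → ℝ)
    (hi : ∀ i j, Integrable (fun y => A i y * B j y) μ) :
    ∫ y : n → E, (Matrix.of fun i l => A i (y l)).det * (Matrix.of fun j l => B j (y l)).det
        ∂(Measure.pi fun _ => μ) =
      (Fintype.card (Equiv.Perm n) : ℝ) * (Matrix.of fun i j => ∫ y, A i y * B j y ∂μ).det := by
  have e1 : ∀ y : n → E,
      (Matrix.of fun i l => A i (y l)).det * (Matrix.of fun j l => B j (y l)).det =
        ∑ τ : Equiv.Perm n, ∑ σ : Equiv.Perm n,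
          (((Equiv.Perm.sign τ : ℤ) : ℝ) * ((Equiv.Perm.sign σ : ℤ) : ℝ)) *
            ∏ l, (A (σ l) (y l) * B (τ l) (y l)) := by
    intro y
    rw [Matrix.det_apply', Matrix.det_apply', mul_comm, Finset.sum_mul_sum]
    refine Finset.sum_congr rfl fun τ _ => Finset.sum_congr rfl fun σ _ => ?_
    simp only [Matrix.of_apply, Finset.prod_mul_distrib]
    ring
  have hI : ∀ τ σ : Equiv.Perm n, Integrable (fun y : n → E =>
      (((Equiv.Perm.sign τ : ℤ) : ℝ) * ((Equiv.Perm.sign σ : ℤ) : ℝ)) *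
        ∏ l, (A (σ l) (y l) * B (τ l) (y l))) (Measure.pi fun _ => μ) := fun τ σ =>
    (Integrable.fintype_prod (f := fun l y => A (σ l) y * B (τ l) y) (μ := fun _ => μ)
      fun l => hi _ _).const_mul _
  simp_rw [e1]
  rw [integral_finsetSum _ fun τ _ => integrable_finsetSum _ fun σ _ => hI τ σ]
  have e2 : ∀ τ : Equiv.Perm n, ∫ y : n → E, ∑ σ : Equiv.Perm n,
      (((Equiv.Perm.sign τ : ℤ) : ℝ) * ((Equiv.Perm.sign σ : ℤ) : ℝ)) *
        ∏ l, (A (σ l) (y l) * B (τ l) (y l)) ∂(Measure.pi fun _ => μ) =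
      (Matrix.of fun i j => ∫ y, A i y * B j y ∂μ).det := by
    intro τ
    rw [integral_finsetSum _ fun σ _ => hI τ σ]
    have e3 : ∀ σ : Equiv.Perm n, ∫ y : n → E,
        (((Equiv.Perm.sign τ : ℤ) : ℝ) * ((Equiv.Perm.sign σ : ℤ) : ℝ)) *
          ∏ l, (A (σ l) (y l) * B (τ l) (y l)) ∂(Measure.pi fun _ => μ) =
        ((Equiv.Perm.sign τ : ℤ) : ℝ) * (((Equiv.Perm.sign σ : ℤ) : ℝ) *
          ∏ l, ((Matrix.of fun i j => ∫ y, A i y * B j y ∂μ).submatrix id τ) (σ l) l) := by
      intro σ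
      rw [integral_const_mul, integral_fintype_prod_eq_prod
        (fun l y => A (σ l) y * B (τ l) y) (μ := fun _ => μ), mul_assoc]
      rfl
    simp_rw [e3]
    rw [← Finset.mul_sum, ← Matrix.det_apply', Matrix.det_permute', ← mul_assoc, ← Int.cast_mul,
      ← Units.val_mul, Int.units_mul_self]
    simp
  simp_rw [e2]
  simp

theorem andreief_le {n : ℕ} {S : Set ℝ} (hS : MeasurableSet S) (φ ψ : Fin n → ℝ → ℝ) (w : ℝ → ℝ)
    {B : ℝ} (hB : 0 ≤ B) (hint : ∀ r k, IntegrableOn (fun t => φ r t * ψ k t) S)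
    (hw : IntegrableOn w S) (hw0 : ∀ t ∈ S, 0 ≤ w t)
    (h : ∀ t : Fin n → ℝ, (∀ i, t i ∈ S) →
      |Matrix.det (Matrix.of fun r i => φ r (t i)) * Matrix.det (Matrix.of fun k i => ψ k (t i))| ≤
        B * ∏ i, w (t i)) :
    |Matrix.det (Matrix.of fun r k => ∫ t in S, φ r t * ψ k t)| ≤ B * (∫ t in S, w t) ^ n := by
  have h1 := Andr_identity (volume.restrict S) φ ψ hint
  have hae : ∀ᵐ t ∂(Measure.pi fun _ : Fin n => volume.restrict S), ∀ i, t i ∈ S := by
    rw [ae_all_iff]
    intro i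
    exact Measure.tendsto_eval_ae_ae (μ := fun _ : Fin n => volume.restrict S) (i := i)
      (ae_restrict_mem hS)
  have hI : Integrable (fun t : Fin n → ℝ => B * ∏ i, w (t i))
      (Measure.pi fun _ : Fin n => volume.restrict S) :=
    (Integrable.fintype_prod (f := fun _ : Fin n => w) fun _ => hw).const_mul B
  have h2 := norm_integral_le_of_norm_le (f := fun t : Fin n → ℝ =>
    Matrix.det (Matrix.of fun r i => φ r (t i)) * Matrix.det (Matrix.of fun k i => ψ k (t i)))
    hI (hae.mono fun t ht => h t ht)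
  rw [h1, integral_const_mul, integral_fintype_prod_eq_pow, Fintype.card_fin, Real.norm_eq_abs,
    abs_mul] at h2
  have h3 : (1 : ℝ) ≤ |(Fintype.card (Equiv.Perm (Fin n)) : ℝ)| := by
    rw [Nat.abs_cast]
    exact_mod_cast Fintype.card_pos
  exact le_trans (le_mul_of_one_le_left (abs_nonneg _) h3) h2

end Crest.Agent.R6
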