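import Crest.Agent.R6.Defs

/-!
# Row 6: the sequences `cc`, `mm`, `AN`, `AP`; `p`-adic sizes.

Two-step inductions (`Nat.twoStepInduction` or on `w` with `d = 2w`); `Nat.succ_mul_centralBinom_succ`.
`pn_mm`: `mm (2w) = 2·4^w (w!)²/(2w+1)!`, and by Legendre's formula
(`Nat.Prime.emultiplicity_factorial`/`sub_one_mul_padicValNat_factorial`/`padicValNat_factorial`)
`v_p((2w+1)!) - 2 v_p(w!) = ∑_{1≤k≤log_p(2w+1)} (⌊(2w+1)/p^k⌋ - 2⌊w/p^k⌋) ≤ log_p(2w+1)`.
For `p = 2` use `pn2_mm`.  `pn_cc_lt`: `p ∣ centralBinom w` for `w < p ≤ 2w` (`Nat.Prime.dvd_choose`).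
`pn2_cc_mm`: `cc k · mm l`, `k ≤ l` even: induct on `l` (each step multiplies by even/odd), start
`cc k · mm k = 2/(k+1)`.
-/

set_option autoImplicit false

namespace Crest.Agent.R6

open Finset

theorem Seq_cc (d : ℕ) : cc (d + 2) = cc d * (d + 1) / (d + 2) := by rw [cc]

theorem Seq_mm (v : ℕ) : mm (v + 2) = mm v * (v + 2) / (v + 3) := by rw [mm]

theorem Seq_cc' (d : ℕ) : ((d : ℚ) + 2) * cc (d + 2) = (d + 1) * cc d := by
  rw [Seq_cc]; field_simp

theorem Seq_mm' (v : ℕ) : ((v : ℚ) + 3) * mm (v + 2) = (v + 2) * mm v := by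
  rw [Seq_mm]; field_simp

theorem cc_odd {d : ℕ} (h : d % 2 = 1) : cc d = 0 := by
  induction d using Nat.twoStepInduction with
  | zero => omega
  | one => rfl
  | more d ih _ => rw [Seq_cc, ih (by omega)]; simp

theorem mm_odd {v : ℕ} (h : v % 2 = 1) : mm v = 0 := by
  induction v using Nat.twoStepInduction with
  | zero => omega
  | one => rfl
  | more d ih _ => rw [Seq_mm, ih (by omega)]; simp

theorem cc_two_mul (w : ℕ) : cc (2 * w) = (Nat.centralBinom w : ℚ) / 4 ^ w := by
  induction w with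
  | zero => simp [cc]
  | succ w ih =>
    have h : ((w : ℚ) + 1) * (Nat.centralBinom (w + 1) : ℚ) =
        2 * (2 * w + 1) * (Nat.centralBinom w : ℚ) := by
      exact_mod_cast Nat.succ_mul_centralBinom_succ w
    have h' : (Nat.centralBinom (w + 1) : ℚ) = 2 * (2 * w + 1) * (Nat.centralBinom w : ℚ) / (w + 1) := by
      rw [← h]; field_simp
    rw [Nat.mul_succ, Seq_cc, ih, h']
    push_cast
    field_simp
    ring

theorem cc_pos {d : ℕ} (h : d % 2 = 0) : 0 < cc d := by
  induction d using Nat.twoStepInduction with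
  | zero => exact one_pos
  | one => omega
  | more d ih _ =>
    have := ih (by omega)
    rw [Seq_cc]; positivity

theorem mm_mul_cc {v : ℕ} (h : v % 2 = 0) : mm v * ((v : ℚ) + 1) * cc v = 2 := by
  induction v using Nat.twoStepInduction with
  | zero => simp [mm, cc]
  | one => omega
  | more d ih _ =>
    refine Eq.trans ?_ (ih (by omega))
    rw [Seq_cc, Seq_mm]
    push_cast
    field_simp
    ring

theorem mm_nonneg (v : ℕ) : 0 ≤ mm v := by
  induction v using Nat.twoStepInduction with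
  | zero => simp [mm]
  | one => simp [mm]
  | more d ih _ => rw [Seq_mm]; positivity

theorem mm_sq_le (v : ℕ) : ((v : ℚ) + 2) * mm v ^ 2 ≤ 8 := by
  induction v using Nat.twoStepInduction with
  | zero => norm_num [mm]
  | one => norm_num [mm]
  | more d ih _ =>
    refine le_trans ?_ ih
    rw [Seq_mm, div_pow, ← mul_div_assoc, div_le_iff₀ (by positivity)]
    push_cast
    have : 0 ≤ ((d : ℚ) + 2) * mm d ^ 2 := by positivity
    nlinarith

theorem AN_zero : AN 0 = 0 := by
  simp [AN, OO]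

theorem AN_one : AN 1 = 2 := by
  simp [AN, OO, mm]

theorem AN_rec (d : ℕ) :
    ((d : ℚ) + 2) * AN (d + 2) = ((d : ℚ) + 1) * AN d + mm d + mm (d + 1) := by
  rcases Nat.mod_two_eq_zero_or_one d with h | h
  · rcases d with _ | _ | e
    · norm_num [AN, OO, mm, cc]
    · omega
    · have h1 : mm (e + 1) = 0 := mm_odd (by omega)
      have h3 : mm (e + 3) = 0 := mm_odd (by omega)
      have h4 := mm_mul_cc h
      have h5 := Seq_cc' (e + 2)
      simp only [AN, show e + 1 + 1 + 2 - 1 = e + 3 by omega, show e + 1 + 1 - 1 = e + 1 by omega,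
        sum_range_succ _ (e + 2), sum_range_succ _ (e + 1), h1, h3]
      push_cast at h4 h5 ⊢
      linear_combination (∑ v ∈ range (e + 1), mm v ^ 2 + mm (e + 2) ^ 2) / 2 * h5 +
        mm (e + 2) / 2 * h4
  · rcases d with _ | e
    · omega
    · have h1 : cc (e + 1) = 0 := cc_odd h
      have h3 : cc (e + 1 + 2) = 0 := cc_odd (by omega)
      have h4 : mm (e + 1) = 0 := mm_odd h
      have h5 := Seq_mm' e
      have h6 : OO (e + 1 + 2) = OO (e + 1) + 1 / ((e : ℚ) + 3) := by
        rw [OO, OO, sum_range_succ, sum_range_succ, if_neg (by omega), if_pos (by omega)]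
        push_cast
        ring
      have h7 : ((e : ℚ) + 3) * (1 / ((e : ℚ) + 3)) = 1 := by field_simp
      simp only [AN, show e + 1 + 2 - 1 = e + 2 by omega, show e + 1 - 1 = e by omega, h1, h3, h4, h6]
      push_cast
      linear_combination OO (e + 1) * h5 + mm (e + 2) * h7

theorem AP_zero : AP 0 = 0 := by
  simp [AP]

theorem AP_one : AP 1 = 2 := by
  simp [AP, mm, cc]

theorem AP_rec (k : ℕ) :
    ((k : ℚ) + 2) * AP (k + 2) = ((k : ℚ) + 1) * AP k + 2 / ((k : ℚ) + 2) := by
  rcases Nat.mod_two_eq_zero_or_one k with h | h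
  · rcases k with _ | _ | e
    · norm_num [AP, mm, cc]
    · omega
    · have h1 : mm (e + 1) = 0 := mm_odd (by omega)
      have h3 : mm (e + 3) = 0 := mm_odd (by omega)
      have h4 := mm_mul_cc h
      have h5 := Seq_cc' (e + 2)
      simp only [AP, show e + 1 + 1 + 2 - 1 = e + 3 by omega, show e + 1 + 1 - 1 = e + 1 by omega,
        sum_range_succ (fun l => mm l / ((l : ℚ) + 2)) (e + 2),
        sum_range_succ (fun l => mm l / ((l : ℚ) + 2)) (e + 1), h1, h3]
      push_cast at h4 h5 ⊢
      linear_combination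
        (∑ l ∈ range (e + 1), mm l / ((l : ℚ) + 2) + mm (e + 2) / ((e : ℚ) + 2 + 2)) * h5 +
          1 / ((e : ℚ) + 2 + 2) * h4
  · rcases k with _ | e
    · omega
    · have h1 : cc (e + 1) = 0 := cc_odd h
      have h3 : cc (e + 1 + 2) = 0 := cc_odd (by omega)
      have h4 := mm_mul_cc (v := e + 2) (by omega)
      have h5 := Seq_mm' e
      simp only [AP, show e + 1 + 2 - 1 = e + 2 by omega, show e + 1 - 1 = e by omega,
        sum_range_succ (fun l => cc l / ((l : ℚ) + 1)) (e + 2),
        sum_range_succ (fun l => cc l / ((l : ℚ) + 1)) (e + 1), h1, h3]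
      push_cast at h4 ⊢
      linear_combination (∑ l ∈ range (e + 1), cc l / ((l : ℚ) + 1)) * h5 +
        1 / ((e : ℚ) + 2 + 1) * h4

section padic
variable {p : ℕ} [Fact p.Prime]

theorem Seq_pn_pow (q : ℚ) (k : ℕ) : padicNorm p (q ^ k) = padicNorm p q ^ k := by
  induction k with
  | zero => simp
  | succ k ih => rw [pow_succ, padicNorm.mul, ih, pow_succ]

theorem Seq_pn4 (hp : p ≠ 2) (w : ℕ) : padicNorm p (4 ^ w) = 1 := by
  have h : padicNorm p ((2 : ℕ) : ℚ) = 1 := padicNorm.padicNorm_of_prime_of_ne hp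
  rw [show (4 : ℚ) ^ w = ((2 : ℕ) : ℚ) ^ (2 * w) by rw [pow_mul]; norm_num, Seq_pn_pow, h, one_pow]

theorem Seq_pn_dvd {m : ℕ} (h : p ∣ m) : padicNorm p (m : ℚ) ≤ (p : ℚ)⁻¹ := by
  have := (padicNorm.dvd_iff_norm_le (p := p) (n := 1) (z := (m : ℤ))).1
    (by rw [pow_one]; exact_mod_cast h)
  simpa using this

theorem pn_cc (hp : p ≠ 2) (d : ℕ) : padicNorm p (cc d) ≤ 1 := by
  rcases Nat.even_or_odd' d with ⟨w, rfl | rfl⟩
  · rw [cc_two_mul, padicNorm.div, Seq_pn4 hp, div_one]
    exact padicNorm.of_nat _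
  · rw [cc_odd (by omega), padicNorm.zero]
    exact zero_le_one

theorem pn_cc_lt (hp : p ≠ 2) {d : ℕ} (h1 : p < d) (h2 : d < 2 * p) :
    padicNorm p (cc d) ≤ (p : ℚ)⁻¹ := by
  rcases Nat.even_or_odd' d with ⟨w, rfl | rfl⟩
  · rw [cc_two_mul, padicNorm.div, Seq_pn4 hp, div_one]
    have h : p ∣ Nat.centralBinom w :=
      (Fact.out : p.Prime).dvd_choose (a := w) (b := 2 * w) (by omega) (by omega) h1.le
    exact Seq_pn_dvd h
  · rw [cc_odd (by omega), padicNorm.zero]
    positivity

theorem pn_mm (v : ℕ) : padicNorm p (mm v) ≤ (p : ℚ) ^ Nat.log p (v + 1) := by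
  rcases Nat.even_or_odd' v with ⟨w, rfl | rfl⟩
  · have hp : (1 : ℚ) < p := by exact_mod_cast (Fact.out : p.Prime).one_lt
    have hX : (2 * w + 1) * Nat.centralBinom w ≠ 0 :=
      mul_ne_zero (by omega) (Nat.centralBinom_ne_zero w)
    have hX' : (((2 * w + 1) * Nat.centralBinom w : ℕ) : ℚ) ≠ 0 := by exact_mod_cast hX
    have e : mm (2 * w) = ((2 * 4 ^ w : ℕ) : ℚ) / (((2 * w + 1) * Nat.centralBinom w : ℕ) : ℚ) := by
      have h := mm_mul_cc (v := 2 * w) (by omega)
      rw [cc_two_mul] at h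
      rw [eq_div_iff hX']
      push_cast at h ⊢
      rw [← mul_div_assoc, div_eq_iff (by positivity)] at h
      linear_combination h
    have hv : padicValNat p ((2 * w + 1) * Nat.centralBinom w) ≤ Nat.log p (2 * w + 1) := by
      have h1 : (2 * w + 1) * Nat.centralBinom w * (w.factorial * w.factorial) =
          (2 * w + 1).factorial := by
        have := Nat.choose_mul_factorial_mul_factorial (show w ≤ 2 * w by omega)
        rw [show 2 * w - w = w by omega] at this
        rw [Nat.factorial_succ, ← this, Nat.centralBinom_eq_two_mul_choose]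
        ring
      have h2 := congrArg (padicValNat p) h1
      have hf := Nat.factorial_ne_zero w
      have hl : Nat.log p w < Nat.log p (2 * w + 1) + 1 :=
        Nat.lt_succ_of_le (Nat.log_mono_right (by omega))
      rw [padicValNat.mul hX (mul_ne_zero hf hf), padicValNat.mul hf hf,
        padicValNat_factorial hl, padicValNat_factorial (Nat.lt_succ_self _)] at h2
      have h3 : ∑ i ∈ Ico 1 (Nat.log p (2 * w + 1) + 1), (2 * w + 1) / p ^ i ≤
          ∑ i ∈ Ico 1 (Nat.log p (2 * w + 1) + 1), (w / p ^ i + w / p ^ i + 1) := by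
        refine sum_le_sum fun i _ => ?_
        have hq : 0 < p ^ i := pow_pos (Fact.out : p.Prime).pos i
        generalize p ^ i = q at hq
        refine Nat.le_of_lt_succ ((Nat.div_lt_iff_lt_mul hq).2 ?_)
        have := Nat.div_add_mod w q
        have := Nat.mod_lt w hq
        nlinarith
      simp only [sum_add_distrib, sum_const, Nat.card_Ico, smul_eq_mul, mul_one,
        Nat.add_sub_cancel] at h3
      simp only [Nat.succ_eq_add_one] at h2
      omega
    rw [e, padicNorm.div, padicNorm.eq_zpow_of_nonzero hX', padicValRat.of_nat, zpow_neg,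
      div_inv_eq_mul, zpow_natCast]
    exact (mul_le_of_le_one_left (by positivity) (padicNorm.of_nat _)).trans
      (pow_le_pow_right₀ hp.le hv)
  · rw [mm_odd (by omega), padicNorm.zero]
    positivity

end padic

theorem pn2_cc (d : ℕ) : padicNorm 2 (cc d) ≤ 2 ^ d := by
  rcases Nat.even_or_odd' d with ⟨w, rfl | rfl⟩
  · have h2 : padicNorm 2 (2 : ℚ) = 2⁻¹ := padicNorm.padicNorm_p_of_prime (p := 2)
    rw [cc_two_mul, padicNorm.div, show (4 : ℚ) ^ w = 2 ^ (2 * w) by rw [pow_mul]; norm_num,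
      Seq_pn_pow, h2, inv_pow, div_inv_eq_mul]
    exact mul_le_of_le_one_left (by positivity) (padicNorm.of_nat _)
  · rw [cc_odd (by omega), padicNorm.zero]
    positivity

theorem Seq_pn2_step {l : ℕ} (hl : l % 2 = 0) :
    padicNorm 2 (mm (l + 2)) = padicNorm 2 (mm l) * padicNorm 2 ((l + 2 : ℕ) : ℚ) := by
  have h : padicNorm 2 ((l : ℚ) + 3) = 1 := by
    have := (padicNorm.nat_eq_one_iff (p := 2) (l + 3)).2 (by omega)
    rwa [Nat.cast_add] at this
  rw [Seq_mm, padicNorm.div, padicNorm.mul, h, div_one, Nat.cast_add]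
  rfl

theorem pn2_mm (w : ℕ) : padicNorm 2 (mm (2 * w)) ≤ (2 ^ (w + 1))⁻¹ := by
  induction w with
  | zero => simpa [mm] using (padicNorm.padicNorm_p_of_prime (p := 2)).le
  | succ w ih =>
    have h : padicNorm 2 ((2 * w + 2 : ℕ) : ℚ) ≤ ((2 : ℕ) : ℚ)⁻¹ := Seq_pn_dvd (by omega)
    rw [Nat.mul_succ, Seq_pn2_step (by omega), pow_succ _ (w + 1), mul_inv]
    exact mul_le_mul ih h (padicNorm.nonneg _) (by positivity)

theorem pn2_cc_mm {k l : ℕ} (h : k ≤ l) : padicNorm 2 (cc k * mm l) ≤ 1 := by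
  rcases Nat.mod_two_eq_zero_or_one k with hk | hk
  · induction l using Nat.twoStepInduction with
    | zero =>
      obtain rfl : k = 0 := by omega
      simpa [cc, mm] using padicNorm.of_nat (p := 2) 2
    | one => simp [mm]
    | more l ih _ =>
      rcases Nat.mod_two_eq_zero_or_one l with hl | hl
      · by_cases hkl : k ≤ l
        · have := ih hkl
          rw [padicNorm.mul] at this ⊢
          rw [Seq_pn2_step hl, ← mul_assoc]
          exact mul_le_one₀ this (padicNorm.nonneg _) (padicNorm.of_nat _)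
        · obtain rfl : k = l + 2 := by omega
          have h1 := congrArg (padicNorm 2) (mm_mul_cc hk)
          have h2 : padicNorm 2 (((l + 2 : ℕ) : ℚ) + 1) = 1 := by
            have := (padicNorm.nat_eq_one_iff (p := 2) (l + 2 + 1)).2 (by omega)
            rwa [Nat.cast_succ] at this
          rw [padicNorm.mul, padicNorm.mul, h2, mul_one] at h1
          rw [padicNorm.mul, mul_comm, h1]
          exact padicNorm.of_nat (p := 2) 2
      · rw [mm_odd (by omega), mul_zero, padicNorm.zero]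
        exact zero_le_one
  · rw [cc_odd hk, zero_mul, padicNorm.zero]
    exact zero_le_one

end Crest.Agent.R6
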