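import Crest.Agent.R6.Red
import Crest.Agent.R6.Seq

/-!
# Row 6: the kernel computation behind `BNum` (reduction modulo `97`; `C0, C1, C2` are the inverse
matrices, one row = one number in base `100`).
-/

set_option autoImplicit false

namespace Crest.Agent.R6.BN

open Polynomial Finset

def iv (k : ℕ) : ℕ := k ^ 95 % 97

def mmN : ℕ → ℕ
  | 0 => 2
  | 1 => 0
  | v + 2 => mmN v * (v + 2) * iv (v + 3) % 97

def anN : ℕ → ℕ
  | 0 => 0
  | 1 => 2
  | d + 2 => ((d + 1) * anN d + mmN d + mmN (d + 1)) * iv (d + 2) % 97

def apN : ℕ → ℕ
  | 0 => 0
  | 1 => 2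
  | k + 2 => ((k + 1) * apN k + 2 * iv (k + 2)) * iv (k + 2) % 97

def hN : ℕ → ℕ
  | 0 => 0
  | d + 1 => (hN d + iv (d + 1)) % 97

/-- the columns: `l₀`, then `tail l - m / (j + 1)` -/
def run (l₀ m : List ℕ) (j : ℕ) : List ℕ :=
  Nat.rec l₀ (fun j l => List.zipWith (fun x y => (x + 96 * (y * iv (j + 1))) % 97) l.tail m) j

def fL : ℕ → List ℕ :=
  run ((List.range 90).map fun s => if s ≤ 48 then anN (48 - s) else apN (s - 49))
    ((List.range 90).map fun s => if s ≤ 47 then mmN (47 - s) else 0)

def gL : ℕ → List ℕ :=
  run ((List.range 90).map fun s => if s ≤ 48 then hN (48 - s) * iv (48 - s)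
      else hN (s - 48) * iv (s - 48))
    ((List.range 90).map fun s => if s ≤ 47 then iv (48 - s) else 0)

/-- `a - 2 b + c` -/
def d3 (a b c : List ℕ) : List ℕ :=
  List.zipWith (fun x y => (x + y) % 97) a (List.zipWith (fun y z => 96 * (2 * y) + z) b c)

def d2 (a : List ℕ) : List ℕ := d3 a a.tail a.tail.tail

/-- `2 tail b - a` -/
def step (b a : List ℕ) : List ℕ := List.zipWith (fun x y => (2 * x + 96 * y) % 97) b.tail a

def heads (n : ℕ) : List ℕ → List ℕ → List ℕ :=
  Nat.rec (fun _ _ => []) (fun _ ih a b => a.headD 0 :: ih b (step b a)) n

def k0 (a : ℕ) : List ℕ := d2 (d3 (fL (a + 6)) (fL (a + 7)) (fL (a + 8)))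

def k1 (a : ℕ) : List ℕ :=
  List.zipWith (fun x y => (x + 96 * (3 * iv 2 * y)) % 97) (k0 a).tail
    (d2 (d3 (gL (a + 6)) (gL (a + 7)) (gL (a + 8))))

def colB (a : ℕ) : List ℕ :=
  heads 37 (step (step (step (k0 a) (k1 a)) (k0 a)) (step (k0 a) (k1 a)))
    (step (step (k0 a) (k1 a)) (k0 a))

def dot (l : List ℕ) : ℕ → ℕ := List.rec (fun _ => 0) (fun x _ ih c => c % 100 * x + ih (c / 100)) l

def chk (t : ℕ) (C : List ℕ) : Bool :=
  (List.range 36).all fun a => (List.range 36).all fun k =>
    dot (List.zipWith (fun x y => (x + t * y) % 97) (colB a) (colB a).tail) (C.getD k 0) % 97 ==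
      if k = a then 1 else 0

instance : Fact (Nat.Prime 97) := ⟨by norm_num⟩

/-- `n` is the reduction of `x` modulo `97` -/
def R (x : ℚ) (n : ℕ) : Prop := PI 97 x ∧ (x : ZMod 97) = n

section
variable {x y : ℚ} {a b : ℕ}

theorem R.nat (n : ℕ) : R n n := ⟨PI_nat n, Rat.cast_natCast n⟩

theorem R.zero : R 0 0 := R.nat 0

theorem R.of_eq (h : R x a) (e : y = x) : R y a := e ▸ h

theorem R.add (h : R x a) (h' : R y b) : R (x + y) (a + b) :=
  ⟨h.1.add h'.1, by rw [red_add h.1 h'.1, h.2, h'.2, Nat.cast_add]⟩

theorem R.mul (h : R x a) (h' : R y b) : R (x * y) (a * b) :=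
  ⟨h.1.mul h'.1, by rw [red_mul h.1 h'.1, h.2, h'.2, Nat.cast_mul]⟩

theorem R.mod (h : R x a) : R x (a % 97) := ⟨h.1, by rw [h.2, ZMod.natCast_mod]⟩

theorem R.neg_one : R (-1) 96 := ⟨(PI_nat 1).neg, by
  rw [Rat.cast_neg, Rat.cast_one]
  rfl⟩

theorem R.neg (h : R x a) : R (-x) (96 * a) := (R.neg_one.mul h).of_eq (neg_one_mul x).symm

theorem R.iv {k : ℕ} (h : k < 97) : R (1 / k) (iv k) := by
  rcases k.eq_zero_or_pos with rfl | h0
  · exact R.zero.of_eq (by simp)
  have hk : ¬ 97 ∣ k := Nat.not_dvd_of_pos_of_lt h0 h
  have hk' : (k : ZMod 97) ≠ 0 := mt (ZMod.natCast_eq_zero_iff _ _).1 hk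
  refine ⟨(PI_nat 1).div_nat hk, ?_⟩
  have := red_div_nat (p := 97) (PI_nat 1) hk
  rw [Nat.cast_one] at this
  rw [this, BN.iv, ZMod.natCast_mod, Nat.cast_pow, Rat.cast_one, div_eq_iff hk', ← pow_succ]
  exact (ZMod.pow_card_sub_one_eq_one hk').symm

end

theorem R_mm : ∀ v, v < 90 → R (mm v) (mmN v)
  | 0, _ => R.nat 2
  | 1, _ => R.zero
  | v + 2, h => ((((R_mm v (by omega)).mul (R.nat (v + 2))).mul
      (R.iv (k := v + 3) (by omega))).mod).of_eq (by rw [mm]; push_cast; ring)

theorem R_an : ∀ d, d < 90 → R (AN d) (anN d)
  | 0, _ => R.zero.of_eq AN_zero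
  | 1, _ => (R.nat 2).of_eq AN_one
  | d + 2, h => ((((((R.nat (d + 1)).mul (R_an d (by omega))).add (R_mm d (by omega))).add
      (R_mm (d + 1) (by omega))).mul (R.iv (k := d + 2) (by omega))).mod).of_eq (by
        push_cast
        rw [← AN_rec]
        field_simp)

theorem R_ap : ∀ d, d < 90 → R (AP d) (apN d)
  | 0, _ => R.zero.of_eq AP_zero
  | 1, _ => (R.nat 2).of_eq AP_one
  | d + 2, h => (((((R.nat (d + 1)).mul (R_ap d (by omega))).add ((R.nat 2).mul
      (R.iv (k := d + 2) (by omega)))).mul (R.iv (k := d + 2) (by omega))).mod).of_eq (by
        push_cast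
        rw [mul_one_div, mul_one_div, ← AP_rec]
        field_simp)

theorem R_h : ∀ d, d < 90 → R (HH d) (hN d)
  | 0, _ => R.zero
  | d + 1, h => (((R_h d (by omega)).add (R.iv (k := d + 1) (by omega))).mod).of_eq (by
      rw [HH, sum_range_succ, ← HH]
      push_cast
      rfl)

/-- the first `n` entries of `l` are the reductions of those of `f` -/
def Rp (l : List ℕ) (f : ℕ → ℚ) (n : ℕ) : Prop := ∀ i < n, ∃ x, l[i]? = some x ∧ R (f i) x

section
variable {l l' l'' : List ℕ} {f f' f'' : ℕ → ℚ} {n n' : ℕ}

theorem Rp.mono (h : Rp l f n) (hn : n' ≤ n) : Rp l f n' := fun i hi => h i (by omega)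

theorem Rp.congr (h : Rp l f n) (e : ∀ i < n, f' i = f i) : Rp l f' n := fun i hi =>
  (h i hi).imp fun _ hx => ⟨hx.1, hx.2.of_eq (e i hi)⟩

theorem Rp.tail (h : Rp l f (n + 1)) : Rp l.tail (fun i => f (i + 1)) n := fun i hi => by
  rw [List.getElem?_tail]
  exact h (i + 1) (by omega)

theorem Rp.zip (h : Rp l f n) (h' : Rp l' f' n) {g : ℕ → ℕ → ℕ} (G : ℚ → ℚ → ℚ)
    (hg : ∀ x y a b, R x a → R y b → R (G x y) (g a b)) :
    Rp (List.zipWith g l l') (fun i => G (f i) (f' i)) n := fun i hi => by
  obtain ⟨a, h1, h2⟩ := h i hi
  obtain ⟨b, h3, h4⟩ := h' i hi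
  exact ⟨g a b, by simp [List.getElem?_zipWith, h1, h3], hg _ _ _ _ h2 h4⟩

theorem Rp.range {g : ℕ → ℕ} (h : ∀ i < n, R (f i) (g i)) : Rp ((List.range n).map g) f n :=
  fun i hi => ⟨g i, by simp [hi], h i hi⟩

theorem Rp.run {m : List ℕ} {μ : ℕ → ℚ} {F : ℕ → ℕ → ℚ} (h : Rp l (F 0) 90) (hm : Rp m μ 90)
    (hF : ∀ j s, F (j + 1) s = F j (s + 1) - μ s / ((j : ℚ) + 1)) :
    ∀ j ≤ 90, Rp (run l m j) (F j) (90 - j)
  | 0, _ => h
  | j + 1, hj =>
    ((((Rp.run h hm hF j (by omega)).mono (show 90 - (j + 1) + 1 ≤ _ by omega)).tail).zip
      (hm.mono (by omega)) (fun x y => x + -(y * (1 / ((j + 1 : ℕ) : ℚ))))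
      fun _ _ _ _ ha hb => (ha.add (hb.mul (R.iv (by omega))).neg).mod).congr fun s _ => by
        rw [hF]
        push_cast
        ring

theorem Rp.d3 (h : Rp l f n) (h' : Rp l' f' n) (h'' : Rp l'' f'' n) :
    Rp (d3 l l' l'') (fun i => f i - 2 * f' i + f'' i) n :=
  (h.zip (h'.zip h'' (fun y z => -((2 : ℕ) * y) + z) fun _ _ _ _ ha hb =>
    ((R.nat 2).mul ha).neg.add hb) (fun x y => x + y) fun _ _ _ _ ha hb => (ha.add hb).mod).congr
    fun i _ => by push_cast; ring

theorem Rp.d2 (h : Rp l f (n + 2)) : Rp (d2 l) (fun i => f i - 2 * f (i + 1) + f (i + 2)) n :=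
  (h.mono (by omega)).d3 (h.tail.mono (by omega)) h.tail.tail

theorem Rp.step (h : Rp l f (n + 1)) (h' : Rp l' f' n) (e : ∀ s, f'' s + f' s = 2 * f (s + 1)) :
    Rp (step l l') f'' n :=
  (h.tail.zip h' (fun x y => (2 : ℕ) * x + -y) fun _ _ _ _ ha hb =>
    (((R.nat 2).mul ha).add hb.neg).mod).congr fun i _ => by
      push_cast
      linear_combination e i

theorem Rp.heads {K : ℤ → ℕ → ℚ}
    (hK : ∀ (μ : ℤ) s, μ.natAbs ≤ 45 → K (μ + 1) s + K (μ - 1) s = 2 * K μ (s + 1)) :
    ∀ (n : ℕ) (μ : ℤ) (a b : List ℕ), -40 ≤ μ → μ + n ≤ 40 → Rp a (K μ) n → Rp b (K (μ + 1)) n →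
      Rp (heads n a b) (fun r => K (μ + r) 0) n
  | 0, _, _, _, _, _, _, _ => fun _ hi => absurd hi (Nat.not_lt_zero _)
  | n + 1, μ, a, b, h1, h2, ha, hb => by
    have ih := Rp.heads hK n (μ + 1) b (BN.step b a) (by omega) (by omega) (hb.mono (by omega))
      (hb.step (ha.mono (by omega)) fun s => by simpa using hK (μ + 1) s (by omega))
    rintro (_ | i) hi
    · obtain ⟨x, hx, hx'⟩ := ha 0 hi
      refine ⟨x, ?_, by simpa using hx'⟩
      cases a with
      | nil => simp at hx
      | cons y t => exact hx
    · obtain ⟨x, hx, hx'⟩ := ih i (by omega)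
      refine ⟨x, hx, hx'.of_eq ?_⟩
      simp only [Nat.cast_add, Nat.cast_one, add_assoc, add_comm (1 : ℤ)]

theorem length_heads : ∀ (n : ℕ) (a b : List ℕ), (heads n a b).length = n
  | 0, _, _ => rfl
  | n + 1, a, b => congrArg (· + 1) (length_heads n b (step b a))

theorem Rp.dot : ∀ (l : List ℕ) (f : ℕ → ℚ) (c : ℕ), Rp l f l.length →
    (dot l c : ZMod 97) = ∑ r ∈ Finset.range l.length, (c / 100 ^ r % 100 : ℕ) * (f r : ZMod 97)
  | [], _, _, _ => by simp [BN.dot]
  | x :: t, f, c, h => by
    have ih := Rp.dot t _ (c / 100) h.tail
    obtain ⟨y, hy, hy'⟩ := h 0 (Nat.succ_pos _)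
    obtain rfl : x = y := Option.some.inj hy
    rw [List.length_cons, sum_range_succ', hy'.2, add_comm]
    simp only [pow_succ', ← Nat.div_div_eq_div_mul, ← ih, pow_zero, Nat.div_one]
    exact_mod_cast rfl

end

def MGr (j s : ℕ) : ℚ := if s ≤ 48 then MG 0 (48 - s) j else AP (j + s - 49)

def Zr (j s : ℕ) : ℚ :=
  if s ≤ 48 then Z0 (48 - s) j else HH (j + s - 48) / ((j + s - 48 : ℕ) : ℚ)

theorem Rp_fL : ∀ j ≤ 90, Rp (fL j) (MGr j) (90 - j) := by
  refine Rp.run (μ := fun s => if s ≤ 47 then mm (47 - s) else 0) (Rp.range fun s hs => ?_)
    (Rp.range fun s hs => ?_) fun j s => ?_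
  · unfold MGr
    split_ifs with h
    · exact (R_an _ (by omega)).of_eq (by simp [MG, BM])
    · exact (R_ap _ (by omega)).of_eq (by simp)
  · split_ifs with h
    exacts [R_mm _ (by omega), R.zero]
  · unfold MGr
    rcases lt_trichotomy s 48 with h | rfl | h
    · rw [if_pos h.le, if_pos (by omega), if_pos (by omega),
        show 48 - s = 47 - s + 1 by omega, MG_succ, show 48 - (s + 1) = 47 - s by omega]
    · have : ∑ v ∈ Icc 1 (j + 1), lm 0 v / ((j + 1 + 1 - v : ℕ) : ℚ) = 0 :=
        sum_eq_zero fun v hv => by rw [lm, if_neg (by simp at hv; omega), zero_div]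
      simp [MG, BM, this]
    · rw [if_neg (by omega), if_neg (by omega), if_neg (by omega), zero_div, sub_zero,
        show j + 1 + s = j + (s + 1) by omega]

theorem Rp_gL : ∀ j ≤ 90, Rp (gL j) (Zr j) (90 - j) := by
  refine Rp.run (μ := fun s => if s ≤ 47 then 1 / ((48 - s : ℕ) : ℚ) else 0)
    (Rp.range fun s hs => ?_) (Rp.range fun s hs => ?_) fun j s => ?_
  · unfold Zr
    split_ifs with h
    · exact ((R_h _ (by omega)).mul (R.iv (by omega))).of_eq (by simp [Z0, BZ, div_eq_mul_inv])
    · exact ((R_h _ (by omega)).mul (R.iv (by omega))).of_eq (by simp [div_eq_mul_inv])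
  · split_ifs with h
    exacts [R.iv (by omega), R.zero]
  · unfold Zr
    rcases lt_trichotomy s 48 with h | rfl | h
    · rw [if_pos h.le, if_pos (by omega), if_pos (by omega),
        show 48 - s = 47 - s + 1 by omega, Z0_succ, show 48 - (s + 1) = 47 - s by omega, div_div]
      push_cast
      rfl
    · have : ∑ v ∈ Icc 1 (j + 1), lz 0 v / ((j + 1 + 1 - v : ℕ) : ℚ) = 0 :=
        sum_eq_zero fun v hv => by rw [lz, if_neg (by simp at hv; omega), zero_div]
      simp [Z0, BZ, this]
    · rw [if_neg (by omega), if_neg (by omega), if_neg (by omega), zero_div, sub_zero,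
        show j + 1 + s = j + (s + 1) by omega]

theorem lin_d2 (f : ℕ → ℚ) (k : ℕ) :
    lin f ((1 - X) ^ 2 * X ^ k) = f (k + 2) - 2 * f (k + 1) + f k := by
  have : ((1 - X) ^ 2 * X ^ k : ℤ[X]) = X ^ (k + 2) - C 2 * X ^ (k + 1) + X ^ k := by
    rw [map_ofNat]
    ring
  rw [this, lin_add, lin_sub, lin_C_mul, lin_X_pow, lin_X_pow, lin_X_pow]
  norm_num

theorem lin_colQ (f : ℕ → ℚ) (a : ℕ) :
    lin f (colQ 1 a) = f (a + 6) - 2 * f (a + 7) + f (a + 8) := by
  have : colQ 1 a = (1 - X) ^ 2 * X ^ (a + 6) := by
    rw [colQ, col]
    ring
  rw [this, lin_d2]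
  ring

noncomputable def KK (a : ℕ) (μ : ℤ) (s : ℕ) : ℚ :=
  lin (fun i => lin (MG 0 (i - s)) (colQ 1 a)) (rowP 1 μ) -
    3 / 2 * lin (fun i => lin (Z0 (i - s)) (colQ 1 a)) (rowD 1 μ)

theorem KK_rec (a : ℕ) (μ : ℤ) (s : ℕ) (h : μ.natAbs ≤ 45) :
    KK a (μ + 1) s + KK a (μ - 1) s = 2 * KK a μ (s + 1) := by
  have key : ∀ (f : ℕ → ℚ) (P Q S : ℤ[X]), X * (P + Q) = C 2 * S →
      lin (fun i => f (i - s)) P + lin (fun i => f (i - s)) Q =
        2 * lin (fun i => f (i - (s + 1))) S := by
    intro f P Q S e
    have := congrArg (lin fun i => f (i - (s + 1))) e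
    rw [← pow_one (X : ℤ[X]), lin_X_pow_mul, lin_C_mul, lin_add] at this
    simpa using this
  have h1 := key (fun i => lin (MG 0 i) (colQ 1 a)) _ _ _ (rowP_rec (N := 1) (m := μ) (by omega))
  have h2 := key (fun i => lin (Z0 i) (colQ 1 a)) _ _ _ (rowD_rec (N := 1) (m := μ) (by omega))
  unfold KK
  linear_combination h1 - 3 / 2 * h2

theorem rows01 : rowP 1 0 = (1 - X) ^ 2 * X ^ 46 ∧ rowD 1 0 = 0 ∧
    rowP 1 1 = (1 - X) ^ 2 * X ^ 45 ∧ rowD 1 1 = (1 - X) ^ 2 * X ^ 46 := by
  refine ⟨by simp [rowP], by simp [rowD], ?_, by simp [rowD]⟩
  rw [rowP, Chebyshev.T_one, ← pow_one (X : ℤ[X]), reflect_monomial, revAt_le (by norm_num),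
    pow_one]

theorem Rp_colB {a : ℕ} (ha : a < 36) : Rp (colB a) (fun r => Bm (r - 3) a) 37 := by
  have hf := (((Rp_fL (a + 6) (by omega)).mono (show 45 + 2 ≤ _ by omega)).d3
    ((Rp_fL (a + 7) (by omega)).mono (by omega)) ((Rp_fL (a + 8) (by omega)).mono (by omega))).d2
  have hg := (((Rp_gL (a + 6) (by omega)).mono (show 44 + 2 ≤ _ by omega)).d3
    ((Rp_gL (a + 7) (by omega)).mono (by omega)) ((Rp_gL (a + 8) (by omega)).mono (by omega))).d2
  have h1 : Rp (k1 a) (KK a 1) 44 := by
    refine (hf.tail.zip hg (fun x y => x + -((3 : ℕ) * (1 / (2 : ℕ)) * y)) fun _ _ _ _ h h' =>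
      (h.add (((R.nat 3).mul (R.iv (by norm_num))).mul h').neg).mod).congr fun s hs => ?_
    simp only [KK, rows01, lin_d2, lin_colQ, MGr, Zr, show s ≤ 48 by omega,
      show s + 1 ≤ 48 by omega, show s + 2 ≤ 48 by omega,
      show s + 1 + 2 ≤ 48 by omega, if_true, show 48 - (s + 1) = 47 - s by omega,
      show 48 - (s + 2) = 46 - s by omega, show 48 - (s + 1 + 2) = 45 - s by omega]
    norm_num
    ring
  have h0 : Rp (k0 a) (KK a 0) 45 := by
    refine hf.congr fun s hs => ?_
    simp only [KK, rows01, lin_d2, lin_colQ, MGr, lin_zero, show s ≤ 48 by omega,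
      show s + 1 ≤ 48 by omega, show s + 2 ≤ 48 by omega, if_true,
      show 48 - (s + 1) = 47 - s by omega, show 48 - (s + 2) = 46 - s by omega]
    norm_num
  have m1 : Rp _ (KK a (-1)) 44 := h0.step h1 fun s => by
    simpa [add_comm] using KK_rec a 0 s (by norm_num)
  have m2 : Rp _ (KK a (-2)) 43 := m1.step (h0.mono (by omega)) fun s => by
    simpa [add_comm] using KK_rec a (-1) s (by norm_num)
  have m3 : Rp _ (KK a (-3)) 42 := m2.step (m1.mono (by omega)) fun s => by
    simpa [add_comm] using KK_rec a (-2) s (by norm_num)
  refine (Rp.heads (KK_rec a) 37 (-3) _ _ (by norm_num) (by norm_num) (m3.mono (by omega))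
    (m2.mono (by omega))).congr fun r _ => ?_
  rw [neg_add_eq_sub]
  rfl

theorem det_ne {σ : ℚ} {t : ℕ} {C : List ℕ} (ht : R σ t) (h : chk t C = true) : Bdet σ ≠ 0 := by
  have hc : ∀ a < 36, Rp (List.zipWith (fun x y => (x + t * y) % 97) (colB a) (colB a).tail)
      (fun r => Bm (r - 3) a + σ * Bm (r - 2) a) 36 := fun a ha =>
    (((Rp_colB ha).mono (by omega)).zip (Rp_colB ha).tail (fun x y => x + σ * y)
      fun _ _ _ _ h h' => (h.add (ht.mul h')).mod).congr fun r _ => by
        rw [show ((r + 1 : ℕ) : ℤ) - 3 = r - 2 by omega]
  have hl : ∀ a, (List.zipWith (fun x y => (x + t * y) % 97) (colB a) (colB a).tail).length = 36 :=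
    fun a => by simp [colB, length_heads]
  intro h0
  have e := (red_det (p := 97) (fun r a : Fin 36 => Bm ((r : ℕ) - 3) a + σ * Bm ((r : ℕ) - 2) a)
    fun r a => let ⟨_, _, h⟩ := hc a a.2 r r.2; h.1).2
  rw [← Bdet, h0, Rat.cast_zero] at e
  refine Matrix.det_ne_zero_of_left_inverse (B := Matrix.of fun k r : Fin 36 =>
    ((C.getD k 0 / 100 ^ (r : ℕ) % 100 : ℕ) : ZMod 97)) ?_ e.symm
  ext k a
  simp only [chk, List.all_eq_true, List.mem_range, beq_iff_eq] at h
  have e1 := Rp.dot _ _ (C.getD k 0) ((hc a a.2).mono (hl a).le)
  rw [hl, sum_range, ← ZMod.natCast_mod, h a a.2 k k.2] at e1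
  rw [Matrix.mul_apply, Matrix.one_apply]
  simp only [Matrix.of_apply, ← e1, Fin.ext_iff]
  split_ifs <;> simp

def C0 : List ℕ := [
  885752432661452376803766862390127425795662965003579292325560141042588170,
  63039771107744869474239466963047028285294167557586049888767850389614968,
  755104900496564001191983853336520976224458232625698157487695488667665310,
  87078150606610289130375580547950253050226775713826853156058709489766854,
  640563751573210076122220456090383486465383952946169093231072407388771504,
  578717189474106794545119634922030065330873487129085553905434556826162042,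
  170760620446687251963572898370731877553381608451003759083752021957395263,
  342230578742745794555724628852478458636375599620372739964825615529642225,
  580849822489706457350832314368497172877175731244061088323592707106083233,
  337063120243084960796934783959225104569626036005364555123175707375688469,
  2154913578652326063267194761321951893304041737385761035122538107811616,
  704753574655462759474755672094256185915404909586147283829327794251001246,
  274383223335576975607363431631479609028050920994962765308549367339681084,
  286001509040665707264638264578636570037878211296161743720168132382468122,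
  954273224130350382137045969264031593067189448949949139853638813112701776,
  826547636921119520225079064708053391063283699321684807323118839455670632,
  582960903546310514037187059260179073158351664600040966173923040282689409,
  76219147862414300601085259358505466567055912462346671863860116810917006,
  191587949256653942733618174467394835091124031668253287674473601456083229,
  549574863782301042404223741419724840711012638916806851687491656594697074,
  204729527428103550386233517496213557824545320030335221672746556682528334,
  4702115468704643689507644692523749759209635832314435204142212749329222,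
  517349245347588851479215768041474131240285168258888953034952297180388072,
  382445011128253758633324544363632467758872159586462118306554816707601612,
  831628208067586019591048327154782192285533356478858002227150930222162846,
  593801298520382274412810790378771407177407564511871703582270218174392686,
  36736837287580275876702479368751565493239671889205839390095285193338494,
  484714165645623535077743037774939347425572098506149255304369531445260864,
  101309410504951246095122391958564780110807755083408069292193376019252491,
  920282164123399250897829291938625245823743634607178030241963373081297524,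
  879383734295104325114773686955908663964458386696463076041602852743027286,
  57426273053248327274501941327023464928816909594350275924418040914857463,
  222834600659583112166959716338645907150801440458134423533545701061324985,
  553680781448039557024451219440508792310951172806841127185123723910212664,
  135764436173188623456566944643215177002202702082239417952965046403484643,
  675626923625762100752749438149278517231137665428317965711047611660742045]

def C1 : List ℕ := [
  188715820629825515924502365784569167692619962213574140634285797423635432,
  275393623439437295691542525396421980668301272279304151638612173451079411,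
  547217250625271470246977198709808678403078424731019451393464522531717590,
  95685642237911658959213486202704400605092097919767536712967434841708435,
  186384249625011532759138510180601605956475615655589680247210691350825463,
  873626632762920777860166446933695362067293269648306352383378065891830820,
  721377667958915412666411467196775112249588114081442367367061195422176408,
  645233606059531470484823201385370522758876153639363989430013800140709630,
  929645407889402695455558688533758295273467317918029542165557606300801422,
  863952320144874810586739666740107554609468283716720905817509248548544806,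
  172686592666702834591746705825941749263590882393459158083782497671534634,
  14355495936119438824974016141453662132523544830223234555839806694786087,
  965435947110336296155836074187493920965630443687411518415526283814012643,
  542573632592015051495125262187443687252619246301053744326555340882359105,
  352358540703382564192487763913625888434807185818053441148987673156203056,
  15561377741690105763096039534639572094182740769159346649636747639406873,
  231919504946102072840865948748222246886673084300915708024982207027251679,
  822449784475101901540727495173087506165904238203842930485817215289461270,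
  823687119439401303947780266609818884042477160176178735592853952760244893,
  161028864005465583626133197290920355197731827632221950007959492189014551,
  964746296953806559272459510584204253142427427539256590221409424302565290,
  408463397202376510488246827352115012256479372136918510712579542863734713,
  146147372238911786431673287586371856292983543305620401391095811361646364,
  567886024294686037426949283739613425645090931204213439249302638492953077,
  445967715943607249353422337020704750873448938210277235378862597278304407,
  270948697671245586839248172459944003251690454427366482833694354917265329,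
  321238788503228180075222384355487359742509382531370258768246835289938848,
  615004170632106273949064355181872792248391699025418529047419363004505243,
  713312294445704352579616680417550055913730193569254200108625043759151192,
  407923625407848437282685655543630869613553005884184784891171831579892815,
  101110010047655073779533466944284028321962471476688777596192542221685311,
  282522742321022588955383905820744159164767538222909530196888815359452447,
  668313893900165618438553656476165818080196679053894291372580230731625775,
  693528792671079072235295758640300417649384571207785032210234320726884680,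
  57246792587437650849064056404961131933059171616903628193712282052718554,
  539149611893900948818194452438721393735130932796704408847847269465061084]

def C2 : List ℕ := [
  18175748208365035202463172382812888531853647710705352636211439610897229,
  182944501816597776384816460756437791776502586471816490523722591603555309,
  74156219445875672130028856221267534827788562069001788734800640061659214,
  63678151512555706899563112022247100814911353065420696795620297005603602,
  90268767213628762501801647170058391127161536678177023814672523352838423,
  648965145994907333604710101573241656300093367782114187308189268806615037,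
  166804815963838645008404588351479486431378013668551677172047121541771586,
  792858807576811205745989932412071945708836052137476650002502676116401484,
  624191037683807926650048924239578577648631201213924450439012950875051713,
  490307188054077732511480562426606682733937960279574190389061324430646500,
  104145164717539353551665043229822888349401486774855939385443680638771891,
  630466257714372214152210515762465796602578170402058624285621673858642882,
  428752746048656137027590913265866366252884932073063850435440723770697411,
  173263560064824931913823342011880786400923221101068866289565096814492104,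
  851136307528943028873624309182172147742526313755263415012942645260517183,
  152849881401545580057905324867369535856035779134853591772554581037511796,
  854886937029791915450488521001372775256453968044646531878696360441598116,
  755838618900173611275926837117381722792587751170773605930472259247916835,
  858742229291343796018409428527562417055014843428775700358186738210543936,
  115940423249731391415270734156460876234869845671694104190168191281575111,
  714833361626122068819089210328432191033852499350312532494915024818883733,
  295128506372635547276742331822860975276489635788400578232907149393615494,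
  418869740723366918434562910485072546902770685956595915142139737589231740,
  370727266928921984529056934832613320686950600456704900106046017105131547,
  375987063017423375822716290659005444671832810588135039652606622322156181,
  631586008075362926122532211537379382276602355607859386732864679677608225,
  828125002591275429092074639129813951390967004487238217826303801739710530,
  560703325931236489751927374501610039141108473161918646369380223533711396,
  239490905816222301008031812448006896771159828936445127960475611348964421,
  248445236738173639958282489305668750566073366701512491115232436251614610,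
  908826712932905553866972532056576006139492088036814658371063962747303282,
  445995826860439371129293027682913173545591863969311035304176326611835605,
  722176285181284710254314379115807157095806236703197382065113939444627243,
  234922487625848072605008298736068068374895744211965907213778375110671991,
  365790196623502230694193688581419619670255623683380078833755048400855822,
  504113154837006152954939201860965675438666904211295867113531251680569232]
theorem chk_all : (chk 0 C0 && chk 1 C1 && chk 96 C2) = true := by decide +kernel

end Crest.Agent.R6.BN
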