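import Crest.Agent.R6.FCol
import Crest.Agent.R6.BNumAux

/-!
# Row 6: the three small determinants are nonzero (kernel computation).

Work modulo the prime `ℓ = 10007` (or any prime `> 60`).  By `red_det`, `PI_Bm` it suffices to show
that the reduced `36 × 36` matrices are invertible over `ZMod ℓ`.  Compute the reductions by
recurrences on `Nat` modulo `ℓ` (tables as `List Nat`/packed `Nat`): `mm`, `AN`, `AP` (`AN_rec`,
`AP_rec`), `HH`, then `MG 0 i j`, `Z0 i j` (`MG_succ`, `Z0_succ`, boundary `i = 0` or `j = 0`).
Rows: with `F μ s j = Phi 0 (X^s * rowP 1 μ) (X^s * rowD 1 μ) (X^j)`, `rowP_rec` gives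
`F (μ+1) (s+1) j = 2 F μ s j - F (μ-1) (s+1) j`; or compute the integer coefficient lists of
`T`, `U` by their recurrences.  Give explicit inverse matrices as data (computed outside Lean, e.g. by
a python script), check `B * Binv = 1` with `decide +kernel` on `Nat` lists
(`Matrix.det_ne_zero_of_right_inverse`/`isUnit_of_right_inverse`).  Keep each kernel check under a
minute; split into several files if necessary (`BNum1`, … imported here).
-/

set_option autoImplicit false

namespace Crest.Agent.R6

theorem Bdet_zero_ne : Bdet 0 ≠ 0 :=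
  BN.det_ne BN.R.zero (Bool.and_eq_true_iff.1 (Bool.and_eq_true_iff.1 BN.chk_all).1).1

theorem Bdet_one_ne : Bdet 1 ≠ 0 :=
  BN.det_ne (BN.R.nat 1) (Bool.and_eq_true_iff.1 (Bool.and_eq_true_iff.1 BN.chk_all).1).2

theorem Bdet_neg_one_ne : Bdet (-1) ≠ 0 :=
  BN.det_ne BN.R.neg_one (Bool.and_eq_true_iff.1 BN.chk_all).2

end Crest.Agent.R6
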