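import Crest.Agent.R6.Defs

/-!
# Row 6: bookkeeping for `lin`, `bil`, rows and columns.

`Polynomial.sum_add_index`, `sum_over_range'`, `sum_monomial_index`; `reflect` lemmas
(`coeff_reflect`, `revAt_le`, `reflect_add`, `reflect_mul`, `reflect_monomial`,
`Chebyshev.natDegree_T`, `natDegree_U`, `T_add_one`, `U_add_one`, `T_mul`).
For `rowP_rec`: `T(m+1) + T(m-1) = 2 X T m` and `X * reflect C (X * F) = reflect C F` when
`natDegree F + 1 ≤ C`.
-/

set_option autoImplicit false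

namespace Crest.Agent.R6

open Polynomial Finset

theorem lin_eq_sum (f : ℕ → ℚ) {P : ℤ[X]} {A : ℕ} (h : ∀ i, A ≤ i → P.coeff i = 0) :
    lin f P = ∑ i ∈ range A, (P.coeff i : ℚ) * f i := by
  refine Finset.sum_subset (fun i hi => ?_) fun i _ hi => ?_
  · by_contra h'
    exact mem_support_iff.1 hi (h i (by simpa using h'))
  · simp [notMem_support_iff.1 hi]

theorem lin_add (f : ℕ → ℚ) (P Q : ℤ[X]) : lin f (P + Q) = lin f P + lin f Q := by
  exact Polynomial.sum_add_index _ _ _ (by simp) (by simp [add_mul])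

theorem lin_sub (f : ℕ → ℚ) (P Q : ℤ[X]) : lin f (P - Q) = lin f P - lin f Q := by
  rw [eq_sub_iff_add_eq, ← lin_add, sub_add_cancel]

theorem lin_zero (f : ℕ → ℚ) : lin f 0 = 0 := by
  simp [lin]

theorem lin_C_mul (f : ℕ → ℚ) (a : ℤ) (P : ℤ[X]) : lin f (C a * P) = a * lin f P := by
  have h : ∀ i, P.natDegree + 1 ≤ i → P.coeff i = 0 := fun i hi => coeff_eq_zero_of_natDegree_lt hi
  rw [lin_eq_sum f h, lin_eq_sum f (A := P.natDegree + 1) fun i hi => by
    rw [coeff_C_mul, h i hi, mul_zero], mul_sum]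
  simp [mul_assoc]

theorem lin_sum {ι : Type} (f : ℕ → ℚ) (s : Finset ι) (P : ι → ℤ[X]) :
    lin f (∑ i ∈ s, P i) = ∑ i ∈ s, lin f (P i) := by
  classical
  induction s using Finset.induction_on with
  | empty => simp [lin_zero]
  | insert a s ha ih => rw [sum_insert ha, sum_insert ha, lin_add, ih]

theorem lin_X_pow (f : ℕ → ℚ) (i : ℕ) : lin f (X ^ i) = f i := by
  rw [lin, ← monomial_one_right_eq_X_pow, Polynomial.sum_monomial_index _ _ (by simp)]
  simp

theorem lin_X_pow_mul (f : ℕ → ℚ) (k : ℕ) (P : ℤ[X]) :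
    lin f (X ^ k * P) = lin (fun i => f (i + k)) P := by
  induction P using Polynomial.induction_on' with
  | add p q hp hq => rw [mul_add, lin_add, lin_add, hp, hq]
  | monomial n a =>
    rw [← C_mul_X_pow_eq_monomial, mul_left_comm, ← pow_add, lin_C_mul, lin_C_mul, lin_X_pow,
      lin_X_pow, add_comm]

theorem lin_fun_add (f g : ℕ → ℚ) (P : ℤ[X]) :
    lin (fun i => f i + g i) P = lin f P + lin g P := by
  simp only [lin, Polynomial.sum, mul_add, sum_add_distrib]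

theorem lin_fun_sub (f g : ℕ → ℚ) (P : ℤ[X]) :
    lin (fun i => f i - g i) P = lin f P - lin g P := by
  simp only [lin, Polynomial.sum, mul_sub, sum_sub_distrib]

theorem lin_fun_mul (c : ℚ) (f : ℕ → ℚ) (P : ℤ[X]) : lin (fun i => c * f i) P = c * lin f P := by
  simp only [lin, Polynomial.sum, mul_sum, mul_left_comm]

theorem lin_fun_sum {ι : Type} (s : Finset ι) (f : ι → ℕ → ℚ) (P : ℤ[X]) :
    lin (fun i => ∑ a ∈ s, f a i) P = ∑ a ∈ s, lin (f a) P := by
  simp only [lin, Polynomial.sum, mul_sum]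
  exact sum_comm

theorem lin_congr {f g : ℕ → ℚ} {P : ℤ[X]} (h : ∀ i, P.coeff i ≠ 0 → f i = g i) :
    lin f P = lin g P := by
  exact sum_congr rfl fun i hi => by simp only [h i (mem_support_iff.1 hi)]

theorem bil_swap (f : ℕ → ℕ → ℚ) (P Q : ℤ[X]) :
    bil f P Q = lin (fun j => lin (fun i => f i j) P) Q := by
  simp only [bil, lin, Polynomial.sum, mul_sum]
  rw [sum_comm]
  simp only [mul_left_comm]

theorem bil_eq_sum (f : ℕ → ℕ → ℚ) {P Q : ℤ[X]} {A B : ℕ} (hP : ∀ i, A ≤ i → P.coeff i = 0)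
    (hQ : ∀ j, B ≤ j → Q.coeff j = 0) :
    bil f P Q = ∑ i ∈ range A, ∑ j ∈ range B, (P.coeff i : ℚ) * (Q.coeff j : ℚ) * f i j := by
  rw [bil, lin_eq_sum _ hP]
  simp only [lin_eq_sum _ hQ, mul_sum, mul_assoc]

theorem MG_eq (γ : ℚ) (i j : ℕ) : MG γ i j = MG 0 i j + 4 * γ * cg i j := by
  simp only [MG, BM, cg, add_le_add_iff_right, Nat.add_sub_add_right]
  split_ifs <;> ring

theorem Basic_sum_succ (g : ℕ → ℚ) (j : ℕ) :
    ∑ v ∈ Icc 1 (j + 1), g v = g 1 + ∑ v ∈ Icc 1 j, g (v + 1) := by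
  induction j with
  | zero => simp
  | succ j ih => rw [sum_Icc_succ_top (by omega), ih, sum_Icc_succ_top (by omega), add_assoc]

theorem MG_succ (γ : ℚ) (i j : ℕ) : MG γ (i + 1) (j + 1) = MG γ i j - mm i / ((j : ℚ) + 1) := by
  have e : BM γ (i + 1) (j + 1 + 1) = BM γ i (j + 1) := by
    simp only [BM, add_le_add_iff_right, Nat.add_sub_add_right]
  rw [MG, MG, e, Basic_sum_succ]
  simp only [lm, add_le_add_iff_right, Nat.add_sub_add_right, le_add_iff_nonneg_left, zero_le,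
    if_true, Nat.add_sub_cancel, Nat.cast_add, Nat.cast_one]
  ring

theorem Z0_succ (i j : ℕ) : Z0 (i + 1) (j + 1) = Z0 i j - 1 / (((i : ℚ) + 1) * ((j : ℚ) + 1)) := by
  have e : BZ (i + 1) (j + 1 + 1) = BZ i (j + 1) := by
    simp only [BZ, add_le_add_iff_right, Nat.add_sub_add_right]
  rw [Z0, Z0, e, Basic_sum_succ]
  simp only [lz, add_le_add_iff_right, Nat.add_sub_add_right, le_add_iff_nonneg_left, zero_le,
    if_true, Nat.add_sub_cancel, Nat.cast_add, Nat.cast_one, div_div]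
  ring

/-- `Phi` is linear in the column -/
theorem Phi_eq_lin (γ : ℚ) (P D Q : ℤ[X]) :
    Phi γ P D Q = lin (fun j => Phi γ P D (X ^ j)) Q := by
  simp only [Phi, bil_swap, lin_X_pow, lin_fun_sub, lin_fun_mul]

theorem Phi_X_pow (γ : ℚ) (P D : ℤ[X]) (j : ℕ) :
    Phi γ P D (X ^ j) = Psi γ P D (j + 1) - ∑ v ∈ Icc 1 j, ell P D v / ((j + 1 - v : ℕ) : ℚ) := by
  simp only [Phi, bil, lin_X_pow, MG, Z0, Psi, ell, lin_fun_sub, lin_fun_sum, div_eq_inv_mul,
    lin_fun_mul, mul_sub, sum_sub_distrib, mul_sum, mul_left_comm]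
  ring

theorem Phi_add_row (γ : ℚ) (P D P' D' Q : ℤ[X]) :
    Phi γ (P + P') (D + D') Q = Phi γ P D Q + Phi γ P' D' Q := by
  simp only [Phi, bil, lin_add]
  ring

theorem Phi_C_mul_row (γ : ℚ) (a : ℤ) (P D Q : ℤ[X]) :
    Phi γ (C a * P) (C a * D) Q = a * Phi γ P D Q := by
  simp only [Phi, bil, lin_C_mul]
  ring

theorem Phi_sum_row {ι : Type} (γ : ℚ) (s : Finset ι) (P D : ι → ℤ[X]) (Q : ℤ[X]) :
    Phi γ (∑ i ∈ s, P i) (∑ i ∈ s, D i) Q = ∑ i ∈ s, Phi γ (P i) (D i) Q := by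
  simp only [Phi, bil, lin_sum, sum_sub_distrib, mul_sum]

theorem Basic_supp_mono {a b a' b' : ℕ} {P : ℤ[X]} (h : Supp a b P) (ha : a' ≤ a) (hb : b ≤ b') :
    Supp a' b' P := fun i hi => h i (by omega)

theorem Basic_supp_mul {a b a' b' : ℕ} {P Q : ℤ[X]} (h : Supp a (b + 1) P)
    (h' : Supp a' (b' + 1) Q) : Supp (a + a') (b + b' + 1) (P * Q) := by
  intro i hi
  rw [coeff_mul]
  refine sum_eq_zero fun x hx => ?_
  rw [HasAntidiagonal.mem_antidiagonal] at hx
  by_cases h1 : x.1 < a ∨ b + 1 ≤ x.1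
  · rw [h _ h1, zero_mul]
  · rw [h' _ (by omega), mul_zero]

theorem Basic_supp_pow (k : ℕ) : Supp 0 (k + 1) ((1 - X) ^ k : ℤ[X]) := by
  intro i hi
  refine coeff_eq_zero_of_natDegree_lt (lt_of_le_of_lt ?_ (show k < i by omega))
  have : (1 - X : ℤ[X]).natDegree ≤ 1 := by compute_degree
  simpa using natDegree_pow_le_of_le k this

theorem Basic_supp_X_pow (k : ℕ) : Supp k (k + 1) (X ^ k : ℤ[X]) := fun i hi => by
  rw [coeff_X_pow, if_neg (by omega)]

theorem Basic_supp_reflect {c d : ℕ} {F : ℤ[X]} (hF : F.natDegree ≤ d) (hd : d ≤ c) :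
    Supp (c - d) (c + 1) (reflect c F) := by
  intro i hi
  rw [coeff_reflect]
  refine coeff_eq_zero_of_natDegree_lt (lt_of_le_of_lt hF ?_)
  by_cases h : i ≤ c
  · rw [revAt_le h]
    omega
  · rw [revAt_eq_self_of_lt (by omega)]
    omega

theorem Basic_row {N d : ℕ} {F : ℤ[X]} (hF : F.natDegree ≤ d) (hd : d + 1 ≤ 47 * N) :
    Supp (47 * N - 1 - d) (49 * N) ((1 - X) ^ (2 * N) * reflect (47 * N - 1) F) :=
  Basic_supp_mono (Basic_supp_mul (Basic_supp_pow _) (Basic_supp_reflect hF (by omega)))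
    (by omega) (by omega)

theorem Basic_natDegree_U (m : ℤ) : (Chebyshev.U ℤ (m - 1)).natDegree ≤ m.natAbs := by
  rw [Chebyshev.natDegree_U, sub_add_cancel]
  omega

theorem Basic_reflect {c : ℕ} {F : ℤ[X]} (hF : F.natDegree + 1 ≤ c) :
    X * reflect c (2 * X * F) = C 2 * reflect c F := by
  obtain ⟨c, rfl⟩ : ∃ c', c = 1 + c' := ⟨c - 1, by omega⟩
  have e1 : reflect (1 + c) (X * F) = reflect c F := by
    rw [reflect_mul _ _ natDegree_X_le (by omega)]
    simp
  have e2 : reflect (1 + c) F = X * reflect c F := by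
    conv_lhs => rw [← one_mul F, reflect_mul _ _ (by simp) (show F.natDegree ≤ c by omega)]
    simp
  rw [mul_assoc, ← map_ofNat C 2, reflect_C_mul, e1, e2, mul_left_comm]

theorem rowP_supp {N : ℕ} {m : ℤ} (hm : m.natAbs + 1 ≤ 47 * N) :
    Supp (47 * N - 1 - m.natAbs) (49 * N) (rowP N m) := by
  exact Basic_row (Chebyshev.natDegree_T ℤ m).le hm

theorem rowD_supp {N : ℕ} {m : ℤ} (hm : m.natAbs + 1 ≤ 47 * N) :
    Supp (47 * N - 1 - m.natAbs) (49 * N) (rowD N m) := by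
  exact Basic_row (Basic_natDegree_U m) hm

theorem rowP_supp' {N : ℕ} (r : Fin (36 * N)) :
    Supp (14 * N) (49 * N) (rowP N ((r : ℕ) - 3 * (N : ℤ))) := by
  have := r.2
  exact Basic_supp_mono (rowP_supp (by omega)) (by omega) le_rfl

theorem rowD_supp' {N : ℕ} (r : Fin (36 * N)) :
    Supp (14 * N) (49 * N) (rowD N ((r : ℕ) - 3 * (N : ℤ))) := by
  have := r.2
  exact Basic_supp_mono (rowD_supp (by omega)) (by omega) le_rfl

theorem colQ_supp (N k : ℕ) : Supp (6 * N + k) (8 * N + k + 1) (colQ N k) := by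
  exact Basic_supp_mono (Basic_supp_mul (Basic_supp_mul (Basic_supp_X_pow _) (Basic_supp_pow _))
    (Basic_supp_X_pow k)) (by omega) (by omega)

theorem colQ_supp' {N : ℕ} (k : Fin (36 * N)) : Supp (6 * N) (44 * N) (colQ N k) := by
  have := k.2
  exact Basic_supp_mono (colQ_supp N k) (by omega) (by omega)

theorem rowP_rec {N : ℕ} {m : ℤ} (hm : m.natAbs + 2 ≤ 47 * N) :
    X * (rowP N (m + 1) + rowP N (m - 1)) = C 2 * rowP N m := by
  rw [rowP, rowP, rowP, ← mul_add, ← reflect_add, Chebyshev.T_add_one, sub_add_cancel,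
    mul_left_comm, Basic_reflect (by rw [Chebyshev.natDegree_T]; omega), mul_left_comm]

theorem rowD_rec {N : ℕ} {m : ℤ} (hm : m.natAbs + 2 ≤ 47 * N) :
    X * (rowD N (m + 1) + rowD N (m - 1)) = C 2 * rowD N m := by
  have := Basic_natDegree_U m
  rw [rowD, rowD, rowD, ← mul_add, ← reflect_add, add_sub_right_comm, Chebyshev.U_add_one,
    sub_add_cancel, mul_left_comm, Basic_reflect (by omega), mul_left_comm]

end Crest.Agent.R6
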