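import Crest.Agent.R6.Defs

/-!
# Row 6: Cauchy determinant and Möbius covariance.

`cauchy_det`: induction on `n`.  `(1 - a_i b_j)⁻¹ - (1 - a_i b_0)⁻¹(1 - a_0 b_0)(1 - a_0 b_j)⁻¹
= (a_i - a_0)(b_j - b_0)/((1 - a_i b_j)(1 - a_i b_0)(1 - a_0 b_j))` (Schur complement of the corner;
`Matrix.det_fromBlocks₁₁` or row operations + `det_succ_column_zero`, `det_mul_column/row`,
`Fin.prod_univ_succ`, `Fin.prod_Ioi_zero`, `Fin.prod_Ioi_succ`).
`mobius`: with `ξ = (t-1)/(t+3)`, `η = (1-s)/(1+3s)`: `t' - t = (ξ' - ξ)(t+3)(t'+3)/4`,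
`s' - s = -(η' - η)(1+3s)(1+3s')/4`, `1 - ts = (η - ξ)(t+3)(1+3s)/4`; take logs,
`∑_i ∑_{j>i} (g i + g j) = (n-1) ∑ g`; the leftover factor is `4^n/∏(t_i+3)(1+3s_i) ≤ 2^n`.
-/

set_option autoImplicit false

namespace Crest.Agent.R6

open Finset

theorem cau_VV_succ {K : Type} [CommRing K] {n : ℕ} (a : Fin (n + 1) → K) :
    VV a = (∏ j : Fin n, (a j.succ - a 0)) * VV fun i : Fin n => a i.succ := by
  unfold VV
  rw [Fin.prod_univ_succ, Fin.prod_Ioi_zero]
  simp only [Fin.prod_Ioi_succ]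

theorem cau_step {K : Type} [Field K] {n : ℕ} (a b : Fin (n + 1) → K)
    (h : ∀ i j, 1 - a i * b j ≠ 0) :
    Matrix.det (Matrix.of fun i j => (1 - a i * b j)⁻¹) =
      (1 - a 0 * b 0)⁻¹ * ((∏ i : Fin n, (a i.succ - a 0) / (1 - a i.succ * b 0)) *
        ((∏ j : Fin n, (b j.succ - b 0) / (1 - a 0 * b j.succ)) *
          Matrix.det (Matrix.of fun i j : Fin n => (1 - a i.succ * b j.succ)⁻¹))) := by
  let c : Fin (n + 1) → K := Fin.cons 0 fun i => (1 - a i.succ * b 0)⁻¹ * (1 - a 0 * b 0)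
  let B : Matrix (Fin (n + 1)) (Fin (n + 1)) K :=
    Matrix.of fun i j => (1 - a i * b j)⁻¹ - c i * (1 - a 0 * b j)⁻¹
  have hc0 : c 0 = 0 := rfl
  have e1 : Matrix.det (Matrix.of fun i j => (1 - a i * b j)⁻¹) = B.det := by
    refine Matrix.det_eq_of_forall_row_eq_smul_add_const c 0 hc0 fun i j => ?_
    simp only [B, Matrix.of_apply, hc0]
    ring
  have e2 : ∀ i : Fin n, B i.succ 0 = 0 := by
    intro i
    simp only [B, c, Matrix.of_apply, Fin.cons_succ]
    rw [mul_assoc, mul_inv_cancel₀ (h 0 0), mul_one, sub_self]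
  have e3 : B.submatrix Fin.succ Fin.succ = Matrix.of fun i j : Fin n =>
      (a i.succ - a 0) / (1 - a i.succ * b 0) * (Matrix.of fun i j : Fin n =>
        (b j.succ - b 0) / (1 - a 0 * b j.succ) *
          (Matrix.of fun i j : Fin n => (1 - a i.succ * b j.succ)⁻¹) i j) i j := by
    ext i j
    simp only [B, c, Matrix.submatrix_apply, Matrix.of_apply, Fin.cons_succ]
    have h1 := h i.succ j.succ
    have h2 := h i.succ 0
    have h3 := h 0 j.succ
    have h1' : 1 - b j.succ * a i.succ ≠ 0 := by rwa [mul_comm]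
    have h2' : 1 - b 0 * a i.succ ≠ 0 := by rwa [mul_comm]
    have h3' : 1 - b j.succ * a 0 ≠ 0 := by rwa [mul_comm]
    field_simp
    ring
  rw [e1, Matrix.det_succ_column_zero, Fin.sum_univ_succ]
  simp only [e2, mul_zero, zero_mul, sum_const_zero, add_zero, Fin.val_zero, pow_zero, one_mul,
    Fin.succAbove_zero]
  rw [e3, Matrix.det_mul_column, Matrix.det_mul_row]
  simp only [B, Matrix.of_apply, hc0, zero_mul, sub_zero]

theorem cauchy_det {K : Type} [Field K] {n : ℕ} (a b : Fin n → K) (h : ∀ i j, 1 - a i * b j ≠ 0) :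
    Matrix.det (Matrix.of fun i j => (1 - a i * b j)⁻¹) * ∏ i, ∏ j, (1 - a i * b j) =
      VV a * VV b := by
  induction n with
  | zero => simp [VV]
  | succ n ih =>
    have ih' := ih (fun i => a i.succ) (fun j => b j.succ) fun i j => h _ _
    rw [cau_step a b h, cau_VV_succ a, cau_VV_succ b, Fin.prod_univ_succ]
    simp only [Fin.prod_univ_succ (fun j => 1 - a _ * b j)]
    rw [prod_mul_distrib, prod_div_distrib, prod_div_distrib]
    have h0 := h 0 0
    have h1 : ∏ i : Fin n, (1 - a i.succ * b 0) ≠ 0 := prod_ne_zero_iff.2 fun i _ => h _ _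
    have h2 : ∏ j : Fin n, (1 - a 0 * b j.succ) ≠ 0 := prod_ne_zero_iff.2 fun i _ => h _ _
    generalize ∏ i : Fin n, (1 - a i.succ * b 0) = P1 at *
    generalize ∏ j : Fin n, (1 - a 0 * b j.succ) = P2 at *
    generalize 1 - a 0 * b 0 = P0 at *
    generalize ∏ i : Fin n, (a i.succ - a 0) = Pa at *
    generalize ∏ i : Fin n, (b i.succ - b 0) = Pb at *
    generalize Matrix.det (Matrix.of fun i j : Fin n => (1 - a i.succ * b j.succ)⁻¹) = D at *
    field_simp
    linear_combination Pa * Pb * ih'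

theorem VV_ne_zero {K : Type} [Field K] {n : ℕ} {a : Fin n → K} (h : Function.Injective a) :
    VV a ≠ 0 := by
  exact prod_ne_zero_iff.2 fun i _ => prod_ne_zero_iff.2 fun j hj =>
    sub_ne_zero.2 fun e => (mem_Ioi.1 hj).ne' (h e)

theorem log_abs_VV {n : ℕ} {a : Fin n → ℝ} (h : Function.Injective a) :
    2 * Real.log |VV a| = ∑ i, ∑ j ∈ univ.erase i, Real.log |a i - a j| := by
  have hne : ∀ i, ∀ j ∈ Ioi i, |a j - a i| ≠ 0 := fun i j hj =>
    abs_ne_zero.2 (sub_ne_zero.2 fun e => (mem_Ioi.1 hj).ne' (h e))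
  have e1 : Real.log |VV a| = ∑ i, ∑ j ∈ Ioi i, Real.log |a j - a i| := by
    unfold VV
    rw [abs_prod]
    simp only [abs_prod]
    rw [Real.log_prod fun i _ => prod_ne_zero_iff.2 (hne i)]
    exact sum_congr rfl fun i _ => Real.log_prod (hne i)
  have e2 := sum_sum_Ioi_add_eq_sum_sum_off_diag (fun j i : Fin n => Real.log |a i - a j|)
  simp only [compl_singleton] at e2
  rw [e1, ← e2, mul_sum]
  refine sum_congr rfl fun i _ => ?_
  rw [mul_sum]
  refine sum_congr rfl fun j _ => ?_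
  rw [abs_sub_comm (a i)]
  ring

theorem cau_scale {n : ℕ} {a b w : Fin n → ℝ} (ha : Function.Injective a) (hw : ∀ i, 0 < w i)
    (h : ∀ i j, |a i - a j| = |b i - b j| * (w i * w j)) :
    Real.log |VV a| = Real.log |VV b| + ((n : ℝ) - 1) * ∑ i, Real.log (w i) := by
  have hb : Function.Injective b := by
    intro i j hij
    have h1 := h i j
    rw [hij, sub_self, abs_zero, zero_mul, abs_eq_zero, sub_eq_zero] at h1
    exact ha h1
  have e1 := log_abs_VV ha
  have e2 := log_abs_VV hb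
  have e3 : ∀ i, ∑ j ∈ univ.erase i, Real.log |a i - a j| =
      ∑ j ∈ univ.erase i, Real.log |b i - b j| + (((n : ℝ) - 2) * Real.log (w i) +
        ∑ j, Real.log (w j)) := by
    intro i
    have e4 : ∀ j ∈ univ.erase i, Real.log |a i - a j| =
        Real.log |b i - b j| + (Real.log (w i) + Real.log (w j)) := by
      intro j hj
      have hne : b i - b j ≠ 0 := sub_ne_zero.2 fun hij => (mem_erase.1 hj).1 (hb hij).symm
      rw [h, Real.log_mul (abs_ne_zero.2 hne) (mul_pos (hw i) (hw j)).ne',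
        Real.log_mul (hw i).ne' (hw j).ne']
    have hn : 1 ≤ n := Fin.pos i
    rw [sum_congr rfl e4, sum_add_distrib, sum_add_distrib, sum_const,
      card_erase_of_mem (mem_univ i), card_univ, Fintype.card_fin,
      sum_erase_eq_sub (mem_univ i) (f := fun j => Real.log (w j)), nsmul_eq_mul,
      Nat.cast_sub hn]
    push_cast
    ring
  rw [sum_congr rfl fun i _ => e3 i, sum_add_distrib, sum_add_distrib, ← mul_sum, sum_const,
    card_univ, Fintype.card_fin, nsmul_eq_mul, ← e2] at e1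
  linarith

theorem mobius {n : ℕ} {t s : Fin n → ℝ} (ht : ∀ i, t i ∈ Set.Ioo (-1 : ℝ) 1)
    (hs : ∀ j, s j ∈ Set.Ioo (0 : ℝ) 1) (hti : Function.Injective t) (hsi : Function.Injective s) :
    Real.log |Matrix.det (Matrix.of fun i j => (1 - t i * s j)⁻¹)| ≤
      n * Real.log 2 + Real.log |VV fun i => (t i - 1) / (t i + 3)| + Real.log |VV fun j => etaS (s j)|
        - ∑ i, ∑ j, Real.log (etaS (s j) - (t i - 1) / (t i + 3)) := by
  have h3 : ∀ i, 2 < t i + 3 := fun i => by linarith [(ht i).1]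
  have h4 : ∀ j, 1 < 1 + 3 * s j := fun j => by linarith [(hs j).1]
  have hpos : ∀ i j, 0 < 1 - t i * s j := fun i j => by
    nlinarith [(ht i).1, (ht i).2, (hs j).1, (hs j).2]
  have e0 := cauchy_det t s fun i j => (hpos i j).ne'
  have hP : 0 < ∏ i, ∏ j, (1 - t i * s j) := prod_pos fun i _ => prod_pos fun j _ => hpos i j
  have hVt := VV_ne_zero hti
  have hVs := VV_ne_zero hsi
  have e1 : Real.log |Matrix.det (Matrix.of fun i j => (1 - t i * s j)⁻¹)| =
      Real.log |VV t| + Real.log |VV s| - ∑ i, ∑ j, Real.log (1 - t i * s j) := by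
    rw [eq_div_of_mul_eq hP.ne' e0, abs_div, abs_mul, abs_of_pos hP,
      Real.log_div (mul_ne_zero (abs_ne_zero.2 hVt) (abs_ne_zero.2 hVs)) hP.ne',
      Real.log_mul (abs_ne_zero.2 hVt) (abs_ne_zero.2 hVs),
      Real.log_prod fun i _ => (prod_pos fun j _ => hpos i j).ne']
    congr 1
    exact sum_congr rfl fun i _ => Real.log_prod fun j _ => (hpos i j).ne'
  have e2 := cau_scale (b := fun i => (t i - 1) / (t i + 3)) (w := fun i => (t i + 3) / 2) hti
    (fun i => by linarith [h3 i]) (fun i j => by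
      have h5 : 0 < t i + 3 := by linarith [h3 i]
      have h6 : 0 < t j + 3 := by linarith [h3 j]
      rw [← abs_of_pos (a := (t i + 3) / 2 * ((t j + 3) / 2)) (by positivity), ← abs_mul]
      congr 1
      field_simp
      ring)
  have e3 := cau_scale (b := fun j => etaS (s j)) (w := fun j => (1 + 3 * s j) / 2) hsi
    (fun i => by linarith [h4 i]) (fun i j => by
      have h5 : 0 < 1 + 3 * s i := by linarith [h4 i]
      have h6 : 0 < 1 + 3 * s j := by linarith [h4 j]
      rw [← abs_of_pos (a := (1 + 3 * s i) / 2 * ((1 + 3 * s j) / 2)) (by positivity), ← abs_mul,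
        abs_sub_comm]
      congr 1
      have h5' : 1 + s i * 3 ≠ 0 := by linarith
      have h6' : 1 + s j * 3 ≠ 0 := by linarith
      unfold etaS
      field_simp
      ring)
  have e4 : ∀ i j, Real.log (1 - t i * s j) = Real.log (etaS (s j) - (t i - 1) / (t i + 3)) +
      (Real.log ((t i + 3) / 2) + Real.log ((1 + 3 * s j) / 2)) := by
    intro i j
    have h5 : 0 < t i + 3 := by linarith [h3 i]
    have h6 : 0 < 1 + 3 * s j := by linarith [h4 j]
    have h7 : 1 - t i * s j = (etaS (s j) - (t i - 1) / (t i + 3)) *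
        ((t i + 3) / 2 * ((1 + 3 * s j) / 2)) := by
      have h6' : 1 + s j * 3 ≠ 0 := by linarith
      unfold etaS
      field_simp
      ring
    have h8 : etaS (s j) - (t i - 1) / (t i + 3) ≠ 0 := by
      intro h0
      rw [h0, zero_mul] at h7
      exact (hpos i j).ne' h7
    rw [h7, Real.log_mul h8 (by positivity), Real.log_mul (by positivity) (by positivity)]
  have e5 : ∑ i, ∑ j, Real.log (1 - t i * s j) =
      ∑ i, ∑ j, Real.log (etaS (s j) - (t i - 1) / (t i + 3)) +
        (n * ∑ i, Real.log ((t i + 3) / 2) + n * ∑ j, Real.log ((1 + 3 * s j) / 2)) := by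
    simp only [e4, sum_add_distrib, sum_const, card_univ, Fintype.card_fin, nsmul_eq_mul,
      ← mul_sum]
  have e6 : 0 ≤ ∑ i, Real.log ((t i + 3) / 2) :=
    sum_nonneg fun i _ => Real.log_nonneg (by linarith [h3 i])
  have e7 : -(n * Real.log 2) ≤ ∑ j, Real.log ((1 + 3 * s j) / 2) := by
    have : ∑ _j : Fin n, -Real.log 2 ≤ ∑ j, Real.log ((1 + 3 * s j) / 2) := by
      refine sum_le_sum fun j _ => ?_
      rw [Real.log_div (by linarith [h4 j]) two_ne_zero]
      linarith [Real.log_nonneg (h4 j).le]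
    simpa using this
  rw [e1, e2, e3, e5]
  linarith

end Crest.Agent.R6
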