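import Crest.Agent.R6.ChkTerm

/-!
# Row 6: from the checker to `Cert`.

`T_i = trOf l_i`, `ε = e/2^20`, `Mx = mx/2^61 - α`, `Ms = ms/2^61`.  For `x ∈ St`, `y = 2^30 x`:
`(mk1 t).poly y = 2^53 (1 - 2xY + Y²)`, `(mk2 t).poly y = 2^108 q (1 - 2 ξ Y + Y²)` with
`q = 3x²+2x+3 > 0`, `ξ = xiX x ∈ [-1, 0)`; `1 - 2ξY + Y² = (1 - ζY)(1 - ζ̄Y) ≠ 0` for `|ξ| ≤ 1`,
`‖Y‖ < 1`; similarly `mk3`, `mk4`.  Then `(termsX …).map val` sums to `Gx + α` (`trOf_pot`,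
`Real.log_mul`, `Real.log_div`, induction on the lists for the `wsum` term).
Last inequality: `en_le`, `Real.log_two_gt_d9`.
-/

set_option autoImplicit false

namespace Crest.Agent.R6

theorem ChkCert_ne {ξ : ℝ} {Y : ℂ} (h1 : -1 ≤ ξ) (h2 : ξ ≤ 1) (hY : ‖Y‖ < 1) :
    1 - 2 * (ξ : ℂ) * Y + Y ^ 2 ≠ 0 := by
  intro h
  have h3 : Y.re * Y.re + Y.im * Y.im < 1 := by
    rw [← Complex.normSq_apply, Complex.normSq_eq_norm_sq]
    nlinarith [norm_nonneg Y]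
  have h4 := congrArg Complex.re h
  have h5 := congrArg Complex.im h
  simp [pow_two] at h4 h5
  have h6 : Y.im * (Y.re - ξ) = 0 := by linarith
  rcases mul_eq_zero.1 h6 with h7 | h7
  · rw [h7] at h3 h4
    have h8 : Y.re < 1 := by nlinarith
    have h9 : -1 < Y.re := by nlinarith
    rcases le_total 0 Y.re with h10 | h10
    · nlinarith [mul_nonneg h10 (sub_nonneg.2 h2), mul_pos (sub_pos.2 h8) (sub_pos.2 h8)]
    · nlinarith [mul_nonneg (neg_nonneg.2 h10) (sub_nonneg.2 h1),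
        mul_pos (sub_pos.2 h9) (sub_pos.2 h9)]
  · have h8 : ξ = Y.re := by linarith
    rw [h8] at h4
    linarith

theorem ChkCert_val {t : Term} {y q : ℝ} {z : ℂ} (hq : q ≠ 0) (hz : z ≠ 0)
    (h : t.poly y = 2 ^ t.sh * (q * z)) :
    t.poly y ≠ 0 ∧ t.val y = (t.w : ℝ) / 2 ^ 20 * (Real.log q + Real.log ‖z‖) := by
  refine ⟨h ▸ mul_ne_zero (by simp) (mul_ne_zero (by exact_mod_cast hq) hz), ?_⟩
  rw [Term.val, h, norm_mul, norm_mul, norm_pow, Complex.norm_two,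
    mul_div_cancel_left₀ _ (by positivity), Complex.norm_real, Real.norm_eq_abs,
    Real.log_mul (abs_ne_zero.2 hq) (norm_ne_zero_iff.2 hz), Real.log_abs]

theorem ChkCert_val' {t : Term} {y q : ℝ} (hq : q ≠ 0) (h : t.poly y = 2 ^ t.sh * q) :
    t.poly y ≠ 0 ∧ t.val y = (t.w : ℝ) / 2 ^ 20 * Real.log q := by
  simpa using ChkCert_val (z := 1) hq one_ne_zero (by simpa using h)

theorem ChkCert_sum {l : List At} {f : At → Term} {g : At → ℝ} {σ L y : ℝ}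
    (h : ∀ t ∈ l, (f t).val y = σ * ((t.1 : ℝ) / 2 ^ 20 * (L + g t))) :
    ((l.map f).map fun t => t.val y).sum =
      σ * ((wsum l : ℝ) / 2 ^ 20 * L + (l.map fun t => (t.1 : ℝ) / 2 ^ 20 * g t).sum) := by
  induction l with
  | nil => simp [wsum]
  | cons t l ih =>
    have e : wsum (t :: l) = t.1 + wsum l := by simp [wsum]
    simp only [List.map_cons, List.sum_cons]
    rw [ih fun s hs => h s (List.mem_cons_of_mem _ hs), h t List.mem_cons_self, e]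
    push_cast
    ring

theorem ChkCert_mk1 (t : At) (x : ℝ) : (mk1 t).poly (2 ^ 30 * x) =
    2 ^ (mk1 t).sh * ((1 : ℝ) * (1 - 2 * (x : ℂ) * atY t + atY t ^ 2)) := by
  simp only [Term.poly, mk1, atY]
  push_cast
  linear_combination (-(2 : ℂ) ^ 5 * (t.2.2 : ℂ) ^ 2) * Complex.I_sq

theorem ChkCert_mk2 (t : At) {x : ℝ} (hq : 3 * x ^ 2 + 2 * x + 3 ≠ 0) :
    (mk2 t).poly (2 ^ 30 * x) = 2 ^ (mk2 t).sh *
      ((3 * x ^ 2 + 2 * x + 3 : ℝ) * (1 - 2 * (xiX x : ℂ) * atY t + atY t ^ 2)) := by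
  have e : ((3 * x ^ 2 + 2 * x + 3 : ℝ) : ℂ) * (xiX x : ℂ) = -(1 - (x : ℂ)) ^ 2 := by
    have : (3 * x ^ 2 + 2 * x + 3) * xiX x = -(1 - x) ^ 2 := by
      rw [xiX, mul_div_cancel₀ _ hq]
    exact_mod_cast this
  simp only [Term.poly, mk2, atY]
  push_cast at e ⊢
  linear_combination (-(2 : ℂ) ^ 60 * (t.2.2 : ℂ) ^ 2 * (3 * x ^ 2 + 2 * x + 3)) * Complex.I_sq +
    (2 : ℂ) ^ 85 * ((t.2.1 : ℂ) + t.2.2 * Complex.I) * e

theorem ChkCert_mk3 (t : At) (s : ℝ) : (mk3 t).poly (2 ^ 30 * s) =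
    2 ^ (mk3 t).sh * ((1 : ℝ) * (1 - 2 * ((2 * s - 1 : ℝ) : ℂ) * atY t + atY t ^ 2)) := by
  simp only [Term.poly, mk3, atY]
  push_cast
  linear_combination (-(2 : ℂ) ^ 4 * (t.2.2 : ℂ) ^ 2) * Complex.I_sq

theorem ChkCert_mk4 (t : At) {s : ℝ} (hq : 1 + 3 * s ≠ 0) :
    (mk4 t).poly (2 ^ 30 * s) = 2 ^ (mk4 t).sh *
      ((1 + 3 * s : ℝ) * (1 - 2 * (etaS s : ℂ) * atY t + atY t ^ 2)) := by
  have e : ((1 + 3 * s : ℝ) : ℂ) * (etaS s : ℂ) = 1 - (s : ℂ) := by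
    have : (1 + 3 * s) * etaS s = 1 - s := by
      rw [etaS, mul_div_cancel₀ _ hq]
    exact_mod_cast this
  simp only [Term.poly, mk4, atY]
  push_cast at e ⊢
  linear_combination (-(2 : ℂ) ^ 30 * (t.2.2 : ℂ) ^ 2 * (1 + 3 * s)) * Complex.I_sq +
    (2 : ℂ) ^ 55 * ((t.2.1 : ℂ) + t.2.2 * Complex.I) * e

theorem ChkCert_X {α e mx : Int} {l₁ l₂ : List At} (h₁ : atOk l₁ = true) (h₂ : atOk l₂ = true)
    (hx : Bd (termsX α e l₁ l₂) mx (-2 ^ 30) (2 ^ 30)) {x : ℝ} (h : x ∈ St) :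
    Gx α (e / 2 ^ 20) (trOf l₁ h₁) (trOf l₂ h₂) x ≤ mx / 2 ^ 61 - α := by
  obtain ⟨⟨x1, x2⟩, x0⟩ := h
  have hq : 0 < 3 * x ^ 2 + 2 * x + 3 := by nlinarith
  have q1 : -1 ≤ xiX x := by
    rw [xiX, le_div_iff₀ hq]
    nlinarith [sq_nonneg (x + 1)]
  have q2 : xiX x ≤ 1 := by
    rw [xiX, div_le_iff₀ hq]
    nlinarith [sq_nonneg (1 - x)]
  have t1 := ChkCert_val' (t := ⟨(14 - α) * 2 ^ 20, 0, 0, 1, 0, 0, 0, 30⟩) (y := 2 ^ 30 * x)
    (q := x) x0 (by simp [Term.poly])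
  have t2 := ChkCert_val' (t := ⟨47 * 2 ^ 20, 2, 0, 0, 0, 0, 0, 0⟩) (y := 2 ^ 30 * x)
    (q := 2) two_ne_zero (by simp [Term.poly])
  have t3 := ChkCert_val' (t := ⟨-49 * 2 ^ 20, 2 ^ 60, 0, 0, 0, 1, 0, 60⟩) (y := 2 ^ 30 * x)
    (q := 1 + x ^ 2) (by positivity) (by simp only [Term.poly]; push_cast; ring)
  have t4 := ChkCert_val' (t := ⟨4 * 2 ^ 20 - 2 * e, 2 ^ 30, 0, -1, 0, 0, 0, 30⟩) (y := 2 ^ 30 * x)
    (q := 1 - x) (by linarith) (by simp only [Term.poly]; push_cast; ring)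
  have t5 := ChkCert_val' (t := ⟨e - wsum l₂, 3 * 2 ^ 60, 0, 2 ^ 31, 0, 3, 0, 60⟩)
    (y := 2 ^ 30 * x) hq.ne' (by simp only [Term.poly]; push_cast; ring)
  have t6 := fun t (ht : t ∈ l₁) =>
    ChkCert_val one_ne_zero (ChkCert_ne x1.le x2.le (atY_lt h₁ ht)) (ChkCert_mk1 t x)
  have t7 := fun t (ht : t ∈ l₂) =>
    ChkCert_val hq.ne' (ChkCert_ne q1 q2 (atY_lt h₂ ht)) (ChkCert_mk2 t hq.ne')
  have h3 := hx (2 ^ 30 * x) (by push_cast; linarith) (by push_cast; linarith) (by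
    simp only [termsX, List.forall_mem_cons, List.forall_mem_append, List.forall_mem_map]
    exact ⟨t1.1, t2.1, t3.1, t4.1, t5.1, fun t ht => (t6 t ht).1, fun t ht => (t7 t ht).1⟩)
  simp only [termsX, List.map_cons, List.sum_cons, List.map_append, List.sum_append] at h3
  rw [t1.2, t2.2, t3.2, t4.2, t5.2,
    ChkCert_sum (σ := 1) fun t ht => (t6 t ht).2.trans (one_mul _).symm,
    ChkCert_sum (σ := 1) fun t ht => (t7 t ht).2.trans (one_mul _).symm,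
    ← trOf_pot l₁ h₁, ← trOf_pot l₂ h₂, Real.log_one] at h3
  have h4 : Real.log (-xiX x) = 2 * Real.log (1 - x) - Real.log (3 * x ^ 2 + 2 * x + 3) := by
    rw [xiX, neg_div, neg_neg, Real.log_div (pow_ne_zero _ (by linarith)) hq.ne', Real.log_pow]
    norm_num
  rw [Gx, h4, Real.log_abs]
  push_cast at h3
  linarith

theorem ChkCert_S {e ms : Int} {l₂ l₃ : List At} (h₂ : atOk l₂ = true) (h₃ : atOk l₃ = true)
    (hs : Bd (termsS e l₂ l₃) ms 0 (2 ^ 30)) {s : ℝ} (h : s ∈ Set.Ioo (0 : ℝ) 1) :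
    Gs (e / 2 ^ 20) (trOf l₂ h₂) (trOf l₃ h₃) s ≤ ms / 2 ^ 61 := by
  obtain ⟨x1, x2⟩ := h
  have hq : 0 < 1 + 3 * s := by linarith
  have q1 : -1 ≤ etaS s := by
    rw [etaS, le_div_iff₀ hq]
    linarith
  have q2 : etaS s ≤ 1 := by
    rw [etaS, div_le_iff₀ hq]
    linarith
  have t1 := ChkCert_val' (t := ⟨6 * 2 ^ 20, 0, 0, 1, 0, 0, 0, 30⟩) (y := 2 ^ 30 * s)
    (q := s) x1.ne' (by simp [Term.poly])
  have t2 := ChkCert_val' (t := ⟨2 * 2 ^ 20 - e, 2 ^ 30, 0, -1, 0, 0, 0, 30⟩) (y := 2 ^ 30 * s)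
    (q := 1 - s) (by linarith) (by simp only [Term.poly]; push_cast; ring)
  have t3 := ChkCert_val' (t := ⟨e + wsum l₂, 2 ^ 30, 0, 3, 0, 0, 0, 30⟩)
    (y := 2 ^ 30 * s) hq.ne' (by simp only [Term.poly]; push_cast; ring)
  have t6 := fun t (ht : t ∈ l₃) => ChkCert_val one_ne_zero
    (ChkCert_ne (ξ := 2 * s - 1) (by linarith) (by linarith) (atY_lt h₃ ht)) (ChkCert_mk3 t s)
  have t7 := fun t (ht : t ∈ l₂) =>
    ChkCert_val hq.ne' (ChkCert_ne q1 q2 (atY_lt h₂ ht)) (ChkCert_mk4 t hq.ne')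
  have h3 := hs (2 ^ 30 * s) (by push_cast; linarith) (by push_cast; linarith) (by
    simp only [termsS, List.forall_mem_cons, List.forall_mem_append, List.forall_mem_map]
    exact ⟨t1.1, t2.1, t3.1, fun t ht => (t6 t ht).1, fun t ht => (t7 t ht).1⟩)
  simp only [termsS, List.map_cons, List.sum_cons, List.map_append, List.sum_append] at h3
  rw [t1.2, t2.2, t3.2,
    ChkCert_sum (σ := 1) fun t ht => (t6 t ht).2.trans (one_mul _).symm,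
    ChkCert_sum (σ := -1) (L := Real.log (1 + 3 * s))
      (g := fun t => Real.log ‖1 - 2 * (etaS s : ℂ) * atY t + atY t ^ 2‖)
      fun t ht => (t7 t ht).2.trans (by simp only [mk4]; push_cast; ring),
    ← trOf_pot l₃ h₃, ← trOf_pot l₂ h₂, Real.log_one] at h3
  have h4 : Real.log (etaS s) = Real.log (1 - s) - Real.log (1 + 3 * s) := by
    rw [etaS, Real.log_div (by linarith) hq.ne']
  rw [Gs, h4]
  push_cast at h3
  linarith

theorem cert_of_check (α e mx ms : Int) (l₁ l₂ l₃ : List At) (he : 0 < e) (h₁ : atOk l₁ = true)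
    (h₂ : atOk l₂ = true) (h₃ : atOk l₃ = true)
    (hx : Bd (termsX α e l₁ l₂) mx (-2 ^ 30) (2 ^ 30)) (hs : Bd (termsS e l₂ l₃) ms 0 (2 ^ 30))
    (hE : 10000 * (36 * 2 ^ 21 * (mx + ms) + enHi l₁ l₁ + enHi l₂ l₂ + enHi l₃ l₃) ≤
      (360000 * α - 11571220) * 2 ^ 82) : Cert α := by
  refine ⟨trOf l₁ h₁, trOf l₂ h₂, trOf l₃ h₃, e / 2 ^ 20, mx / 2 ^ 61 - α, ms / 2 ^ 61,
    by positivity, fun x h => ChkCert_X h₁ h₂ hx h, fun s h => ChkCert_S h₂ h₃ hs h, ?_⟩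
  have h1 := en_le l₁ h₁
  have h2 := en_le l₂ h₂
  have h3 := en_le l₃ h₃
  have h4 := (Int.cast_le (R := ℝ)).2 hE
  have h5 := Real.log_two_gt_d9
  push_cast at h4
  linarith

end Crest.Agent.R6
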