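import Crest.Agent.R6.ChkDefs

/-!
# Row 6: soundness of the logarithm bounds and of the energy bound.

`k = log2 n`, `2^k ≤ n < 2^(k+1)` (`Nat.log2_self_le`, `Nat.lt_log2_self`), `z = (n-2^k)/(n+2^k) ∈ [0,1/3)`,
`log n = k log 2 + log((1+z)/(1-z))`, `Z/2^48 ≤ z < (Z+1)/2^48 ≤ 1/3 + 2^-48`.
`Real.hasSum_log_sub_log_of_abs_lt_one`; the partial sum `2∑_{j<8} z^(2j+1)/(2j+1)` is monotone in
`z ≥ 0`, is `≤` the sum (`sum_le_hasSum`), and the tail is `≤ 2 z^17/(1-z) ≤ 25999/2^40`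
(`Real.abs_log_sub_add_sum_range_le` twice, or a geometric series).  `Real.log_two_gt_d9`, `log_two_lt_d9`.
`en_le`: `kk Y W = ½ log(n1 · n1'/2^192)`; turn the `Fin l.length` sums into list sums
(`List.sum_ofFn`, `Fin.sum_univ_fun_getElem`/`List.ofFn_get`).
-/

set_option autoImplicit false

namespace Crest.Agent.R6

theorem cl_norm_sq (p q : Int) :
    ‖(p : ℂ) + q * Complex.I‖ ^ 2 = ((p.natAbs ^ 2 + q.natAbs ^ 2 : ℕ) : ℝ) := by
  have h := Complex.normSq_add_mul_I p q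
  push_cast at h ⊢
  rw [Complex.sq_norm, h, Nat.cast_natAbs, Nat.cast_natAbs, Int.cast_abs, Int.cast_abs, sq_abs, sq_abs]

theorem nb_ge (p q : Int) : ‖(p : ℂ) + q * Complex.I‖ ≤ (nb p q : ℝ) := by
  have key : ∀ a b : ℕ, a ≤ b → a ^ 2 + b ^ 2 ≤ (b + (a + 1) / 2) ^ 2 := fun a b h => by
    have : a ≤ 2 * ((a + 1) / 2) := by omega
    nlinarith
  have h : p.natAbs ^ 2 + q.natAbs ^ 2 ≤ nb p q ^ 2 := by
    unfold nb
    split_ifs with h
    · exact key _ _ h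
    · rw [add_comm]
      exact key _ _ (by omega)
  refine (pow_le_pow_iff_left₀ (norm_nonneg _) (Nat.cast_nonneg _) two_ne_zero).1 ?_
  rw [cl_norm_sq]
  exact_mod_cast h

noncomputable def cl_S (z : ℝ) : ℝ := ∑ i ∈ Finset.range 8, z ^ (2 * i + 1) / (2 * i + 1)

theorem cl_mono {z z' : ℝ} (h0 : 0 ≤ z) (h : z ≤ z') : cl_S z ≤ cl_S z' := by
  unfold cl_S
  gcongr

theorem cl_poly8 (Z : ℕ) :
    (poly8 Z (Z * Z) : ℝ) / (45045 * 2 ^ 679 : ℕ) = 2 ^ 41 * cl_S (Z / 2 ^ 48) := by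
  have e : ∀ k : ℕ, (2 : ℝ) ^ (48 * k) = (2 ^ 48) ^ k := fun k => pow_mul _ _ _
  have e' : (2 : ℝ) ^ 679 = (2 ^ 48) ^ 15 / 2 ^ 41 := by
    rw [← pow_mul, eq_div_iff (by positivity), ← pow_add]
  simp only [poly8, cl_S, Finset.sum_range_succ, Finset.sum_range_zero, Nat.cast_mul, Nat.cast_add,
    Nat.cast_pow, Nat.cast_ofNat, div_pow]
  rw [e', e 14, e 12, e 10, e 8, e 6, e 4, e 2]
  have : (0 : ℝ) < 2 ^ 48 := by positivity
  generalize (2 : ℝ) ^ 48 = t at this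
  field_simp
  ring

theorem cl_div (a b : ℕ) : ((a / b : ℕ) : ℝ) ≤ (a : ℝ) / b ∧ (a : ℝ) / b ≤ (a / b : ℕ) + 1 :=
  ⟨Nat.cast_div_le, by
    rw [← Nat.floor_div_eq_div (K := ℝ)]
    exact (Nat.lt_floor_add_one _).le⟩

theorem cl_at8 (Z : ℕ) :
    (at8 Z : ℝ) ≤ 2 ^ 41 * cl_S (Z / 2 ^ 48) ∧ 2 ^ 41 * cl_S (Z / 2 ^ 48) ≤ at8 Z + 1 := by
  rw [← cl_poly8]
  exact cl_div _ _

theorem cl_z {n : ℕ} (hn : 0 < n) (s : ℕ) : ∃ z : ℝ, 0 ≤ z ∧ z ≤ 1 / 3 ∧
    Real.log ((n : ℝ) / 2 ^ s) = ((n.log2 : ℝ) - s) * Real.log 2 + Real.log ((1 + z) / (1 - z)) ∧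
    (zOf n n.log2 : ℝ) / 2 ^ 48 ≤ z ∧ z ≤ (zOf n n.log2 + 1 : ℕ) / 2 ^ 48 := by
  have h1 := Nat.log2_self_le hn.ne'
  have h2 := (Nat.lt_log2_self (n := n)).le
  generalize n.log2 = k at h1 h2
  have h1' : (2 : ℝ) ^ k ≤ n := by exact_mod_cast h1
  have h2' : (n : ℝ) ≤ 2 ^ k * 2 := by exact_mod_cast h2
  have h3 : (0 : ℝ) < 2 ^ k := by positivity
  have h4 : (0 : ℝ) < n + 2 ^ k := by positivity
  have h5 := cl_div ((n - 2 ^ k) * 2 ^ 48) (n + 2 ^ k)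
  rw [← zOf, Nat.cast_mul, Nat.cast_sub h1, Nat.cast_add, Nat.cast_pow, Nat.cast_pow, Nat.cast_ofNat,
    mul_div_right_comm] at h5
  refine ⟨(n - 2 ^ k) / (n + 2 ^ k), div_nonneg (by linarith) h4.le, ?_, ?_, ?_, ?_⟩
  · rw [div_le_iff₀ h4]
    linarith
  · have e : (1 + ((n : ℝ) - 2 ^ k) / (n + 2 ^ k)) / (1 - (n - 2 ^ k) / (n + 2 ^ k)) = n / 2 ^ k := by
      rw [one_add_div h4.ne', one_sub_div h4.ne', div_div_div_cancel_right₀ h4.ne',
        div_eq_div_iff (by linarith) h3.ne']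
      ring
    have hn' : (n : ℝ) ≠ 0 := by positivity
    rw [e, Real.log_div hn' h3.ne', Real.log_div hn' (by positivity), Real.log_pow, Real.log_pow]
    ring
  · rw [div_le_iff₀ (by positivity)]
    exact h5.1
  · rw [le_div_iff₀ (by positivity), Nat.cast_add, Nat.cast_one]
    exact h5.2

theorem lgLo_le {n : ℕ} (hn : 0 < n) (s : ℕ) :
    (lgLo n s : ℝ) / 2 ^ 40 ≤ Real.log ((n : ℝ) / 2 ^ s) := by
  obtain ⟨z, h0, h1, h2, h3, -⟩ := cl_z hn s
  have h4 := Real.sum_range_le_log_div h0 (by linarith) 8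
  have h5 := (cl_at8 (zOf n n.log2)).1
  have h6 := cl_mono (by positivity) h3
  have h7 := Real.log_two_gt_d9
  have h8 := Real.log_two_lt_d9
  rw [h2, div_le_iff₀ (by positivity), lgLo, lgLo']
  unfold cl_S at h5 h6
  split_ifs with h
  · have : (s : ℝ) ≤ n.log2 := by exact_mod_cast h
    simp only [Int.ofNat_eq_natCast]
    push_cast [h]
    nlinarith
  · have h' : n.log2 ≤ s := by omega
    have : (n.log2 : ℝ) ≤ s := by exact_mod_cast h'
    simp only [Int.ofNat_eq_natCast]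
    push_cast [h']
    nlinarith

theorem le_lgHi {n : ℕ} (hn : 0 < n) (s : ℕ) :
    Real.log ((n : ℝ) / 2 ^ s) ≤ (lgHi n s : ℝ) / 2 ^ 40 := by
  obtain ⟨z, h0, h1, h2, -, h3⟩ := cl_z hn s
  have h4 := Real.log_div_le_sum_range_add h0 (by linarith) 8
  have h5 := (cl_at8 (zOf n n.log2 + 1)).2
  have h6 := cl_mono h0 h3
  have h7 := Real.log_two_gt_d9
  have h8 := Real.log_two_lt_d9
  have h9 : z ^ (2 * 8 + 1) / (1 - z ^ 2) ≤ (1 / 3) ^ (2 * 8 + 1) / (1 - (1 / 3) ^ 2) := by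
    gcongr
  rw [h2, le_div_iff₀ (by positivity), lgHi, lgHi']
  unfold cl_S at h5 h6
  generalize z ^ (2 * 8 + 1) / (1 - z ^ 2) = e at h4 h9
  generalize at8 (zOf n n.log2 + 1) = a at h5 ⊢
  norm_num only at h9
  split_ifs with h
  · have : (s : ℝ) ≤ n.log2 := by exact_mod_cast h
    simp only [Int.ofNat_eq_natCast]
    push_cast [h]
    nlinarith
  · have h' : n.log2 ≤ s := by omega
    have : (n.log2 : ℝ) ≤ s := by exact_mod_cast h'
    simp only [Int.ofNat_eq_natCast]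
    push_cast [h']
    nlinarith

theorem le_wlg (w : Int) {n : ℕ} (hn : 0 < n) (s : ℕ) :
    (w : ℝ) * Real.log ((n : ℝ) / 2 ^ s) ≤ (wlg w n s : ℝ) / 2 ^ 40 := by
  unfold wlg
  split_ifs with h
  · rw [Int.cast_mul, mul_div_assoc]
    exact mul_le_mul_of_nonneg_left (le_lgHi hn s) (by exact_mod_cast h)
  · rw [Int.cast_mul, mul_div_assoc]
    exact mul_le_mul_of_nonpos_left (lgLo_le hn s) (by exact_mod_cast (not_le.1 h).le)

/-- the point of an atom -/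
noncomputable def atY (t : At) : ℂ := ((t.2.1 : ℂ) + t.2.2 * Complex.I) / 2 ^ 24

theorem atY_lt {l : List At} (h : atOk l = true) {t : At} (ht : t ∈ l) : ‖atY t‖ < 1 := by
  have h1 : t.2.1 * t.2.1 + t.2.2 * t.2.2 < 2 ^ 48 := of_decide_eq_true (List.all_eq_true.1 h t ht)
  rw [atY, norm_div, div_lt_one (by simp), norm_pow, Complex.norm_ofNat]
  refine (pow_lt_pow_iff_left₀ (norm_nonneg _) (by positivity) two_ne_zero).1 ?_
  rw [cl_norm_sq]
  have h2 : t.2.1.natAbs ^ 2 + t.2.2.natAbs ^ 2 < (2 ^ 24) ^ 2 := by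
    zify
    rw [sq_abs, sq_abs]
    linarith
  exact_mod_cast h2

/-- the trial measure of a list of atoms -/
noncomputable def trOf (l : List At) (h : atOk l = true) : Tr where
  k := l.length
  w := fun a => ((l.get a).1 : ℝ) / 2 ^ 20
  Y := fun a => atY (l.get a)
  hY := fun a => atY_lt h (List.get_mem l a)

theorem cl_sum {α : Type} (l : List α) (f : α → ℝ) :
    ∑ a : Fin l.length, f (l.get a) = (l.map f).sum := by
  conv_rhs => rw [← List.ofFn_get l, List.map_ofFn, List.sum_ofFn]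
  rfl

theorem trOf_pot (l : List At) (h : atOk l = true) (ξ : ℝ) : (trOf l h).pot ξ =
    (l.map fun t => (t.1 : ℝ) / 2 ^ 20 * Real.log ‖1 - 2 * (ξ : ℂ) * atY t + atY t ^ 2‖).sum := by
  exact cl_sum l fun t => (t.1 : ℝ) / 2 ^ 20 * Real.log ‖1 - 2 * (ξ : ℂ) * atY t + atY t ^ 2‖

theorem cl_n1 (w w' a b c d : Int) :
    ‖1 - atY (w, a, b) * atY (w', c, d)‖ ^ 2 = (n1 a b c d : ℝ) / 2 ^ 96 := by
  have e : 1 - atY (w, a, b) * atY (w', c, d) =
      (((2 ^ 48 - (a * c - b * d) : Int) : ℂ) + (-(a * d + b * c) : Int) * Complex.I) / 2 ^ 48 := by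
    simp only [atY]
    push_cast
    field_simp
    linear_combination (-(b * d) : ℂ) * Complex.I_sq
  rw [e, norm_div, div_pow, cl_norm_sq, Int.natAbs_neg, n1, norm_pow, Complex.norm_ofNat, ← pow_mul]

theorem cl_term {s t : At} (hs : ‖atY s‖ < 1) (ht : ‖atY t‖ < 1) :
    -((s.1 : ℝ) / 2 ^ 20 * (t.1 / 2 ^ 20) * kk (atY s) (atY t)) ≤
      (wlg (-(s.1 * t.1)) (n1 s.2.1 s.2.2 t.2.1 (-t.2.2) * n1 s.2.1 s.2.2 t.2.1 t.2.2) 192 : ℝ) /
        2 ^ 81 := by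
  obtain ⟨w, a, b⟩ := s
  obtain ⟨w', c, d⟩ := t
  have hc : (starRingEnd ℂ) (atY (w', c, d)) = atY (w', c, -d) := by simp [atY, map_ofNat]
  have hp : ∀ W : ℂ, ‖W‖ < 1 → 0 < ‖1 - atY (w, a, b) * W‖ := fun W hW => by
    rw [norm_pos_iff, sub_ne_zero]
    intro h
    have h1 := congrArg norm h
    rw [norm_one, norm_mul] at h1
    nlinarith [norm_nonneg W, norm_nonneg (atY (w, a, b))]
  have p1 := hp _ ht
  have p2 := hp (atY (w', c, -d)) (by rwa [← hc, Complex.norm_conj])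
  have e : ((n1 a b c (-d) * n1 a b c d : ℕ) : ℝ) / 2 ^ 192 =
      (‖1 - atY (w, a, b) * atY (w', c, -d)‖ * ‖1 - atY (w, a, b) * atY (w', c, d)‖) ^ 2 := by
    rw [mul_pow, cl_n1, cl_n1, Nat.cast_mul, div_mul_div_comm, ← pow_add]
  have hn : 0 < n1 a b c (-d) * n1 a b c d := by
    have : (0 : ℝ) < ((n1 a b c (-d) * n1 a b c d : ℕ) : ℝ) / 2 ^ 192 := by
      rw [e]
      positivity
    exact_mod_cast (div_pos_iff_of_pos_right (by positivity)).1 this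
  have h1 := le_wlg (-(w * w')) hn 192
  rw [e, Real.log_pow, Real.log_mul p2.ne' p1.ne'] at h1
  rw [kk, hc]
  push_cast at h1 ⊢
  linarith

theorem en_le (l : List At) (h : atOk l = true) : (trOf l h).en ≤ (enHi l l : ℝ) / 2 ^ 81 := by
  have h1 : ∀ s ∈ l, ∀ L : List At, (∀ t ∈ L, t ∈ l) →
      -(L.map fun t => (s.1 : ℝ) / 2 ^ 20 * (t.1 / 2 ^ 20) * kk (atY s) (atY t)).sum ≤
        (enRow s L : ℝ) / 2 ^ 81 := fun s hs L hL => by
    induction L with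
    | nil => simp [enRow]
    | cons t L ih =>
      rw [List.map_cons, List.sum_cons, enRow, Int.cast_add, add_div, neg_add]
      exact add_le_add (cl_term (atY_lt h hs) (atY_lt h (hL t (by simp))))
        (ih fun t ht => hL t (by simp [ht]))
  have h2 : ∀ L : List At, (∀ t ∈ L, t ∈ l) →
      -(L.map fun s => (l.map fun t =>
        (s.1 : ℝ) / 2 ^ 20 * (t.1 / 2 ^ 20) * kk (atY s) (atY t)).sum).sum ≤
        (enHi l L : ℝ) / 2 ^ 81 := fun L hL => by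
    induction L with
    | nil => simp [enHi]
    | cons t L ih =>
      rw [List.map_cons, List.sum_cons, enHi, Int.cast_add, add_div, neg_add]
      exact add_le_add (h1 t (hL t (by simp)) l fun _ h => h) (ih fun t ht => hL t (by simp [ht]))
  refine le_trans (le_of_eq ?_) (h2 l fun _ h => h)
  rw [← cl_sum]
  simp only [← cl_sum]
  rfl

end Crest.Agent.R6
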