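import Crest.Agent.R6.ChkLog

/-!
# Row 6: soundness of the interval checker.

For `y = X + u R`, `|u| ≤ 1`: `t.poly y = c0 + c1 u + c2 u²` with the Gaussian integers of `step`.
Invariant of `run`: define `ev A u = (A.v + A.d1 u + A.d2 u² + A.e)/2^61`; then
`(step X R t A).ok → A.ok ∧ t.val y + ev A u ≤ ev (step X R t A) u`.
Taylor step: `c0 ≠ 0`, `ω = w₁ u + w₂ u²`, `w₁ = c1/c0 = (p1 + q1 I)/n`, `‖ω‖ ≤ (o1+o2)/2^40 ≤ 1/4`,
`log ‖c0 (1+ω)‖ = ½ log n + re (log (1+ω))` (`Complex.log_re`),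
`‖log(1+ω) - (ω - ω²/2)‖ ≤ ‖ω‖³/(3(1-‖ω‖))` (`Complex.norm_log_sub_logTaylor_le 2`),
`ω - ω²/2 = w₁ u + (w₂ - w₁²/2) u² - w₁w₂ u³ - w₂² u⁴/2`; floors: `a/n - 1 < ↑(a / n) ≤ a/n`
(`Int.ediv_mul_le`, `Int.lt_ediv_add_one_mul_self`).  Crude step: `0 < ‖poly‖ ≤ B`, `w ≥ 0`.
-/

set_option autoImplicit false

namespace Crest.Agent.R6

/-- the value of an accumulator, scale `2^61` -/
noncomputable def ctEv (A : Acc) (u : ℝ) : ℝ := A.v + A.d1 * u + A.d2 * u ^ 2 + A.e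

theorem ct_log_sq (x : ℝ) (sh : ℕ) :
    2 * Real.log (x / 2 ^ sh) = Real.log (x * x / 2 ^ (2 * sh)) := by
  have : x * x / 2 ^ (2 * sh) = (x / 2 ^ sh) ^ 2 := by
    rw [div_pow, ← pow_mul, mul_comm sh 2, sq]
  rw [this, Real.log_pow]; norm_num

theorem ct_stepC {w : Int} {sh B : Nat} {A : Acc} {z : ℂ} (hz : z ≠ 0) (hB : ‖z‖ ≤ B) (u : ℝ)
    (h : (stepC w sh B A).ok = true) :
    A.ok = true ∧ w * 2 ^ 41 * Real.log (‖z‖ / 2 ^ sh) + ctEv A u ≤ ctEv (stepC w sh B A) u := by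
  simp only [stepC, Bool.and_eq_true, decide_eq_true_eq] at h
  refine ⟨h.1, ?_⟩
  have hz' : 0 < ‖z‖ := norm_pos_iff.2 hz
  have hB0 : (0 : ℝ) < B := hz'.trans_le hB
  have hBn : 0 < B * B := by
    have : 0 < B := by exact_mod_cast hB0
    positivity
  have h1 := le_lgHi hBn (2 * sh)
  have h2 : Real.log (‖z‖ / 2 ^ sh) ≤ Real.log ((B : ℝ) / 2 ^ sh) :=
    Real.log_le_log (by positivity) (by gcongr)
  have h3 := ct_log_sq (B : ℝ) sh
  have hw : (0 : ℝ) ≤ w := by exact_mod_cast h.2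
  have h4 : 2 ^ 41 * Real.log (‖z‖ / 2 ^ sh) ≤ (lgHi (B * B) (2 * sh) : ℝ) := by
    push_cast at h1
    rw [le_div_iff₀ (by positivity)] at h1
    linarith
  have h5 := mul_le_mul_of_nonneg_left h4 hw
  simp only [ctEv, stepC]
  push_cast
  linarith

theorem ct_log {ω : ℂ} (h : ‖ω‖ ≤ 1 / 4) :
    |Real.log ‖1 + ω‖ - (ω - ω ^ 2 / 2).re| ≤ 4 / 9 * ‖ω‖ ^ 3 := by
  have h1 := Complex.norm_log_sub_logTaylor_le 2 (z := ω) (by linarith)
  have h2 : Complex.logTaylor (2 + 1) ω = ω - ω ^ 2 / 2 := by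
    simp [Complex.logTaylor, Finset.sum_range_succ]
    ring
  rw [h2] at h1
  rw [← Complex.log_re, ← Complex.sub_re]
  refine (Complex.abs_re_le_norm _).trans (h1.trans ?_)
  have h3 : (1 - ‖ω‖)⁻¹ ≤ 4 / 3 := by
    rw [inv_le_comm₀ (by linarith) (by norm_num)]
    linarith
  have h4 : 0 ≤ ‖ω‖ ^ 3 := by positivity
  have h5 := mul_le_mul_of_nonneg_left h3 h4
  push_cast
  norm_num
  linarith

theorem ct_floor (a : Int) {b : Int} (hb : 0 < b) :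
    |(a : ℝ) / b - ((a / b : Int) : ℝ)| ≤ 1 := by
  have h1 : ((a / b : Int) : ℝ) * b ≤ a := by exact_mod_cast Int.ediv_mul_le a hb.ne'
  have h2 : (a : ℝ) < (((a / b : Int) : ℝ) + 1) * b := by
    exact_mod_cast Int.lt_ediv_add_one_mul_self a hb
  have hb' : (0 : ℝ) < b := by exact_mod_cast hb
  rw [← le_div_iff₀ hb'] at h1
  rw [← div_lt_iff₀ hb'] at h2
  rw [abs_le]
  constructor <;> linarith

theorem ct_nfloor (a : Nat) {b : Nat} (hb : 0 < b) : (a : ℝ) / b ≤ ((a / b : Nat) : ℝ) + 1 := by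
  have h2 : a < (a / b + 1) * b := by
    rw [mul_comm]; exact Nat.lt_mul_div_succ a hb
  have h3 : (a : ℝ) < (((a / b : Nat) : ℝ) + 1) * b := by exact_mod_cast h2
  have hb' : (0 : ℝ) < b := by exact_mod_cast hb
  rw [div_le_iff₀ hb']
  exact h3.le

theorem ct_taylor {w1 w2 : ℂ} {a b u : ℝ} (h1 : ‖w1‖ ≤ a) (h2 : ‖w2‖ ≤ b) (hab : a + b ≤ 1 / 4)
    (hu : |u| ≤ 1) :
    |Real.log ‖1 + (w1 * u + w2 * u ^ 2)‖ - (w1.re * u + (w2 - w1 ^ 2 / 2).re * u ^ 2)| ≤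
      (a + b) * b + 4 / 9 * (a + b) ^ 3 := by
  have ha : 0 ≤ a := (norm_nonneg _).trans h1
  have hb : 0 ≤ b := (norm_nonneg _).trans h2
  have hu' : ‖(u : ℂ)‖ ≤ 1 := by rwa [Complex.norm_real, Real.norm_eq_abs]
  have hp : ∀ k : ℕ, ‖(u : ℂ) ^ k‖ ≤ 1 := fun k => by
    rw [norm_pow]; exact pow_le_one₀ (norm_nonneg _) hu'
  have hm : ∀ (z : ℂ) (k : ℕ), ‖z * (u : ℂ) ^ k‖ ≤ ‖z‖ := fun z k => by
    rw [norm_mul]; exact mul_le_of_le_one_right (norm_nonneg _) (hp k)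
  have hω : ‖w1 * u + w2 * u ^ 2‖ ≤ a + b := by
    refine (norm_add_le _ _).trans (add_le_add ?_ ((hm _ 2).trans h2))
    have := hm w1 1
    rw [pow_one] at this
    exact this.trans h1
  have hl := ct_log (hω.trans hab)
  have e : (w1 * u + w2 * u ^ 2) - (w1 * u + w2 * u ^ 2) ^ 2 / 2 =
      w1 * u + (w2 - w1 ^ 2 / 2) * ((u ^ 2 : ℝ) : ℂ) -
        (w1 * w2 * u ^ 3 + w2 * w2 / 2 * u ^ 4) := by
    push_cast; ring
  have hr : |(w1 * w2 * u ^ 3 + w2 * w2 / 2 * u ^ 4).re| ≤ (a + b) * b := by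
    refine (Complex.abs_re_le_norm _).trans ((norm_add_le _ _).trans ?_)
    have e1 : ‖w1 * w2 * (u : ℂ) ^ 3‖ ≤ a * b := by
      refine (hm _ 3).trans ?_
      rw [norm_mul]; exact mul_le_mul h1 h2 (norm_nonneg _) ha
    have e2 : ‖w2 * w2 / 2 * (u : ℂ) ^ 4‖ ≤ b * b := by
      refine (hm _ 4).trans ?_
      rw [norm_div, norm_mul]
      have : ‖w2‖ * ‖w2‖ ≤ b * b := mul_le_mul h2 h2 (norm_nonneg _) hb
      have h0 : 0 ≤ ‖w2‖ * ‖w2‖ := by positivity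
      have : ‖(2 : ℂ)‖ = 2 := by simp
      rw [this]; linarith
    linarith
  rw [e, Complex.sub_re, Complex.add_re, Complex.re_mul_ofReal, Complex.re_mul_ofReal] at hl
  have h3 : ‖w1 * u + w2 * u ^ 2‖ ^ 3 ≤ (a + b) ^ 3 := pow_le_pow_left₀ (norm_nonneg _) hω 3
  rw [abs_le] at hl hr ⊢
  constructor <;> linarith [hl.1, hl.2, hr.1, hr.2]

theorem ct_stepT {w : Int} {sh n : Nat} {p1 q1 p2 : Int} {o1 o2 : Nat} {A : Acc} (hn : 0 < n)
    {c0 w1 w2 : ℂ} (hc : ‖c0‖ * ‖c0‖ = n) (hw1 : w1 = ((p1 : ℂ) + q1 * Complex.I) / n)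
    (hw2 : w2.re = p2 / n) (h1 : ‖w1‖ ≤ o1 / 2 ^ 40) (h2 : ‖w2‖ ≤ o2 / 2 ^ 40)
    (ho : o1 + o2 ≤ 2 ^ 38) {u : ℝ} (hu : |u| ≤ 1) :
    w * 2 ^ 41 * Real.log (‖c0 * (1 + (w1 * u + w2 * u ^ 2))‖ / 2 ^ sh) + ctEv A u ≤
      ctEv (stepT w sh n p1 q1 p2 o1 o2 A) u := by
  have hn' : (0 : ℝ) < n := by exact_mod_cast hn
  have ho' : (o1 : ℝ) + o2 ≤ 2 ^ 38 := by exact_mod_cast ho
  have hab : (o1 : ℝ) / 2 ^ 40 + o2 / 2 ^ 40 ≤ 1 / 4 := by
    rw [← add_div, div_le_iff₀ (by positivity)]; linarith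
  have ht := ct_taylor h1 h2 hab hu
  have hc0 : 0 < ‖c0‖ := by
    rcases (norm_nonneg c0).eq_or_lt with h | h
    · rw [← h, mul_zero] at hc; linarith
    · exact h
  have hω : ‖w1 * u + w2 * u ^ 2‖ < 1 := by
    have hu' : ‖(u : ℂ)‖ ≤ 1 := by rwa [Complex.norm_real, Real.norm_eq_abs]
    have e1 : ‖w1 * u‖ ≤ ‖w1‖ := by
      rw [norm_mul]; exact mul_le_of_le_one_right (norm_nonneg _) hu'
    have e2 : ‖w2 * u ^ 2‖ ≤ ‖w2‖ := by
      rw [norm_mul, norm_pow]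
      exact mul_le_of_le_one_right (norm_nonneg _) (pow_le_one₀ (norm_nonneg _) hu')
    linarith [norm_add_le (w1 * u) (w2 * u ^ 2)]
  have hω0 : 0 < ‖1 + (w1 * u + w2 * u ^ 2)‖ := by
    have := norm_sub_norm_le (1 : ℂ) (-(w1 * u + w2 * u ^ 2))
    rw [norm_neg, norm_one, sub_neg_eq_add] at this
    linarith
  have hlog : Real.log (‖c0 * (1 + (w1 * u + w2 * u ^ 2))‖ / 2 ^ sh) =
      Real.log (‖c0‖ / 2 ^ sh) + Real.log ‖1 + (w1 * u + w2 * u ^ 2)‖ := by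
    rw [norm_mul, mul_div_right_comm, Real.log_mul (by positivity) hω0.ne']
  have hs := ct_log_sq ‖c0‖ sh
  rw [hc] at hs
  have hv := le_wlg w hn (2 * sh)
  rw [← hs, le_div_iff₀ (by positivity)] at hv
  have hre1 : w1.re = p1 / n := by
    rw [hw1, Complex.div_natCast_re]; simp
  have him1 : w1.im = q1 / n := by
    rw [hw1, Complex.div_natCast_im]; simp
  have hre2 : (w2 - w1 ^ 2 / 2).re =
      (2 * (p2 : ℝ) * n - ((p1 : ℝ) * p1 - (q1 : ℝ) * q1)) / (2 * ((n : ℝ) * n)) := by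
    have : (w1 ^ 2 / 2).re = (w1.re * w1.re - w1.im * w1.im) / 2 := by
      rw [sq, Complex.div_ofNat_re, Complex.mul_re]
    rw [Complex.sub_re, this, hw2, hre1, him1]
    field_simp
  have f1 := ct_floor (p1 * 2 ^ 40) (b := (n : Int)) (by exact_mod_cast hn)
  have f2 := ct_floor ((2 * p2 * n - (p1 * p1 - q1 * q1)) * 2 ^ 39) (b := ((n * n : Nat) : Int))
    (by exact_mod_cast Nat.mul_pos hn hn)
  have f3 := ct_nfloor ((o1 + o2) * o2) (b := 2 ^ 40) (by positivity)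
  have f4 := ct_nfloor (4 * (o1 + o2) ^ 3) (b := 9 * 2 ^ 80) (by positivity)
  simp only [ctEv, stepT]
  generalize (p1 * 2 ^ 40 / (n : Int) : Int) = D1 at f1 ⊢
  generalize ((2 * p2 * n - (p1 * p1 - q1 * q1)) * 2 ^ 39 / ((n * n : Nat) : Int) : Int) = D2
    at f2 ⊢
  generalize ((o1 + o2) * o2 / 2 ^ 40 : Nat) = E1 at f3 ⊢
  generalize (4 * (o1 + o2) ^ 3 / (9 * 2 ^ 80) : Nat) = E2 at f4 ⊢
  rw [hlog]
  generalize Real.log ‖1 + (w1 * u + w2 * u ^ 2)‖ = L at ht ⊢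
  have g1 : ((p1 * 2 ^ 40 : Int) : ℝ) / ((n : Int) : ℝ) = 2 ^ 40 * w1.re := by
    rw [hre1]; push_cast; ring
  have g2 : (((2 * p2 * n - (p1 * p1 - q1 * q1)) * 2 ^ 39 : Int) : ℝ) /
      (((n * n : Nat) : Int) : ℝ) = 2 ^ 40 * (w2 - w1 ^ 2 / 2).re := by
    rw [hre2]; push_cast; field_simp; ring
  rw [g1] at f1
  rw [g2] at f2
  generalize w1.re = x1 at ht f1
  generalize (w2 - w1 ^ 2 / 2).re = x2 at ht f2
  have g3 : 2 ^ 40 * (((o1 : ℝ) / 2 ^ 40 + o2 / 2 ^ 40) * (o2 / 2 ^ 40) +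
      4 / 9 * ((o1 : ℝ) / 2 ^ 40 + o2 / 2 ^ 40) ^ 3) ≤ E1 + E2 + 2 := by
    have : 2 ^ 40 * (((o1 : ℝ) / 2 ^ 40 + o2 / 2 ^ 40) * (o2 / 2 ^ 40) +
        4 / 9 * ((o1 : ℝ) / 2 ^ 40 + o2 / 2 ^ 40) ^ 3) =
        (((o1 + o2) * o2 : Nat) : ℝ) / ((2 ^ 40 : Nat) : ℝ) +
          ((4 * (o1 + o2) ^ 3 : Nat) : ℝ) / ((9 * 2 ^ 80 : Nat) : ℝ) := by
      push_cast; ring
    rw [this]; linarith
  have hu2 : |u ^ 2| ≤ 1 := by
    rw [abs_pow]; exact pow_le_one₀ (abs_nonneg _) hu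
  have g4 : |2 ^ 40 * L - (D1 * u + D2 * u ^ 2)| ≤ (E1 : ℝ) + E2 + 4 := by
    have e : 2 ^ 40 * L - (D1 * u + D2 * u ^ 2) = 2 ^ 40 * (L - (x1 * u + x2 * u ^ 2)) +
        ((2 ^ 40 * x1 - D1) * u + (2 ^ 40 * x2 - D2) * u ^ 2) := by ring
    have a1 : |(2 ^ 40 * x1 - D1) * u| ≤ 1 := by
      rw [abs_mul]; exact mul_le_one₀ f1 (abs_nonneg _) hu
    have a2 : |(2 ^ 40 * x2 - D2) * u ^ 2| ≤ 1 := by
      rw [abs_mul]; exact mul_le_one₀ f2 (abs_nonneg _) hu2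
    have a3 : |2 ^ 40 * (L - (x1 * u + x2 * u ^ 2))| ≤ (E1 : ℝ) + E2 + 2 := by
      rw [abs_mul, abs_of_pos (by positivity : (0 : ℝ) < 2 ^ 40)]
      exact (mul_le_mul_of_nonneg_left ht (by positivity)).trans g3
    rw [e]
    linarith [abs_add_le (2 ^ 40 * (L - (x1 * u + x2 * u ^ 2)))
      ((2 ^ 40 * x1 - D1) * u + (2 ^ 40 * x2 - D2) * u ^ 2),
      abs_add_le ((2 ^ 40 * x1 - D1) * u) ((2 ^ 40 * x2 - D2) * u ^ 2)]
  have g5 : (w : ℝ) * (2 ^ 40 * L - (D1 * u + D2 * u ^ 2)) ≤ |(w : ℝ)| * (E1 + E2 + 4) := by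
    refine (le_abs_self _).trans ?_
    rw [abs_mul]
    exact mul_le_mul_of_nonneg_left g4 (abs_nonneg _)
  have g6 : ((w.natAbs : Nat) : ℝ) = |(w : ℝ)| := by rw [Nat.cast_natAbs, Int.cast_abs]
  simp only [Nat.cast_add, Nat.cast_mul, Int.cast_add, Int.cast_mul, g6, Nat.cast_ofNat,
    Int.cast_ofNat]
  linarith

theorem ct_step1 {w : Int} {sh : Nat} {r0 i0 r1 i1 r2 i2 : Int} {A : Acc} {u : ℝ} (hu : |u| ≤ 1)
    {z : ℂ} (hz : z = ((r0 : ℂ) + i0 * Complex.I) + ((r1 : ℂ) + i1 * Complex.I) * u +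
      ((r2 : ℂ) + i2 * Complex.I) * (u : ℂ) ^ 2) (hz0 : z ≠ 0)
    (h : (step1 w sh r0 i0 r1 i1 r2 i2 A).ok = true) :
    A.ok = true ∧ w * 2 ^ 41 * Real.log (‖z‖ / 2 ^ sh) + ctEv A u ≤
      ctEv (step1 w sh r0 i0 r1 i1 r2 i2 A) u := by
  have hu' : ‖(u : ℂ)‖ ≤ 1 := by rwa [Complex.norm_real, Real.norm_eq_abs]
  have e1 : ‖((r1 : ℂ) + i1 * Complex.I) * u‖ ≤ nb r1 i1 := by
    rw [norm_mul]; exact (mul_le_of_le_one_right (norm_nonneg _) hu').trans (nb_ge _ _)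
  have e2 : ‖((r2 : ℂ) + i2 * Complex.I) * (u : ℂ) ^ 2‖ ≤ nb r2 i2 := by
    rw [norm_mul, norm_pow]
    exact (mul_le_of_le_one_right (norm_nonneg _) (pow_le_one₀ (norm_nonneg _) hu')).trans
      (nb_ge _ _)
  have hc : ‖(r0 : ℂ) + i0 * Complex.I‖ * ‖(r0 : ℂ) + i0 * Complex.I‖ =
      ((r0.natAbs * r0.natAbs + i0.natAbs * i0.natAbs : Nat) : ℝ) := by
    rw [← sq, Complex.sq_norm, Complex.normSq_apply]
    push_cast [Nat.cast_natAbs]
    rw [abs_mul_abs_self, abs_mul_abs_self]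
    simp
  have hcc : ((r0.natAbs * r0.natAbs + i0.natAbs * i0.natAbs : Nat) : ℂ) =
      ((r0 : ℂ) + i0 * Complex.I) * ((r0 : ℂ) - i0 * Complex.I) := by
    have : ((r0.natAbs * r0.natAbs + i0.natAbs * i0.natAbs : Nat) : ℤ) = r0 * r0 + i0 * i0 := by
      push_cast
      rw [abs_mul_abs_self, abs_mul_abs_self]
    have h' : ((r0.natAbs * r0.natAbs + i0.natAbs * i0.natAbs : Nat) : ℂ) =
        (((r0.natAbs * r0.natAbs + i0.natAbs * i0.natAbs : Nat) : ℤ) : ℂ) := (Int.cast_natCast _).symm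
    rw [h', this]
    push_cast
    linear_combination (i0 : ℂ) ^ 2 * Complex.I_sq
  unfold step1 step2 at h ⊢
  generalize r0.natAbs * r0.natAbs + i0.natAbs * i0.natAbs = n at h hc hcc ⊢
  by_cases hn : n = 0
  · rw [if_pos hn] at h ⊢
    refine ct_stepC hz0 ?_ u h
    have h0 : (r0 : ℂ) + i0 * Complex.I = 0 := by
      rw [hn, Nat.cast_zero, mul_self_eq_zero, norm_eq_zero] at hc
      exact hc
    rw [hz, h0, zero_add]
    push_cast
    exact (norm_add_le _ _).trans (add_le_add e1 e2)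
  · rw [if_neg hn] at h ⊢
    unfold step3 at h ⊢
    have hn0 : 0 < n := Nat.pos_of_ne_zero hn
    have hnC : (n : ℂ) ≠ 0 := by exact_mod_cast hn
    have hn' : (0 : ℝ) < n := by exact_mod_cast hn0
    split_ifs at h ⊢ with ho
    · refine ⟨h, ?_⟩
      have hb : ∀ p q : Int, ‖((p : ℂ) + q * Complex.I) / n‖ ≤
          ((nb p q * 2 ^ 40 / n + 1 : Nat) : ℝ) / 2 ^ 40 := fun p q => by
        have f := ct_nfloor (nb p q * 2 ^ 40) hn0
        rw [norm_div, Complex.norm_natCast, le_div_iff₀ (by positivity)]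
        rw [Nat.cast_add, Nat.cast_one]
        refine le_trans ?_ f
        rw [div_mul_eq_mul_div, Nat.cast_mul, Nat.cast_pow, Nat.cast_ofNat]
        gcongr
        exact nb_ge p q
      have hz' : z = ((r0 : ℂ) + i0 * Complex.I) * (1 +
          ((((r1 * r0 + i1 * i0 : Int) : ℂ) + ((i1 * r0 - r1 * i0 : Int) : ℂ) * Complex.I) / n * u +
          (((r2 * r0 + i2 * i0 : Int) : ℂ) + ((i2 * r0 - r2 * i0 : Int) : ℂ) * Complex.I) / n *
            (u : ℂ) ^ 2)) := by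
        have k : ∀ r i : Int, ((r0 : ℂ) + i0 * Complex.I) *
            ((((r * r0 + i * i0 : Int) : ℂ) + ((i * r0 - r * i0 : Int) : ℂ) * Complex.I) / n) =
            (r : ℂ) + i * Complex.I := fun r i => by
          rw [← mul_div_assoc, div_eq_iff hnC, hcc]
          push_cast
          linear_combination ((i : ℂ) * i0 * (r0 + i0 * Complex.I)) * Complex.I_sq
        rw [hz, mul_add, mul_add, ← mul_assoc, ← mul_assoc, k, k, mul_one, add_assoc]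
      rw [hz']
      refine ct_stepT hn0 hc rfl ?_ (hb _ _) (hb _ _) ho hu
      rw [Complex.div_natCast_re]; simp
    · refine ct_stepC hz0 ?_ u h
      rw [hz]
      push_cast
      exact (norm_add_le _ _).trans (add_le_add ((norm_add_le _ _).trans
        (add_le_add (nb_ge _ _) e1)) e2)

theorem ct_step {X R : Int} {t : Term} {A : Acc} {u y : ℝ} (hu : |u| ≤ 1) (hy : y = X + u * R)
    (h0 : t.poly y ≠ 0) (h : (step X R t A).ok = true) :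
    A.ok = true ∧ 2 ^ 61 * t.val y + ctEv A u ≤ ctEv (step X R t A) u := by
  have := ct_step1 (z := t.poly y) hu (by
    rw [Term.poly, hy]; push_cast; ring) h0 h
  refine ⟨this.1, le_trans (le_of_eq ?_) this.2⟩
  rw [Term.val]; ring

theorem ct_run {X R : Int} {u y : ℝ} (hu : |u| ≤ 1) (hy : y = X + u * R) (l : List Term)
    (h0 : ∀ t ∈ l, t.poly y ≠ 0) (A : Acc) (h : (run X R l A).ok = true) :
    A.ok = true ∧ 2 ^ 61 * (l.map fun t => t.val y).sum + ctEv A u ≤ ctEv (run X R l A) u := by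
  induction l generalizing A with
  | nil => exact ⟨h, by simp [run]⟩
  | cons t l ih =>
    rw [run] at h ⊢
    obtain ⟨h1, h2⟩ := ih (fun s hs => h0 s (List.mem_cons_of_mem _ hs)) _ h
    obtain ⟨h3, h4⟩ := ct_step hu hy (h0 t List.mem_cons_self) h1
    refine ⟨h3, ?_⟩
    rw [List.map_cons, List.sum_cons]
    linarith

theorem ct_acc {A : Acc} {M : Int} (h : accOk A M = true) {u : ℝ} (hu : |u| ≤ 1) :
    A.ok = true ∧ ctEv A u ≤ M := by
  simp only [accOk, Bool.and_eq_true, decide_eq_true_eq] at h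
  refine ⟨h.1, ?_⟩
  have h2 : (A.v : ℝ) + |(A.d1 : ℝ)| + ((A.d2.toNat : Int) : ℝ) + A.e ≤ M := by
    have := h.2
    rw [Int.natCast_natAbs] at this
    exact_mod_cast this
  have h3 : (A.d1 : ℝ) * u ≤ |(A.d1 : ℝ)| := by
    refine (le_abs_self _).trans ?_
    rw [abs_mul]; exact mul_le_of_le_one_right (abs_nonneg _) hu
  have h4 : (A.d2 : ℝ) * u ^ 2 ≤ ((A.d2.toNat : Int) : ℝ) := by
    have a1 : (A.d2 : ℝ) ≤ ((A.d2.toNat : Int) : ℝ) := by exact_mod_cast Int.self_le_toNat A.d2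
    have a2 : (0 : ℝ) ≤ ((A.d2.toNat : Int) : ℝ) := by exact_mod_cast Int.natCast_nonneg _
    have a3 : u ^ 2 ≤ 1 := by rw [← sq_abs]; exact pow_le_one₀ (abs_nonneg _) hu
    calc (A.d2 : ℝ) * u ^ 2 ≤ ((A.d2.toNat : Int) : ℝ) * u ^ 2 :=
          mul_le_mul_of_nonneg_right a1 (sq_nonneg u)
      _ ≤ _ := mul_le_of_le_one_right a2 a3
  unfold ctEv
  linarith

theorem Bd_one {l : List Term} {M a : Int} {R : Nat}
    (h : accOk (run (a + R) R l ⟨true, 0, 0, 0, 0⟩) M = true) : Bd l M a (a + 2 * R) := by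
  intro y hy1 hy2 h0
  push_cast at hy2
  obtain ⟨u, hu, hy⟩ : ∃ u : ℝ, |u| ≤ 1 ∧ y = ((a + R : Int) : ℝ) + u * ((R : Int) : ℝ) := by
    push_cast
    rcases Nat.eq_zero_or_pos R with hR | hR
    · subst hR
      refine ⟨0, by simp, ?_⟩
      simp only [Nat.cast_zero, mul_zero, add_zero] at hy2 ⊢
      linarith
    · have hR' : (0 : ℝ) < R := by exact_mod_cast hR
      refine ⟨(y - (a + R)) / R, ?_, by field_simp; ring⟩
      rw [abs_div, abs_of_pos hR', div_le_one hR', abs_le]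
      constructor <;> linarith
  obtain ⟨h1, h2⟩ := ct_acc h hu
  obtain ⟨-, h3⟩ := ct_run hu hy l h0 _ h1
  have h4 : ctEv ⟨true, 0, 0, 0, 0⟩ u = 0 := by simp [ctEv]
  rw [le_div_iff₀ (by positivity)]
  linarith

theorem Bd.trans {l : List Term} {M a b c : Int} (h1 : Bd l M a b) (h2 : Bd l M b c) :
    Bd l M a c := by
  intro y hy1 hy2 h0
  rcases le_total y b with h | h
  · exact h1 y hy1 h h0
  · exact h2 y h hy2 h0

theorem Bd_of_chk {l : List Term} {M a b : Int} {Rs : List Nat} (hne : Rs ≠ [])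
    (h : chk l M a Rs = true) (hb : b = a + 2 * (Rs.sum : Nat)) : Bd l M a b := by
  induction Rs generalizing a with
  | nil => exact absurd rfl hne
  | cons R Rs ih =>
    rw [chk, Bool.and_eq_true] at h
    by_cases hRs : Rs = []
    · subst hRs
      rw [hb]
      simpa using Bd_one h.1
    · refine (Bd_one h.1).trans (ih hRs h.2 ?_)
      rw [hb, List.sum_cons]
      push_cast
      ring

end Crest.Agent.R6
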