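import Mathlib

/-!
# Row 6 (Catalan's constant is irrational): definitions.  FROZEN (helper95).

`f = √(1-t²)`, `t = 2x/(1+x²)`.  `mm v = ∫_{-1}^1 |t| t^v / f`, `cc d = [t^d] 1/f`.
`∑_u mm(i+u)/(j+u+1) = M0 i j + 4 G cc(i-j)[j ≤ i] + (π²/4) cc(j-i-1)[i < j]`,
`∑_u 1/((i+u+1)(j+u+1)) = Z0 i j + ζ(2)[i = j]`.
Rows `m ∈ [-3N, 33N)`: `P = (1-t)^{2N} t^{47N-1} T_m(1/t)`, `D = (1-t)^{2N} t^{47N-1} U_{m-1}(1/t)`;
columns `s^{6N+k}(1-s)^{2N}`, `k < 36N`; entry `M(P,Q) - (3/2) Z(D,Q)` (the `π²` parts cancel).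
If `G = γ ∈ ℚ` the determinant `Delta γ N` is rational; it is `≤ exp(-2504.5 N²)` (`Upper`),
`≥ exp(-2504.3 N²)` when nonzero (`Lower`), and nonzero for large prime `N` (`FDet`).
-/

set_option autoImplicit false

namespace Crest.Agent.R6

open Polynomial Finset

/-- `cc d = binom(d, d/2)/2^d` for even `d`, `0` for odd `d` -/
def cc : ℕ → ℚ
  | 0 => 1
  | 1 => 0
  | (d + 2) => cc d * (d + 1) / (d + 2)

/-- `mm v = ∫_{-1}^1 |t| t^v/√(1-t²)` -/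
def mm : ℕ → ℚ
  | 0 => 2
  | 1 => 0
  | (v + 2) => mm v * (v + 2) / (v + 3)

/-- harmonic numbers -/
def HH (d : ℕ) : ℚ := ∑ l ∈ range d, 1 / ((l : ℚ) + 1)

/-- `∑_{l ≤ d, l odd} 1/l` -/
def OO (d : ℕ) : ℚ := ∑ l ∈ range d, if l % 2 = 0 then 1 / ((l : ℚ) + 1) else 0

/-- rational part of `∑_u mm(d+u)/(u+1)` -/
def AN (d : ℕ) : ℚ := mm (d - 1) * OO d + cc d / 2 * ∑ v ∈ range (d - 1), mm v ^ 2

/-- rational part of `∑_u mm u/(k+u+2)` -/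
def AP (k : ℕ) : ℚ :=
  mm (k - 1) * (∑ l ∈ range k, cc l / ((l : ℚ) + 1)) +
    cc k * ∑ l ∈ range (k - 1), mm l / ((l : ℚ) + 2)

/-- boundary term for `M` (with `G = γ`), `v = j + 1` -/
def BM (γ : ℚ) (i v : ℕ) : ℚ :=
  if v ≤ i + 1 then AN (i + 1 - v) + 4 * γ * cc (i + 1 - v) else AP (v - i - 2)

/-- boundary term for `Z`, `v = j + 1` -/
def BZ (i v : ℕ) : ℚ :=
  if v ≤ i + 1 then HH (i + 1 - v) / ((i + 1 - v : ℕ) : ℚ) else HH (v - i - 1) / ((v - i - 1 : ℕ) : ℚ)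

def lm (i v : ℕ) : ℚ := if v ≤ i then mm (i - v) else 0

def lz (i v : ℕ) : ℚ := if v ≤ i then 1 / (((i - v : ℕ) : ℚ) + 1) else 0

/-- `M(i,j)` without its `π²` part, with `G = γ`; `M0 = MG 0` -/
def MG (γ : ℚ) (i j : ℕ) : ℚ :=
  BM γ i (j + 1) - ∑ v ∈ Icc 1 j, lm i v / ((j + 1 - v : ℕ) : ℚ)

/-- `Z(i,j)` without its `ζ(2)` part -/
def Z0 (i j : ℕ) : ℚ := BZ i (j + 1) - ∑ v ∈ Icc 1 j, lz i v / ((j + 1 - v : ℕ) : ℚ)

/-- the coefficient of `π²/4` in `M(i,j)` -/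
def cpi (i j : ℕ) : ℚ := if i < j then cc (j - i - 1) else 0

/-- the coefficient of `4G` in `M(i,j)` -/
def cg (i j : ℕ) : ℚ := if j ≤ i then cc (i - j) else 0

/-- linear extension -/
def lin (f : ℕ → ℚ) (P : ℤ[X]) : ℚ := P.sum fun i a => (a : ℚ) * f i

/-- bilinear extension -/
def bil (f : ℕ → ℕ → ℚ) (P Q : ℤ[X]) : ℚ := lin (fun i => lin (f i) Q) P

noncomputable def rowP (N : ℕ) (m : ℤ) : ℤ[X] :=
  (1 - X) ^ (2 * N) * reflect (47 * N - 1) (Chebyshev.T ℤ m)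

noncomputable def rowD (N : ℕ) (m : ℤ) : ℤ[X] :=
  (1 - X) ^ (2 * N) * reflect (47 * N - 1) (Chebyshev.U ℤ (m - 1))

noncomputable def col (N : ℕ) (R : ℤ[X]) : ℤ[X] := X ^ (6 * N) * (1 - X) ^ (2 * N) * R

noncomputable def colQ (N k : ℕ) : ℤ[X] := col N (X ^ k)

/-- the pairing of a row `(P, D)` with a column `Q` -/
def Phi (γ : ℚ) (P D Q : ℤ[X]) : ℚ := bil (MG γ) P Q - 3 / 2 * bil Z0 D Q

noncomputable def Ent (γ : ℚ) (N : ℕ) (m : ℤ) (Q : ℤ[X]) : ℚ := Phi γ (rowP N m) (rowD N m) Q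

noncomputable def Delta (γ : ℚ) (N : ℕ) : ℚ :=
  Matrix.det (Matrix.of fun r k : Fin (36 * N) => Ent γ N ((r : ℕ) - 3 * (N : ℤ)) (colQ N k))

def Psi (γ : ℚ) (P D : ℤ[X]) (v : ℕ) : ℚ :=
  lin (fun i => BM γ i v) P - 3 / 2 * lin (fun i => BZ i v) D

def ell (P D : ℤ[X]) (v : ℕ) : ℚ := lin (fun i => lm i v) P - 3 / 2 * lin (fun i => lz i v) D

/-- the coefficients of `P` live in `[A, H)` -/
def Supp (A H : ℕ) (P : ℤ[X]) : Prop := ∀ i, i < A ∨ H ≤ i → P.coeff i = 0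

/-- the small matrix of the Frobenius reduction -/
noncomputable def Bm (μ : ℤ) (a : ℕ) : ℚ := Ent 0 1 μ (colQ 1 a)

noncomputable def Bdet (σ : ℚ) : ℚ :=
  Matrix.det (Matrix.of fun r a : Fin 36 => Bm ((r : ℕ) - 3) a + σ * Bm ((r : ℕ) - 2) a)

/-- `p`-integral rationals -/
def PI (p : ℕ) (x : ℚ) : Prop := padicNorm p x ≤ 1

/-- the exponent bound at the prime `p` -/
noncomputable def dl (N p : ℝ) : ℝ :=
  max (49 * N - p) 0 + max (44 * N - p) 0 + max (43 * N - p) 0 + max (30 * N - p) 0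
    - 2 * max (25.5 * N - p) 0 - 2 * max (24.5 * N - p) 0 + 2 * max (21.5 * N - p) 0
    - 2 * max (18.5 * N - p) 0

/-! ### real side -/

/-- Catalan's constant -/
noncomputable def GG : ℝ := ∑' j : ℕ, (-1 : ℝ) ^ j / ((2 * j + 1 : ℝ) ^ 2)

noncomputable def ff (t : ℝ) : ℝ := √(1 - t ^ 2)

noncomputable def xx (t : ℝ) : ℝ := t / (1 + ff t)

noncomputable def rho (N : ℕ) (m : ℤ) (t : ℝ) : ℝ :=
  |t| * aeval t (rowP N m) / ff t - if 0 < t then 3 / 2 * aeval t (rowD N m) else 0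

noncomputable def psi (Q : ℤ[X]) (t : ℝ) : ℝ := ∫ s in Set.Ioo (0 : ℝ) 1, (1 - t * s)⁻¹ * aeval s Q

/-- the `t`-domain -/
def St : Set ℝ := Set.Ioo (-1) 1 \ {0}

/-- Vandermonde product -/
def VV {K : Type} [CommRing K] {n : ℕ} (a : Fin n → K) : K := ∏ i, ∏ j ∈ Ioi i, (a j - a i)

/-- the symmetrised logarithmic kernel on the unit disc -/
noncomputable def kk (Z W : ℂ) : ℝ :=
  Real.log ‖1 - Z * (starRingEnd ℂ) W‖ + Real.log ‖1 - Z * W‖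

/-- the point of the unit circle above `ξ ∈ [-1,1]` -/
noncomputable def zeta (ξ : ℝ) : ℂ := (ξ : ℂ) + (√(1 - ξ ^ 2) : ℝ) * Complex.I

/-- a trial measure: finitely many weighted atoms in the open unit disc -/
structure Tr where
  k : ℕ
  w : Fin k → ℝ
  Y : Fin k → ℂ
  hY : ∀ a, ‖Y a‖ < 1

noncomputable def Tr.pot (T : Tr) (ξ : ℝ) : ℝ :=
  ∑ a, T.w a * Real.log ‖1 - 2 * (ξ : ℂ) * T.Y a + T.Y a ^ 2‖

noncomputable def Tr.en (T : Tr) : ℝ := -∑ a, ∑ b, T.w a * T.w b * kk (T.Y a) (T.Y b)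

noncomputable def xiX (x : ℝ) : ℝ := -(1 - x) ^ 2 / (3 * x ^ 2 + 2 * x + 3)

noncomputable def etaS (s : ℝ) : ℝ := (1 - s) / (1 + 3 * s)

noncomputable def Gx (α ε : ℝ) (T₁ T₂ : Tr) (x : ℝ) : ℝ :=
  14 * Real.log |x| + 47 * Real.log 2 - 49 * Real.log (1 + x ^ 2) + 4 * Real.log (1 - x)
    - α * (Real.log |x| + 1) + T₁.pot x + T₂.pot (xiX x) - ε * Real.log (-xiX x)

noncomputable def Gs (ε : ℝ) (T₂ T₃ : Tr) (s : ℝ) : ℝ :=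
  6 * Real.log s + 2 * Real.log (1 - s) + T₃.pot (2 * s - 1) - T₂.pot (etaS s)
    - ε * Real.log (etaS s)

/-- energy certificate (`α = 0` and `α = 12` are needed) -/
def Cert (α : ℝ) : Prop :=
  ∃ (T₁ T₂ T₃ : Tr) (ε Mx Ms : ℝ), 0 < ε ∧ (∀ x ∈ St, Gx α ε T₁ T₂ x ≤ Mx) ∧
    (∀ s ∈ Set.Ioo (0 : ℝ) 1, Gs ε T₂ T₃ s ≤ Ms) ∧
    36 * (Mx + Ms) + (T₁.en + T₂.en + T₃.en) / 2 - 1944 * Real.log 2 ≤ -2504.6

end Crest.Agent.R6
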