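import Crest.Agent.R6.Defs

/-!
# Row 6: the logarithmic kernel is negative definite.

`kk Z W = -∑_{m≥1} (2/m) re(Z^m) re(W^m)` (`Complex.hasSum_taylorSeries_neg_log`/`hasSum_taylorSeries_log`,
`Complex.log_re`), so `∑ c c kk = -∑_m (2/m)(∑_a c_a re(Z_a^m))² ≤ 0`.  `kk_lin`: apply `kk_nd` to the
family on `ι ⊕ Fin T.k` with weights `c` and `-M w`; `kk` is symmetric.
With `‖ζ‖ = 1`: `‖1 - ρ u‖² = (1-ρ)² + ρ ‖1 - u‖²` for `‖u‖ = 1`,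
`‖1 - ζ conj ζ'‖ ‖1 - ζ ζ'‖ = 2|ξ - ξ'|` (both factors `≤ 2`, hence both `≥ |ξ - ξ'|`),
`(1 - ζ Y)(1 - conj ζ Y) = 1 - 2ξY + Y²`, `‖1 - ρ w‖/‖1 - w‖ ∈ [(1+δ)⁻¹, 1 + δ]`,
`δ = (1-ρ)/(1-‖Y‖)`.
-/

set_option autoImplicit false

namespace Crest.Agent.R6

open Finset

theorem EN0_norm_conj (Z W : ℂ) :
    ‖1 - Z * (starRingEnd ℂ) W‖ = ‖1 - (starRingEnd ℂ) Z * W‖ := by
  rw [← Complex.norm_conj]
  simp

theorem kk_symm (Z W : ℂ) : kk Z W = kk W Z := by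
  unfold kk
  rw [EN0_norm_conj, mul_comm ((starRingEnd ℂ) Z), mul_comm Z W]

theorem EN0_hasSum_log {z : ℂ} (hz : ‖z‖ < 1) :
    HasSum (fun n : ℕ => (z ^ n).re / n) (-Real.log ‖1 - z‖) := by
  have h := Complex.hasSum_re (Complex.hasSum_taylorSeries_neg_log hz)
  rw [Complex.neg_re, Complex.log_re] at h
  convert h using 2 with n
  rw [Complex.div_natCast_re]

theorem EN0_hasSum_kk {Z W : ℂ} (hZ : ‖Z‖ < 1) (hW : ‖W‖ < 1) :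
    HasSum (fun n : ℕ => 2 / (n : ℝ) * ((Z ^ n).re * (W ^ n).re)) (-kk Z W) := by
  have h1 : ‖Z * (starRingEnd ℂ) W‖ < 1 := by
    rw [norm_mul, Complex.norm_conj]
    exact mul_lt_one_of_nonneg_of_lt_one_left (norm_nonneg _) hZ hW.le
  have h2 : ‖Z * W‖ < 1 := by
    rw [norm_mul]
    exact mul_lt_one_of_nonneg_of_lt_one_left (norm_nonneg _) hZ hW.le
  have h := (EN0_hasSum_log h1).add (EN0_hasSum_log h2)
  have e : -kk Z W = -Real.log ‖1 - Z * (starRingEnd ℂ) W‖ + -Real.log ‖1 - Z * W‖ := by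
    unfold kk
    ring
  rw [e]
  convert h using 2 with n
  rw [mul_pow, mul_pow, ← map_pow, Complex.mul_re, Complex.mul_re, Complex.conj_re,
    Complex.conj_im]
  ring

theorem kk_nd {ι : Type} [Fintype ι] (c : ι → ℝ) (Z : ι → ℂ) (hZ : ∀ a, ‖Z a‖ < 1) :
    ∑ a, ∑ b, c a * c b * kk (Z a) (Z b) ≤ 0 := by
  have h : HasSum (fun n : ℕ => ∑ a, ∑ b,
      c a * c b * (2 / (n : ℝ) * ((Z a ^ n).re * (Z b ^ n).re)))
      (∑ a, ∑ b, c a * c b * (-kk (Z a) (Z b))) :=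
    hasSum_sum fun a _ => hasSum_sum fun b _ => (EN0_hasSum_kk (hZ a) (hZ b)).mul_left _
  have h0 := h.nonneg fun n => by
    have e : ∑ a, ∑ b, c a * c b * (2 / (n : ℝ) * ((Z a ^ n).re * (Z b ^ n).re)) =
        2 / (n : ℝ) * (∑ a, c a * (Z a ^ n).re) ^ 2 := by
      rw [sq, sum_mul_sum, mul_sum]
      refine sum_congr rfl fun a _ => ?_
      rw [mul_sum]
      exact sum_congr rfl fun b _ => by ring
    rw [e]
    positivity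
  simp only [mul_neg, sum_neg_distrib] at h0
  linarith

theorem kk_lin {ι : Type} [Fintype ι] (c : ι → ℝ) (Z : ι → ℂ) (hZ : ∀ a, ‖Z a‖ < 1) (T : Tr)
    (M : ℝ) : ∑ a, ∑ b, c a * c b * kk (Z a) (Z b) ≤
      2 * M * ∑ a, c a * ∑ b, T.w b * kk (Z a) (T.Y b) + M ^ 2 * T.en := by
  have h := kk_nd (ι := ι ⊕ Fin T.k) (Sum.elim c fun b => -M * T.w b) (Sum.elim Z T.Y) (by
    rintro (a | b)
    · exact hZ a
    · exact T.hY b)
  simp only [Fintype.sum_sum_type, Sum.elim_inl, Sum.elim_inr, sum_add_distrib] at h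
  have e1 : ∑ a, ∑ b, c a * (-M * T.w b) * kk (Z a) (T.Y b) =
      -M * ∑ a, c a * ∑ b, T.w b * kk (Z a) (T.Y b) := by
    rw [mul_sum]
    refine sum_congr rfl fun a _ => ?_
    rw [mul_sum, mul_sum]
    exact sum_congr rfl fun b _ => by ring
  have e2 : ∑ b, ∑ a, (-M * T.w b) * c a * kk (T.Y b) (Z a) =
      -M * ∑ a, c a * ∑ b, T.w b * kk (Z a) (T.Y b) := by
    rw [← e1, sum_comm]
    exact sum_congr rfl fun a _ => sum_congr rfl fun b _ => by rw [kk_symm]; ring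
  have e3 : ∑ a, ∑ b, (-M * T.w a) * (-M * T.w b) * kk (T.Y a) (T.Y b) = -(M ^ 2 * T.en) := by
    unfold Tr.en
    rw [mul_neg, neg_neg, mul_sum]
    refine sum_congr rfl fun a _ => ?_
    rw [mul_sum]
    exact sum_congr rfl fun b _ => by ring
  rw [e1, e2, e3] at h
  linarith

theorem norm_zeta {ξ : ℝ} (h : |ξ| ≤ 1) : ‖zeta ξ‖ = 1 := by
  unfold zeta
  have h1 : 0 ≤ 1 - ξ ^ 2 := by
    have := (sq_le_one_iff_abs_le_one ξ).2 h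
    linarith
  rw [Complex.norm_add_mul_I, Real.sq_sqrt h1]
  simp

theorem EN0_fac {ξ : ℝ} (h : |ξ| ≤ 1) (Y : ℂ) :
    (1 - Y * (starRingEnd ℂ) (zeta ξ)) * (1 - Y * zeta ξ) = 1 - 2 * (ξ : ℂ) * Y + Y ^ 2 := by
  have h1 : zeta ξ * (starRingEnd ℂ) (zeta ξ) = 1 := by
    rw [Complex.mul_conj, Complex.normSq_eq_norm_sq, norm_zeta h]
    simp
  have h2 : zeta ξ + (starRingEnd ℂ) (zeta ξ) = 2 * (ξ : ℂ) := by
    rw [Complex.add_conj]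
    simp [zeta]
  linear_combination (-Y) * h2 + Y ^ 2 * h1

theorem EN0_prod {ξ ξ' : ℝ} (h : |ξ| ≤ 1) (h' : |ξ'| ≤ 1) :
    ‖1 - zeta ξ * (starRingEnd ℂ) (zeta ξ')‖ * ‖1 - zeta ξ * zeta ξ'‖ = 2 * |ξ - ξ'| := by
  have h1 : zeta ξ * (starRingEnd ℂ) (zeta ξ) = 1 := by
    rw [Complex.mul_conj, Complex.normSq_eq_norm_sq, norm_zeta h]
    simp
  have h2 : zeta ξ + (starRingEnd ℂ) (zeta ξ) = 2 * (ξ : ℂ) := by
    rw [Complex.add_conj]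
    simp [zeta]
  have e : 1 - 2 * (ξ' : ℂ) * zeta ξ + zeta ξ ^ 2 = zeta ξ * ((2 * (ξ - ξ') : ℝ) : ℂ) := by
    push_cast
    linear_combination zeta ξ * h2 - h1
  rw [← norm_mul, EN0_fac h', e, norm_mul, norm_zeta h, one_mul, Complex.norm_real,
    Real.norm_eq_abs, abs_mul, abs_two]

theorem EN0_kk_eq (ρ : ℝ) (a b : ℂ) : kk (ρ * a) (ρ * b) =
    Real.log ‖1 - ((ρ ^ 2 : ℝ) : ℂ) * (a * (starRingEnd ℂ) b)‖ +
      Real.log ‖1 - ((ρ ^ 2 : ℝ) : ℂ) * (a * b)‖ := by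
  unfold kk
  congr 4
  · rw [map_mul, Complex.conj_ofReal]
    push_cast
    ring
  · push_cast
    ring

theorem EN0_ge {ρ : ℝ} (h0 : 0 < ρ) {u : ℂ} (hu : ‖u‖ = 1) :
    ρ * ‖1 - u‖ ≤ ‖1 - ((ρ ^ 2 : ℝ) : ℂ) * u‖ := by
  refine (pow_le_pow_iff_left₀ (by positivity) (norm_nonneg _) two_ne_zero).1 ?_
  have h1 : u.re ^ 2 + u.im ^ 2 = 1 := by
    have := Complex.sq_norm u
    rw [hu, Complex.normSq_apply] at this
    linarith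
  rw [mul_pow, Complex.sq_norm, Complex.sq_norm, Complex.normSq_apply, Complex.normSq_apply]
  simp only [Complex.sub_re, Complex.sub_im, Complex.one_re, Complex.one_im, Complex.re_ofReal_mul,
    Complex.im_ofReal_mul]
  have e : (1 - ρ ^ 2 * u.re) * (1 - ρ ^ 2 * u.re) + (0 - ρ ^ 2 * u.im) * (0 - ρ ^ 2 * u.im) -
      ρ ^ 2 * ((1 - u.re) * (1 - u.re) + (0 - u.im) * (0 - u.im)) = (1 - ρ ^ 2) ^ 2 := by
    linear_combination (ρ ^ 4 - ρ ^ 2) * h1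
  nlinarith [sq_nonneg (1 - ρ ^ 2)]

theorem EN0_unit₁ {ξ ξ' : ℝ} (h : |ξ| ≤ 1) (h' : |ξ'| ≤ 1) :
    ‖zeta ξ * (starRingEnd ℂ) (zeta ξ')‖ = 1 := by
  rw [norm_mul, Complex.norm_conj, norm_zeta h, norm_zeta h', one_mul]

theorem EN0_unit₂ {ξ ξ' : ℝ} (h : |ξ| ≤ 1) (h' : |ξ'| ≤ 1) : ‖zeta ξ * zeta ξ'‖ = 1 := by
  rw [norm_mul, norm_zeta h, norm_zeta h', one_mul]

theorem kk_ge {ξ ξ' ρ : ℝ} (h : |ξ| ≤ 1) (h' : |ξ'| ≤ 1) (hne : ξ ≠ ξ') (h0 : 0 < ρ) (h1 : ρ < 1) :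
    Real.log 2 + Real.log |ξ - ξ'| + 2 * Real.log ρ ≤ kk (ρ * zeta ξ) (ρ * zeta ξ') := by
  have hd : 0 < |ξ - ξ'| := abs_pos.2 (sub_ne_zero.2 hne)
  have hp := EN0_prod h h'
  have hp0 : ‖1 - zeta ξ * (starRingEnd ℂ) (zeta ξ')‖ * ‖1 - zeta ξ * zeta ξ'‖ ≠ 0 := by
    rw [hp]; positivity
  have ha : 0 < ‖1 - zeta ξ * (starRingEnd ℂ) (zeta ξ')‖ :=
    lt_of_le_of_ne (norm_nonneg _) (left_ne_zero_of_mul hp0).symm
  have hb : 0 < ‖1 - zeta ξ * zeta ξ'‖ :=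
    lt_of_le_of_ne (norm_nonneg _) (right_ne_zero_of_mul hp0).symm
  have g1 := Real.log_le_log (by positivity) (EN0_ge h0 (EN0_unit₁ h h'))
  have g2 := Real.log_le_log (by positivity) (EN0_ge h0 (EN0_unit₂ h h'))
  rw [Real.log_mul h0.ne' ha.ne'] at g1
  rw [Real.log_mul h0.ne' hb.ne'] at g2
  have g3 := congrArg Real.log hp
  rw [Real.log_mul ha.ne' hb.ne', Real.log_mul two_ne_zero hd.ne'] at g3
  rw [EN0_kk_eq]
  linarith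

theorem EN0_low {w : ℂ} {r : ℝ} (hw : ‖w‖ ≤ r) : 1 - r ≤ ‖1 - w‖ := by
  have := norm_sub_norm_le (1 : ℂ) w
  rw [norm_one] at this
  linarith

theorem kk_diag {ξ ρ : ℝ} (h : |ξ| ≤ 1) (h0 : 0 < ρ) (h1 : ρ < 1) :
    2 * Real.log (1 - ρ) ≤ kk (ρ * zeta ξ) (ρ * zeta ξ) := by
  have key : ∀ u : ℂ, ‖u‖ = 1 → Real.log (1 - ρ) ≤ Real.log ‖1 - ((ρ ^ 2 : ℝ) : ℂ) * u‖ := by
    intro u hu
    refine Real.log_le_log (by linarith) (EN0_low ?_)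
    rw [norm_mul, hu, mul_one, Complex.norm_real, Real.norm_of_nonneg (by positivity)]
    nlinarith
  rw [EN0_kk_eq]
  have g1 := key _ (EN0_unit₁ h h)
  have g2 := key _ (EN0_unit₂ h h)
  linarith

theorem kk_le {ξ ξ' ρ : ℝ} (h : |ξ| ≤ 1) (h' : |ξ'| ≤ 1) (hne : ξ ≠ ξ') (h0 : 0 < ρ) (h1 : ρ < 1) :
    kk (ρ * zeta ξ) (ρ * zeta ξ') ≤
      Real.log 2 + Real.log |ξ - ξ'| + 2 * Real.log (1 + 2 * (1 - ρ) / |ξ - ξ'|) := by
  have hd : 0 < |ξ - ξ'| := abs_pos.2 (sub_ne_zero.2 hne)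
  have hp := EN0_prod h h'
  have two : ∀ u : ℂ, ‖u‖ = 1 → ‖1 - u‖ ≤ 2 := fun u hu => by
    have := norm_sub_le (1 : ℂ) u
    rw [norm_one, hu] at this
    linarith
  have a2 := two _ (EN0_unit₁ h h')
  have b2 := two _ (EN0_unit₂ h h')
  have ha : |ξ - ξ'| ≤ ‖1 - zeta ξ * (starRingEnd ℂ) (zeta ξ')‖ := by
    nlinarith [norm_nonneg (1 - zeta ξ * (starRingEnd ℂ) (zeta ξ'))]
  have hb : |ξ - ξ'| ≤ ‖1 - zeta ξ * zeta ξ'‖ := by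
    nlinarith [norm_nonneg (1 - zeta ξ * zeta ξ')]
  have hδ : 0 ≤ 2 * (1 - ρ) / |ξ - ξ'| := by
    have : 0 ≤ 1 - ρ := by linarith
    positivity
  have key : ∀ u : ℂ, ‖u‖ = 1 → |ξ - ξ'| ≤ ‖1 - u‖ →
      Real.log ‖1 - ((ρ ^ 2 : ℝ) : ℂ) * u‖ ≤
        Real.log ‖1 - u‖ + Real.log (1 + 2 * (1 - ρ) / |ξ - ξ'|) := by
    intro u hu hdu
    have hu0 : 0 < ‖1 - u‖ := hd.trans_le hdu
    rw [← Real.log_mul hu0.ne' (by positivity)]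
    have hpos : 0 < ‖1 - ((ρ ^ 2 : ℝ) : ℂ) * u‖ :=
      lt_of_lt_of_le (by positivity) (EN0_ge h0 hu)
    refine Real.log_le_log hpos ?_
    have e : 1 - ((ρ ^ 2 : ℝ) : ℂ) * u = (1 - u) + ((1 - ρ ^ 2 : ℝ) : ℂ) * u := by
      push_cast
      ring
    have g1 : ‖1 - ((ρ ^ 2 : ℝ) : ℂ) * u‖ ≤ ‖1 - u‖ + 2 * (1 - ρ) := by
      rw [e]
      refine (norm_add_le _ _).trans ?_
      rw [norm_mul, hu, mul_one, Complex.norm_real, Real.norm_of_nonneg (by nlinarith)]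
      nlinarith
    have g2 : 2 * (1 - ρ) ≤ ‖1 - u‖ * (2 * (1 - ρ) / |ξ - ξ'|) := by
      calc 2 * (1 - ρ) = |ξ - ξ'| * (2 * (1 - ρ) / |ξ - ξ'|) := by field_simp
        _ ≤ _ := mul_le_mul_of_nonneg_right hdu hδ
    rw [mul_add, mul_one]
    linarith
  have g1 := key _ (EN0_unit₁ h h') ha
  have g2 := key _ (EN0_unit₂ h h') hb
  have g3 := congrArg Real.log hp
  rw [Real.log_mul (hd.trans_le ha).ne' (hd.trans_le hb).ne',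
    Real.log_mul two_ne_zero hd.ne'] at g3
  rw [EN0_kk_eq]
  linarith

theorem EN0_log_sub {a b m d : ℝ} (hm : 0 < m) (ha : m ≤ a) (hb : m ≤ b) (hd : a - b ≤ d)
    (hd0 : 0 ≤ d) : Real.log a - Real.log b ≤ d / m := by
  have ha0 := hm.trans_le ha
  have hb0 := hm.trans_le hb
  rw [← Real.log_div ha0.ne' hb0.ne']
  refine (Real.log_le_sub_one_of_pos (by positivity)).trans ?_
  rw [div_sub_one hb0.ne']
  calc (a - b) / b ≤ d / b := by gcongr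
    _ ≤ d / m := by gcongr

theorem EN0_log_close {w : ℂ} {r ρ : ℝ} (hw : ‖w‖ ≤ r) (hr : r < 1) (h0 : 0 < ρ) (h1 : ρ < 1) :
    |Real.log ‖1 - (ρ : ℂ) * w‖ - Real.log ‖1 - w‖| ≤ (1 - ρ) / (1 - r) := by
  have hw0 := norm_nonneg w
  have ha : 1 - r ≤ ‖1 - (ρ : ℂ) * w‖ := by
    refine EN0_low ?_
    rw [norm_mul, Complex.norm_real, Real.norm_of_nonneg h0.le]
    nlinarith
  have hb := EN0_low hw
  have hd : |‖1 - (ρ : ℂ) * w‖ - ‖1 - w‖| ≤ 1 - ρ := by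
    refine (abs_norm_sub_norm_le _ _).trans ?_
    have e : 1 - (ρ : ℂ) * w - (1 - w) = ((1 - ρ : ℝ) : ℂ) * w := by
      push_cast
      ring
    rw [e, norm_mul, Complex.norm_real, Real.norm_of_nonneg (by linarith)]
    nlinarith
  obtain ⟨hd1, hd2⟩ := abs_le.1 hd
  have g1 := EN0_log_sub (d := 1 - ρ) (by linarith) ha hb hd2 (by linarith)
  have g2 := EN0_log_sub (d := 1 - ρ) (by linarith) hb ha (by linarith) (by linarith)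
  exact abs_le.2 ⟨by linarith, g1⟩

theorem pot_approx (T : Tr) : ∃ C : ℝ, 0 ≤ C ∧ ∀ ξ ρ : ℝ, |ξ| ≤ 1 → 0 < ρ → ρ < 1 →
    |∑ b, T.w b * kk (ρ * zeta ξ) (T.Y b) - T.pot ξ| ≤ C * (1 - ρ) := by
  refine ⟨∑ b, |T.w b| * (2 / (1 - ‖T.Y b‖)), sum_nonneg fun b _ => ?_, fun ξ ρ h h0 h1 => ?_⟩
  · have : 0 < 1 - ‖T.Y b‖ := by linarith [T.hY b]
    positivity
  · unfold Tr.pot
    rw [← sum_sub_distrib, sum_mul]
    refine (abs_sum_le_sum_abs _ _).trans (sum_le_sum fun b _ => ?_)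
    rw [← mul_sub, abs_mul, mul_assoc |T.w b|]
    refine mul_le_mul_of_nonneg_left ?_ (abs_nonneg _)
    have hY := T.hY b
    have n1 : ‖zeta ξ * (starRingEnd ℂ) (T.Y b)‖ ≤ ‖T.Y b‖ := by
      rw [norm_mul, Complex.norm_conj, norm_zeta h, one_mul]
    have n2 : ‖zeta ξ * T.Y b‖ ≤ ‖T.Y b‖ := by
      rw [norm_mul, norm_zeta h, one_mul]
    have g1' := EN0_log_close n1 hY h0 h1
    have g2' := EN0_log_close n2 hY h0 h1
    have g1 := abs_le.1 g1'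
    have g2 := abs_le.1 g2'
    have p1 : 0 < ‖1 - zeta ξ * (starRingEnd ℂ) (T.Y b)‖ :=
      lt_of_lt_of_le (by linarith) (EN0_low n1)
    have p2 : 0 < ‖1 - zeta ξ * T.Y b‖ := lt_of_lt_of_le (by linarith) (EN0_low n2)
    have e : Real.log ‖1 - 2 * (ξ : ℂ) * T.Y b + T.Y b ^ 2‖ =
        Real.log ‖1 - zeta ξ * (starRingEnd ℂ) (T.Y b)‖ + Real.log ‖1 - zeta ξ * T.Y b‖ := by
      rw [← Real.log_mul p1.ne' p2.ne', ← EN0_fac h, norm_mul, EN0_norm_conj (zeta ξ),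
        mul_comm (T.Y b), mul_comm (T.Y b)]
    have e2 : 2 / (1 - ‖T.Y b‖) * (1 - ρ) =
        (1 - ρ) / (1 - ‖T.Y b‖) + (1 - ρ) / (1 - ‖T.Y b‖) := by ring
    rw [e, e2]
    unfold kk
    rw [mul_assoc, mul_assoc]
    exact abs_le.2 ⟨by linarith [g1.1, g2.1], by linarith [g1.2, g2.2]⟩

end Crest.Agent.R6
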