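import Crest.Agent.R6.EN0
import Crest.Agent.R6.Cauchy

/-!
# Row 6: energy bound for one Vandermonde factor.

`n = 36N`, `ρ = 1 - 1/n`, `kk_lin` with `c = 1`, `M = N`; split the double sum into diagonal
(`kk_diag`) and off-diagonal terms (`kk_ge`, `log_abs_VV`):
`2 log|V| + n(n-1)(log 2 + 2 log ρ) + 2n log(1-ρ) ≤ 2N ∑ pot + 2 N n C/n + N² en`;
`log ρ ≥ -2/n`, and `N log N = o(N²)`.
-/

set_option autoImplicit false

namespace Crest.Agent.R6

open Finset Filter

theorem EN1_ev (K : ℝ) {ε : ℝ} (hε : 0 < ε) :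
    ∀ᶠ N : ℕ in atTop, 1 ≤ N ∧ K + 36 * Real.log (36 * N) ≤ ε * N := by
  have h1 := tendsto_natCast_atTop_atTop.eventually
    (Real.isLittleO_log_id_atTop.bound (by positivity : 0 < ε / 72))
  have h2 := (tendsto_natCast_atTop_atTop (R := ℝ)).eventually_ge_atTop
    ((K + 36 * Real.log 36) / (ε / 2))
  filter_upwards [h1, h2, eventually_ge_atTop 1] with N a b c
  have n0 : (0 : ℝ) < N := by exact_mod_cast c
  rw [div_le_iff₀ (by positivity)] at b
  rw [Real.norm_eq_abs, id, Real.norm_of_nonneg n0.le] at a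
  rw [Real.log_mul (by norm_num) n0.ne']
  exact ⟨c, by linarith [le_abs_self (Real.log N)]⟩

theorem energy_one (T : Tr) {ε : ℝ} (hε : 0 < ε) : ∀ᶠ N : ℕ in atTop, ∀ ξ : Fin (36 * N) → ℝ,
    (∀ i, |ξ i| ≤ 1) → Function.Injective ξ →
      Real.log |VV ξ| ≤ N * ∑ i, T.pot (ξ i) + (N : ℝ) ^ 2 * (T.en / 2 - 648 * Real.log 2 + ε) := by
  obtain ⟨C, -, hC⟩ := pot_approx T
  filter_upwards [EN1_ev (C + 18 * Real.log 2 + 36) hε] with N ⟨N1, hN⟩ ξ hξ hi
  have n1 : (1 : ℝ) ≤ N := by exact_mod_cast N1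
  obtain ⟨n, hn⟩ : ∃ n : ℝ, n = 36 * N := ⟨_, rfl⟩
  have n2 : 36 ≤ n := by linarith
  have n0 : 0 < n := by linarith
  have n3 : n - 1 ≠ 0 := by linarith
  obtain ⟨ρ, hρ⟩ : ∃ ρ : ℝ, ρ = 1 - 1 / n := ⟨_, rfl⟩
  have i1 : 1 / n < 1 := (div_lt_one n0).2 (by linarith)
  have i0 : 0 < 1 / n := by positivity
  have r0 : 0 < ρ := by linarith
  have r1 : ρ < 1 := by linarith
  have l1 : Real.log (1 - ρ) = -Real.log n := by rw [hρ, sub_sub_cancel, one_div, Real.log_inv]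
  have l2 : -1 ≤ (n - 1) * Real.log ρ := by
    have := mul_le_mul_of_nonneg_left (Real.one_sub_inv_le_log_of_pos r0) (by linarith : 0 ≤ n - 1)
    refine le_trans (le_of_eq ?_) this
    rw [hρ]
    field_simp
    ring
  have up := kk_lin (fun _ => 1) (fun i => (ρ : ℂ) * zeta (ξ i)) (fun i => by
    rw [norm_mul, norm_zeta (hξ i), mul_one, Complex.norm_real, Real.norm_of_nonneg r0.le]
    exact r1) T N
  simp only [one_mul] at up
  have cn : ((36 * N : ℕ) : ℝ) = n := by rw [hn, Nat.cast_mul, Nat.cast_ofNat]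
  have a1 : ∑ i, ∑ b, T.w b * kk (ρ * zeta (ξ i)) (T.Y b) ≤ ∑ i, T.pot (ξ i) + C := by
    refine (sum_le_sum (g := fun i => T.pot (ξ i) + C * (1 / n)) fun i _ => ?_).trans_eq ?_
    · have := (abs_le.1 (hC _ ρ (hξ i) r0 r1)).2
      rw [show 1 - ρ = 1 / n by linarith] at this
      linarith
    · rw [sum_add_distrib, sum_const, card_univ, Fintype.card_fin, nsmul_eq_mul, cn]
      field_simp
  have a2 : 2 * Real.log |VV ξ| + n * (2 * Real.log (1 - ρ) + (n - 1) * (Real.log 2 + 2 * Real.log ρ)) ≤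
      ∑ i, ∑ j, kk (ρ * zeta (ξ i)) (ρ * zeta (ξ j)) := by
    refine le_trans (le_of_eq ?_) (sum_le_sum (f := fun i => ∑ j ∈ univ.erase i, Real.log |ξ i - ξ j| +
      (2 * Real.log (1 - ρ) + (n - 1) * (Real.log 2 + 2 * Real.log ρ))) fun i _ => ?_)
    · rw [sum_add_distrib, sum_const, card_univ, Fintype.card_fin, nsmul_eq_mul, cn, log_abs_VV hi]
    · rw [← add_sum_erase _ _ (mem_univ i)]
      have b1 := kk_diag (hξ i) r0 r1
      have b2 := sum_le_sum (s := univ.erase i) fun j hj =>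
        kk_ge (hξ i) (hξ j) (fun e => (mem_erase.1 hj).1 (hi e).symm) r0 r1
      simp only [sum_add_distrib, sum_const, card_erase_of_mem (mem_univ i), card_univ, Fintype.card_fin,
        nsmul_eq_mul] at b2
      rw [Nat.cast_sub (by omega), cn, Nat.cast_one] at b2
      linarith
  have a3 := mul_le_mul_of_nonneg_left a1 (by linarith : 0 ≤ 2 * (N : ℝ))
  have a4 := mul_le_mul_of_nonneg_left hN (by linarith : 0 ≤ (N : ℝ))
  have a5 := mul_le_mul_of_nonneg_left l2 n0.le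
  rw [l1] at a2
  subst hn
  nlinarith

end Crest.Agent.R6
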