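import Crest.Agent.R6.EN0
import Crest.Agent.R6.Cauchy

/-!
# Row 6: energy bound for the Cauchy factor.

`n = 36N`; charges `+1` at `ξ_i < 0`, `-1` at `η_j > 0` (index type `Fin n ⊕ Fin n`), `M = N`.
Let `ℓ_i = -log(-ξ_i) ≥ 0`, `ℓ'_j = -log η_j ≥ 0`, `S = ∑ℓ + ∑ℓ'`, `e > 0` a small constant
(depending on `ε, ε'`), `θ = exp(-S/(e n))`, `1 - ρ = δ = θ/n³`.  By Markov at most `e n` indices have
`-ξ_i < θ`, at most `e n` have `η_j < θ`.  `kk_lin`, `kk_ge`, `kk_diag`, `kk_le` give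
`2 log|Vξ| + 2 log|Vη| - 2∑∑ log(η_j - ξ_i) ≤ 2N(∑pot ξ - ∑ pot η) + N² en + 2n log 2
 - 4n² log ρ - 4n log δ + 4 N n C δ + 4 ∑∑ log(1 + 2δ/(η_j - ξ_i))`.
A pair with `-ξ_i ≥ θ` or `η_j ≥ θ` contributes `≤ 2/n³`; the other pairs (at most `e n` values of
`j`, at most `(e n)²` pairs) contribute `≤ log 3 + ℓ_i`.  `-4n log δ = 12 n log n + 4S/e`.
So the coefficient of `S` is `4/e + 4 e n ≤ 2 ε' N` for `e ≤ ε'/200`, `N` large.
-/

set_option autoImplicit false

namespace Crest.Agent.R6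

open Finset Filter

theorem en2_pair {x y L m : ℝ} (hx : -1 ≤ x) (hx0 : x < 0) (hy0 : 0 < y) (hy : y ≤ 1) (hL : 0 < L)
    (hm : 0 < m) :
    Real.log (1 + 2 * (Real.exp (-L) / m) / |x - y|) ≤
      2 / m + (-Real.log (-x)) * (-Real.log y) / L := by
  have ha : 0 ≤ -Real.log (-x) := by
    have := Real.log_nonpos (x := -x) (by linarith) (by linarith); linarith
  have hb : 0 ≤ -Real.log y := by
    have := Real.log_nonpos (x := y) (by linarith) hy; linarith
  have hxa : Real.exp (-(-Real.log (-x))) = -x := by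
    rw [neg_neg, Real.exp_log (by linarith)]
  have hyb : Real.exp (-(-Real.log y)) = y := by
    rw [neg_neg, Real.exp_log hy0]
  generalize -Real.log (-x) = a at ha hxa
  generalize -Real.log y = b at hb hyb
  have habs : |x - y| = y - x := by rw [abs_sub_comm, abs_of_pos (by linarith)]
  rw [habs]
  have hd : 0 < y - x := by linarith
  have hE := Real.exp_pos (-L)
  have hab : 0 ≤ a * b / L := by positivity
  by_cases hc : a ≤ L ∨ b ≤ L
  · have h1 : Real.exp (-L) ≤ y - x := by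
      rcases hc with hc | hc
      · have : Real.exp (-L) ≤ Real.exp (-a) := Real.exp_le_exp.mpr (by linarith)
        linarith
      · have : Real.exp (-L) ≤ Real.exp (-b) := Real.exp_le_exp.mpr (by linarith)
        linarith
    have h2 : 2 * (Real.exp (-L) / m) / (y - x) ≤ 2 / m := by
      rw [div_le_iff₀ hd]
      have : 2 * (Real.exp (-L) / m) = 2 / m * Real.exp (-L) := by ring
      rw [this]
      exact mul_le_mul_of_nonneg_left h1 (by positivity)
    have h3 : Real.log (1 + 2 * (Real.exp (-L) / m) / (y - x)) ≤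
        (1 + 2 * (Real.exp (-L) / m) / (y - x)) - 1 :=
      Real.log_le_sub_one_of_pos (by positivity)
    linarith
  · push Not at hc
    obtain ⟨h1, h2⟩ := hc
    have hL1 : Real.exp (-L) ≤ 1 := Real.exp_le_one_iff.mpr (by linarith)
    have hea : 1 ≤ Real.exp a := Real.one_le_exp ha
    have h3 : 2 * (Real.exp (-L) / m) / (y - x) ≤ 2 / m * Real.exp a := by
      rw [div_le_iff₀ hd]
      have e1 : Real.exp a * Real.exp (-a) = 1 := by rw [← Real.exp_add]; simp
      have e2 : 1 ≤ Real.exp a * (y - x) := by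
        rw [← e1]
        exact mul_le_mul_of_nonneg_left (by linarith) (by positivity)
      calc 2 * (Real.exp (-L) / m) = 2 / m * Real.exp (-L) := by ring
        _ ≤ 2 / m * (Real.exp a * (y - x)) :=
          mul_le_mul_of_nonneg_left (by linarith) (by positivity)
        _ = 2 / m * Real.exp a * (y - x) := by ring
    have h4 : 1 + 2 * (Real.exp (-L) / m) / (y - x) ≤ (1 + 2 / m) * Real.exp a := by
      nlinarith
    have h5 : Real.log (1 + 2 * (Real.exp (-L) / m) / (y - x)) ≤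
        Real.log ((1 + 2 / m) * Real.exp a) := Real.log_le_log (by positivity) h4
    rw [Real.log_mul (by positivity) (by positivity), Real.log_exp] at h5
    have h6 : Real.log (1 + 2 / m) ≤ (1 + 2 / m) - 1 := Real.log_le_sub_one_of_pos (by positivity)
    have h7 : a ≤ a * b / L := by
      rw [le_div_iff₀ hL]
      exact mul_le_mul_of_nonneg_left h2.le ha
    linarith

theorem en2_like {n : ℕ} {ξ : Fin n → ℝ} (h : ∀ i, |ξ i| ≤ 1) (hi : Function.Injective ξ) {ρ : ℝ}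
    (h0 : 0 < ρ) (h1 : ρ < 1) :
    2 * Real.log |VV ξ| + (n : ℝ) * ((n : ℝ) - 1) * (Real.log 2 + 2 * Real.log ρ) +
        2 * n * Real.log (1 - ρ) ≤
      ∑ i, ∑ j, kk (ρ * zeta (ξ i)) (ρ * zeta (ξ j)) := by
  have key : ∀ i, ∑ j ∈ univ.erase i, Real.log |ξ i - ξ j| +
      ((n : ℝ) - 1) * (Real.log 2 + 2 * Real.log ρ) + 2 * Real.log (1 - ρ) ≤
      ∑ j, kk (ρ * zeta (ξ i)) (ρ * zeta (ξ j)) := by
    intro i
    rw [← add_sum_erase _ _ (mem_univ i)]
    have e1 := kk_diag (h i) h0 h1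
    have e2 : ∑ j ∈ univ.erase i, (Real.log 2 + Real.log |ξ i - ξ j| + 2 * Real.log ρ) ≤
        ∑ j ∈ univ.erase i, kk (ρ * zeta (ξ i)) (ρ * zeta (ξ j)) := by
      apply sum_le_sum
      intro j hj
      exact kk_ge (h i) (h j) (fun e => (ne_of_mem_erase hj) (hi e).symm) h0 h1
    have hn : 1 ≤ n := by have := i.pos; omega
    have e3 : ∑ j ∈ univ.erase i, (Real.log 2 + Real.log |ξ i - ξ j| + 2 * Real.log ρ) =
        ∑ j ∈ univ.erase i, Real.log |ξ i - ξ j| +
          ((n : ℝ) - 1) * (Real.log 2 + 2 * Real.log ρ) := by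
      rw [sum_add_distrib, sum_add_distrib, sum_const, sum_const, card_erase_of_mem (mem_univ i),
        card_univ, Fintype.card_fin, nsmul_eq_mul, nsmul_eq_mul, Nat.cast_sub hn]
      push_cast
      ring
    linarith
  have := sum_le_sum (s := univ) fun i _ => key i
  rw [sum_add_distrib, sum_add_distrib, sum_const, sum_const, card_univ, Fintype.card_fin,
    nsmul_eq_mul, nsmul_eq_mul, ← log_abs_VV hi] at this
  linarith

theorem en2_core (T : Tr) {C : ℝ} (hC : ∀ ξ ρ : ℝ, |ξ| ≤ 1 → 0 < ρ → ρ < 1 →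
      |∑ b, T.w b * kk (ρ * zeta ξ) (T.Y b) - T.pot ξ| ≤ C * (1 - ρ))
    {n : ℕ} {ξ η : Fin n → ℝ} (hξ : ∀ i, -1 ≤ ξ i ∧ ξ i < 0) (hη : ∀ j, 0 < η j ∧ η j ≤ 1)
    (hiξ : Function.Injective ξ) (hiη : Function.Injective η) {M δ : ℝ} (hM : 0 ≤ M)
    (h0 : 0 < δ) (h1 : δ < 1) :
    2 * Real.log |VV ξ| + 2 * Real.log |VV η| - 2 * ∑ i, ∑ j, Real.log (η j - ξ i) ≤
      2 * M * (∑ i, T.pot (ξ i) - ∑ j, T.pot (η j)) + M ^ 2 * T.en + 2 * n * Real.log 2
        - 4 * ((n : ℝ) * ((n : ℝ) - 1)) * Real.log (1 - δ) - 4 * n * Real.log δ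
        + 4 * M * n * C * δ + 4 * ∑ i, ∑ j, Real.log (1 + 2 * δ / |ξ i - η j|) := by
  set ρ : ℝ := 1 - δ with hρ
  have hρ0 : 0 < ρ := by linarith
  have hρ1 : ρ < 1 := by linarith
  have hδ : 1 - ρ = δ := by ring
  have hξ1 : ∀ i, |ξ i| ≤ 1 := fun i => abs_le.mpr ⟨(hξ i).1, by linarith [(hξ i).2]⟩
  have hη1 : ∀ j, |η j| ≤ 1 := fun j => abs_le.mpr ⟨by linarith [(hη j).1], (hη j).2⟩
  have hZ : ∀ x : ℝ, |x| ≤ 1 → ‖(ρ : ℂ) * zeta x‖ < 1 := by
    intro x hx
    rw [norm_mul, norm_zeta hx, mul_one, Complex.norm_real, Real.norm_eq_abs, abs_of_pos hρ0]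
    exact hρ1
  have hl := kk_lin (ι := Fin n ⊕ Fin n) (Sum.elim (fun _ => 1) (fun _ => -1))
    (Sum.elim (fun i => (ρ : ℂ) * zeta (ξ i)) (fun j => (ρ : ℂ) * zeta (η j)))
    (by
      rintro (i | j)
      · exact hZ _ (hξ1 i)
      · exact hZ _ (hη1 j)) T M
  simp only [Fintype.sum_sum_type, Sum.elim_inl, Sum.elim_inr, one_mul, mul_one, neg_mul, mul_neg,
    neg_neg, sum_add_distrib, sum_neg_distrib] at hl
  have hsw : ∑ j, ∑ i, kk (ρ * zeta (η j)) (ρ * zeta (ξ i)) =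
      ∑ i, ∑ j, kk (ρ * zeta (ξ i)) (ρ * zeta (η j)) := by
    rw [sum_comm]
    exact sum_congr rfl fun i _ => sum_congr rfl fun j _ => kk_symm _ _
  rw [hsw] at hl
  have l1 := en2_like hξ1 hiξ hρ0 hρ1
  have l2 := en2_like hη1 hiη hρ0 hρ1
  have l3 : ∑ i, ∑ j, kk (ρ * zeta (ξ i)) (ρ * zeta (η j)) ≤
      ∑ i, ∑ j, (Real.log 2 + Real.log (η j - ξ i) +
        2 * Real.log (1 + 2 * δ / |ξ i - η j|)) := by
    refine sum_le_sum fun i _ => sum_le_sum fun j _ => ?_
    have hlt : ξ i < η j := by linarith [(hξ i).2, (hη j).1]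
    have := kk_le (hξ1 i) (hη1 j) hlt.ne hρ0 hρ1
    rw [hδ] at this
    have e : |ξ i - η j| = η j - ξ i := by rw [abs_sub_comm, abs_of_pos (by linarith)]
    rw [e] at this ⊢
    exact this
  simp only [sum_add_distrib, sum_const, card_univ, Fintype.card_fin, nsmul_eq_mul,
    ← mul_sum] at l3
  have p1 : ∑ i, ∑ b, T.w b * kk (ρ * zeta (ξ i)) (T.Y b) ≤ ∑ i, (T.pot (ξ i) + C * δ) := by
    refine sum_le_sum fun i _ => ?_
    have := (abs_le.mp (hC _ ρ (hξ1 i) hρ0 hρ1)).2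
    rw [hδ] at this
    linarith
  have p2 : ∑ j, (T.pot (η j) - C * δ) ≤ ∑ j, ∑ b, T.w b * kk (ρ * zeta (η j)) (T.Y b) := by
    refine sum_le_sum fun j _ => ?_
    have := (abs_le.mp (hC _ ρ (hη1 j) hρ0 hρ1)).1
    rw [hδ] at this
    linarith
  rw [sum_add_distrib, sum_const, card_univ, Fintype.card_fin, nsmul_eq_mul] at p1
  rw [sum_sub_distrib, sum_const, card_univ, Fintype.card_fin, nsmul_eq_mul] at p2
  have p3 := mul_le_mul_of_nonneg_left (add_le_add p1 (neg_le_neg p2)) (by linarith : 0 ≤ 2 * M)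
  rw [hδ] at l1 l2
  nlinarith

theorem energy_two (T : Tr) {ε ε' : ℝ} (hε : 0 < ε) (hε' : 0 < ε') :
    ∀ᶠ N : ℕ in atTop, ∀ ξ η : Fin (36 * N) → ℝ, (∀ i, -1 ≤ ξ i ∧ ξ i < 0) →
      (∀ j, 0 < η j ∧ η j ≤ 1) → Function.Injective ξ → Function.Injective η →
      Real.log |VV ξ| + Real.log |VV η| - ∑ i, ∑ j, Real.log (η j - ξ i) ≤
        N * ∑ i, (T.pot (ξ i) - ε' * Real.log (-ξ i)) +
          N * ∑ j, (-T.pot (η j) - ε' * Real.log (η j)) + (N : ℝ) ^ 2 * (T.en / 2 + ε) := by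
  obtain ⟨C, hC0, hC⟩ := pot_approx T
  have hev : ∀ K c : ℝ, 0 < c → ∀ᶠ N : ℕ in atTop, K ≤ c * N := by
    intro K c hc
    filter_upwards [eventually_ge_atTop ⌈K / c⌉₊] with N hN
    have h1 : K / c ≤ N := (Nat.le_ceil _).trans (by exact_mod_cast hN)
    rw [div_le_iff₀ hc] at h1
    linarith
  filter_upwards [eventually_ge_atTop 1, hev (576 / ε') ε' hε',
    hev (72 * Real.log 2 + 576 + ε' + 4 * C + 144 * Real.log 36 - 144 * Real.log (ε / 144)) ε hε]
    with N hN1 hN2 hN3 ξ η hξ hη hiξ hiη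
  have hN : (1 : ℝ) ≤ N := by exact_mod_cast hN1
  have ha : ∀ i, 0 ≤ -Real.log (-ξ i) := fun i => by
    have := Real.log_nonpos (x := -ξ i) (by linarith [(hξ i).2]) (by linarith [(hξ i).1])
    linarith
  have hb : ∀ j, 0 ≤ -Real.log (η j) := fun j => by
    have := Real.log_nonpos (x := η j) (hη j).1.le (hη j).2
    linarith
  set A : ℝ := ∑ i, -Real.log (-ξ i) with hA
  set B : ℝ := ∑ j, -Real.log (η j) with hB
  have hA0 : 0 ≤ A := sum_nonneg fun i _ => ha i
  have hB0 : 0 ≤ B := sum_nonneg fun j _ => hb j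
  set m : ℝ := 36 * N with hm
  have hm36 : 36 ≤ m := by linarith
  have hm0 : 0 < m := by linarith
  set L : ℝ := 4 * (A + B + 1) / (ε' * N) with hL
  have hL0 : 0 < L := by positivity
  set δ : ℝ := Real.exp (-L) / m with hδ
  have hE := Real.exp_pos (-L)
  have hE1 : Real.exp (-L) ≤ 1 := Real.exp_le_one_iff.mpr (by linarith)
  have hδ0 : 0 < δ := by positivity
  have hδm : δ * m ≤ 1 := by rw [hδ, div_mul_cancel₀ _ hm0.ne']; exact hE1
  have hδ1 : δ ≤ 1 / 2 := by nlinarith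
  have core := en2_core T hC hξ hη hiξ hiη (M := N) (δ := δ) (by linarith) hδ0 (by linarith)
  have hcast : ((36 * N : ℕ) : ℝ) = m := by rw [hm]; push_cast; ring
  rw [hcast] at core
  -- the pair sum
  have s1 : ∑ i, ∑ j, Real.log (1 + 2 * δ / |ξ i - η j|) ≤
      ∑ i, ∑ j, (2 / m + (-Real.log (-ξ i)) * (-Real.log (η j)) / L) :=
    sum_le_sum fun i _ => sum_le_sum fun j _ =>
      en2_pair (hξ i).1 (hξ i).2 (hη j).1 (hη j).2 hL0 hm0
  have s2 : ∑ i, ∑ j, (2 / m + (-Real.log (-ξ i)) * (-Real.log (η j)) / L) =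
      2 * m + A * B / L := by
    simp only [sum_add_distrib, sum_const, card_univ, Fintype.card_fin, nsmul_eq_mul, hcast]
    rw [hA, hB, sum_mul_sum, sum_div]
    congr 1
    · field_simp
    · exact sum_congr rfl fun i _ => by rw [sum_div]
  have s3 : A * B / L ≤ ε' * N * (A + B) / 4 := by
    rw [div_le_iff₀ hL0, hL]
    have : ε' * N * (A + B) / 4 * (4 * (A + B + 1) / (ε' * N)) = (A + B) * (A + B + 1) := by
      field_simp
    rw [this]
    nlinarith [mul_nonneg hA0 hB0]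
  -- log (1 - δ)
  have s4 : -(2 * δ) ≤ Real.log (1 - δ) := by
    have h1 : 0 < 1 - δ := by linarith
    have h2 := Real.one_sub_inv_le_log_of_pos h1
    have h3 : (1 - δ)⁻¹ ≤ 1 + 2 * δ := by
      rw [inv_eq_one_div, div_le_iff₀ h1]; nlinarith
    linarith
  have s5 : -4 * (m * (m - 1)) * Real.log (1 - δ) ≤ 8 * m := by
    have h1 : 0 ≤ m * (m - 1) := by nlinarith
    have h2 := mul_le_mul_of_nonneg_left s4 h1
    nlinarith
  have s6 : Real.log δ = -L - Real.log m := by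
    rw [hδ, Real.log_div hE.ne' hm0.ne', Real.log_exp]
  have s7 : 4 * m * L ≤ ε' * N * (A + B + 1) := by
    have e1 : 4 * m * L = 576 / ε' * (A + B + 1) := by
      rw [hm, hL]; field_simp; ring
    rw [e1]
    exact mul_le_mul_of_nonneg_right hN2 (by linarith)
  have s8 : Real.log m ≤ Real.log 36 + (ε / 144 * N - Real.log (ε / 144)) := by
    rw [hm, Real.log_mul (by norm_num) (by linarith)]
    have h1 : Real.log (ε / 144 * N) ≤ ε / 144 * N - 1 :=
      Real.log_le_sub_one_of_pos (by positivity)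
    rw [Real.log_mul (by positivity) (by linarith)] at h1
    linarith
  have s9 : 4 * N * m * C * δ ≤ 4 * N * C := by
    have : 4 * N * m * C * δ = 4 * N * C * (δ * m) := by ring
    rw [this]
    exact mul_le_of_le_one_right (by positivity) hδm
  have g1 : ∑ i, (T.pot (ξ i) - ε' * Real.log (-ξ i)) = ∑ i, T.pot (ξ i) + ε' * A := by
    rw [hA, mul_sum, ← sum_add_distrib]
    exact sum_congr rfl fun i _ => by ring
  have g2 : ∑ j, (-T.pot (η j) - ε' * Real.log (η j)) = -∑ j, T.pot (η j) + ε' * B := by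
    rw [hB, mul_sum, ← sum_neg_distrib, ← sum_add_distrib]
    exact sum_congr rfl fun i _ => by ring
  rw [g1, g2]
  rw [s6] at core
  have t1 := mul_le_mul_of_nonneg_left hN3 (by linarith : (0 : ℝ) ≤ N)
  have t2 := mul_le_mul_of_nonneg_left s8 (by linarith : (0 : ℝ) ≤ 4 * m)
  rw [hm] at t2 core s5 s7 s9 s2
  nlinarith

end Crest.Agent.R6
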