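import Crest.Agent.R6.PBasic
import Crest.Agent.R6.Seq

/-!
# Row 6: crude `p`-adic bounds (odd `p`).

All monomial bounds follow from `pn_cc`, `pn_mm`, `pn_inv_nat` (`Nat.log_mono_right`) and the
ultrametric lemmas.  `delta_triv`: `pn_det_le_pot` is for powers of `p`; here expand the determinant
directly (`Matrix.det_apply`, `pn_sum_le`, product of `36N` factors `≤ t`), using
`rowP_supp'`, `rowD_supp'`, `colQ_supp'` and `pn_bil_le` (`N = 0` is trivial).
-/

set_option autoImplicit false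

namespace Crest.Agent.R6

open Polynomial Finset

variable {p : ℕ} [Fact p.Prime]

theorem ploc_one_le (k : ℕ) : (1 : ℚ) ≤ (p : ℚ) ^ k :=
  one_le_pow₀ (by exact_mod_cast (Fact.out : p.Prime).one_le)

theorem ploc_inv {l X : ℕ} (h : l + 1 ≤ X) :
    padicNorm p (1 / ((l : ℚ) + 1)) ≤ (p : ℚ) ^ Nat.log p X := by
  simpa using pn_inv_nat (p := p) h

theorem ploc_mm {v X : ℕ} (h : v + 1 ≤ X) : padicNorm p (mm v) ≤ (p : ℚ) ^ Nat.log p X :=
  (pn_mm v).trans (pow_le_pow_right₀ (by exact_mod_cast (Fact.out : p.Prime).one_le)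
    (Nat.log_mono_right h))

theorem ploc_mm' {d X : ℕ} (h : d ≤ X) : padicNorm p (mm (d - 1)) ≤ (p : ℚ) ^ Nat.log p X := by
  rcases d with _ | d
  · refine (pn_mm _).trans ?_
    simpa using ploc_one_le _
  · exact ploc_mm h

theorem ploc_mul {x y : ℚ} {k : ℕ} (hx : padicNorm p x ≤ (p : ℚ) ^ k)
    (hy : padicNorm p y ≤ (p : ℚ) ^ k) : padicNorm p (x * y) ≤ (p : ℚ) ^ (2 * k) := by
  rw [two_mul, pow_add]
  exact pn_mul_le hx hy

theorem ploc_div {x : ℚ} {l X : ℕ} (hx : padicNorm p x ≤ (p : ℚ) ^ Nat.log p X) (h : l ≤ X) :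
    padicNorm p (x / (l : ℚ)) ≤ (p : ℚ) ^ (2 * Nat.log p X) := by
  rw [div_eq_mul_one_div]
  exact ploc_mul hx (pn_inv_nat h)

theorem ploc_one_mul {x y t : ℚ} (hx : padicNorm p x ≤ 1) (hy : padicNorm p y ≤ t) :
    padicNorm p (x * y) ≤ t := by
  simpa using pn_mul_le hx hy

theorem ploc_max {x γ : ℚ} {k : ℕ} (hx : padicNorm p x ≤ (p : ℚ) ^ k) :
    padicNorm p x ≤ max 1 (padicNorm p γ) * (p : ℚ) ^ k :=
  hx.trans (le_mul_of_one_le_left (by positivity) (le_max_left _ _))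

theorem pn_HH {d X : ℕ} (h : d ≤ X) : padicNorm p (HH d) ≤ (p : ℚ) ^ Nat.log p X := by
  exact pn_sum_le (by positivity) fun l hl => ploc_inv (by have := mem_range.1 hl; omega)

theorem pn_OO {d X : ℕ} (h : d ≤ X) : padicNorm p (OO d) ≤ (p : ℚ) ^ Nat.log p X := by
  refine pn_sum_le (by positivity) fun l hl => ?_
  split_ifs
  · exact ploc_inv (by have := mem_range.1 hl; omega)
  · rw [padicNorm.zero]
    positivity

theorem pn_AN (hp : p ≠ 2) {d X : ℕ} (h : d ≤ X) :
    padicNorm p (AN d) ≤ (p : ℚ) ^ (2 * Nat.log p X) := by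
  refine pn_add_le (ploc_mul (ploc_mm' h) (pn_OO h)) (ploc_one_mul ?_
    (pn_sum_le (by positivity) fun v hv => ?_))
  · rw [div_eq_mul_one_div]
    refine ploc_one_mul (pn_cc hp d) ?_
    exact (pn_inv_nat_of_not_dvd (l := 2) fun h2 =>
      hp ((Nat.prime_dvd_prime_iff_eq Fact.out Nat.prime_two).1 h2)).le
  · have h1 : v + 1 ≤ X := by have := mem_range.1 hv; omega
    rw [sq]
    exact ploc_mul (ploc_mm h1) (ploc_mm h1)

theorem pn_AP (hp : p ≠ 2) {k X : ℕ} (h : k ≤ X) :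
    padicNorm p (AP k) ≤ (p : ℚ) ^ (2 * Nat.log p X) := by
  refine pn_add_le (ploc_mul (ploc_mm' h) (pn_sum_le (by positivity) fun l hl => ?_))
    (ploc_one_mul (pn_cc hp k) (pn_sum_le (by positivity) fun l hl => ?_))
  · rw [div_eq_mul_one_div]
    exact ploc_one_mul (pn_cc hp l) (ploc_inv (by have := mem_range.1 hl; omega))
  · have h1 : l + 2 ≤ X := by have := mem_range.1 hl; omega
    simpa using ploc_div (p := p) (ploc_mm (v := l) (by omega)) h1

theorem pn_BM (hp : p ≠ 2) (γ : ℚ) {i v X : ℕ} (hi : i + 1 ≤ X + v) (hv : v ≤ X + i + 2) :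
    padicNorm p (BM γ i v) ≤ max 1 (padicNorm p γ) * (p : ℚ) ^ (2 * Nat.log p X) := by
  unfold BM
  split_ifs
  · refine pn_add_le (ploc_max (pn_AN hp (by omega))) ?_
    rw [mul_right_comm]
    refine (ploc_one_mul (ploc_one_mul ?_ (pn_cc hp _)) (le_max_right 1 _)).trans
      (le_mul_of_one_le_right (by positivity) (ploc_one_le _))
    simpa using padicNorm.of_nat (p := p) 4
  · exact ploc_max (pn_AP hp (by omega))

theorem pn_BZ {i v X : ℕ} (hi : i + 1 ≤ X + v) (hv : v ≤ X + i + 1) :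
    padicNorm p (BZ i v) ≤ (p : ℚ) ^ (2 * Nat.log p X) := by
  unfold BZ
  split_ifs
  · exact ploc_div (pn_HH (by omega)) (by omega)
  · exact ploc_div (pn_HH (by omega)) (by omega)

theorem pn_lm {i v X : ℕ} (hi : i + 1 ≤ X + v) : padicNorm p (lm i v) ≤ (p : ℚ) ^ Nat.log p X := by
  unfold lm
  split_ifs
  · exact ploc_mm (by omega)
  · rw [padicNorm.zero]
    positivity

theorem pn_lz {i v X : ℕ} (hi : i + 1 ≤ X + v) : padicNorm p (lz i v) ≤ (p : ℚ) ^ Nat.log p X := by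
  unfold lz
  split_ifs
  · exact ploc_inv (by omega)
  · rw [padicNorm.zero]
    positivity

theorem pn_MG (hp : p ≠ 2) (γ : ℚ) {i j X : ℕ} (hi : i ≤ X) (hj : j ≤ X) :
    padicNorm p (MG γ i j) ≤ max 1 (padicNorm p γ) * (p : ℚ) ^ (2 * Nat.log p X) := by
  refine pn_sub_le (pn_BM hp γ (by omega) (by omega))
    (ploc_max (pn_sum_le (by positivity) fun v hv => ?_))
  have := (mem_Icc.1 hv).1
  exact ploc_div (pn_lm (by omega)) (by omega)

theorem pn_Z0 {i j X : ℕ} (hi : i ≤ X) (hj : j ≤ X) :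
    padicNorm p (Z0 i j) ≤ (p : ℚ) ^ (2 * Nat.log p X) := by
  refine pn_sub_le (pn_BZ (by omega) (by omega)) (pn_sum_le (by positivity) fun v hv => ?_)
  have := (mem_Icc.1 hv).1
  exact ploc_div (pn_lz (by omega)) (by omega)

theorem ploc_prod {ι : Type} (s : Finset ι) {f : ι → ℚ} {t : ℚ}
    (h : ∀ i, padicNorm p (f i) ≤ t) : padicNorm p (∏ i ∈ s, f i) ≤ t ^ s.card := by
  classical
  induction s using Finset.induction_on with
  | empty => simp
  | insert a s ha ih =>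
    rw [prod_insert ha, card_insert_of_notMem ha, pow_succ']
    exact pn_mul_le (h a) ih

theorem ploc_det {ι : Type} [Fintype ι] [DecidableEq ι] (M : Matrix ι ι ℚ) {t : ℚ} (ht : 0 ≤ t)
    (h : ∀ i j, padicNorm p (M i j) ≤ t) : padicNorm p M.det ≤ t ^ Fintype.card ι := by
  rw [Matrix.det_apply']
  exact pn_sum_le (by positivity) fun σ _ =>
    ploc_one_mul (padicNorm.of_int _) (ploc_prod _ fun i => h _ _)

theorem delta_triv (hp : p ≠ 2) (γ : ℚ) (N : ℕ) :
    padicNorm p (Delta γ N) ≤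
      (max 1 (padicNorm p γ) * (p : ℚ) ^ (2 * Nat.log p (49 * N))) ^ (36 * N) := by
  refine (ploc_det (t := max 1 (padicNorm p γ) * (p : ℚ) ^ (2 * Nat.log p (49 * N))) _
    (by positivity) fun r k => ?_).trans_eq (by rw [Fintype.card_fin])
  have hk : ∀ j, (colQ N k).coeff j ≠ 0 → j ≤ 49 * N := fun j hj => by
    by_contra h
    exact hj (colQ_supp' k j (Or.inr (by omega)))
  refine pn_sub_le (pn_bil_le (by positivity) fun i j hi hj => pn_MG hp γ ?_ (hk j hj))
    (ploc_max (ploc_one_mul (pn_three_half hp)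
      (pn_bil_le (by positivity) fun i j hi hj => pn_Z0 ?_ (hk j hj))))
  · by_contra h
    exact hi (rowP_supp' r i (Or.inr (by omega)))
  · by_contra h
    exact hi (rowD_supp' r i (Or.inr (by omega)))

end Crest.Agent.R6
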