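import Crest.Agent.R6.FSeq
import Crest.Agent.R6.PLoc

/-!
# Row 6: Dwork congruences for the boundary terms.

`red_sum_mult`: in `∑_{l<d} g l · p/(l+1)` only `l + 1 = p l₁` survive modulo `p`.
`red_AN`: `d = p d' + (p-1-e0)`.  `p² mm(d-1) OO d = (p mm(d-1)) (p OO d)`, `p OO d ≡ OO d'`,
`p mm(d-1) ≡ cc e0 · mm(d'-1)` (`d' ≥ 1`; for `d' = 0` both sides vanish).
`p² cc d/2 ∑ mm v² = cc d/2 ∑ (p mm v)²`; `cc d ≡ [e0 even] cc(p-1-e0) cc d'`; if `e0`, `d'` are even, cut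
`v < d - 1` into `v < p - 1` (zero), complete blocks `p(v'+1) - 1 ≤ v < p(v'+2) - 1`, `v' < d' - 1`
(each gives `mm v'² ∑_e cc e² = mm v'² cc(p-1)`), and a partial block with `v' = d' - 1` odd (zero).
`red_AP`: `p mm(k-1) ≡ cc(p-1-e0) mm(k'-1)`, `cc(p l₁ - 1) ≡ cc(p-1) cc(l₁-1)`,
`p mm(p l₁ - 2) ≡ mm(l₁ - 2)` (`l₁ ≥ 2`; zero for `l₁ = 1`), `cc k ≡ [e0 even] cc e0 cc k'`.
Integrality comes from `pn_AN`, `pn_AP`, `pn_HH` with `X = p² - 1`.
-/

set_option autoImplicit false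

namespace Crest.Agent.R6

open Finset

variable {p : ℕ} [Fact p.Prime]

theorem FBd_pos : 0 < p := (Fact.out : p.Prime).pos

theorem FBd_odd (hp : p ≠ 2) : p % 2 = 1 := (Fact.out : p.Prime).eq_two_or_odd.resolve_left hp

theorem FBd_three (hp : p ≠ 2) : 3 ≤ p := by
  have h1 := (Fact.out : p.Prime).two_le
  omega

omit [Fact p.Prime] in
theorem FBd_not_dvd {l : ℕ} (h : l + 1 < p) : ¬ p ∣ l + 1 :=
  Nat.not_dvd_of_pos_of_lt (Nat.succ_pos l) h

theorem FBd_PI_one : PI p 1 := by simpa using PI_nat (p := p) 1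

theorem FBd_PI_zero : PI p 0 := by simpa using PI_nat (p := p) 0

theorem FBd_PI_div {x : ℚ} (hx : PI p x) {l : ℕ} (hl : l + 1 < p) : PI p (x / ((l : ℚ) + 1)) := by
  simpa using hx.div_nat (FBd_not_dvd hl)

theorem FBd_red_div {x : ℚ} (hx : PI p x) {l : ℕ} (hl : l + 1 < p) :
    ((x / ((l : ℚ) + 1) : ℚ) : ZMod p) = (x : ZMod p) / ((l : ZMod p) + 1) := by
  simpa using red_div_nat hx (FBd_not_dvd hl)

theorem FBd_pdiv_eq (l : ℕ) :
    (p : ℚ) / (((p * (l + 1) - 1 : ℕ) : ℚ) + 1) = 1 / ((l : ℚ) + 1) := by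
  have h0 : 0 < p := FBd_pos
  have h1 : p * (l + 1) - 1 + 1 = p * (l + 1) := Nat.sub_add_cancel (Nat.mul_pos h0 l.succ_pos)
  have h2 : (p : ℚ) ≠ 0 := Nat.cast_ne_zero.2 h0.ne'
  rw [← Nat.cast_succ, Nat.succ_eq_add_one, h1]
  push_cast
  field_simp

theorem FBd_pdiv_zero {l : ℕ} (h : ¬ p ∣ l + 1) :
    (((p : ℚ) / ((l : ℚ) + 1) : ℚ) : ZMod p) = 0 := by
  have h1 := red_div_nat (PI_nat (p := p) p) h
  simpa using h1

theorem FBd_PI_pdiv {l : ℕ} (hl : l + 1 < p ^ 2) : PI p ((p : ℚ) / ((l : ℚ) + 1)) := by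
  by_cases h : p ∣ l + 1
  · obtain ⟨c, hc⟩ := h
    rcases c with _ | c
    · omega
    · have h1 : l = p * (c + 1) - 1 := by omega
      have h2 : c + 1 < p := by
        rw [hc, sq] at hl
        exact Nat.lt_of_mul_lt_mul_left hl
      rw [h1, FBd_pdiv_eq]
      exact FBd_PI_div FBd_PI_one h2
  · simpa using (PI_nat (p := p) p).div_nat h

omit [Fact p.Prime] in
theorem FBd_sum_mult {M : Type} [AddCommMonoid M] {F : ℕ → M} (d : ℕ)
    (hF : ∀ l < d, ¬ p ∣ l + 1 → F l = 0) :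
    ∑ l ∈ range d, F l = ∑ l ∈ range (d / p), F (p * (l + 1) - 1) := by
  induction d with
  | zero => simp
  | succ d ih =>
    rw [sum_range_succ, ih fun l hl => hF l (Nat.lt_succ_of_lt hl)]
    by_cases h : p ∣ d + 1
    · have h1 := Nat.succ_div_of_dvd h
      rw [h1, sum_range_succ, ← h1, Nat.mul_div_cancel' h, Nat.add_sub_cancel]
    · rw [Nat.succ_div_of_not_dvd h, hF d (Nat.lt_succ_self d) h, add_zero]

omit [Fact p.Prime] in
theorem FBd_div_lt {d : ℕ} (hd : d < p ^ 2) : d / p < p :=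
  Nat.div_lt_of_lt_mul (by rwa [← sq])

theorem FBd_PI_sum {d : ℕ} (hd : d < p ^ 2) {g : ℕ → ℚ} (hg : ∀ l < d, PI p (g l)) :
    PI p (∑ l ∈ range d, g l * ((p : ℚ) / ((l : ℚ) + 1))) :=
  PI_sum fun l hl => (hg l (mem_range.1 hl)).mul
    (FBd_PI_pdiv (lt_of_le_of_lt (mem_range.1 hl) hd))

theorem red_sum_mult {d : ℕ} (hd : d < p ^ 2) {g : ℕ → ℚ} (hg : ∀ l < d, PI p (g l)) :
    ((∑ l ∈ range d, g l * ((p : ℚ) / ((l : ℚ) + 1)) : ℚ) : ZMod p) =
      ∑ l ∈ range (d / p), (g (p * (l + 1) - 1) : ZMod p) / ((l : ZMod p) + 1) := by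
  have hlt := FBd_div_lt hd
  rw [red_sum fun l hl => (hg l (mem_range.1 hl)).mul
    (FBd_PI_pdiv (lt_of_le_of_lt (mem_range.1 hl) hd)), FBd_sum_mult (p := p) d]
  · refine sum_congr rfl fun l hl => ?_
    have h1 : l + 1 ≤ d / p := mem_range.1 hl
    have h2 : p * (l + 1) ≤ d := (Nat.mul_le_mul_left p h1).trans (Nat.mul_div_le d p)
    have h3 : 0 < p * (l + 1) := Nat.mul_pos FBd_pos l.succ_pos
    have h4 : l + 1 < p := lt_of_le_of_lt h1 hlt
    rw [FBd_pdiv_eq, red_mul (hg _ (by omega)) (FBd_PI_div FBd_PI_one h4),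
      FBd_red_div FBd_PI_one h4, Rat.cast_one, mul_one_div]
  · intro l hl h
    rw [red_mul (hg l hl) (FBd_PI_pdiv (lt_of_le_of_lt hl hd)), FBd_pdiv_zero h, mul_zero]

omit [Fact p.Prime] in
theorem FBd_PI_of_log {x : ℚ} {d k : ℕ} (hd : d < p)
    (h : padicNorm p x ≤ (p : ℚ) ^ (k * Nat.log p d)) :
    PI p x := by
  rwa [Nat.log_of_lt hd, mul_zero, pow_zero] at h

theorem FBd_sq_mul {x : ℚ} (hx : PI p x) : (((p : ℚ) ^ 2 * x : ℚ) : ZMod p) = 0 := by
  rw [sq, mul_assoc]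
  exact red_p_mul ((PI_nat p).mul hx)

theorem FBd_OO (hp : p ≠ 2) {d : ℕ} (hd : d < p ^ 2) :
    PI p ((p : ℚ) * OO d) ∧ (((p : ℚ) * OO d : ℚ) : ZMod p) = (OO (d / p) : ZMod p) := by
  have e : (p : ℚ) * OO d =
      ∑ l ∈ range d, (if l % 2 = 0 then 1 else 0 : ℚ) * ((p : ℚ) / ((l : ℚ) + 1)) := by
    rw [OO, mul_sum]
    refine sum_congr rfl fun l _ => ?_
    split_ifs <;> ring
  have hg : ∀ l < d, PI p (if l % 2 = 0 then 1 else 0 : ℚ) := fun l _ => by
    split_ifs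
    · exact FBd_PI_one
    · exact FBd_PI_zero
  have hlt := FBd_div_lt hd
  rw [e]
  refine ⟨FBd_PI_sum hd hg, ?_⟩
  rw [red_sum_mult hd hg, OO, red_sum]
  · refine sum_congr rfl fun l hl => ?_
    have h1 : l + 1 < p := lt_of_le_of_lt (mem_range.1 hl) hlt
    have h2 : (p * (l + 1) - 1) % 2 = l % 2 := by
      have h3 := FBd_odd hp
      have h4 : p * (l + 1) % 2 = (l + 1) % 2 := by rw [Nat.mul_mod, h3, one_mul, Nat.mod_mod]
      have h5 : 0 < p * (l + 1) := Nat.mul_pos FBd_pos l.succ_pos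
      omega
    rw [h2]
    split_ifs
    · rw [FBd_red_div FBd_PI_one h1]
    · simp
  · intro l hl
    split_ifs
    · exact FBd_PI_div FBd_PI_one (lt_of_le_of_lt (mem_range.1 hl) hlt)
    · exact FBd_PI_zero

theorem FBd_block (hp : p ≠ 2) {t j : ℕ} (ht : t + 1 < p) (hj : j < p) :
    (((p : ℚ) * mm (p * (t + 1) - 1 + j) : ℚ) : ZMod p) =
      (cc (p - 1 - j) : ZMod p) * (mm t : ZMod p) := by
  refine red_mm hp (by omega) ?_ ht
  have h5 : 0 < p * (t + 1) := Nat.mul_pos FBd_pos t.succ_pos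
  have h6 : p * (t + 2) = p * (t + 1) + p := by ring
  omega

theorem FBd_blocks (hp : p ≠ 2) (t : ℕ) (ht : t < p) :
    ∑ v ∈ range (p * (t + 1) - 1), (((p : ℚ) * mm v : ℚ) : ZMod p) ^ 2 =
      (cc (p - 1) : ZMod p) * ∑ v ∈ range t, (mm v : ZMod p) ^ 2 := by
  induction t with
  | zero =>
    rw [sum_range_zero, mul_zero]
    refine sum_eq_zero fun v hv => ?_
    have h1 := mem_range.1 hv
    rw [red_p_mul (PI_mm (by omega)), zero_pow two_ne_zero]
  | succ t ih =>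
    have h5 : 0 < p * (t + 1) := Nat.mul_pos FBd_pos t.succ_pos
    have h6 : p * (t + 1 + 1) - 1 = p * (t + 1) - 1 + p := by
      have : p * (t + 1 + 1) = p * (t + 1) + p := by ring
      omega
    rw [h6, sum_range_add, ih (by omega), sum_range_succ, mul_add (cc (p - 1) : ZMod p)]
    congr 1
    rw [← sum_cc_sq hp, sum_mul,
      ← sum_range_reflect (fun e => (cc e : ZMod p) ^ 2 * (mm t : ZMod p) ^ 2) p]
    refine sum_congr rfl fun j hj => ?_
    rw [FBd_block hp ht (mem_range.1 hj), mul_pow]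

theorem FBd_cc_mm (d : ℕ) : (cc (d + 1) : ZMod p) * (mm d : ZMod p) = 0 := by
  rcases Nat.mod_two_eq_zero_or_one d with h | h
  · rw [cc_odd (by omega), Rat.cast_zero, zero_mul]
  · rw [mm_odd h, Rat.cast_zero, mul_zero]

theorem FBd_half (hp : p ≠ 2) {x : ℚ} (hx : PI p x) :
    PI p (x / 2) ∧ ((x / 2 : ℚ) : ZMod p) = (x : ZMod p) / 2 := by
  have h : ¬ p ∣ 2 := Nat.not_dvd_of_pos_of_lt two_pos (FBd_three hp)
  exact ⟨by simpa using hx.div_nat h, by simpa using red_div_nat hx h⟩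

theorem red_AN (hp : p ≠ 2) {d d' e0 : ℕ} (he : e0 < p) (hd : d + 1 + e0 = p * (d' + 1))
    (hd' : d' + 2 < p) :
    (((p : ℚ) ^ 2 * AN d : ℚ) : ZMod p) = (cc e0 : ZMod p) * (AN d' : ZMod p) := by
  have h3 := FBd_three hp
  have hodd := FBd_odd hp
  rcases d' with _ | t
  · have h1 : d < p := by omega
    rw [FBd_sq_mul (FBd_PI_of_log h1 (pn_AN hp le_rfl)), AN_zero, Rat.cast_zero, mul_zero]
  have h5 : 0 < p * (t + 1) := Nat.mul_pos FBd_pos t.succ_pos
  have h6 : p * (t + 1 + 1) = p * (t + 1) + p := by ring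
  have hd2 : d < p ^ 2 := by
    have : p * (t + 1 + 1) ≤ p * p := Nat.mul_le_mul_left p (by omega)
    rw [sq]
    omega
  have e1 : d = p - 1 - e0 + p * (t + 1) := by omega
  have e2 : d / p = t + 1 := by
    rw [e1, Nat.add_mul_div_left _ _ FBd_pos, Nat.div_eq_of_lt (by omega), zero_add]
  have e3 : d - 1 = p * (t + 1) - 1 + (p - 1 - e0) := by omega
  have e4 : (p : ℚ) ^ 2 * AN d = (p : ℚ) * mm (d - 1) * ((p : ℚ) * OO d) +
      cc d / 2 * ∑ v ∈ range (d - 1), ((p : ℚ) * mm v) ^ 2 := by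
    simp only [AN, mul_pow, ← mul_sum]
    ring
  obtain ⟨o1, o2⟩ := FBd_OO hp hd2
  have m1 : PI p ((p : ℚ) * mm (d - 1)) := PI_p_mul_mm (by omega)
  have m2 : ∀ v ∈ range (d - 1), PI p ((p : ℚ) * mm v) := fun v hv =>
    PI_p_mul_mm (by have := mem_range.1 hv; omega)
  have m3 : ∀ v ∈ range t, PI p (mm v) := fun v hv => PI_mm (by have := mem_range.1 hv; omega)
  have m4 : PI p (mm t) := PI_mm (by omega)
  have o3 : PI p (OO (t + 1)) :=
    FBd_PI_of_log (k := 1) (d := t + 1) (by omega) (by rw [one_mul]; exact pn_OO le_rfl)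
  obtain ⟨c1, c2⟩ := FBd_half hp (PI_cc hp d)
  obtain ⟨c3, c4⟩ := FBd_half hp (PI_cc hp (t + 1))
  have s1 : ∑ v ∈ range (d - 1), ((((p : ℚ) * mm v) ^ 2 : ℚ) : ZMod p) =
      (cc (p - 1) : ZMod p) * ∑ v ∈ range t, (mm v : ZMod p) ^ 2 +
        (∑ j ∈ range (p - 1 - e0), (cc (p - 1 - j) : ZMod p) ^ 2) * (mm t : ZMod p) ^ 2 := by
    rw [sum_congr rfl fun v hv => red_pow (m2 v hv) 2, e3, sum_range_add, FBd_blocks hp t (by omega),
      sum_mul]
    congr 1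
    refine sum_congr rfl fun j hj => ?_
    rw [FBd_block hp (by omega) (by have := mem_range.1 hj; omega), mul_pow]
  rw [e4, red_add (m1.mul o1) (c1.mul (PI_sum fun v hv => (m2 v hv).pow 2)), red_mul m1 o1,
    red_mul c1 (PI_sum fun v hv => (m2 v hv).pow 2), red_sum fun v hv => (m2 v hv).pow 2, s1, o2,
    c2, e2, red_mm (v' := t) hp he (by rw [show t + 2 = t + 1 + 1 from rfl]; omega) (by omega), AN, Nat.add_sub_cancel,
    red_add (m4.mul o3) (c3.mul (PI_sum fun v hv => (m3 v hv).pow 2)), red_mul m4 o3,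
    red_mul c3 (PI_sum fun v hv => (m3 v hv).pow 2), red_sum fun v hv => (m3 v hv).pow 2,
    sum_congr rfl fun v hv => red_pow (m3 v hv) 2, c4]
  have hc : (cc d : ZMod p) =
      if (p - 1 - e0) % 2 = 0 then (cc (p - 1 - e0) : ZMod p) * (cc (t + 1) : ZMod p) else 0 := by
    rw [← red_cc hp (by omega) (by omega), ← e1]
  have hz := FBd_cc_mm (p := p) t
  rw [hc]
  split_ifs with h
  · rw [← red_cc_symm hp he]
    linear_combination ((cc (p - 1 - e0) : ZMod p) / 2 * (mm t : ZMod p) *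
      ∑ j ∈ range (p - 1 - e0), (cc (p - 1 - j) : ZMod p) ^ 2) * hz
  · rw [cc_odd (d := e0) (by omega), Rat.cast_zero]
    ring

theorem red_AP (hp : p ≠ 2) {k' e0 : ℕ} (he : e0 < p) (hk' : k' + 2 < p) :
    (((p : ℚ) ^ 2 * AP (e0 + p * k') : ℚ) : ZMod p) = (cc e0 : ZMod p) * (AP k' : ZMod p) := by
  have h3 := FBd_three hp
  have hodd := FBd_odd hp
  rcases k' with _ | t
  · rw [mul_zero, add_zero, FBd_sq_mul (FBd_PI_of_log he (pn_AP hp le_rfl)), AP_zero,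
      Rat.cast_zero, mul_zero]
  obtain ⟨k, hk⟩ : ∃ k, e0 + p * (t + 1) = k + 1 :=
    ⟨_, (Nat.sub_add_cancel (Nat.add_pos_right _ (Nat.mul_pos FBd_pos t.succ_pos))).symm⟩
  have h6 : p * (t + 2) = p * (t + 1) + p := by ring
  have hd2 : k + 1 < p ^ 2 := by
    have : p * (t + 2) ≤ p * p := Nat.mul_le_mul_left p (by omega)
    rw [sq]
    omega
  have e2 : (k + 1) / p = t + 1 := by
    rw [← hk, Nat.add_mul_div_left _ _ FBd_pos, Nat.div_eq_of_lt he, zero_add]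
  have hc : (cc (k + 1) : ZMod p) = (cc e0 : ZMod p) * (cc (t + 1) : ZMod p) := by
    rw [← hk, red_cc hp he (by omega)]
    split_ifs with h
    · rfl
    · rw [cc_odd (d := e0) (by omega), Rat.cast_zero, zero_mul]
  set g : ℕ → ℚ := fun l => if l = 0 then 0 else (p : ℚ) * mm (l - 1) with hg
  have e4 : (p : ℚ) ^ 2 * AP (k + 1) =
      (p : ℚ) * mm k * (∑ l ∈ range (k + 1), cc l * ((p : ℚ) / ((l : ℚ) + 1))) +
        cc (k + 1) * ∑ l ∈ range (k + 1), g l * ((p : ℚ) / ((l : ℚ) + 1)) := by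
    have a1 : ∑ l ∈ range (k + 1), cc l * ((p : ℚ) / ((l : ℚ) + 1)) =
        p * ∑ l ∈ range (k + 1), cc l / ((l : ℚ) + 1) := by
      rw [mul_sum]
      exact sum_congr rfl fun l _ => by ring
    have a2 : ∑ l ∈ range (k + 1), g l * ((p : ℚ) / ((l : ℚ) + 1)) =
        (p : ℚ) ^ 2 * ∑ l ∈ range k, mm l / ((l : ℚ) + 2) := by
      rw [sum_range_succ', mul_sum]
      simp only [hg, Nat.add_one_ne_zero, if_false, if_true, zero_mul, add_zero,
        Nat.add_sub_cancel]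
      refine sum_congr rfl fun l _ => ?_
      push_cast
      rw [add_assoc, one_add_one_eq_two]
      ring
    rw [a1, a2, AP, Nat.add_sub_cancel]
    ring
  have g1 : ∀ l < k + 1, PI p (g l) := fun l hl => by
    simp only [hg]
    split_ifs
    · exact FBd_PI_zero
    · exact PI_p_mul_mm (by omega)
  have g2 : ∀ l < k + 1, PI p (cc l) := fun l _ => PI_cc hp l
  have m1 : PI p ((p : ℚ) * mm k) := PI_p_mul_mm hd2
  have m4 : PI p (mm t) := PI_mm (by omega)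
  have q1 : ∀ l ∈ range (t + 1), PI p (cc l / ((l : ℚ) + 1)) := fun l hl =>
    FBd_PI_div (PI_cc hp l) (by have := mem_range.1 hl; omega)
  have q0 : ∀ l : ℕ, (l : ℚ) + 2 = ((l + 1 : ℕ) : ℚ) + 1 := fun l => by
    push_cast
    ring
  have q2 : ∀ l ∈ range t, PI p (mm l / ((l : ℚ) + 2)) := fun l hl => by
    have := mem_range.1 hl
    rw [q0]
    exact FBd_PI_div (PI_mm (by omega)) (by omega)
  have s1 : ∑ l ∈ range (t + 1), (cc (p * (l + 1) - 1) : ZMod p) / ((l : ZMod p) + 1) =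
      (cc (p - 1) : ZMod p) * ∑ l ∈ range (t + 1), ((cc l / ((l : ℚ) + 1) : ℚ) : ZMod p) := by
    rw [mul_sum]
    refine sum_congr rfl fun l hl => ?_
    have h1 := mem_range.1 hl
    have h2 : p * (l + 1) - 1 = p - 1 + p * l := by
      rw [mul_add_one]
      omega
    rw [h2, red_cc hp (by omega) (by omega), if_pos (by omega),
      FBd_red_div (PI_cc hp l) (by omega), mul_div_assoc]
  have s2 : ∑ l ∈ range (t + 1), (g (p * (l + 1) - 1) : ZMod p) / ((l : ZMod p) + 1) =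
      ∑ l ∈ range t, ((mm l / ((l : ℚ) + 2) : ℚ) : ZMod p) := by
    have z : (g (p * (0 + 1) - 1) : ZMod p) = 0 := by
      simp only [hg]
      rw [if_neg (by omega)]
      exact red_p_mul (PI_mm (by omega))
    rw [sum_range_succ', z, zero_div, add_zero]
    refine sum_congr rfl fun l hl => ?_
    have h1 := mem_range.1 hl
    have h2 : p ≤ p * (l + 1 + 1) := Nat.le_mul_of_pos_right p (by omega)
    simp only [hg]
    rw [if_neg (by omega), red_mm (v' := l) (e0 := 0) hp (by omega)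
      (by rw [show l + 2 = l + 1 + 1 from rfl]; omega) (by omega), q0,
      FBd_red_div (PI_mm (by omega)) (by omega), cc, Rat.cast_one, one_mul]
  rw [hk, e4, red_add (m1.mul (FBd_PI_sum hd2 g2)) ((PI_cc hp _).mul (FBd_PI_sum hd2 g1)),
    red_mul m1 (FBd_PI_sum hd2 g2), red_mul (PI_cc hp _) (FBd_PI_sum hd2 g1),
    red_sum_mult hd2 g2, red_sum_mult hd2 g1, e2, s1, s2, hc,
    red_mm (v' := t) (e0 := p - 1 - e0) hp (by omega) (by omega) (by omega), AP,
    Nat.add_sub_cancel, red_add (m4.mul (PI_sum q1)) ((PI_cc hp _).mul (PI_sum q2)),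
    red_mul m4 (PI_sum q1), red_mul (PI_cc hp _) (PI_sum q2), red_sum q1, red_sum q2,
    ← red_cc_symm hp he]
  ring

theorem red_HH {d : ℕ} (hd : d < p ^ 2) :
    (((p : ℚ) ^ 2 * (HH d / d) : ℚ) : ZMod p) =
      if p ∣ d then ((HH (d / p) / ((d / p : ℕ) : ℚ) : ℚ) : ZMod p) else 0 := by
  rcases d with _ | l
  · simp
  have hlt := FBd_div_lt hd
  have g1 : ∀ j < l + 1, PI p ((fun _ => 1 : ℕ → ℚ) j) := fun _ _ => FBd_PI_one
  have e : (p : ℚ) ^ 2 * (HH (l + 1) / (l + 1 : ℕ)) =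
      (∑ j ∈ range (l + 1), (fun _ => 1 : ℕ → ℚ) j * ((p : ℚ) / ((j : ℚ) + 1))) *
        ((p : ℚ) / ((l : ℚ) + 1)) := by
    have a1 : ∑ j ∈ range (l + 1), (fun _ => 1 : ℕ → ℚ) j * ((p : ℚ) / ((j : ℚ) + 1)) =
        p * HH (l + 1) := by
      rw [HH, mul_sum]
      exact sum_congr rfl fun j _ => by ring
    rw [a1]
    push_cast
    ring
  rw [e, red_mul (FBd_PI_sum hd g1) (FBd_PI_pdiv hd)]
  split_ifs with h
  · obtain ⟨c, hc⟩ := h
    rcases c with _ | c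
    · omega
    have e2 : (l + 1) / p = c + 1 := by rw [hc, Nat.mul_div_cancel_left _ FBd_pos]
    have e3 : l = p * (c + 1) - 1 := by omega
    have q1 : ∀ j ∈ range (c + 1), PI p (1 / ((j : ℚ) + 1)) := fun j hj =>
      FBd_PI_div FBd_PI_one (by have := mem_range.1 hj; omega)
    have e4 : (p : ℚ) / ((l : ℚ) + 1) = 1 / ((c : ℚ) + 1) := by rw [e3, FBd_pdiv_eq]
    rw [red_sum_mult hd g1, e2, e4, FBd_red_div FBd_PI_one (by omega), Nat.cast_succ c, HH,
      FBd_red_div (PI_sum q1) (by omega), red_sum q1, Rat.cast_one, mul_one_div]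
    congr 1
    refine sum_congr rfl fun j hj => ?_
    rw [FBd_red_div FBd_PI_one (by have := mem_range.1 hj; omega), Rat.cast_one]
  · rw [FBd_pdiv_zero h, mul_zero]

end Crest.Agent.R6
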