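import Crest.Agent.R6.Defs

/-!
# Row 6: the Cartier operator on Chebyshev polynomials.

In `(ZMod p)[X]`, `h = (p-1)/2`.  The coefficient of `X^(pa+p-1)` in a derivative vanishes
(`coeff_derivative`).  `p ∤ m`: `m U(m-1) = (T m)'` (`T_derivative_eq_U`) and
`(U(m-1) (X²-1)^(h+1))' = m T m (X²-1)^h` (`add_one_mul_T_eq_poly_in_U`, `2(h+1) = p + 1`).
`m = p μ`: `T p = X^p` (`chebyshev_T_eq_dickson_one_one`, `dickson_one_one_charP`, or `C_comp_two_mul_X`),
`T (pμ) = (T μ).comp (T p) = expand p (T μ)` (`T_mul`), `U(p-1) = (X²-1)^h` (from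
`T p² - (X²-1) U(p-1)² = 1`, `(X²-1)^p = X^(2p) - 1`, leading coefficient `2^(p-1) = 1`),
`U(pμ-1) = (U(μ-1)).comp (T p) · U(p-1)` (differentiate `T_mul` over `ℤ`, cancel, map; or induction
on `μ`).  Finally `(expand p F · G).coeff (pa + p - 1) = F.coeff a` for `G` monic of degree `p - 1`.
-/

set_option autoImplicit false

namespace Crest.Agent.R6

open Polynomial

variable {p : ℕ} [Fact p.Prime]

theorem fcheb_deriv (Q : (ZMod p)[X]) (a : ℕ) : (derivative Q).coeff (p * a + (p - 1)) = 0 := by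
  have hp1 : 1 ≤ p := (Fact.out : p.Prime).one_le
  rw [coeff_derivative]
  have : ((p * a + (p - 1) : ℕ) : ZMod p) + 1 = 0 := by
    rw [← Nat.cast_succ]
    have h : (p * a + (p - 1)).succ = p * (a + 1) := by
      rw [Nat.succ_eq_add_one, mul_add, mul_one]; omega
    rw [h]
    simp
  rw [this, mul_zero]

theorem fcheb_expand (F G : (ZMod p)[X]) (hG1 : G.coeff (p - 1) = 1)
    (hG2 : ∀ j, p ≤ j → G.coeff j = 0) (a : ℕ) :
    (expand (ZMod p) p F * G).coeff (p * a + (p - 1)) = F.coeff a := by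
  have hp1 : 1 ≤ p := (Fact.out : p.Prime).one_le
  induction F using Polynomial.induction_on' with
  | add F F' h h' => rw [map_add, add_mul, coeff_add, coeff_add, h, h']
  | monomial n c =>
    rw [expand_monomial, ← C_mul_X_pow_eq_monomial, mul_assoc, coeff_C_mul, coeff_X_pow_mul',
      coeff_monomial]
    rcases lt_trichotomy n a with h | h | h
    · have h1 : n * p + p ≤ p * a := by
        have : (n + 1) * p ≤ a * p := Nat.mul_le_mul_right p h
        nlinarith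
      rw [if_pos (by omega), hG2 _ (by omega), if_neg h.ne, mul_zero]
    · subst h
      have h1 : p * n + (p - 1) - n * p = p - 1 := by rw [mul_comm n p]; omega
      rw [if_pos (by rw [mul_comm n p]; omega), h1, hG1, if_pos rfl, mul_one]
    · have h1 : p * a + p ≤ n * p := by
        have : (a + 1) * p ≤ n * p := Nat.mul_le_mul_right p h
        nlinarith
      rw [if_neg (by omega), if_neg h.ne', mul_zero]

theorem fcheb_two_ne (hp : p ≠ 2) : (2 : ZMod p) ≠ 0 := by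
  intro h
  have h2 : ((2 : ℕ) : ZMod p) = 0 := by exact_mod_cast h
  rw [ZMod.natCast_eq_zero_iff] at h2
  exact hp ((Nat.prime_dvd_prime_iff_eq Fact.out Nat.prime_two).1 h2)

theorem fcheb_half (hp : p ≠ 2) : 2 * ((p - 1) / 2) + 1 = p := by
  have := (Fact.out : p.Prime).eq_two_or_odd.resolve_left hp
  omega

theorem fcheb_T_p (hp : p ≠ 2) : Chebyshev.T (ZMod p) p = X ^ p := by
  have h := Chebyshev.C_comp_two_mul_X (ZMod p) p
  rw [← dickson_one_one_eq_chebyshev_C, dickson_one_one_zmod_p, X_pow_comp, mul_pow] at h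
  have h2 : (2 : (ZMod p)[X]) ^ p = 2 := by
    have : (2 : (ZMod p)[X]) = C 2 := rfl
    rw [this, ← C_pow, ZMod.pow_card]
  rw [h2] at h
  have h3 : (2 : (ZMod p)[X]) ≠ 0 := by
    have : (2 : (ZMod p)[X]) = C 2 := rfl
    rw [this]
    exact C_ne_zero.2 (fcheb_two_ne hp)
  exact (mul_left_cancel₀ h3 h).symm

theorem fcheb_pell (R : Type) [CommRing R] (n : ℤ) :
    Chebyshev.T R (n + 1) ^ 2 - (X ^ 2 - 1) * Chebyshev.U R n ^ 2 = 1 := by
  have h := congrArg (fun Q : R[X] => Q.comp (2 * X)) (Chebyshev.S_sq_add_S_sq R n)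
  simp only [sub_comp, add_comp, mul_comp, pow_comp, X_comp, one_comp,
    Chebyshev.S_comp_two_mul_X] at h
  rw [Chebyshev.T_eq_U_sub_X_mul_U, add_sub_cancel_right]
  linear_combination h

theorem fcheb_monic (k : ℕ) : ((X ^ 2 - 1 : (ZMod p)[X]) ^ k).Monic := by
  have : (X ^ 2 - 1 : (ZMod p)[X]) = X ^ 2 - C 1 := rfl
  rw [this]
  exact (monic_X_pow_sub_C (1 : ZMod p) two_ne_zero).pow k

theorem fcheb_natDegree (k : ℕ) : ((X ^ 2 - 1 : (ZMod p)[X]) ^ k).natDegree = 2 * k := by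
  have : (X ^ 2 - 1 : (ZMod p)[X]) = X ^ 2 - C 1 := rfl
  rw [this, natDegree_pow, natDegree_X_pow_sub_C, mul_comm]

theorem fcheb_U_p (hp : p ≠ 2) :
    Chebyshev.U (ZMod p) (p - 1) = (X ^ 2 - 1) ^ ((p - 1) / 2) := by
  have hp1 : 1 ≤ p := (Fact.out : p.Prime).one_le
  have h := fcheb_pell (ZMod p) (p - 1)
  rw [sub_add_cancel, fcheb_T_p hp] at h
  have h1 : (X ^ 2 - 1 : (ZMod p)[X]) ^ p = (X ^ p) ^ 2 - 1 := by
    rw [sub_pow_char, one_pow, ← pow_mul, ← pow_mul, mul_comm]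
  have h2 : (X ^ 2 - 1 : (ZMod p)[X]) ^ p =
      (X ^ 2 - 1) * ((X ^ 2 - 1) ^ ((p - 1) / 2)) ^ 2 := by
    rw [← pow_mul, ← pow_succ', mul_comm, fcheb_half hp]
  have h0 : (X ^ 2 - 1 : (ZMod p)[X]) ≠ 0 := by
    have := (fcheb_monic (p := p) 1).ne_zero
    rwa [pow_one] at this
  have h3 : Chebyshev.U (ZMod p) (p - 1) ^ 2 = ((X ^ 2 - 1) ^ ((p - 1) / 2)) ^ 2 := by
    refine mul_left_cancel₀ h0 ?_
    rw [← h2, h1]
    linear_combination -h
  rcases sq_eq_sq_iff_eq_or_eq_neg.1 h3 with h4 | h4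
  · exact h4
  · exfalso
    haveI : NeZero (2 : ZMod p) := ⟨fcheb_two_ne hp⟩
    have h5 := Chebyshev.leadingCoeff_U_natCast (ZMod p) (p - 1)
    rw [Nat.cast_sub hp1, Nat.cast_one, h4, leadingCoeff_neg, (fcheb_monic _).leadingCoeff,
      ZMod.pow_card_sub_one_eq_one (fcheb_two_ne hp)] at h5
    apply fcheb_two_ne hp
    linear_combination -h5

theorem fcheb_U_mul (R : Type) [CommRing R] (μ n : ℤ) (hn : n ≠ 0) :
    Chebyshev.U R (μ * n - 1) =
      (Chebyshev.U R (μ - 1)).comp (Chebyshev.T R n) * Chebyshev.U R (n - 1) := by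
  have hZ : Chebyshev.U ℤ (μ * n - 1) =
      (Chebyshev.U ℤ (μ - 1)).comp (Chebyshev.T ℤ n) * Chebyshev.U ℤ (n - 1) := by
    rcases eq_or_ne μ 0 with h | h
    · subst h
      simp
    · have h1 := congrArg derivative (Chebyshev.T_mul ℤ μ n)
      rw [derivative_comp, Chebyshev.T_derivative_eq_U, Chebyshev.T_derivative_eq_U,
        Chebyshev.T_derivative_eq_U, mul_comp, intCast_comp] at h1
      have h2 : ((μ * n : ℤ) : ℤ[X]) ≠ 0 := Int.cast_ne_zero.2 (mul_ne_zero h hn)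
      refine mul_left_cancel₀ h2 ?_
      rw [h1]
      push_cast
      ring
  have := congrArg (Polynomial.map (Int.castRingHom R)) hZ
  simpa only [Polynomial.map_mul, map_comp, Chebyshev.map_U, Chebyshev.map_T] using this

theorem fcheb_G1 (hp : p ≠ 2) :
    ((X ^ 2 - 1 : (ZMod p)[X]) ^ ((p - 1) / 2)).coeff (p - 1) = 1 := by
  have h := (fcheb_monic (p := p) ((p - 1) / 2)).coeff_natDegree
  rw [fcheb_natDegree] at h
  have h1 : 2 * ((p - 1) / 2) = p - 1 := by have := fcheb_half hp; omega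
  rwa [h1] at h

theorem fcheb_G2 (hp : p ≠ 2) (j : ℕ) (hj : p ≤ j) :
    ((X ^ 2 - 1 : (ZMod p)[X]) ^ ((p - 1) / 2)).coeff j = 0 := by
  refine coeff_eq_zero_of_natDegree_lt ?_
  rw [fcheb_natDegree]
  have := fcheb_half hp
  omega

theorem fcheb_cancel {m : ℤ} (hm : ¬ (p : ℤ) ∣ m) {F Q : (ZMod p)[X]}
    (h : derivative Q = (m : (ZMod p)[X]) * F) (a : ℕ) : F.coeff (p * a + (p - 1)) = 0 := by
  have h1 := fcheb_deriv Q a
  rw [h, ← C_eq_intCast, coeff_C_mul] at h1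
  exact (mul_eq_zero.1 h1).resolve_left fun h2 => hm ((ZMod.intCast_zmod_eq_zero_iff_dvd m p).1 h2)

theorem cartier_T (hp : p ≠ 2) (m : ℤ) (a : ℕ) :
    (Chebyshev.T (ZMod p) m * (X ^ 2 - 1) ^ ((p - 1) / 2)).coeff (p * a + (p - 1)) =
      if (p : ℤ) ∣ m then (Chebyshev.T (ZMod p) (m / p)).coeff a else 0 := by
  have hp0 : (p : ℤ) ≠ 0 := Int.natCast_ne_zero.2 (Fact.out : p.Prime).ne_zero
  split_ifs with hm
  · obtain ⟨μ, rfl⟩ := hm
    rw [Int.mul_ediv_cancel_left _ hp0, mul_comm (p : ℤ) μ, Chebyshev.T_mul, fcheb_T_p hp,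
      ← expand_eq_comp_X_pow]
    exact fcheb_expand _ _ (fcheb_G1 hp) (fcheb_G2 hp) a
  · refine fcheb_cancel hm
      (Q := Chebyshev.U (ZMod p) (m - 1) * (X ^ 2 - 1) ^ ((p - 1) / 2 + 1)) ?_ a
    have h1 := Chebyshev.add_one_mul_T_eq_poly_in_U (R := ZMod p) (m - 1)
    rw [sub_add_cancel] at h1
    have h2 : (2 : (ZMod p)[X]) * (((p - 1) / 2 : ℕ) : (ZMod p)[X]) + 1 = 0 := by
      have h3 : ((2 * ((p - 1) / 2) + 1 : ℕ) : (ZMod p)[X]) = 0 := by
        rw [fcheb_half hp]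
        exact CharP.cast_eq_zero _ p
      push_cast at h3
      exact h3
    rw [derivative_mul, derivative_pow_succ, derivative_sub, derivative_X_pow, derivative_one]
    push_cast at h1
    simp only [map_add, map_natCast, map_one, Nat.cast_ofNat, Nat.add_one_sub_one, pow_one,
      sub_zero, pow_succ _ ((p - 1) / 2)]
    have h4 : (C (2 : ZMod p) : (ZMod p)[X]) = 2 := rfl
    rw [h4]
    linear_combination (-(X ^ 2 - 1) ^ ((p - 1) / 2)) * h1 +
      (Chebyshev.U (ZMod p) (m - 1) * (X ^ 2 - 1) ^ ((p - 1) / 2) * X) * h2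

theorem cartier_U (hp : p ≠ 2) (m : ℤ) (a : ℕ) :
    (Chebyshev.U (ZMod p) (m - 1)).coeff (p * a + (p - 1)) =
      if (p : ℤ) ∣ m then (Chebyshev.U (ZMod p) (m / p - 1)).coeff a else 0 := by
  have hp0 : (p : ℤ) ≠ 0 := Int.natCast_ne_zero.2 (Fact.out : p.Prime).ne_zero
  split_ifs with hm
  · obtain ⟨μ, rfl⟩ := hm
    rw [Int.mul_ediv_cancel_left _ hp0, mul_comm (p : ℤ) μ, fcheb_U_mul _ μ p hp0, fcheb_T_p hp,
      ← expand_eq_comp_X_pow, fcheb_U_p hp]
    exact fcheb_expand _ _ (fcheb_G1 hp) (fcheb_G2 hp) a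
  · exact fcheb_cancel hm (Chebyshev.T_derivative_eq_U m) a

end Crest.Agent.R6
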