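import Crest.Agent.R6.FEnt

/-!
# Row 6: Frobenius reduction of the entries, Chebyshev columns.

Let `A m j : ZMod p` be the reduction of `p² Ent γ p m (X^j)` and, for `R : (ZMod p)[X]`,
`Ā m R = R.sum (fun j a => a * A m j)` (a linear map, e.g. `Polynomial.lsum`/`∑ j ∈ range (49p)`).
By `Phi_eq_lin`, `red_lin`: the reduction of `p² Ent γ p m Q` is `Ā m (Q.map _)` for `deg Q < 49p`.
`red_ent_shift` gives `2 Ā m (X · R · X^(pa)) = Ā (m+1) (R X^(pa)) + Ā (m-1) (R X^(pa))` for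
`deg R + 1 < p`, hence by two-step induction on `c` (`T_add_two`)
`2 Ā m (T c · X^(pa)) = A (m+c) (pa) + A (m-c) (pa)`.  Finally
`(col p (T c X^(pa))).map = T c (X^(p(a+6)) - 2 X^(p(a+7)) + X^(p(a+8)))` (`sub_pow_char`), and
`Bm μ a = Ent 0 1 μ (X^(a+6)) - 2 Ent 0 1 μ (X^(a+7)) + Ent 0 1 μ (X^(a+8))`.
-/

set_option autoImplicit false

namespace Crest.Agent.R6

open Polynomial Finset

variable {p : ℕ} [Fact p.Prime] {γ : ℚ}

theorem fcol_lin (γ c : ℚ) (N : ℕ) (m : ℤ) (Q : ℤ[X]) :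
    c * Ent γ N m Q = lin (fun j => c * Ent γ N m (X ^ j)) Q := by
  rw [lin_fun_mul, Ent, Phi_eq_lin]
  rfl

theorem fcol_Bm (μ : ℤ) (a : ℕ) : Bm μ a = Ent 0 1 μ (X ^ (a + 6)) -
    (2 : ℤ) * Ent 0 1 μ (X ^ (a + 7)) + Ent 0 1 μ (X ^ (a + 8)) := by
  have h : colQ 1 a = X ^ (a + 6) - C 2 * X ^ (a + 7) + X ^ (a + 8) := by
    rw [colQ, col, map_ofNat]
    ring
  rw [Bm, ← one_mul (Ent 0 1 μ (colQ 1 a)), fcol_lin, h, lin_add, lin_sub, lin_C_mul, lin_X_pow,
    lin_X_pow, lin_X_pow, one_mul, one_mul, one_mul]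

theorem fcol_coeff {N : ℕ} {R : ℤ[X]} (hR : R.natDegree < 36 * N) (i : ℕ) (hi : 49 * N ≤ i) :
    (col N R).coeff i = 0 := by
  have h1 : ((1 - X : ℤ[X]) ^ (2 * N)).natDegree ≤ 2 * N * 1 :=
    natDegree_pow_le_of_le _ (by compute_degree)
  have h2 := natDegree_mul_le (p := (X : ℤ[X]) ^ (6 * N)) (q := (1 - X) ^ (2 * N))
  have h3 := natDegree_mul_le (p := (X : ℤ[X]) ^ (6 * N) * (1 - X) ^ (2 * N)) (q := R)
  rw [natDegree_X_pow] at h2
  exact coeff_eq_zero_of_natDegree_lt (h3.trans_lt (by omega))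

/-- the reduced pairing of row `m` with reduced columns -/
noncomputable def fcolL (p : ℕ) [Fact p.Prime] (γ : ℚ) (m : ℤ) : (ZMod p)[X] →ₗ[ZMod p] ZMod p :=
  (basisMonomials (ZMod p)).constr (ZMod p)
    fun j => (((p : ℚ) ^ 2 * Ent γ p m (X ^ j) : ℚ) : ZMod p)

theorem fcolL_X_pow (m : ℤ) (j : ℕ) :
    fcolL p γ m (X ^ j) = (((p : ℚ) ^ 2 * Ent γ p m (X ^ j) : ℚ) : ZMod p) := by
  rw [← monomial_one_right_eq_X_pow]
  exact (basisMonomials (ZMod p)).constr_basis _ _ j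

theorem fcol_red (hp : 60 ≤ p) (hγ : PI p γ) {m : ℤ} (hm : m.natAbs + 1 ≤ 47 * p) {Q : ℤ[X]}
    (hQ : ∀ i, 49 * p ≤ i → Q.coeff i = 0) : (((p : ℚ) ^ 2 * Ent γ p m Q : ℚ) : ZMod p) =
      fcolL p γ m (Q.map (Int.castRingHom (ZMod p))) := by
  have h : (Q.map (Int.castRingHom (ZMod p))).natDegree < 49 * p :=
    (natDegree_map_le.trans (natDegree_le_iff_coeff_eq_zero.2 fun i (hi : 49 * p - 1 < i) =>
      hQ i (by omega))).trans_lt (by omega)
  rw [fcol_lin, red_lin hQ fun i hi => PI_ent hp hγ hm hi, as_sum_range' _ _ h, map_sum]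
  refine sum_congr rfl fun i _ => ?_
  rw [← smul_X_eq_monomial, map_smul, fcolL_X_pow, coeff_map, smul_eq_mul, eq_intCast]

theorem fcol_shift (hp : 60 ≤ p) (hγ : PI p γ) {m : ℤ} (hm : m.natAbs + 2 ≤ 47 * p) {b : ℕ}
    (hb : b < 49) {R : (ZMod p)[X]} (hR : R.natDegree + 1 < p) :
    2 * fcolL p γ m (X ^ (p * b) * (X * R)) =
      fcolL p γ (m + 1) (X ^ (p * b) * R) + fcolL p γ (m - 1) (X ^ (p * b) * R) := by
  rw [R.as_sum_range]
  simp only [mul_sum, map_sum, ← sum_add_distrib]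
  refine sum_congr rfl fun i hi => ?_
  have h1 := mem_range.1 hi
  have h2 : p * b ≤ p * 48 := Nat.mul_le_mul_left _ (by omega)
  have h3 := red_ent_shift hp hγ hm (j := p * b + i) (by omega) fun h => by
    rw [add_assoc, Nat.dvd_add_right (dvd_mul_right _ _)] at h
    exact absurd (Nat.le_of_dvd i.succ_pos h) (by omega)
  simp only [← smul_X_eq_monomial, mul_smul_comm, map_smul, smul_eq_mul, ← pow_succ', ← pow_add,
    fcolL_X_pow, ← add_assoc]
  linear_combination R.coeff i * h3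

theorem fcol_T (hp : 60 ≤ p) (hγ : PI p γ) {b : ℕ} (hb : b < 49) (c : ℕ) : c < p → ∀ m : ℤ,
    m.natAbs + c + 1 ≤ 47 * p → 2 * fcolL p γ m (X ^ (p * b) * Chebyshev.T (ZMod p) c) =
      fcolL p γ (m + c) (X ^ (p * b)) + fcolL p γ (m - c) (X ^ (p * b)) := by
  induction c using Nat.twoStepInduction with
  | zero => intro _ m _; simp [two_mul]
  | one =>
    intro _ m hm
    simpa using fcol_shift hp hγ (m := m) (by omega) hb (R := 1) (by rw [natDegree_one]; omega)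
  | more c ih ih' =>
    intro hc m hm
    have h1 : (Chebyshev.T (ZMod p) (c + 1 : ℕ)).natDegree ≤ c + 1 := by
      rw [← Chebyshev.map_T (Int.castRingHom (ZMod p))]
      refine natDegree_map_le.trans ?_
      rw [Chebyshev.natDegree_T, Int.natAbs_natCast]
    have h2 := fcol_shift hp hγ (m := m) (by omega) hb (R := Chebyshev.T (ZMod p) (c + 1 : ℕ))
      (by omega)
    have h3 := ih (by omega) m (by omega)
    have h4 := ih' (by omega) (m + 1) (by omega)
    have h5 := ih' (by omega) (m - 1) (by omega)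
    have h6 : X ^ (p * b) * Chebyshev.T (ZMod p) (c + 2 : ℕ) =
        (2 : ZMod p) • (X ^ (p * b) * (X * Chebyshev.T (ZMod p) (c + 1 : ℕ))) -
          X ^ (p * b) * Chebyshev.T (ZMod p) c := by
      push_cast
      rw [Chebyshev.T_add_two, two_smul]
      ring
    rw [show m + 1 + (c + 1 : ℕ) = m + (c + 2 : ℕ) by omega,
      show m + 1 - (c + 1 : ℕ) = m - c by omega] at h4
    rw [show m - 1 + (c + 1 : ℕ) = m + c by omega,
      show m - 1 - (c + 1 : ℕ) = m - (c + 2 : ℕ) by omega] at h5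
    rw [h6, map_sub, map_smul, smul_eq_mul]
    linear_combination 2 * h2 + h4 + h5 - h3

theorem fcol_A (hp : 60 ≤ p) (hγ : PI p γ) {m : ℤ} (hm : m.natAbs ≤ 41 * p) {a : ℕ} (ha : a < 36) :
    fcolL p γ m (X ^ (p * (a + 6))) - 2 * fcolL p γ m (X ^ (p * (a + 7))) +
      fcolL p γ m (X ^ (p * (a + 8))) = if (p : ℤ) ∣ m then (Bm (m / p) a : ZMod p) else 0 := by
  rw [fcolL_X_pow, fcolL_X_pow, fcolL_X_pow, red_ent0 hp hγ (by omega) (by omega),
    red_ent0 hp hγ (by omega) (by omega), red_ent0 hp hγ (by omega) (by omega)]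
  split_ifs with h
  · have hμ : (m / p).natAbs ≤ 46 := by
      obtain ⟨μ, rfl⟩ := h
      rw [Int.mul_ediv_cancel_left _ (by omega)]
      rw [Int.natAbs_mul, Int.natAbs_natCast, mul_comm 41] at hm
      exact (Nat.le_of_mul_le_mul_left hm (by omega)).trans (by omega)
    have h1 := fun (j : ℕ) (hj : j < 49) => PI_ent_small hp hμ hj
    rw [fcol_Bm, red_add ((h1 _ (by omega)).sub ((PI_int 2).mul (h1 _ (by omega))))
      (h1 _ (by omega)), red_sub (h1 _ (by omega)) ((PI_int 2).mul (h1 _ (by omega))),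
      red_mul (PI_int 2) (h1 _ (by omega)), Rat.cast_intCast, Int.cast_ofNat]
  · simp

theorem PI_Bm (hp : 60 ≤ p) {μ : ℤ} (hμ : μ.natAbs ≤ 46) {a : ℕ} (ha : a < 36) :
    PI p (Bm μ a) := by
  rw [fcol_Bm]
  exact ((PI_ent_small hp hμ (by omega)).sub
    ((PI_int 2).mul (PI_ent_small hp hμ (by omega)))).add (PI_ent_small hp hμ (by omega))

theorem PI_ent_col (hp : 60 ≤ p) (hγ : PI p γ) {m : ℤ} (hm : m.natAbs + 1 ≤ 47 * p) {R : ℤ[X]}
    (hR : R.natDegree < 36 * p) : PI p ((p : ℚ) ^ 2 * Ent γ p m (col p R)) := by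
  rw [fcol_lin]
  exact PI_lin fun i hi => PI_ent hp hγ hm (not_le.1 fun h => hi (fcol_coeff hR i h))

theorem red_ent_col (hp : 60 ≤ p) (hγ : PI p γ) {m : ℤ} (hm : m.natAbs ≤ 40 * p) {c a : ℕ}
    (hc : c < p) (ha : a < 36) :
    2 * (((p : ℚ) ^ 2 * Ent γ p m (col p (Chebyshev.T ℤ c * X ^ (p * a))) : ℚ) : ZMod p) =
      (if (p : ℤ) ∣ m + c then (Bm ((m + c) / p) a : ZMod p) else 0) +
        (if (p : ℤ) ∣ m - c then (Bm ((m - c) / p) a : ZMod p) else 0) := by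
  have h1 : (Chebyshev.T ℤ c * X ^ (p * a)).natDegree < 36 * p := by
    refine natDegree_mul_le.trans_lt ?_
    rw [Chebyshev.natDegree_T, natDegree_X_pow, Int.natAbs_natCast]
    have : p * a ≤ p * 35 := Nat.mul_le_mul_left _ (by omega)
    omega
  have h2 : (col p (Chebyshev.T ℤ c * X ^ (p * a))).map (Int.castRingHom (ZMod p)) =
      X ^ (p * (a + 6)) * Chebyshev.T (ZMod p) c - (2 : ZMod p) • (X ^ (p * (a + 7)) *
        Chebyshev.T (ZMod p) c) + X ^ (p * (a + 8)) * Chebyshev.T (ZMod p) c := by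
    simp only [col, Polynomial.map_mul, Polynomial.map_pow, Polynomial.map_sub, map_X,
      Polynomial.map_one, Chebyshev.map_T]
    rw [two_smul, pow_mul' (1 - X), sub_pow_char, one_pow]
    ring
  rw [fcol_red hp hγ (by omega) (fcol_coeff h1), h2, map_add, map_sub, map_smul, smul_eq_mul,
    ← fcol_A hp hγ (by omega) ha, ← fcol_A hp hγ (by omega) ha]
  linear_combination fcol_T hp hγ (b := a + 6) (by omega) c hc m (by omega) -
    2 * fcol_T hp hγ (b := a + 7) (by omega) c hc m (by omega) +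
    fcol_T hp hγ (b := a + 8) (by omega) c hc m (by omega)

end Crest.Agent.R6
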