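import Crest.Agent.R6.FCol

/-!
# Row 6: nonvanishing for prime `N`.

Suppose `Delta γ p = 0`.  Then `det (p² Ent) = 0`, so (`red_det`) the reduced matrix `A` is singular and
there is `λ ≠ 0` with `λ ᵥ* A = 0` (`Matrix.exists_vecMul_eq_zero_iff`).  By linearity in the column
(`col p R = ∑ C (R.coeff k) * colQ p k`, `Phi_eq_lin`/`bil` linearity, `red_sum`),
`∑_r λ_r red(p² Ent γ p (r - 3p) (col p R)) = 0` for every `R` of degree `< 36p`.  Extend `λ` by zero
to `lam : ℤ → ZMod p` (`m ∈ [-3p, 33p)`).  `R = T c X^(pa)` and `red_ent_col`: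
`c = 0`: `2 ∑_{r<36} lam(p(r-3)) Bm (r-3) a = 0`; `0 < c < p`: with `α r = lam(c + p(r-3))`,
`β r = lam(p(r-2) - c)`: `∑ α r Bm(r-3) a + ∑ β r Bm(r-2) a = 0` (class `c`) and
`∑ α r Bm(r-2) a + ∑ β r Bm(r-3) a = 0` (class `p - c`).  Add and subtract; the reductions of
`Bdet 0, Bdet 1, Bdet (-1)` are nonzero (`red_det`, `Matrix.eq_zero_of_vecMul_eq_zero`), `2 ≠ 0`.
-/

set_option autoImplicit false

namespace Crest.Agent.R6

open Polynomial Finset Filter

theorem fdet_col (γ c : ℚ) {N n : ℕ} (m : ℤ) {R : ℤ[X]} (hR : R.natDegree < n) :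
    c * Ent γ N m (col N R) = ∑ k ∈ range n, (R.coeff k : ℚ) * (c * Ent γ N m (colQ N k)) := by
  have e : col N R = ∑ k ∈ range n, C (R.coeff k) * colQ N k := by
    conv_lhs => rw [R.as_sum_range_C_mul_X_pow' hR]
    simp only [colQ, col, mul_sum]
    exact sum_congr rfl fun k _ => by ring
  rw [e, Ent, Phi_eq_lin, lin_sum, mul_sum]
  refine sum_congr rfl fun k _ => ?_
  rw [lin_C_mul, ← Phi_eq_lin, Ent]
  ring

theorem fdet_pick {p : ℕ} [Fact p.Prime] (lam : ℕ → ZMod p) (g : ℤ → ZMod p) (c : ℤ) {c' : ℕ}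
    {s : ℤ} (hc' : c' < p) (hs : (c' : ℤ) + c = p * (3 - s)) :
    ∑ r ∈ range (36 * p), lam r *
      (if (p : ℤ) ∣ (r - 3 * (p : ℤ)) + c then g ((r - 3 * (p : ℤ) + c) / p) else 0) =
      ∑ r : Fin 36, lam (p * r + c') * g ((r : ℕ) - s) := by
  rw [fent_block, sum_range]
  refine sum_congr rfl fun r _ => ?_
  have e : ∀ i : ℕ, ((p * r + i : ℕ) : ℤ) - 3 * p + c = p * ((r : ℕ) - s) + (i - c') := fun i => by
    push_cast
    linear_combination hs
  rw [sum_eq_single c']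
  · rw [e, sub_self, add_zero, if_pos (dvd_mul_right _ _), Int.mul_ediv_cancel_left _ (by omega)]
  · intro i hi hne
    have hi' := mem_range.1 hi
    rw [e, if_neg, mul_zero]
    intro hd
    have h1 := Int.eq_zero_of_abs_lt_dvd ((dvd_add_right (dvd_mul_right _ _)).1 hd)
      (abs_lt.2 ⟨by omega, by omega⟩)
    omega
  · intro h
    exact absurd (mem_range.2 hc') h

theorem delta_ne_zero {p : ℕ} [Fact p.Prime] {γ : ℚ} (hp : 60 ≤ p) (hγ : PI p γ)
    (h0 : (Bdet 0 : ZMod p) ≠ 0) (h1 : (Bdet 1 : ZMod p) ≠ 0) (h2 : (Bdet (-1) : ZMod p) ≠ 0) :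
    Delta γ p ≠ 0 := by
  intro hΔ
  have hp0 : 0 < p := by omega
  have hPI : ∀ (r : ℕ), r < 36 * p → ∀ k, k < 36 * p →
      PI p ((p : ℚ) ^ 2 * Ent γ p (r - 3 * (p : ℤ)) (colQ p k)) := fun r hr k hk =>
    PI_ent_col hp hγ (by omega) (by rwa [natDegree_X_pow])
  have hd := (red_det (p := p) (fun r k : Fin (36 * p) =>
    (p : ℚ) ^ 2 * Ent γ p ((r : ℕ) - 3 * (p : ℤ)) (colQ p k)) fun r k => hPI r r.2 k k.2).2
  have e0 : (Matrix.of fun r k : Fin (36 * p) =>
      (p : ℚ) ^ 2 * Ent γ p ((r : ℕ) - 3 * (p : ℤ)) (colQ p k)).det = 0 := by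
    have e1 := Matrix.det_smul (Matrix.of fun r k : Fin (36 * p) =>
      Ent γ p ((r : ℕ) - 3 * (p : ℤ)) (colQ p k)) ((p : ℚ) ^ 2)
    exact e1.trans (mul_eq_zero_of_right _ hΔ)
  rw [e0, Rat.cast_zero] at hd
  obtain ⟨v, hv0, hv⟩ := Matrix.exists_vecMul_eq_zero_iff.2 hd.symm
  obtain ⟨lam, hlam⟩ : ∃ lam : ℕ → ZMod p, ∀ r : Fin (36 * p), lam r = v r :=
    ⟨fun r => if h : r < 36 * p then v ⟨r, h⟩ else 0, fun r => dif_pos r.2⟩
  have hk : ∀ k < 36 * p, ∑ r ∈ range (36 * p), lam r *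
      (((p : ℚ) ^ 2 * Ent γ p (r - 3 * (p : ℤ)) (colQ p k) : ℚ) : ZMod p) = 0 := fun k hk => by
    rw [sum_range]
    simp only [hlam]
    exact congrFun hv ⟨k, hk⟩
  have hR : ∀ R : ℤ[X], R.natDegree < 36 * p → ∑ r ∈ range (36 * p), lam r *
      (((p : ℚ) ^ 2 * Ent γ p (r - 3 * (p : ℤ)) (col p R) : ℚ) : ZMod p) = 0 := fun R hR => by
    have e1 : ∀ r ∈ range (36 * p), lam r *
        (((p : ℚ) ^ 2 * Ent γ p (r - 3 * (p : ℤ)) (col p R) : ℚ) : ZMod p) =
        ∑ k ∈ range (36 * p), (R.coeff k : ZMod p) * (lam r *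
          (((p : ℚ) ^ 2 * Ent γ p (r - 3 * (p : ℤ)) (colQ p k) : ℚ) : ZMod p)) := fun r hr => by
      rw [fdet_col γ _ _ hR, red_sum fun k hk =>
        (PI_int _).mul (hPI r (mem_range.1 hr) k (mem_range.1 hk)), mul_sum]
      refine sum_congr rfl fun k hk => ?_
      rw [red_mul (PI_int _) (hPI r (mem_range.1 hr) k (mem_range.1 hk)), Rat.cast_intCast]
      ring
    rw [sum_congr rfl e1, sum_comm]
    refine sum_eq_zero fun k hk' => ?_
    rw [← mul_sum, hk k (mem_range.1 hk'), mul_zero]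
  have key : ∀ c < p, ∀ a < 36, ∑ r ∈ range (36 * p), lam r *
      ((if (p : ℤ) ∣ (r - 3 * (p : ℤ)) + c then (Bm ((r - 3 * (p : ℤ) + c) / p) a : ZMod p) else 0) +
      (if (p : ℤ) ∣ (r - 3 * (p : ℤ)) - c then (Bm ((r - 3 * (p : ℤ) - c) / p) a : ZMod p) else 0))
      = 0 := fun c hc a ha => by
    have h3 : (Chebyshev.T ℤ c * X ^ (p * a)).natDegree < 36 * p := by
      refine natDegree_mul_le.trans_lt ?_
      rw [Chebyshev.natDegree_T, natDegree_X_pow, Int.natAbs_natCast]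
      nlinarith
    refine Eq.trans ?_ (mul_eq_zero_of_right 2 (hR _ h3))
    rw [mul_sum]
    refine sum_congr rfl fun r hr => ?_
    have := mem_range.1 hr
    rw [← red_ent_col hp hγ (by omega) hc ha]
    ring
  obtain ⟨μ, hμ⟩ : ∃ μ : ℕ → Fin 36 → ZMod p, ∀ c r, μ c r = lam (p * r + c) := ⟨_, fun _ _ => rfl⟩
  obtain ⟨B, hB⟩ : ∃ B : ℤ → Matrix (Fin 36) (Fin 36) (ZMod p),
      ∀ s r a, B s r a = (Bm ((r : ℕ) - s) a : ZMod p) := ⟨fun s r a => _, fun _ _ _ => rfl⟩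
  have hdet : ∀ σ : ℤ, (Bdet σ : ZMod p) = (B 3 + (σ : ZMod p) • B 2).det := fun σ => by
    have q1 : ∀ r a : Fin 36, PI p (Bm ((r : ℕ) - 3) a) := fun r a =>
      PI_Bm hp (by have := r.2; omega) a.2
    have q2 : ∀ r a : Fin 36, PI p (Bm ((r : ℕ) - 2) a) := fun r a =>
      PI_Bm hp (by have := r.2; omega) a.2
    rw [Bdet, (red_det _ fun r a => (q1 r a).add ((PI_int σ).mul (q2 r a))).2]
    congr 1
    ext r a
    rw [Matrix.of_apply, red_add (q1 r a) ((PI_int σ).mul (q2 r a)), red_mul (PI_int σ) (q2 r a),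
      Rat.cast_intCast, Matrix.add_apply, Matrix.smul_apply, hB, hB, smul_eq_mul]
  have key2 : ∀ c < p, ∀ (c' : ℕ) (s : ℤ), c' < p → (c' : ℤ) + c = p * (3 - s) →
      Matrix.vecMul (μ c') (B s) + Matrix.vecMul (μ c) (B 3) = 0 := fun c hc c' s hc' hs => by
    funext a
    have h3 := key c hc a a.2
    simp only [mul_add, sum_add_distrib] at h3
    rw [fdet_pick lam (fun z => (Bm z a : ZMod p)) c hc' hs,
      show (fun r : ℕ => lam r * if (p : ℤ) ∣ (r - 3 * (p : ℤ)) - c then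
        (Bm ((r - 3 * (p : ℤ) - c) / p) a : ZMod p) else 0) = fun r : ℕ => lam r *
        if (p : ℤ) ∣ (r - 3 * (p : ℤ)) + (-c) then
          (Bm ((r - 3 * (p : ℤ) + (-c)) / p) a : ZMod p) else 0 from rfl,
      fdet_pick lam (fun z => (Bm z a : ZMod p)) (-c) (s := 3) hc (by ring)] at h3
    simpa only [Pi.add_apply, Matrix.vecMul, dotProduct, hμ, hB, Pi.zero_apply] using h3
  have two : (2 : ZMod p) ≠ 0 := by
    intro h
    have := Nat.le_of_dvd two_pos ((ZMod.natCast_eq_zero_iff 2 p).1 (by exact_mod_cast h))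
    omega
  have d0 := hdet 0
  have d1 := hdet 1
  have d2 := hdet (-1)
  simp only [Int.cast_zero, Int.cast_one, Int.cast_neg, zero_smul, add_zero, one_smul, neg_smul,
    ← sub_eq_add_neg] at d0 d1 d2
  have hμ0 : ∀ c < p, μ c = 0 := fun c hc => by
    rcases Nat.eq_zero_or_pos c with rfl | hc0
    · refine Matrix.eq_zero_of_vecMul_eq_zero (d0 ▸ h0) ?_
      have h3 := key2 0 hp0 0 3 hp0 (by simp)
      rw [← two_smul (ZMod p)] at h3
      exact (smul_eq_zero.1 h3).resolve_left two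
    · have h3 := key2 c hc (p - c) 2 (by omega) (by omega)
      have h4 := key2 (p - c) (by omega) c 2 hc (by omega)
      have h5 : μ c + μ (p - c) = 0 := by
        refine Matrix.eq_zero_of_vecMul_eq_zero (d1 ▸ h1) ?_
        rw [Matrix.add_vecMul, Matrix.vecMul_add, Matrix.vecMul_add]
        linear_combination h3 + h4
      have h6 : μ c - μ (p - c) = 0 := by
        refine Matrix.eq_zero_of_vecMul_eq_zero (d2 ▸ h2) ?_
        rw [Matrix.sub_vecMul, Matrix.vecMul_sub, Matrix.vecMul_sub]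
        linear_combination h3 - h4
      have h7 : (2 : ZMod p) • μ c = 0 := by
        rw [two_smul]
        linear_combination h5 + h6
      exact (smul_eq_zero.1 h7).resolve_left two
  refine hv0 (funext fun r => ?_)
  have h3 := congrFun (hμ0 (r % p) (Nat.mod_lt _ hp0))
    ⟨r / p, (Nat.div_lt_iff_lt_mul hp0).2 r.2⟩
  rw [hμ, Nat.div_add_mod, hlam] at h3
  exact h3

end Crest.Agent.R6
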