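import Crest.Agent.R6.FBd

/-!
# Row 6: Frobenius congruence for monomials.

`i = p i' + i0`, `e0 = p - 1 - i0`, `j = p j'`.  Boundary: if `j ≤ i` then `d = i - j`,
`d + 1 + e0 = p (i' - j' + 1)` (`red_AN`; the `γ` term is `p² · integral`); otherwise
`k = j - i - 1 = e0 + p (j' - i' - 1)` (`red_AP`).  Sum: reflect `l + 1 = j + 1 - v`
(`Finset.sum_range_reflect`/`sum_bij`), apply `red_sum_mult` with `g l = p · lm i (j - l)`;
for `l + 1 = p l₁`, `v = p (j' - l₁) + 1` corresponds to `v* = j' + 1 - l₁`, and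
`p · lm i v ≡ cc e0 · lm i' v*` (`red_mm` if `v* ≤ i'`; if `v* = i' + 1` then `lm i v` is `mm(i0-1)`
or `0`, integral; otherwise both vanish).  Same for `Z0` with `red_HH`.
`red_MG_shift`: `MG_succ` and `p² mm i/(j+1) = p · (p mm i)/(j+1)`.
-/

set_option autoImplicit false

namespace Crest.Agent.R6

open Finset

variable {p : ℕ} [Fact p.Prime] {γ : ℚ}

omit [Fact p.Prime] in
theorem fm_log_le {X : ℕ} (h : X < p ^ 2) : Nat.log p X ≤ 1 := by
  rcases Nat.eq_zero_or_pos X with rfl | hX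
  · simp
  · exact Nat.lt_succ_iff.1 (Nat.log_lt_of_lt_pow hX.ne' h)

theorem fm_one_le : (1 : ℚ) ≤ p := by exact_mod_cast (Fact.out : p.Prime).one_lt.le

theorem fm_PI_one {x : ℚ} (h : padicNorm p x ≤ p) : PI p ((p : ℚ) * x) := by
  have hp : (0 : ℚ) < p := lt_of_lt_of_le one_pos fm_one_le
  unfold PI
  rw [padicNorm.mul, padicNorm.padicNorm_p_of_prime, inv_mul_le_iff₀ hp, mul_one]
  exact h

theorem fm_PI_sq {x : ℚ} (h : padicNorm p x ≤ (p : ℚ) ^ 2) : PI p ((p : ℚ) ^ 2 * x) := by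
  have hp : (0 : ℚ) < p := lt_of_lt_of_le one_pos fm_one_le
  have e : (p : ℚ) ^ 2 * x = p * (p * x) := by ring
  rw [e]
  apply fm_PI_one
  rw [padicNorm.mul, padicNorm.padicNorm_p_of_prime, inv_mul_le_iff₀ hp, ← sq]
  exact h

theorem fm_lt_sq : p ^ 2 - 1 < p ^ 2 :=
  Nat.sub_lt (pow_pos (Fact.out : p.Prime).pos 2) one_pos

theorem fm_pow_sq : (p : ℚ) ^ (2 * Nat.log p (p ^ 2 - 1)) ≤ (p : ℚ) ^ 2 :=
  pow_le_pow_right₀ fm_one_le (by have := fm_log_le (p := p) fm_lt_sq; omega)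

theorem fm_pow_one : (p : ℚ) ^ (Nat.log p (p ^ 2 - 1)) ≤ (p : ℚ) := by
  have := pow_le_pow_right₀ (fm_one_le (p := p)) (fm_log_le (p := p) fm_lt_sq)
  rwa [pow_one] at this

theorem fm_log_zero : Nat.log p (p - 1) = 0 :=
  Nat.log_of_lt (Nat.sub_lt (Fact.out : p.Prime).pos one_pos)

theorem fm_lt {i : ℕ} (hi : i / p + 3 < p) : i < p ^ 2 := by
  have hp := (Fact.out : p.Prime).pos
  rw [sq, ← Nat.div_lt_iff_lt_mul hp]
  omega

theorem fm_mul_lt {j : ℕ} (hj : j + 3 < p) : p * j < p ^ 2 := by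
  have hp := (Fact.out : p.Prime).pos
  rw [sq]
  exact Nat.mul_lt_mul_of_pos_left (by omega) hp

/-- reflection of the inner sums -/
theorem fm_reflect (F : ℕ → ℚ) (j : ℕ) :
    ∑ v ∈ Icc 1 j, F v / ((j + 1 - v : ℕ) : ℚ) = ∑ l ∈ range j, F (j - l) / ((l + 1 : ℕ) : ℚ) := by
  refine Finset.sum_bij' (fun v _ => j - v) (fun l _ => j - l) ?_ ?_ ?_ ?_ ?_
  · intro v hv
    simp only [mem_Icc, mem_range] at hv ⊢
    omega
  · intro l hl
    simp only [mem_Icc, mem_range] at hl ⊢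
    omega
  · intro v hv
    simp only [mem_Icc] at hv ⊢
    omega
  · intro l hl
    simp only [mem_range] at hl ⊢
    omega
  · intro v hv
    simp only [mem_Icc] at hv
    have e1 : j - (j - v) = v := by omega
    have e2 : j - v + 1 = j + 1 - v := by omega
    rw [e1, e2]

/-- reduction of the inner sums -/
theorem fm_red_sum {F G : ℕ → ℚ} {c : ZMod p} {j' : ℕ} (hj : j' + 3 < p)
    (hF : ∀ v, 1 ≤ v → PI p ((p : ℚ) * F v)) (hG : ∀ v, 1 ≤ v → PI p (G v))
    (h : ∀ w, (((p : ℚ) * F (p * w + 1) : ℚ) : ZMod p) = c * (G (w + 1) : ZMod p)) :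
    PI p ((p : ℚ) ^ 2 * ∑ v ∈ Icc 1 (p * j'), F v / ((p * j' + 1 - v : ℕ) : ℚ)) ∧
    PI p (∑ v ∈ Icc 1 j', G v / ((j' + 1 - v : ℕ) : ℚ)) ∧
    (((p : ℚ) ^ 2 * ∑ v ∈ Icc 1 (p * j'), F v / ((p * j' + 1 - v : ℕ) : ℚ) : ℚ) : ZMod p) =
      c * ((∑ v ∈ Icc 1 j', G v / ((j' + 1 - v : ℕ) : ℚ) : ℚ) : ZMod p) := by
  have hp := (Fact.out : p.Prime).pos
  have hlt := fm_mul_lt hj
  rw [fm_reflect, fm_reflect]
  have e : (p : ℚ) ^ 2 * ∑ l ∈ range (p * j'), F (p * j' - l) / ((l + 1 : ℕ) : ℚ) =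
      ∑ l ∈ range (p * j'), ((p : ℚ) * F (p * j' - l)) * ((p : ℚ) / ((l : ℚ) + 1)) := by
    rw [mul_sum]
    refine sum_congr rfl fun l _ => ?_
    push_cast
    ring
  have hg : ∀ l < p * j', PI p ((p : ℚ) * F (p * j' - l)) := fun l hl => hF _ (by omega)
  have hnd : ∀ l ∈ range j', ¬ p ∣ l + 1 := fun l hl hd => by
    have := Nat.le_of_dvd (Nat.succ_pos l) hd
    have := mem_range.1 hl
    omega
  have hG' : ∀ l ∈ range j', PI p (G (j' - l)) := fun l hl =>
    hG _ (by have := mem_range.1 hl; omega)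
  refine ⟨?_, PI_sum fun l hl => (hG' l hl).div_nat (hnd l hl), ?_⟩
  · rw [e]
    refine PI_sum fun l hl => (hg l (mem_range.1 hl)).mul ?_
    have h1 : (p : ℚ) / ((l : ℚ) + 1) = p * (1 / ((l + 1 : ℕ) : ℚ)) := by
      push_cast
      ring
    rw [h1]
    exact fm_PI_one (pn_inv_nat_of_lt_sq (by have := mem_range.1 hl; omega))
  · rw [e, red_sum_mult (g := fun l => (p : ℚ) * F (p * j' - l)) hlt hg,
      red_sum fun l hl => (hG' l hl).div_nat (hnd l hl), mul_sum, Nat.mul_div_cancel_left _ hp]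
    refine sum_congr rfl fun l hl => ?_
    obtain ⟨w, hw⟩ : ∃ w, j' = l + 1 + w := ⟨j' - (l + 1), by have := mem_range.1 hl; omega⟩
    have e1 : p * j' - (p * (l + 1) - 1) = p * w + 1 := by
      have : 1 ≤ p * (l + 1) := Nat.mul_pos hp (Nat.succ_pos l)
      rw [hw, mul_add p (l + 1) w]
      omega
    have e2 : j' - l = w + 1 := by omega
    rw [red_div_nat (hG' l hl) (hnd l hl), e1, e2, h w]
    push_cast
    ring

theorem PI_MG (hp : p ≠ 2) (hγ : PI p γ) {i j : ℕ} (hi : i < p ^ 2) (hj : j < p ^ 2) :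
    PI p ((p : ℚ) ^ 2 * MG γ i j) := by
  have h := pn_MG hp γ (i := i) (j := j) (X := p ^ 2 - 1) (by omega) (by omega)
  rw [max_eq_left hγ, one_mul] at h
  exact fm_PI_sq (h.trans fm_pow_sq)

theorem PI_Z0 {i j : ℕ} (hi : i < p ^ 2) (hj : j < p ^ 2) : PI p ((p : ℚ) ^ 2 * Z0 i j) :=
  fm_PI_sq ((pn_Z0 (i := i) (j := j) (X := p ^ 2 - 1) (by omega) (by omega)).trans fm_pow_sq)

theorem PI_MG_small (hp : p ≠ 2) {i j : ℕ} (hi : i < p) (hj : j < p) : PI p (MG 0 i j) := by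
  have h := pn_MG hp 0 (i := i) (j := j) (X := p - 1) (by omega) (by omega)
  rw [fm_log_zero] at h
  simpa [PI] using h

theorem PI_Z0_small {i j : ℕ} (hi : i < p) (hj : j < p) : PI p (Z0 i j) := by
  have h := pn_Z0 (p := p) (i := i) (j := j) (X := p - 1) (by omega) (by omega)
  rw [fm_log_zero] at h
  simpa [PI] using h

theorem fm_red_lm (hp : p ≠ 2) {i : ℕ} (hi : i / p + 3 < p) (w : ℕ) :
    (((p : ℚ) * lm i (p * w + 1) : ℚ) : ZMod p) =
      (cc (p - 1 - i % p) : ZMod p) * (lm (i / p) (w + 1) : ZMod p) := by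
  have hp0 := (Fact.out : p.Prime).pos
  have hm := Nat.mod_lt i hp0
  have hd := Nat.div_add_mod i p
  generalize i / p = i' at *
  generalize i % p = i0 at *
  by_cases h1 : w + 1 ≤ i'
  · obtain ⟨u, rfl⟩ : ∃ u, i' = w + 1 + u := ⟨i' - (w + 1), by omega⟩
    have e0 : p * (w + 1 + u) = p * w + p + p * u := by ring
    have e1 : p * (u + 2) = p * u + 2 * p := by ring
    have h2 : p * w + 1 ≤ i := by omega
    have e2 : w + 1 + u - (w + 1) = u := by omega
    simp only [lm, if_pos h1, if_pos h2, e2]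
    exact red_mm hp (by omega) (by omega) (by omega)
  · have h3 : p * i' ≤ p * w := Nat.mul_le_mul_left p (by omega)
    simp only [lm, if_neg h1, Rat.cast_zero, mul_zero]
    split_ifs with h2
    · exact red_p_mul (PI_mm (by omega))
    · simp

theorem fm_red_BM (hp : p ≠ 2) (hγ : PI p γ) {i j' : ℕ} (hi : i / p + 3 < p) (hj : j' + 3 < p) :
    (((p : ℚ) ^ 2 * BM γ i (p * j' + 1) : ℚ) : ZMod p) =
      (cc (p - 1 - i % p) : ZMod p) * (BM 0 (i / p) (j' + 1) : ZMod p) := by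
  have hp0 := (Fact.out : p.Prime).pos
  have hlt := fm_lt hi
  have hm := Nat.mod_lt i hp0
  have hd := Nat.div_add_mod i p
  generalize i / p = i' at *
  generalize i % p = i0 at *
  by_cases h1 : j' + 1 ≤ i' + 1
  · obtain ⟨u, rfl⟩ : ∃ u, i' = j' + u := ⟨i' - j', by omega⟩
    have e0 : p * (j' + u) = p * j' + p * u := by ring
    have e1 : p * (u + 1) = p * u + p := by ring
    have h2 : p * j' + 1 ≤ i + 1 := by omega
    have e2 : j' + u + 1 - (j' + 1) = u := by omega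
    simp only [BM, if_pos h1, if_pos h2, e2, mul_zero, zero_mul, add_zero]
    generalize hdd : i + 1 - (p * j' + 1) = d
    have e3 : (p : ℚ) ^ 2 * (AN d + 4 * γ * cc d) =
        (p : ℚ) ^ 2 * AN d + (p : ℚ) * ((p : ℚ) * (((4 : ℕ) : ℚ) * γ * cc d)) := by
      push_cast
      ring
    have hA : PI p ((p : ℚ) ^ 2 * AN d) :=
      fm_PI_sq ((pn_AN hp (X := p ^ 2 - 1) (by omega)).trans fm_pow_sq)
    have hB : PI p ((p : ℚ) * (((4 : ℕ) : ℚ) * γ * cc d)) :=
      (PI_nat p).mul (((PI_nat 4).mul hγ).mul (PI_cc hp d))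
    rw [e3, red_add hA ((PI_nat p).mul hB), red_p_mul hB, add_zero]
    exact red_AN hp (by omega) (by omega) (by omega)
  · obtain ⟨u, rfl⟩ : ∃ u, j' = i' + 1 + u := ⟨j' - (i' + 1), by omega⟩
    have e0 : p * (i' + 1 + u) = p * i' + p + p * u := by ring
    have h2 : ¬ p * (i' + 1 + u) + 1 ≤ i + 1 := by omega
    have e2 : i' + 1 + u + 1 - i' - 2 = u := by omega
    have e3 : p * (i' + 1 + u) + 1 - i - 2 = (p - 1 - i0) + p * u := by omega
    simp only [BM, if_neg h1, if_neg h2, e2, e3]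
    exact red_AP hp (by omega) (by omega)

theorem red_MG (hp : p ≠ 2) (hγ : PI p γ) {i j' : ℕ} (hi : i / p + 3 < p) (hj : j' + 3 < p) :
    (((p : ℚ) ^ 2 * MG γ i (p * j') : ℚ) : ZMod p) =
      (cc (p - 1 - i % p) : ZMod p) * (MG 0 (i / p) j' : ZMod p) := by
  have hlt := fm_lt hi
  have hlt' := fm_mul_lt hj
  obtain ⟨h1, h2, h3⟩ := fm_red_sum (F := lm i) (G := lm (i / p)) hj
    (fun v hv => fm_PI_one ((pn_lm (X := p ^ 2 - 1) (by omega)).trans fm_pow_one))
    (fun v hv => by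
      have h := pn_lm (p := p) (i := i / p) (v := v) (X := p - 1) (by omega)
      rwa [fm_log_zero, pow_zero] at h)
    (fm_red_lm hp hi)
  have h4 : PI p ((p : ℚ) ^ 2 * BM γ i (p * j' + 1)) := by
    have h := pn_BM hp γ (i := i) (v := p * j' + 1) (X := p ^ 2 - 1) (by omega) (by omega)
    rw [max_eq_left hγ, one_mul] at h
    exact fm_PI_sq (h.trans fm_pow_sq)
  have h5 : PI p (BM 0 (i / p) (j' + 1)) := by
    have h := pn_BM hp 0 (i := i / p) (v := j' + 1) (X := p - 1) (by omega)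
      (by generalize i / p = q; omega)
    rw [fm_log_zero] at h
    simpa [PI] using h
  unfold MG
  rw [mul_sub, red_sub h4 h1, red_sub h5 h2, h3, fm_red_BM hp hγ hi hj, mul_sub]

theorem fm_red_lz (i w : ℕ) :
    (((p : ℚ) * lz i (p * w + 1) : ℚ) : ZMod p) =
      (if p ∣ i then 1 else 0 : ZMod p) * (lz (i / p) (w + 1) : ZMod p) := by
  have hp0 := (Fact.out : p.Prime).pos
  by_cases hd : p ∣ i
  · obtain ⟨i', rfl⟩ := hd
    rw [if_pos (dvd_mul_right _ _), one_mul, Nat.mul_div_cancel_left _ hp0]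
    congr 1
    by_cases h1 : w + 1 ≤ i'
    · obtain ⟨u, rfl⟩ : ∃ u, i' = w + 1 + u := ⟨i' - (w + 1), by omega⟩
      have e0 : p * (w + 1 + u) = p * w + p + p * u := by ring
      have h2 : p * w + 1 ≤ p * (w + 1 + u) := by omega
      have e2 : w + 1 + u - (w + 1) = u := by omega
      have e3 : p * (w + 1 + u) - (p * w + 1) + 1 = p * (u + 1) := by
        rw [mul_add p u 1]
        omega
      have e4 : (((p * (w + 1 + u) - (p * w + 1) : ℕ) : ℚ) + 1) = (p : ℚ) * ((u : ℚ) + 1) := by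
        exact_mod_cast e3
      simp only [lz, if_pos h1, if_pos h2, e2, e4]
      have : (p : ℚ) ≠ 0 := by exact_mod_cast hp0.ne'
      field_simp
    · have h3 : p * i' ≤ p * w := Nat.mul_le_mul_left p (by omega)
      have h2 : ¬ p * w + 1 ≤ p * i' := by omega
      simp only [lz, if_neg h1, if_neg h2, mul_zero]
  · rw [if_neg hd, zero_mul]
    apply red_p_mul
    unfold lz
    split_ifs with h2
    · have e : (((i - (p * w + 1) : ℕ) : ℚ) + 1) = ((i - p * w : ℕ) : ℚ) := by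
        have : i - (p * w + 1) + 1 = i - p * w := by omega
        exact_mod_cast this
      rw [e]
      refine (pn_inv_nat_of_not_dvd fun h => hd ?_).le
      have : i = (i - p * w) + p * w := by omega
      rw [this]
      exact dvd_add h (dvd_mul_right _ _)
    · exact PI_nat 0

theorem fm_red_BZ {i j' : ℕ} (hi : i / p + 3 < p) (hj : j' + 3 < p) :
    (((p : ℚ) ^ 2 * BZ i (p * j' + 1) : ℚ) : ZMod p) =
      (if p ∣ i then 1 else 0 : ZMod p) * (BZ (i / p) (j' + 1) : ZMod p) := by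
  have hp0 := (Fact.out : p.Prime).pos
  have hlt := fm_lt hi
  have hlt' := fm_mul_lt hj
  by_cases hd : p ∣ i
  · obtain ⟨i', rfl⟩ := hd
    rw [if_pos (dvd_mul_right _ _), one_mul, Nat.mul_div_cancel_left _ hp0]
    by_cases h1 : j' + 1 ≤ i' + 1
    · obtain ⟨u, rfl⟩ : ∃ u, i' = j' + u := ⟨i' - j', by omega⟩
      have e0 : p * (j' + u) = p * j' + p * u := by ring
      have h2 : p * j' + 1 ≤ p * (j' + u) + 1 := by omega
      have e2 : j' + u + 1 - (j' + 1) = u := by omega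
      have e3 : p * (j' + u) + 1 - (p * j' + 1) = p * u := by omega
      simp only [BZ, if_pos h1, if_pos h2, e2, e3]
      rw [red_HH (by omega), if_pos (dvd_mul_right _ _), Nat.mul_div_cancel_left _ hp0]
    · obtain ⟨u, rfl⟩ : ∃ u, j' = i' + 1 + u := ⟨j' - (i' + 1), by omega⟩
      have e0 : p * (i' + 1 + u) = p * i' + p + p * u := by ring
      have h2 : ¬ p * (i' + 1 + u) + 1 ≤ p * i' + 1 := by omega
      have e2 : i' + 1 + u + 1 - i' - 1 = u + 1 := by omega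
      have e3 : p * (i' + 1 + u) + 1 - p * i' - 1 = p * (u + 1) := by
        rw [mul_add p u 1]
        omega
      have e4 : p * (u + 1) = p + p * u := by ring
      simp only [BZ, if_neg h1, if_neg h2, e2, e3]
      rw [red_HH (by omega), if_pos (dvd_mul_right _ _), Nat.mul_div_cancel_left _ hp0]
  · rw [if_neg hd, zero_mul]
    unfold BZ
    split_ifs with h2
    · rw [red_HH (by omega), if_neg]
      intro h
      apply hd
      have : i = (i + 1 - (p * j' + 1)) + p * j' := by omega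
      rw [this]
      exact dvd_add h (dvd_mul_right _ _)
    · rw [red_HH (by omega), if_neg]
      intro h
      apply hd
      have : i = p * j' - (p * j' + 1 - i - 1) := by omega
      rw [this]
      exact Nat.dvd_sub (dvd_mul_right _ _) h

theorem red_Z0 {i j' : ℕ} (hi : i / p + 3 < p) (hj : j' + 3 < p) :
    (((p : ℚ) ^ 2 * Z0 i (p * j') : ℚ) : ZMod p) =
      if p ∣ i then (Z0 (i / p) j' : ZMod p) else 0 := by
  have hlt := fm_lt hi
  have hlt' := fm_mul_lt hj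
  obtain ⟨h1, h2, h3⟩ := fm_red_sum (F := lz i) (G := lz (i / p)) hj
    (fun v hv => fm_PI_one ((pn_lz (X := p ^ 2 - 1) (by omega)).trans fm_pow_one))
    (fun v hv => by
      have h := pn_lz (p := p) (i := i / p) (v := v) (X := p - 1) (by omega)
      rwa [fm_log_zero, pow_zero] at h)
    (fm_red_lz i)
  have h4 : PI p ((p : ℚ) ^ 2 * BZ i (p * j' + 1)) :=
    fm_PI_sq ((pn_BZ (X := p ^ 2 - 1) (by omega) (by omega)).trans fm_pow_sq)
  have h5 : PI p (BZ (i / p) (j' + 1)) := by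
    have h := pn_BZ (p := p) (i := i / p) (v := j' + 1) (X := p - 1) (by omega)
      (by generalize i / p = q; omega)
    rw [fm_log_zero] at h
    simpa [PI] using h
  unfold Z0
  rw [mul_sub, red_sub h4 h1, red_sub h5 h2, h3, fm_red_BZ hi hj]
  split_ifs <;> simp

theorem red_MG_shift (hp : p ≠ 2) (hγ : PI p γ) {i j : ℕ} (hi : i + 1 < p ^ 2) (hj : j + 1 < p ^ 2)
    (h : ¬ p ∣ j + 1) :
    (((p : ℚ) ^ 2 * MG γ (i + 1) (j + 1) : ℚ) : ZMod p) = (((p : ℚ) ^ 2 * MG γ i j : ℚ) : ZMod p) := by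
  have e : (p : ℚ) ^ 2 * MG γ (i + 1) (j + 1) =
      (p : ℚ) ^ 2 * MG γ i j - (p : ℚ) * (((p : ℚ) * mm i) / ((j + 1 : ℕ) : ℚ)) := by
    rw [MG_succ]
    push_cast
    ring
  have h1 : PI p (((p : ℚ) * mm i) / ((j + 1 : ℕ) : ℚ)) := (PI_p_mul_mm hi).div_nat h
  rw [e, red_sub (PI_MG hp hγ (by omega) (by omega)) ((PI_nat p).mul h1), red_p_mul h1, sub_zero]

theorem red_Z0_shift {i j : ℕ} (hi : i + 1 < p ^ 2) (hj : j + 1 < p ^ 2) (h : ¬ p ∣ j + 1) :
    (((p : ℚ) ^ 2 * Z0 (i + 1) (j + 1) : ℚ) : ZMod p) = (((p : ℚ) ^ 2 * Z0 i j : ℚ) : ZMod p) := by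
  have e : (p : ℚ) ^ 2 * Z0 (i + 1) (j + 1) =
      (p : ℚ) ^ 2 * Z0 i j -
        (p : ℚ) * (((p : ℚ) * (1 / ((i + 1 : ℕ) : ℚ))) / ((j + 1 : ℕ) : ℚ)) := by
    rw [Z0_succ, one_div, mul_inv]
    push_cast
    ring
  have h1 : PI p (((p : ℚ) * (1 / ((i + 1 : ℕ) : ℚ))) / ((j + 1 : ℕ) : ℚ)) :=
    (fm_PI_one (pn_inv_nat_of_lt_sq hi)).div_nat h
  rw [e, red_sub (PI_Z0 (by omega) (by omega)) ((PI_nat p).mul h1), red_p_mul h1, sub_zero]

end Crest.Agent.R6
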