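import Crest.Agent.R6.FRow
import Crest.Agent.R6.FMon

/-!
# Row 6: Frobenius reduction of the entries, monomial columns.

`p² Ent γ p m (X^j) = lin (p² MG γ · j) P - 3/2 lin (p² Z0 · j) D`; use `red_lin` with `A = 49 p`,
`Finset.sum_range` in blocks `i = p i' + i0` (`Finset.sum_range_mul`-type lemma or `Nat.divModEquiv`).
`red_ent0`: `red_MG`, `red_Z0`, `red_rowP`, `red_rowD`.
`red_ent_shift`: `rowP_rec`: `2 P_m = X (P_{m+1} + P_{m-1})`, `lin_X_pow_mul`, `red_MG_shift`.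
-/

set_option autoImplicit false

namespace Crest.Agent.R6

open Polynomial Finset

variable {p : ℕ} [Fact p.Prime] {γ : ℚ}

theorem fent_Phi (γ c : ℚ) (P D : ℤ[X]) (j : ℕ) : c * Phi γ P D (X ^ j) =
    lin (fun i => c * MG γ i j) P - 3 / 2 * lin (fun i => c * Z0 i j) D := by
  simp only [Phi, bil, lin_X_pow, lin_fun_mul]
  ring

theorem fent_PI (hp : p ≠ 2) {f g : ℕ → ℚ} {P D : ℤ[X]} {A : ℕ} (hP : ∀ i, A ≤ i → P.coeff i = 0)
    (hD : ∀ i, A ≤ i → D.coeff i = 0) (hf : ∀ i < A, PI p (f i)) (hg : ∀ i < A, PI p (g i)) :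
    PI p (lin f P - 3 / 2 * lin g D) :=
  (PI_lin fun i hi => hf i (not_le.1 fun h => hi (hP i h))).sub
    (PI.mul (pn_three_half hp) (PI_lin fun i hi => hg i (not_le.1 fun h => hi (hD i h))))

theorem fent_red (hp : p ≠ 2) {f g : ℕ → ℚ} {P D : ℤ[X]} {A : ℕ} (hP : ∀ i, A ≤ i → P.coeff i = 0)
    (hD : ∀ i, A ≤ i → D.coeff i = 0) (hf : ∀ i < A, PI p (f i)) (hg : ∀ i < A, PI p (g i)) :
    ((lin f P - 3 / 2 * lin g D : ℚ) : ZMod p) =
      ∑ i ∈ range A, (P.coeff i : ZMod p) * (f i : ZMod p) -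
        ((3 / 2 : ℚ) : ZMod p) * ∑ i ∈ range A, (D.coeff i : ZMod p) * (g i : ZMod p) := by
  have h1 : PI p (lin f P) := PI_lin fun i hi => hf i (not_le.1 fun h => hi (hP i h))
  have h2 : PI p (lin g D) := PI_lin fun i hi => hg i (not_le.1 fun h => hi (hD i h))
  rw [red_sub h1 (PI.mul (pn_three_half hp) h2), red_mul (pn_three_half hp) h2, red_lin hP hf,
    red_lin hD hg]

theorem fent_block {M : Type} [AddCommMonoid M] (F : ℕ → M) (q n : ℕ) :
    ∑ i ∈ range (n * q), F i = ∑ i' ∈ range n, ∑ i0 ∈ range q, F (q * i' + i0) := by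
  induction n with
  | zero => simp
  | succ n ih => rw [Nat.succ_mul, sum_range_add, ih, sum_range_succ, mul_comm n q]

omit [Fact p.Prime] in
theorem fent_lt (hp : 60 ≤ p) {i : ℕ} (hi : i < 49 * p) : i + 1 < p ^ 2 := by
  nlinarith

theorem PI_ent (hp : 60 ≤ p) (hγ : PI p γ) {m : ℤ} (hm : m.natAbs + 1 ≤ 47 * p) {j : ℕ}
    (hj : j < 49 * p) : PI p ((p : ℚ) ^ 2 * Ent γ p m (X ^ j)) := by
  have h2 : p ≠ 2 := by omega
  have hj' := (Nat.lt_succ_self j).trans (fent_lt hp hj)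
  rw [Ent, fent_Phi]
  exact fent_PI h2 (fun i hi => rowP_supp hm i (Or.inr hi)) (fun i hi => rowD_supp hm i (Or.inr hi))
    (fun i hi => PI_MG h2 hγ ((Nat.lt_succ_self i).trans (fent_lt hp hi)) hj')
    fun i hi => PI_Z0 ((Nat.lt_succ_self i).trans (fent_lt hp hi)) hj'

theorem PI_ent_small (hp : 60 ≤ p) {μ : ℤ} (hμ : μ.natAbs ≤ 46) {j : ℕ} (hj : j < 49) :
    PI p (Ent 0 1 μ (X ^ j)) := by
  have h2 : p ≠ 2 := by omega
  have hm : μ.natAbs + 1 ≤ 47 * 1 := by omega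
  rw [Ent, ← one_mul (Phi _ _ _ _), fent_Phi]
  simp only [one_mul]
  exact fent_PI h2 (fun i hi => rowP_supp hm i (Or.inr hi)) (fun i hi => rowD_supp hm i (Or.inr hi))
    (fun i hi => PI_MG_small h2 (by omega) (by omega))
    fun i hi => PI_Z0_small (by omega) (by omega)

theorem red_ent0 (hp : 60 ≤ p) (hγ : PI p γ) {m : ℤ} (hm : m.natAbs + 1 ≤ 47 * p) {j' : ℕ}
    (hj : j' < 49) :
    (((p : ℚ) ^ 2 * Ent γ p m (X ^ (p * j')) : ℚ) : ZMod p) =
      if (p : ℤ) ∣ m then (Ent 0 1 (m / p) (X ^ j') : ZMod p) else 0 := by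
  have h2 : p ≠ 2 := by omega
  have hp0 : 0 < p := by omega
  have hj' : p * j' < p ^ 2 := by nlinarith
  have hdiv : ∀ i' i0, i0 < p → (p * i' + i0) / p = i' := fun i' i0 h => by
    rw [Nat.mul_add_div hp0, Nat.div_eq_of_lt h, add_zero]
  have hP : ∀ i' ∈ range 49, ∑ i0 ∈ range p, ((rowP p m).coeff (p * i' + i0) : ZMod p) *
      (((p : ℚ) ^ 2 * MG γ (p * i' + i0) (p * j') : ℚ) : ZMod p) =
      (if (p : ℤ) ∣ m then ((rowP 1 (m / p)).coeff i' : ZMod p) else 0) * (MG 0 i' j' : ZMod p) := by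
    intro i' hi'
    rw [← red_rowP h2 hm, sum_mul]
    refine sum_congr rfl fun i0 hi0 => ?_
    rw [mem_range] at hi' hi0
    rw [red_MG h2 hγ (by rw [hdiv _ _ hi0]; omega) (by omega), hdiv _ _ hi0, Nat.mul_add_mod,
      Nat.mod_eq_of_lt hi0, mul_assoc]
  have hD : ∀ i' ∈ range 49, ∑ i0 ∈ range p, ((rowD p m).coeff (p * i' + i0) : ZMod p) *
      (((p : ℚ) ^ 2 * Z0 (p * i' + i0) (p * j') : ℚ) : ZMod p) =
      (if (p : ℤ) ∣ m then ((rowD 1 (m / p)).coeff i' : ZMod p) else 0) * (Z0 i' j' : ZMod p) := by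
    intro i' hi'
    rw [mem_range] at hi'
    rw [← red_rowD h2 hm, sum_eq_single 0]
    · rw [red_Z0 (by rw [hdiv _ _ hp0]; omega) (by omega), hdiv _ _ hp0, add_zero,
        if_pos (dvd_mul_right _ _)]
    · intro i0 hi0 h0
      rw [mem_range] at hi0
      rw [red_Z0 (by rw [hdiv _ _ hi0]; omega) (by omega), if_neg, mul_zero]
      intro hd
      exact h0 (Nat.eq_zero_of_dvd_of_lt ((Nat.dvd_add_right (dvd_mul_right _ _)).1 hd) hi0)
    · intro h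
      exact absurd (mem_range.2 hp0) h
  rw [Ent, fent_Phi, fent_red h2 (fun i hi => rowP_supp hm i (Or.inr hi))
    (fun i hi => rowD_supp hm i (Or.inr hi))
    (fun i hi => PI_MG h2 hγ ((Nat.lt_succ_self i).trans (fent_lt hp hi)) hj')
    (fun i hi => PI_Z0 ((Nat.lt_succ_self i).trans (fent_lt hp hi)) hj'), fent_block, fent_block,
    sum_congr rfl hP, sum_congr rfl hD]
  split_ifs with hd
  · have hm' : (m / p).natAbs + 1 ≤ 47 * 1 := by
      obtain ⟨μ, rfl⟩ := hd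
      rw [Int.mul_ediv_cancel_left _ (by omega)]
      rw [Int.natAbs_mul, Int.natAbs_natCast] at hm
      by_contra h
      have : p * 47 ≤ p * μ.natAbs := Nat.mul_le_mul_left _ (by omega)
      omega
    rw [Ent, ← one_mul (Phi _ _ _ _), fent_Phi]
    simp only [one_mul]
    rw [fent_red h2 (fun i hi => rowP_supp hm' i (Or.inr hi))
      (fun i hi => rowD_supp hm' i (Or.inr hi))
      (fun i hi => PI_MG_small h2 (by omega) (by omega))
      fun i hi => PI_Z0_small (by omega) (by omega)]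
  · simp

theorem red_ent_shift (hp : 60 ≤ p) (hγ : PI p γ) {m : ℤ} (hm : m.natAbs + 2 ≤ 47 * p) {j : ℕ}
    (hj : j + 1 < 49 * p) (h : ¬ p ∣ j + 1) :
    2 * (((p : ℚ) ^ 2 * Ent γ p m (X ^ (j + 1)) : ℚ) : ZMod p) =
      (((p : ℚ) ^ 2 * Ent γ p (m + 1) (X ^ j) : ℚ) : ZMod p) +
        (((p : ℚ) ^ 2 * Ent γ p (m - 1) (X ^ j) : ℚ) : ZMod p) := by
  have h2 : p ≠ 2 := by omega
  have hm1 : (m + 1).natAbs + 1 ≤ 47 * p := by omega
  have hm2 : (m - 1).natAbs + 1 ≤ 47 * p := by omega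
  have hj0 : j < 49 * p := by omega
  have hj1 := fent_lt hp hj0
  have hj2 := (Nat.lt_succ_self j).trans hj1
  have hP : ∀ i, 49 * p ≤ i → (rowP p (m + 1) + rowP p (m - 1)).coeff i = 0 := fun i hi => by
    rw [coeff_add, rowP_supp hm1 i (Or.inr hi), rowP_supp hm2 i (Or.inr hi), add_zero]
  have hD : ∀ i, 49 * p ≤ i → (rowD p (m + 1) + rowD p (m - 1)).coeff i = 0 := fun i hi => by
    rw [coeff_add, rowD_supp hm1 i (Or.inr hi), rowD_supp hm2 i (Or.inr hi), add_zero]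
  have e1 : ((2 : ℤ) : ℚ) * ((p : ℚ) ^ 2 * Ent γ p m (X ^ (j + 1))) =
      lin (fun i => (p : ℚ) ^ 2 * MG γ (i + 1) (j + 1)) (rowP p (m + 1) + rowP p (m - 1)) -
        3 / 2 * lin (fun i => (p : ℚ) ^ 2 * Z0 (i + 1) (j + 1))
          (rowD p (m + 1) + rowD p (m - 1)) := by
    rw [mul_left_comm, Ent, ← Phi_C_mul_row, ← rowP_rec hm, ← rowD_rec hm, fent_Phi,
      ← pow_one (X : ℤ[X]), lin_X_pow_mul, lin_X_pow_mul]
  have e2 : 2 * (((p : ℚ) ^ 2 * Ent γ p m (X ^ (j + 1)) : ℚ) : ZMod p) =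
      ((((2 : ℤ) : ℚ) * ((p : ℚ) ^ 2 * Ent γ p m (X ^ (j + 1))) : ℚ) : ZMod p) := by
    rw [red_mul (PI_int 2) (PI_ent hp hγ (by omega) hj), Rat.cast_intCast, Int.cast_ofNat]
  rw [e2, e1, ← red_add (PI_ent hp hγ hm1 hj0) (PI_ent hp hγ hm2 hj0), ← mul_add, Ent, Ent,
    ← Phi_add_row, fent_Phi,
    fent_red h2 hP hD (fun i hi => PI_MG h2 hγ (fent_lt hp hi) hj1)
      (fun i hi => PI_Z0 (fent_lt hp hi) hj1),
    fent_red h2 hP hD (fun i hi => PI_MG h2 hγ ((Nat.lt_succ_self i).trans (fent_lt hp hi)) hj2)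
      (fun i hi => PI_Z0 ((Nat.lt_succ_self i).trans (fent_lt hp hi)) hj2)]
  congr 1
  · exact sum_congr rfl fun i hi => by
      rw [red_MG_shift h2 hγ (fent_lt hp (mem_range.1 hi)) hj1 h]
  · congr 1
    exact sum_congr rfl fun i hi => by rw [red_Z0_shift (fent_lt hp (mem_range.1 hi)) hj1 h]

end Crest.Agent.R6
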