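import Crest.Agent.R6.Red
import Crest.Agent.R6.Seq

/-!
# Row 6: Lucas/Dwork congruences for `cc` and `mm`.

Let `h = (p-1)/2`.  `red_cc_small`: induction on `k` with the recurrence of `cc`
(`(2k+1)/(2k+2) ≡ -(h-k)/(k+1)`).  `red_cc`: Lucas (`Choose.choose_modEq_choose_mod_mul_choose_div`,
`4^w`, Fermat) for `centralBinom`; or induction on `d0` in steps of two with the recurrence, the
jumps over multiples of `p` being controlled by `Lucas` for `binom(2pw, pw) ≡ binom(2w, w)`.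
`sum_cc_sq`: Vandermonde `∑ binom(h,k)² = binom(2h,h)` (`Nat.sum_range_choose_sq`) and
`binom(p-1,h) ≡ (-1)^h`.
`red_mm`: parity cases (`mm_odd`, `cc_odd`); if `v` is even, `v'` odd: `cc v` is a unit and `p ∤ v+1`
so `mm v = 2/((v+1) cc v)` is integral.  If `v, v'` even (`e0` even): downward induction in steps of
two from `e0 = p - 1`, where `v + 1 = p(v'+1)`, `v = (p-1) + p v'`,
`p mm v = 2/((v'+1) cc v) ≡ mm v'/cc(p-1) = cc(p-1) mm v'` (`cc(p-1)² ≡ 1`); the step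
`mm(v+2) = mm v (v+2)/(v+3)` with `v + 2 ≡ -e0`, and `cc e0 = cc(e0-2) (e0-1)/e0`.
-/

set_option autoImplicit false

namespace Crest.Agent.R6

open Finset

variable {p : ℕ} [Fact p.Prime]

theorem PI_cc (hp : p ≠ 2) (d : ℕ) : PI p (cc d) := pn_cc hp d

theorem FSeq_odd (hp : p ≠ 2) : p % 2 = 1 :=
  (Nat.Prime.eq_two_or_odd (Fact.out : p.Prime)).resolve_left hp

theorem FSeq_ne_zero {l : ℕ} (h0 : 0 < l) (hl : l < p) : (l : ZMod p) ≠ 0 := by
  rw [Ne, ZMod.natCast_eq_zero_iff]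
  exact Nat.not_dvd_of_pos_of_lt h0 hl

theorem FSeq_two_ne (hp : p ≠ 2) : (2 : ZMod p) ≠ 0 := by
  have h2 := (Fact.out : p.Prime).two_le
  exact_mod_cast FSeq_ne_zero (p := p) (l := 2) (by norm_num) (by omega)

theorem FSeq_PI_mm {v : ℕ} (hv : v + 1 < p) : PI p (mm v) := by
  have h := pn_mm (p := p) v
  rwa [Nat.log_of_lt hv, pow_zero] at h

theorem FSeq_PI_p_mul_mm {v : ℕ} (hv : v + 1 < p ^ 2) : PI p ((p : ℚ) * mm v) := by
  have h := pn_mm (p := p) v
  have h1 : Nat.log p (v + 1) ≤ 1 := Nat.lt_succ_iff.1 (Nat.log_lt_of_lt_pow (by omega) hv)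
  have hp1 : (1 : ℚ) ≤ p := by exact_mod_cast (Fact.out : p.Prime).one_le
  have h2 : (p : ℚ) ^ Nat.log p (v + 1) ≤ (p : ℚ) ^ 1 := pow_le_pow_right₀ hp1 h1
  unfold PI
  rw [padicNorm.mul, padicNorm.padicNorm_p_of_prime, inv_mul_le_iff₀ (by linarith)]
  linarith

/-- the recurrence of `cc` modulo `p` -/
theorem FSeq_cc_rec (hp : p ≠ 2) (d : ℕ) :
    ((d : ZMod p) + 2) * (cc (d + 2) : ZMod p) = ((d : ZMod p) + 1) * (cc d : ZMod p) := by
  have h : ((d + 2 : ℕ) : ℚ) * cc (d + 2) = ((d + 1 : ℕ) : ℚ) * cc d := by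
    rw [cc]
    push_cast
    field_simp
  have h1 := congrArg (fun x : ℚ => (x : ZMod p)) h
  rw [red_mul (PI_nat _) (PI_cc hp _), red_mul (PI_nat _) (PI_cc hp _), Rat.cast_natCast,
    Rat.cast_natCast] at h1
  push_cast at h1
  exact h1

theorem FSeq_cc_two_mul (hp : p ≠ 2) (w : ℕ) :
    (4 : ZMod p) ^ w * (cc (2 * w) : ZMod p) = (Nat.centralBinom w : ZMod p) := by
  have h : ((4 ^ w : ℕ) : ℚ) * cc (2 * w) = (Nat.centralBinom w : ℕ) := by
    rw [cc_two_mul]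
    push_cast
    field_simp
  have h1 := congrArg (fun x : ℚ => (x : ZMod p)) h
  rw [red_mul (PI_nat _) (PI_cc hp _), Rat.cast_natCast, Rat.cast_natCast] at h1
  push_cast at h1
  exact h1

theorem FSeq_four_ne (hp : p ≠ 2) : (4 : ZMod p) ≠ 0 := by
  rw [show (4 : ZMod p) = 2 * 2 by norm_num]
  exact mul_ne_zero (FSeq_two_ne hp) (FSeq_two_ne hp)

theorem FSeq_cc_zero : ((cc 0 : ℚ) : ZMod p) = 1 := by
  rw [cc, Rat.cast_one]

theorem FSeq_cc_odd {d : ℕ} (h : d % 2 = 1) : ((cc d : ℚ) : ZMod p) = 0 := by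
  rw [cc_odd h, Rat.cast_zero]

theorem red_cc_small (hp : p ≠ 2) {k : ℕ} (hk : 2 * k < p) :
    (cc (2 * k) : ZMod p) = (-1) ^ k * (((p - 1) / 2).choose k : ZMod p) := by
  have ho := FSeq_odd hp
  obtain ⟨h, hh⟩ : ∃ h, p = 2 * h + 1 := ⟨p / 2, by omega⟩
  have e : (p - 1) / 2 = h := by omega
  rw [e]
  have hh' : (2 * (h : ZMod p) + 1) = 0 := by
    have := ZMod.natCast_self p
    rw [show ((p : ℕ) : ZMod p) = ((2 * h + 1 : ℕ) : ZMod p) by rw [← hh]] at this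
    push_cast at this
    exact this
  induction k with
  | zero => simp [FSeq_cc_zero]
  | succ k ih =>
    have h1 := FSeq_cc_rec hp (2 * k)
    rw [ih (by omega)] at h1
    have h2 : ((h.choose (k + 1) * (k + 1) : ℕ) : ZMod p) = (h.choose k * (h - k) : ℕ) := by
      rw [Nat.choose_succ_right_eq]
    push_cast [Nat.cast_sub (show k ≤ h by omega)] at h1 h2
    have h3 : ((2 * k + 2 : ℕ) : ZMod p) ≠ 0 := FSeq_ne_zero (by omega) (by omega)
    push_cast at h3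
    refine mul_left_cancel₀ h3 ?_
    rw [show 2 * (k + 1) = 2 * k + 2 by ring, h1, pow_succ]
    linear_combination (2 * (-1) ^ k : ZMod p) * h2 +
      ((-1) ^ k * (h.choose k : ZMod p)) * hh'

theorem FSeq_lucas {a0 a1 b0 b1 : ℕ} (ha : a0 < p) (hb : b0 < p) :
    ((a0 + p * a1).choose (b0 + p * b1) : ZMod p) =
      (a0.choose b0 : ZMod p) * (a1.choose b1 : ZMod p) := by
  have hp0 : 0 < p := (Fact.out : p.Prime).pos
  have h := Choose.choose_modEq_choose_mod_mul_choose_div_nat (p := p) (n := a0 + p * a1)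
    (k := b0 + p * b1)
  rw [Nat.add_mul_mod_self_left, Nat.add_mul_mod_self_left, Nat.mod_eq_of_lt ha,
    Nat.mod_eq_of_lt hb, Nat.add_mul_div_left _ _ hp0, Nat.add_mul_div_left _ _ hp0,
    Nat.div_eq_of_lt ha, Nat.div_eq_of_lt hb, zero_add, zero_add] at h
  rw [← Nat.cast_mul, ZMod.natCast_eq_natCast_iff]
  exact h

theorem red_cc (hp : p ≠ 2) {d0 d1 : ℕ} (h0 : d0 < p) (h1 : d1 < p) :
    (cc (d0 + p * d1) : ZMod p) =
      if d0 % 2 = 0 then (cc d0 : ZMod p) * (cc d1 : ZMod p) else 0 := by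
  have _ := h1
  have ho := FSeq_odd hp
  obtain ⟨h, hh⟩ : ∃ h, p = 2 * h + 1 := ⟨p / 2, by omega⟩
  have e0 : p * d1 = 2 * (h * d1) + d1 := by rw [hh]; ring
  rcases Nat.mod_two_eq_zero_or_one d0 with a | a <;>
    rcases Nat.mod_two_eq_zero_or_one d1 with b | b
  · rw [if_pos a]
    obtain ⟨w0, rfl⟩ : ∃ w, d0 = 2 * w := ⟨d0 / 2, by omega⟩
    obtain ⟨w1, rfl⟩ : ∃ w, d1 = 2 * w := ⟨d1 / 2, by omega⟩
    have e : 2 * w0 + p * (2 * w1) = 2 * (w0 + p * w1) := by ring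
    refine mul_left_cancel₀ (pow_ne_zero (w0 + p * w1) (FSeq_four_ne hp)) ?_
    rw [e, FSeq_cc_two_mul hp, Nat.centralBinom, ← e, FSeq_lucas h0 (by omega), pow_add, pow_mul,
      ZMod.pow_card, mul_mul_mul_comm, FSeq_cc_two_mul hp, FSeq_cc_two_mul hp, Nat.centralBinom,
      Nat.centralBinom]
  · rw [if_pos a, FSeq_cc_odd b, mul_zero, FSeq_cc_odd (by omega)]
  · rw [if_neg (by omega), FSeq_cc_odd (by omega)]
  · rw [if_neg (by omega)]
    obtain ⟨w0, rfl⟩ : ∃ w, d0 = 2 * w + 1 := ⟨d0 / 2, by omega⟩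
    obtain ⟨w1, rfl⟩ : ∃ w, d1 = 2 * w + 1 := ⟨d1 / 2, by omega⟩
    have e : 2 * w0 + 1 + p * (2 * w1 + 1) = 2 * (w0 + h + 1 + p * w1) := by
      rw [mul_add p, mul_one]
      nth_rewrite 2 [hh]
      ring
    refine mul_left_cancel₀ (pow_ne_zero (w0 + h + 1 + p * w1) (FSeq_four_ne hp)) ?_
    rw [e, FSeq_cc_two_mul hp, Nat.centralBinom, ← e, FSeq_lucas h0 (by omega),
      Nat.choose_eq_zero_of_lt (by omega), Nat.cast_zero, zero_mul, mul_zero]

theorem red_cc_ne_zero (hp : p ≠ 2) {d : ℕ} (hd : d < p) (h : d % 2 = 0) :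
    (cc d : ZMod p) ≠ 0 := by
  obtain ⟨k, rfl⟩ : ∃ w, d = 2 * w := ⟨d / 2, by omega⟩
  rw [red_cc_small hp hd]
  refine mul_ne_zero (pow_ne_zero _ (neg_ne_zero.2 one_ne_zero)) ?_
  rw [Ne, ZMod.natCast_eq_zero_iff]
  intro hdv
  have hk : k ≤ (p - 1) / 2 := by omega
  have h1 : p ∣ ((p - 1) / 2).factorial := by
    rw [← Nat.choose_mul_factorial_mul_factorial hk, mul_assoc]
    exact hdv.mul_right _
  rw [(Fact.out : p.Prime).dvd_factorial] at h1
  omega

theorem red_cc_symm (hp : p ≠ 2) {e : ℕ} (he : e < p) :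
    (cc (p - 1 - e) : ZMod p) * (cc (p - 1) : ZMod p) = (cc e : ZMod p) := by
  have ho := FSeq_odd hp
  rcases Nat.mod_two_eq_zero_or_one e with a | a
  · obtain ⟨k, rfl⟩ : ∃ w, e = 2 * w := ⟨e / 2, by omega⟩
    obtain ⟨j, hj⟩ : ∃ j, (p - 1) / 2 = k + j := ⟨(p - 1) / 2 - k, by omega⟩
    have e1 : p - 1 - 2 * k = 2 * j := by omega
    have e2 : p - 1 = 2 * (k + j) := by omega
    have h1 := red_cc_small hp (k := j) (by omega)
    have h2 := red_cc_small hp (k := k + j) (by omega)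
    have h3 := red_cc_small hp he
    rw [hj] at h1 h2 h3
    rw [e1, e2, h1, h2, h3, Nat.choose_self, Nat.choose_symm_add, pow_add, Nat.cast_one]
    have h4 : ((-1 : ZMod p) ^ j) * (-1) ^ j = 1 := by
      rw [← mul_pow]; simp
    linear_combination ((-1 : ZMod p) ^ k * ((k + j).choose j : ZMod p)) * h4
  · rw [FSeq_cc_odd a, FSeq_cc_odd (d := p - 1 - e) (by omega), zero_mul]

theorem FSeq_sum_even {M : Type} [AddCommMonoid M] (f : ℕ → M) (hf : ∀ k, f (2 * k + 1) = 0)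
    (h : ℕ) : ∑ e ∈ range (2 * h + 1), f e = ∑ k ∈ range (h + 1), f (2 * k) := by
  induction h with
  | zero => simp
  | succ h ih =>
    rw [show 2 * (h + 1) + 1 = 2 * h + 1 + 1 + 1 by ring, sum_range_succ, sum_range_succ, ih, hf,
      add_zero, sum_range_succ _ (h + 1), show 2 * (h + 1) = 2 * h + 1 + 1 by ring]

theorem sum_cc_sq (hp : p ≠ 2) :
    ∑ e ∈ range p, (cc e : ZMod p) ^ 2 = (cc (p - 1) : ZMod p) := by
  have ho := FSeq_odd hp
  obtain ⟨h, hh⟩ : ∃ h, p = 2 * h + 1 := ⟨p / 2, by omega⟩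
  have e : (p - 1) / 2 = h := by omega
  have e1 : p - 1 = 2 * h := by omega
  have h1 : ∑ e ∈ range p, (cc e : ZMod p) ^ 2 = ∑ e ∈ range (2 * h + 1), (cc e : ZMod p) ^ 2 := by
    rw [← hh]
  have h4 : (4 : ZMod p) ^ h = 1 := by
    rw [show (4 : ZMod p) = 2 ^ 2 by norm_num, ← pow_mul, ← e1]
    exact ZMod.pow_card_sub_one_eq_one (FSeq_two_ne hp)
  have h2 := FSeq_cc_two_mul hp h
  rw [h4, one_mul] at h2
  rw [h1, FSeq_sum_even _ (fun k => by rw [FSeq_cc_odd (by omega)]; simp), e1, h2,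
    Nat.centralBinom, ← Nat.sum_range_choose_sq]
  push_cast
  refine sum_congr rfl fun k hk => ?_
  have hk' := mem_range.1 hk
  rw [red_cc_small hp (by omega), e, mul_pow, ← pow_mul, mul_comm k 2, pow_mul]
  simp

/-- a rational whose product with a unit is integral is integral -/
theorem FSeq_PI_of_mul {x y : ℚ} (hy : PI p y) (hy0 : (y : ZMod p) ≠ 0) (hxy : PI p (x * y)) :
    PI p x := by
  have h1 : padicNorm p y = 1 := le_antisymm hy (not_lt.1 fun h => hy0 ((red_eq_zero_iff hy).2 h))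
  unfold PI at hxy ⊢
  rwa [padicNorm.mul, h1, mul_one] at hxy

/-- the recurrence of `p * mm` modulo `p` -/
theorem FSeq_mm_rec {v : ℕ} (hv : v + 3 < p ^ 2) :
    ((v : ZMod p) + 3) * (((p : ℚ) * mm (v + 2) : ℚ) : ZMod p) =
      ((v : ZMod p) + 2) * (((p : ℚ) * mm v : ℚ) : ZMod p) := by
  have h : ((v + 3 : ℕ) : ℚ) * ((p : ℚ) * mm (v + 2)) = ((v + 2 : ℕ) : ℚ) * ((p : ℚ) * mm v) := by
    rw [mm]
    push_cast
    field_simp
  have h1 := congrArg (fun x : ℚ => (x : ZMod p)) h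
  rw [red_mul (PI_nat _) (FSeq_PI_p_mul_mm (by omega)),
    red_mul (PI_nat _) (FSeq_PI_p_mul_mm (by omega)), Rat.cast_natCast, Rat.cast_natCast] at h1
  simpa only [Nat.cast_add, Nat.cast_ofNat] using h1

theorem FSeq_mm_chain (hp : p ≠ 2) {a v0 : ℕ} (ha : a ≤ p) (h0 : v0 + 2 = p * a) (k : ℕ) :
    ∀ v, 2 * k < p → v + 2 * k = v0 → (((p : ℚ) * mm v : ℚ) : ZMod p) =
      (cc (2 * k) : ZMod p) * (((p : ℚ) * mm v0 : ℚ) : ZMod p) := by
  have hle : p * a ≤ p ^ 2 := by rw [pow_two]; exact Nat.mul_le_mul_left _ ha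
  induction k with
  | zero =>
    intro v _ hv
    rw [mul_zero, add_zero] at hv
    rw [hv, mul_zero, FSeq_cc_zero, one_mul]
  | succ k ih =>
    intro v hk hv
    have h1 := ih (v + 2) (by omega) (by omega)
    have h2 := FSeq_mm_rec (p := p) (v := v) (by omega)
    have h3 := FSeq_cc_rec hp (2 * k)
    have h4 : ((v + 2 * k + 4 : ℕ) : ZMod p) = 0 := by
      rw [show v + 2 * k + 4 = p * a by omega, Nat.cast_mul, ZMod.natCast_self, zero_mul]
    have h5 : ((2 * k + 2 : ℕ) : ZMod p) ≠ 0 := FSeq_ne_zero (by omega) (by omega)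
    rw [h1] at h2
    simp only [Nat.cast_add, Nat.cast_mul, Nat.cast_ofNat] at h3 h4 h5
    refine mul_left_cancel₀ h5 ?_
    rw [show 2 * (k + 1) = 2 * k + 2 by ring]
    generalize (((p : ℚ) * mm v : ℚ) : ZMod p) = x at *
    generalize (((p : ℚ) * mm v0 : ℚ) : ZMod p) = y at *
    linear_combination h2 - y * h3 + (x - (cc (2 * k) : ZMod p) * y) * h4

theorem red_mm (hp : p ≠ 2) {v v' e0 : ℕ} (he : e0 < p) (hv : v + 2 + e0 = p * (v' + 2))
    (hv' : v' + 1 < p) :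
    (((p : ℚ) * mm v : ℚ) : ZMod p) = (cc e0 : ZMod p) * (mm v' : ZMod p) := by
  have ho := FSeq_odd hp
  obtain ⟨h, hh⟩ : ∃ h, p = 2 * h + 1 := ⟨p / 2, by omega⟩
  have e0' : p * (v' + 2) = p * v' + 2 * p := by ring
  have e1 : p * v' = 2 * (h * v') + v' := by rw [hh]; ring
  have hP2 : PI p (2 : ℚ) := by exact_mod_cast PI_nat (p := p) 2
  rcases Nat.mod_two_eq_zero_or_one e0 with a | a <;>
    rcases Nat.mod_two_eq_zero_or_one v' with b | b
  · -- both even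
    obtain ⟨k, rfl⟩ : ∃ w, e0 = 2 * w := ⟨e0 / 2, by omega⟩
    have c1 := FSeq_mm_chain hp (a := v' + 2) (v0 := v + 2 * k) (by omega) (by omega) k v he rfl
    have c2 := FSeq_mm_chain hp (a := v' + 2) (v0 := v + 2 * k) (by omega) (by omega) h
      (2 * h + p * v') (by omega) (by omega)
    have c3 := red_cc hp (d0 := 2 * h) (d1 := v') (by omega) (by omega)
    rw [if_pos (by omega)] at c3
    have c4 := red_cc_symm hp (e := 0) (by omega)
    rw [Nat.sub_zero, show p - 1 = 2 * h by omega, FSeq_cc_zero] at c4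
    have hlt : 2 * h + p * v' + 1 < p ^ 2 := by
      have : p * (v' + 2) ≤ p ^ 2 := by rw [pow_two]; exact Nat.mul_le_mul_left _ (by omega)
      omega
    have c5 : (p : ℚ) * mm (2 * h + p * v') * ((v' + 1 : ℕ) : ℚ) * cc (2 * h + p * v') =
        mm v' * ((v' + 1 : ℕ) : ℚ) * cc v' := by
      have d1 := mm_mul_cc (v := 2 * h + p * v') (by omega)
      have d2 := mm_mul_cc b
      have d3 : ((2 * h + p * v' : ℕ) : ℚ) + 1 = p * ((v' + 1 : ℕ) : ℚ) := by
        have : 2 * h + p * v' + 1 = p * (v' + 1) := by rw [mul_add, mul_one]; omega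
        exact_mod_cast this
      rw [d3] at d1
      rw [Nat.cast_succ v'] at d1 ⊢
      rw [d2, ← d1]
      ring
    have c6 := congrArg (fun x : ℚ => (x : ZMod p)) c5
    rw [red_mul ((FSeq_PI_p_mul_mm hlt).mul (PI_nat _)) (PI_cc hp _),
      red_mul (FSeq_PI_p_mul_mm hlt) (PI_nat _),
      red_mul ((FSeq_PI_mm hv').mul (PI_nat _)) (PI_cc hp _),
      red_mul (FSeq_PI_mm hv') (PI_nat _), Rat.cast_natCast, c2, c3] at c6
    have c7 : ((v' + 1 : ℕ) : ZMod p) * (cc v' : ZMod p) ≠ 0 :=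
      mul_ne_zero (FSeq_ne_zero (by omega) hv') (red_cc_ne_zero hp (by omega) b)
    rw [c1]
    congr 1
    refine mul_right_cancel₀ c7 ?_
    generalize (((p : ℚ) * mm (v + 2 * k) : ℚ) : ZMod p) = y at *
    linear_combination c6 - (y * ((v' + 1 : ℕ) : ZMod p) * (cc v' : ZMod p)) * c4
  · rw [mm_odd b, mm_odd (v := v) (by omega), mul_zero, Rat.cast_zero, mul_zero]
  · rw [FSeq_cc_odd a, mm_odd (v := v) (by omega), mul_zero, Rat.cast_zero, zero_mul]
  · -- both odd: `mm v` is integral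
    rw [FSeq_cc_odd a, zero_mul]
    refine red_p_mul ?_
    have e2 : v = (p - 2 - e0) + p * (v' + 1) := by
      rw [mul_add, mul_one]
      omega
    have c1 := red_cc hp (d0 := p - 2 - e0) (d1 := v' + 1) (by omega) hv'
    rw [← e2, if_pos (by omega)] at c1
    have c2 : (cc v : ZMod p) ≠ 0 := by
      rw [c1]
      exact mul_ne_zero (red_cc_ne_zero hp (by omega) (by omega))
        (red_cc_ne_zero hp hv' (by omega))
    have c3 : ((v + 1 : ℕ) : ZMod p) ≠ 0 := by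
      rw [show v + 1 = (p - 1 - e0) + p * (v' + 1) by omega, Nat.cast_add, Nat.cast_mul,
        ZMod.natCast_self, zero_mul, add_zero]
      exact FSeq_ne_zero (by omega) (by omega)
    have d1 := mm_mul_cc (v := v) (by omega)
    rw [← Nat.cast_succ] at d1
    refine FSeq_PI_of_mul (PI_nat (v + 1)) (by rwa [Rat.cast_natCast])
      (FSeq_PI_of_mul (PI_cc hp v) c2 ?_)
    rw [d1]
    exact hP2

theorem PI_mm {v : ℕ} (hv : v + 1 < p) : PI p (mm v) := by
  exact FSeq_PI_mm hv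

theorem PI_p_mul_mm {v : ℕ} (hv : v + 1 < p ^ 2) : PI p ((p : ℚ) * mm v) := by
  exact FSeq_PI_p_mul_mm hv

end Crest.Agent.R6
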