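import Crest.Agent.R6.FCheb
import Crest.Agent.R6.FSeq
import Crest.Agent.R6.Basic

/-!
# Row 6: Frobenius reduction of the rows (`N = p`).

Map to `(ZMod p)[X]` (`coeff_map`, `Polynomial.map_mul`, `reflect_map`, `Chebyshev.map_T`).
`E = (1 - X²)^h = ∑_{e<p} cc e X^e` (`red_cc_small`, `cc_odd`), so the left side of `red_rowP` is
`(P̄ E).coeff (p i' + p - 1)`.  `(1-X)^(2p) = expand p ((1-X)²)` (`sub_pow_char`),
`reflect (47p-1) T · reflect (p-1) ((X²-1)^h) = reflect (48p-2) (T (X²-1)^h)` (`reflect_mul`), whose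
coefficient at `p i + p - 1` is that of `T (X²-1)^h` at `p(46-i) + p - 1` (`i ≤ 46`; zero otherwise):
`cartier_T`.  Multiplication by `expand p ((1-X)²) = 1 - 2X^p + X^(2p)` shifts `i'` by `0, 1, 2`.
-/

set_option autoImplicit false

namespace Crest.Agent.R6

open Polynomial Finset

variable {p : ℕ} [Fact p.Prime]

theorem FRow_shift {K : Type} [CommRing K] {q r : ℕ} (hr : r < q) {A B : K[X]}
    (h : ∀ i, A.coeff (q * i + r) = B.coeff i) (Q : K[X]) (i : ℕ) :
    (expand K q Q * A).coeff (q * i + r) = (Q * B).coeff i := by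
  induction Q using Polynomial.induction_on' with
  | add P Q hP hQ => rw [map_add, add_mul, add_mul, coeff_add, coeff_add, hP, hQ]
  | monomial n a =>
    rw [expand_monomial, ← C_mul_X_pow_eq_monomial, ← C_mul_X_pow_eq_monomial, mul_assoc, mul_assoc,
      coeff_C_mul, coeff_C_mul, coeff_X_pow_mul', coeff_X_pow_mul']
    by_cases hn : n ≤ i
    · obtain ⟨j, rfl⟩ := Nat.exists_eq_add_of_le hn
      have e : q * (n + j) + r = n * q + (q * j + r) := by ring
      rw [if_pos hn, e, if_pos (Nat.le_add_right _ _), Nat.add_sub_cancel_left,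
        Nat.add_sub_cancel_left, h]
    · rw [if_neg hn, if_neg]
      have : (i + 1) * q ≤ n * q := Nat.mul_le_mul_right q (by omega)
      nlinarith

theorem FRow_conv {K : Type} [CommRing K] (P E : K[X]) {q : ℕ} (hE : E.natDegree < q) (n : ℕ) :
    (P * E).coeff (n + (q - 1)) = ∑ i ∈ range q, P.coeff (n + i) * E.coeff (q - 1 - i) := by
  conv_lhs => rw [E.as_sum_range' q hE, mul_sum, finsetSum_coeff, ← sum_range_reflect]
  refine sum_congr rfl fun i hi => ?_
  have e : n + (q - 1) = n + i + (q - 1 - i) := by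
    have := mem_range.1 hi
    omega
  rw [e, coeff_mul_monomial]

theorem FRow_frob : (((1 - X : ℤ[X]) ^ (2 * p)).map (Int.castRingHom (ZMod p))) =
    expand (ZMod p) p (((1 - X : ℤ[X]) ^ (2 * 1)).map (Int.castRingHom (ZMod p))) := by
  rw [ZMod.expand_card, ← Polynomial.map_pow, ← pow_mul, mul_one]

theorem FRow_half (hp : p ≠ 2) : 2 * ((p - 1) / 2) + 1 = p := by
  have h := (Fact.out : p.Prime).eq_two_or_odd.resolve_left hp
  omega

theorem FRow_deg (hp : p ≠ 2) :
    ((X ^ 2 - 1 : (ZMod p)[X]) ^ ((p - 1) / 2)).natDegree ≤ p - 1 := by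
  have h := FRow_half hp
  refine natDegree_pow_le.trans ?_
  rw [← C_1, natDegree_X_pow_sub_C]
  omega

theorem FRow_coeff (hp : p ≠ 2) {i : ℕ} (hi : i < p) :
    ((X ^ 2 - 1 : (ZMod p)[X]) ^ ((p - 1) / 2)).coeff i = (cc (p - 1 - i) : ZMod p) := by
  have h := FRow_half hp
  have e : (X ^ 2 - 1 : (ZMod p)[X]) ^ ((p - 1) / 2) =
      expand (ZMod p) 2 ((X + C (-1)) ^ ((p - 1) / 2)) := by
    rw [map_pow, map_add, expand_X, expand_C, C_neg, C_1, sub_eq_add_neg]
  rw [e, coeff_expand two_pos]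
  split_ifs with h2
  · obtain ⟨k, rfl⟩ := h2
    have e2 : p - 1 - 2 * k = 2 * ((p - 1) / 2 - k) := by omega
    rw [e2, red_cc_small hp (by omega), coeff_X_add_C_pow, Nat.mul_div_cancel_left _ two_pos,
      Nat.choose_symm (by omega)]
  · rw [cc_odd (by omega), Rat.cast_zero]

theorem red_rowP (hp : p ≠ 2) {m : ℤ} (hm : m.natAbs + 1 ≤ 47 * p) (i' : ℕ) :
    ∑ i0 ∈ range p, ((rowP p m).coeff (p * i' + i0) : ZMod p) * (cc (p - 1 - i0) : ZMod p) =
      if (p : ℤ) ∣ m then ((rowP 1 (m / p)).coeff i' : ZMod p) else 0 := by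
  have hp0 : 0 < p := (Fact.out : p.Prime).pos
  have hT : (Chebyshev.T (ZMod p) m).natDegree ≤ 47 * p - 1 := by
    rw [← Chebyshev.map_T (Int.castRingHom (ZMod p))]
    refine natDegree_map_le.trans ?_
    rw [Chebyshev.natDegree_T]
    omega
  have hA : ∀ i, (reflect (47 * p - 1) (Chebyshev.T (ZMod p) m) *
      reflect (p - 1) ((X ^ 2 - 1) ^ ((p - 1) / 2))).coeff (p * i + (p - 1)) =
      (if (p : ℤ) ∣ m then reflect (47 * 1 - 1) (Chebyshev.T (ZMod p) (m / p)) else 0).coeff i := by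
    intro i
    have e : revAt (47 * p - 1 + (p - 1)) (p * i + (p - 1)) =
        p * revAt (47 * 1 - 1) i + (p - 1) := by
      rcases le_or_gt i 46 with hi | hi
      · obtain ⟨j, hj⟩ := Nat.exists_eq_add_of_le hi
        have e1 : p * i + p * j = 46 * p := by rw [← mul_add, ← hj, mul_comm]
        rw [revAt_le (by omega), revAt_le hi, show 47 * 1 - 1 - i = j by omega]
        omega
      · have e1 : p * 47 ≤ p * i := Nat.mul_le_mul_left p hi
        rw [revAt_eq_self_of_lt (by omega), revAt_eq_self_of_lt hi]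
    rw [← reflect_mul _ _ hT (FRow_deg hp), coeff_reflect, e, cartier_T hp]
    split_ifs
    · rw [coeff_reflect]
    · rw [coeff_zero]
  have hE : (reflect (p - 1) ((X ^ 2 - 1 : (ZMod p)[X]) ^ ((p - 1) / 2))).natDegree < p :=
    (natDegree_reflect_le.trans (max_le le_rfl (FRow_deg hp))).trans_lt (by omega)
  have h1 := FRow_conv ((rowP p m).map (Int.castRingHom (ZMod p))) _ hE (p * i')
  have h2 : (rowP p m).map (Int.castRingHom (ZMod p)) =
      expand (ZMod p) p (((1 - X : ℤ[X]) ^ (2 * 1)).map (Int.castRingHom (ZMod p))) *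
        reflect (47 * p - 1) (Chebyshev.T (ZMod p) m) := by
    rw [rowP, Polynomial.map_mul, FRow_frob, ← reflect_map, Chebyshev.map_T]
  have h3 := FRow_shift (show p - 1 < p by omega) hA
    (((1 - X : ℤ[X]) ^ (2 * 1)).map (Int.castRingHom (ZMod p))) i'
  rw [← mul_assoc, ← h2, h1] at h3
  refine (sum_congr rfl fun i hi => ?_).trans (h3.trans ?_)
  · have hi' := mem_range.1 hi
    rw [coeff_map, coeff_reflect, revAt_le (by omega), show p - 1 - (p - 1 - i) = i by omega,
      FRow_coeff hp hi', eq_intCast]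
  · split_ifs
    · rw [← Chebyshev.map_T (Int.castRingHom (ZMod p)), reflect_map, ← Polynomial.map_mul,
        coeff_map, eq_intCast, rowP]
    · rw [mul_zero, coeff_zero]

theorem red_rowD (hp : p ≠ 2) {m : ℤ} (hm : m.natAbs + 1 ≤ 47 * p) (i' : ℕ) :
    ((rowD p m).coeff (p * i') : ZMod p) =
      if (p : ℤ) ∣ m then ((rowD 1 (m / p)).coeff i' : ZMod p) else 0 := by
  have hp0 : 0 < p := (Fact.out : p.Prime).pos
  have hU : ∀ k : ℤ, (Chebyshev.U (ZMod p) (k - 1)).natDegree ≤ k.natAbs := fun k => by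
    rw [← Chebyshev.map_U (Int.castRingHom (ZMod p))]
    refine natDegree_map_le.trans ?_
    rw [Chebyshev.natDegree_U, sub_add_cancel]
    omega
  have hA : ∀ i, (reflect (47 * p - 1) (Chebyshev.U (ZMod p) (m - 1))).coeff (p * i + 0) =
      (if (p : ℤ) ∣ m then reflect (47 * 1 - 1) (Chebyshev.U (ZMod p) (m / p - 1))
        else 0).coeff i := by
    intro i
    rw [coeff_reflect]
    rcases le_or_gt i 46 with hi | hi
    · obtain ⟨j, hj⟩ := Nat.exists_eq_add_of_le hi
      have e1 : p * i + p * j = 46 * p := by rw [← mul_add, ← hj, mul_comm]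
      rw [revAt_le (by omega), show 47 * p - 1 - (p * i + 0) = p * j + (p - 1) by omega,
        cartier_U hp]
      split_ifs
      · rw [coeff_reflect, revAt_le hi, show 47 * 1 - 1 - i = j by omega]
      · rw [coeff_zero]
    · have e1 : p * 47 ≤ p * i := Nat.mul_le_mul_left p hi
      rw [revAt_eq_self_of_lt (by omega),
        coeff_eq_zero_of_natDegree_lt ((hU m).trans_lt (by omega))]
      split_ifs with hd
      · obtain ⟨μ, rfl⟩ := hd
        rw [coeff_reflect, revAt_eq_self_of_lt hi, Int.mul_ediv_cancel_left _ (by omega),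
          coeff_eq_zero_of_natDegree_lt ((hU μ).trans_lt ?_)]
        rw [Int.natAbs_mul, Int.natAbs_natCast] at hm
        exact lt_of_mul_lt_mul_left (a := p) (by omega) (Nat.zero_le _)
      · rw [coeff_zero]
  have h2 : (rowD p m).map (Int.castRingHom (ZMod p)) =
      expand (ZMod p) p (((1 - X : ℤ[X]) ^ (2 * 1)).map (Int.castRingHom (ZMod p))) *
        reflect (47 * p - 1) (Chebyshev.U (ZMod p) (m - 1)) := by
    rw [rowD, Polynomial.map_mul, FRow_frob, ← reflect_map, Chebyshev.map_U]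
  have h3 := FRow_shift hp0 hA (((1 - X : ℤ[X]) ^ (2 * 1)).map (Int.castRingHom (ZMod p))) i'
  rw [← h2, add_zero, coeff_map, eq_intCast] at h3
  refine h3.trans ?_
  split_ifs
  · rw [← Chebyshev.map_U (Int.castRingHom (ZMod p)), reflect_map, ← Polynomial.map_mul,
      coeff_map, eq_intCast, rowD]
  · rw [mul_zero, coeff_zero]

end Crest.Agent.R6
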