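import Crest.Agent.R6.P2c

/-!
# Row 6: the `2`-adic bound.

`pn_det_block` with `u ρ = κ - min (ρ/2) (16N)`, `w k = max (20N - k) 0`, `w' j = min j (16N)`,
`u' j = κ + max (-(w' j)) (23N - 2j)`.  Sums: `∑ min(ρ/2,16N) = 320N² - 16N`,
`∑ w = 200N² + 10N`, `∑_{j<16N} (23N - j) = 240N² + 8N`, `∑_{j≥16N} max(39N - 2j,0) ≤ 49N²/4 + 7N`
(`Fin.sum_univ_eq_sum_range`, `Finset.sum_range_add`/`range_add`, Gauss sums).  Take `e = toNat`.
-/

set_option autoImplicit false

namespace Crest.Agent.R6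

open Finset

theorem p2d_sum_half (M : ℕ) :
    ∑ i ∈ range (2 * M), (((i / 2 : ℕ) : ℤ)) = (M : ℤ) * (M - 1) := by
  induction M with
  | zero => simp
  | succ M ih =>
    rw [show 2 * (M + 1) = 2 * M + 1 + 1 by ring, sum_range_succ, sum_range_succ, ih]
    have h1 : 2 * M / 2 = M := by omega
    have h2 : (2 * M + 1) / 2 = M := by omega
    rw [h1, h2]
    push_cast
    ring

theorem p2d_sum_min (M t : ℕ) :
    ∑ i ∈ range (2 * M + t), min ((i / 2 : ℕ) : ℤ) (M : ℤ) = (M : ℤ) * (M - 1) + t * M := by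
  induction t with
  | zero =>
    rw [add_zero, ← p2d_sum_half]
    simp only [Nat.cast_zero, zero_mul, add_zero]
    refine sum_congr rfl fun i hi => ?_
    have := mem_range.1 hi
    apply min_eq_left
    omega
  | succ t ih =>
    rw [← add_assoc, sum_range_succ, ih, min_eq_right (by omega)]
    push_cast
    ring

theorem p2d_sum_lin (c : ℤ) (n : ℕ) :
    2 * ∑ i ∈ range n, (c - (i : ℤ)) = 2 * c * n - n * (n - 1) := by
  induction n with
  | zero => simp
  | succ n ih =>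
    rw [sum_range_succ, mul_add, ih]
    push_cast
    ring

theorem p2d_sum_max (M t : ℕ) :
    2 * ∑ i ∈ range (M + t), max ((M : ℤ) - i) 0 = (M : ℤ) * (M + 1) := by
  induction t with
  | zero =>
    have h : ∑ i ∈ range (M + 0), max ((M : ℤ) - i) 0 = ∑ i ∈ range M, ((M : ℤ) - i) := by
      rw [add_zero]
      refine sum_congr rfl fun i hi => ?_
      have := mem_range.1 hi
      apply max_eq_left
      omega
    rw [h, p2d_sum_lin]
    ring
  | succ t ih =>
    rw [← add_assoc, sum_range_succ, max_eq_right (by push_cast; omega), add_zero, ih]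

theorem p2d_sum_tail (M : ℤ) (hM : 0 ≤ M) (t : ℕ) :
    4 * ∑ i ∈ range t, max (M - 2 * (i : ℤ)) 0 + (max (M - 2 * t + 1) 0) ^ 2 ≤ (M + 1) ^ 2 := by
  induction t with
  | zero =>
    simp only [range_zero, sum_empty, Nat.cast_zero, mul_zero, sub_zero, zero_add]
    rw [max_eq_left (by omega)]
  | succ t ih =>
    rw [sum_range_succ]
    push_cast
    have key : 4 * max (M - 2 * (t : ℤ)) 0 + (max (M - 2 * ((t : ℤ) + 1) + 1) 0) ^ 2 ≤
        (max (M - 2 * (t : ℤ) + 1) 0) ^ 2 := by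
      rcases le_or_gt 1 (M - 2 * (t : ℤ)) with h | h
      · rw [max_eq_left (by omega), max_eq_left (by omega), max_eq_left (by omega)]
        nlinarith
      · rw [max_eq_right (by omega), max_eq_right (by omega)]
        simp only [mul_zero, ne_eq, OfNat.ofNat_ne_zero, not_false_eq_true, zero_pow, add_zero]
        positivity
    linarith

theorem p2d_sum_last (N : ℕ) :
    4 * ∑ j ∈ range (33 * N), max 0 (23 * (N : ℤ) - 2 * j + min (j : ℤ) (16 * N)) ≤
      960 * (N : ℤ) ^ 2 + 32 * N + (7 * N + 1) ^ 2 := by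
  rw [show 33 * N = 16 * N + 17 * N by ring, sum_range_add]
  have h1 : ∑ j ∈ range (16 * N), max 0 (23 * (N : ℤ) - 2 * j + min (j : ℤ) (16 * N)) =
      ∑ j ∈ range (16 * N), (23 * (N : ℤ) - j) := by
    refine sum_congr rfl fun i hi => ?_
    have := mem_range.1 hi
    omega
  have h2 : ∑ j ∈ range (17 * N), max 0 (23 * (N : ℤ) - 2 * ((16 * N + j : ℕ) : ℤ) +
      min ((16 * N + j : ℕ) : ℤ) (16 * N)) =
      ∑ j ∈ range (17 * N), max (7 * (N : ℤ) - 2 * (j : ℤ)) 0 := by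
    refine sum_congr rfl fun i _ => ?_
    omega
  rw [h1, h2]
  have h3 := p2d_sum_lin (23 * (N : ℤ)) (16 * N)
  have h4 := p2d_sum_tail (7 * (N : ℤ)) (by positivity) (17 * N)
  have h5 : 0 ≤ (max (7 * (N : ℤ) - 2 * ((17 * N : ℕ) : ℤ) + 1) 0) ^ 2 := by positivity
  push_cast at h3 h4 h5 ⊢
  nlinarith

theorem two_bound (γ : ℚ) (N κ : ℕ) (hγ : padicNorm 2 γ ≤ 2 ^ κ)
    (hκ : 2 * Nat.log 2 (49 * N + 1) + 1 ≤ κ) :
    ∃ e : ℕ, 4 * e ≤ 529 * N ^ 2 + 200 * N + 276 * N * κ ∧ padicNorm 2 (Delta γ N) ≤ 2 ^ e := by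
  obtain ⟨W, a, Y, hD, hW, ha, hY⟩ := two_decomp γ N κ hγ hκ
  have : Fact (Nat.Prime 2) := ⟨Nat.prime_two⟩
  have mono : ∀ {x y : ℤ}, x ≤ y → (2 : ℚ) ^ x ≤ ((2 : ℕ) : ℚ) ^ y := fun h => by
    push_cast
    exact zpow_le_zpow_right₀ (by norm_num) h
  have key := pn_det_block (p := 2) W (fun ρ j => (a ρ j : ℚ)) Y
    (fun ρ => (κ : ℤ) - min ((ρ.val / 2 : ℕ) : ℤ) ((16 * N : ℕ) : ℤ))
    (fun k => max (((20 * N : ℕ) : ℤ) - k.val) 0)
    (fun j => (κ : ℤ) + max (-(min (j.val : ℤ) (16 * N))) (23 * N - 2 * j.val))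
    (fun j => min (j.val : ℤ) (16 * N))
    (fun r k => (hW r k).trans (mono (by omega)))
    (fun r j => by
      by_cases hj : j.val < r.val / 2
      · rw [ha r j hj]
        simp only [Int.cast_zero, padicNorm.zero]
        positivity
      · refine (padicNorm.of_int _).trans ?_
        have := mono (x := 0) (y := (κ : ℤ) - min ((r.val / 2 : ℕ) : ℤ) ((16 * N : ℕ) : ℤ) +
          min (j.val : ℤ) (16 * N)) (by omega)
        simpa using this)
    (fun j k => (hY j k).trans (mono (by omega)))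
    (fun j => by omega)
  rw [← hD] at key
  have s1 : ∑ ρ : Fin (36 * N), ((κ : ℤ) - min ((ρ.val / 2 : ℕ) : ℤ) ((16 * N : ℕ) : ℤ)) =
      36 * N * κ - (320 * (N : ℤ) ^ 2 - 16 * N) := by
    rw [sum_sub_distrib, Fin.sum_univ_eq_sum_range
      (fun i => min ((i / 2 : ℕ) : ℤ) ((16 * N : ℕ) : ℤ)) (36 * N),
      show 36 * N = 2 * (16 * N) + 4 * N by ring, p2d_sum_min]
    simp only [sum_const, card_univ, Fintype.card_fin, nsmul_eq_mul]
    push_cast
    ring
  have s2 : 2 * ∑ k : Fin (36 * N), max (((20 * N : ℕ) : ℤ) - k.val) 0 =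
      400 * (N : ℤ) ^ 2 + 20 * N := by
    rw [Fin.sum_univ_eq_sum_range (fun i => max (((20 * N : ℕ) : ℤ) - i) 0) (36 * N),
      show 36 * N = 20 * N + 16 * N by ring, p2d_sum_max]
    push_cast
    ring
  have s3 : ∑ j : Fin (33 * N), ((κ : ℤ) + max (-(min (j.val : ℤ) (16 * N))) (23 * N - 2 * j.val) +
      min (j.val : ℤ) (16 * N)) = 33 * N * κ +
      ∑ j ∈ range (33 * N), max 0 (23 * (N : ℤ) - 2 * j + min (j : ℤ) (16 * N)) := by
    rw [← Fin.sum_univ_eq_sum_range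
      (fun j => max 0 (23 * (N : ℤ) - 2 * j + min (j : ℤ) (16 * N))) (33 * N)]
    have : (33 * N * κ : ℤ) = ∑ _j : Fin (33 * N), (κ : ℤ) := by
      simp only [sum_const, card_univ, Fintype.card_fin, nsmul_eq_mul]
      push_cast
      ring
    rw [this, ← sum_add_distrib]
    refine sum_congr rfl fun j _ => ?_
    omega
  have s4 := p2d_sum_last N
  rw [s1, s3] at key
  generalize ∑ k : Fin (36 * N), max (((20 * N : ℕ) : ℤ) - k.val) 0 = A at s2 key
  generalize ∑ j ∈ range (33 * N), max 0 (23 * (N : ℤ) - 2 * j + min (j : ℤ) (16 * N)) = B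
    at s4 key
  set E : ℤ := 36 * N * κ - (320 * (N : ℤ) ^ 2 - 16 * N) + A + (33 * N * κ + B) with hE
  have hE4 : 4 * E ≤ 529 * (N : ℤ) ^ 2 + 200 * N + 276 * N * κ := by
    rcases Nat.eq_zero_or_pos N with h | h
    · subst h
      simp only [Nat.cast_zero] at *
      norm_num at *
      omega
    · have : (1 : ℤ) ≤ N := by exact_mod_cast h
      nlinarith
  refine ⟨E.toNat, ?_, key.trans ?_⟩
  · have h0 : (0 : ℤ) ≤ 529 * (N : ℤ) ^ 2 + 200 * N + 276 * N * κ := by positivity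
    have : 4 * ((E.toNat : ℕ) : ℤ) ≤ 529 * (N : ℤ) ^ 2 + 200 * N + 276 * N * κ := by omega
    exact_mod_cast this
  · rw [← zpow_natCast]
    push_cast
    exact zpow_le_zpow_right₀ (by norm_num) (Int.self_le_toNat E)

end Crest.Agent.R6
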