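import Crest.Agent.R6.Defs
import Crest.Agent.Lib.PNT.Main

/-!
# Row 6: sums over primes.

`riesz`: for integer `y`, `∑_{p≤y} (y-p) log p = ∑_{k<y} θ(k)`; with `θ(x)/x → 1`
(`Crest.Agent.Lib.PNT` `tendsto_theta`) this is `y²/2 + o(y²)` (e.g. `|θ k - k| ≤ ε k + C`); for real
`αN` sandwich between `⌊αN⌋` and `⌊αN⌋ + 1` (monotone in `y`; primes `≥ y` contribute `0`).
`pnt_sum`: linear combination; `(49² + 44² + 43² + 30² - 2·25.5² - 2·24.5² + 2·21.5² - 2·18.5²)/2 = 2412.5`.
`small_sum`: at most `√(49N) + 1` primes, each term `≤ 72 N log(49N)` (`p^(log_p X) ≤ X`).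
-/

set_option autoImplicit false

namespace Crest.Agent.R6

open Finset Filter Topology

theorem pnts_int (M y : ℕ) (hy : y ≤ M + 1) :
    ∑ p ∈ (range (M + 1)).filter Nat.Prime, max ((y : ℝ) - p) 0 * Real.log p =
      ∑ k ∈ range y, Chebyshev.theta k := by
  induction y with
  | zero =>
    rw [sum_range_zero]
    refine sum_eq_zero fun p _ => ?_
    rw [max_eq_right (by simp), zero_mul]
  | succ y ih =>
    rw [sum_range_succ, ← ih (by omega), Chebyshev.theta_eq_sum_Icc, Nat.floor_natCast]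
    have e : (Icc 0 y).filter Nat.Prime =
        ((range (M + 1)).filter Nat.Prime).filter (fun p => p ≤ y) := by
      ext p
      simp only [mem_filter, mem_Icc, mem_range]
      constructor
      · rintro ⟨⟨-, h1⟩, h2⟩
        exact ⟨⟨by omega, h2⟩, h1⟩
      · rintro ⟨⟨-, h2⟩, h1⟩
        exact ⟨⟨by omega, h1⟩, h2⟩
    rw [e, sum_filter (s := (range (M + 1)).filter Nat.Prime), ← sum_add_distrib]
    refine sum_congr rfl fun p _ => ?_
    by_cases hp : p ≤ y
    · have : (p : ℝ) ≤ y := by exact_mod_cast hp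
      rw [if_pos hp, max_eq_left (by push_cast; linarith), max_eq_left (by linarith)]
      push_cast
      ring
    · have : (y : ℝ) + 1 ≤ p := by exact_mod_cast (not_le.1 hp)
      rw [if_neg hp, max_eq_right (by push_cast; linarith), max_eq_right (by linarith)]
      simp

theorem pnts_lim : Tendsto (fun y : ℕ => (∑ k ∈ range y, Chebyshev.theta k) / (y : ℝ) ^ 2) atTop
    (𝓝 (1 / 2)) := by
  have h1 : (fun k : ℕ => Chebyshev.theta k - k) =o[atTop] fun k : ℕ => (k : ℝ) := by
    have h := (Crest.Agent.Lib.PNT.tendsto_theta.comp tendsto_natCast_atTop_atTop).sub_const 1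
    rw [sub_self] at h
    rw [Asymptotics.isLittleO_iff_tendsto' (by
      filter_upwards [eventually_gt_atTop 0] with k hk h0
      exact absurd h0 (by positivity))]
    refine h.congr' ?_
    filter_upwards [eventually_gt_atTop 0] with k hk
    have : (k : ℝ) ≠ 0 := by positivity
    simp only [Function.comp]
    field_simp
  have hs : ∀ y : ℕ, ∑ k ∈ range y, (k : ℝ) = (y : ℝ) * (y - 1) / 2 := by
    intro y
    induction y with
    | zero => simp
    | succ y ih =>
      rw [sum_range_succ, ih]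
      push_cast
      ring
  have h2 : Tendsto (fun y : ℕ => ∑ k ∈ range y, (k : ℝ)) atTop atTop := by
    refine tendsto_atTop_mono' _ ?_ tendsto_natCast_atTop_atTop
    filter_upwards [eventually_ge_atTop 3] with y hy
    have : (3 : ℝ) ≤ y := by exact_mod_cast hy
    rw [hs]
    nlinarith
  have h3 := h1.sum_range (fun k => Nat.cast_nonneg k) h2
  have h4 : (fun y : ℕ => ∑ k ∈ range y, (k : ℝ)) =O[atTop] fun y : ℕ => (y : ℝ) ^ 2 := by
    refine Asymptotics.IsBigO.of_bound 1 (Eventually.of_forall fun y => ?_)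
    have h0 : (0 : ℝ) ≤ y := Nat.cast_nonneg y
    rw [Real.norm_of_nonneg (sum_nonneg fun k _ => Nat.cast_nonneg k), hs,
      Real.norm_of_nonneg (by positivity)]
    nlinarith
  have h5 := (h3.trans_isBigO h4).tendsto_div_nhds_zero
  have h6 : Tendsto (fun y : ℕ => (1 / 2 : ℝ) - (1 / 2) * (y : ℝ)⁻¹) atTop (𝓝 (1 / 2 - (1 / 2) * 0)) :=
    (tendsto_inv_atTop_nhds_zero_nat.const_mul _).const_sub _
  have h7 := h5.add h6
  simp only [mul_zero, sub_zero, zero_add] at h7
  refine h7.congr' ?_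
  filter_upwards [eventually_gt_atTop 0] with y hy
  have : (y : ℝ) ≠ 0 := by positivity
  rw [sum_sub_distrib, hs]
  field_simp
  ring

theorem pnts_comp {α : ℝ} {y : ℕ → ℕ} (h1 : Tendsto y atTop atTop)
    (h2 : Tendsto (fun N : ℕ => (y N : ℝ) / N) atTop (𝓝 α)) :
    Tendsto (fun N : ℕ => (∑ k ∈ range (y N), Chebyshev.theta k) / (N : ℝ) ^ 2) atTop
      (𝓝 (α ^ 2 / 2)) := by
  have h := (pnts_lim.comp h1).mul (h2.pow 2)
  have e : (1 / 2 : ℝ) * α ^ 2 = α ^ 2 / 2 := by ring
  rw [e] at h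
  refine h.congr' ?_
  filter_upwards [h1.eventually_gt_atTop 0, eventually_gt_atTop 0] with N hN hN'
  have : (y N : ℝ) ≠ 0 := by positivity
  have : (N : ℝ) ≠ 0 := by positivity
  simp only [Function.comp]
  field_simp

theorem riesz {α : ℝ} (h0 : 0 < α) (h1 : α ≤ 49) :
    Tendsto (fun N : ℕ => (∑ p ∈ (range (49 * N + 1)).filter Nat.Prime,
      max (α * N - p) 0 * Real.log p) / (N : ℝ) ^ 2) atTop (𝓝 (α ^ 2 / 2)) := by
  have hα : Tendsto (fun N : ℕ => α * (N : ℝ)) atTop atTop :=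
    tendsto_natCast_atTop_atTop.const_mul_atTop h0
  have y1 : Tendsto (fun N : ℕ => ⌊α * (N : ℝ)⌋₊) atTop atTop := tendsto_nat_floor_atTop.comp hα
  have y2 : Tendsto (fun N : ℕ => (⌊α * (N : ℝ)⌋₊ : ℝ) / N) atTop (𝓝 α) :=
    (tendsto_nat_floor_mul_div_atTop h0.le).comp tendsto_natCast_atTop_atTop
  have y3 : Tendsto (fun N : ℕ => ⌊α * (N : ℝ)⌋₊ + 1) atTop atTop :=
    (tendsto_add_atTop_nat 1).comp y1
  have y4 : Tendsto (fun N : ℕ => ((⌊α * (N : ℝ)⌋₊ + 1 : ℕ) : ℝ) / N) atTop (𝓝 α) := by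
    have := y2.add (tendsto_inv_atTop_nhds_zero_nat (𝕜 := ℝ))
    rw [add_zero] at this
    refine this.congr fun N => ?_
    push_cast
    rw [add_div, one_div]
  have hfl : ∀ N : ℕ, ⌊α * (N : ℝ)⌋₊ ≤ 49 * N := by
    intro N
    apply Nat.floor_le_of_le
    push_cast
    exact mul_le_mul_of_nonneg_right h1 (Nat.cast_nonneg N)
  refine tendsto_of_tendsto_of_tendsto_of_le_of_le (pnts_comp y1 y2) (pnts_comp y3 y4)
    (fun N => ?_) (fun N => ?_)
  · refine div_le_div_of_nonneg_right ?_ (by positivity)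
    rw [← pnts_int (49 * N) _ (by have := hfl N; omega)]
    refine sum_le_sum fun p _ => mul_le_mul_of_nonneg_right (max_le_max ?_ le_rfl)
      (Real.log_natCast_nonneg p)
    have := Nat.floor_le (show 0 ≤ α * (N : ℝ) by positivity)
    linarith
  · refine div_le_div_of_nonneg_right ?_ (by positivity)
    rw [← pnts_int (49 * N) _ (by have := hfl N; omega)]
    refine sum_le_sum fun p _ => mul_le_mul_of_nonneg_right (max_le_max ?_ le_rfl)
      (Real.log_natCast_nonneg p)
    have := Nat.lt_floor_add_one (α * (N : ℝ))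
    push_cast
    linarith

theorem pnt_sum : Tendsto (fun N : ℕ => (∑ p ∈ (range (49 * N + 1)).filter Nat.Prime,
      dl N p * Real.log p) / (N : ℝ) ^ 2) atTop (𝓝 2412.5) := by
  have a1 := riesz (α := 49) (by norm_num) (by norm_num)
  have a2 := riesz (α := 44) (by norm_num) (by norm_num)
  have a3 := riesz (α := 43) (by norm_num) (by norm_num)
  have a4 := riesz (α := 30) (by norm_num) (by norm_num)
  have a5 := riesz (α := 25.5) (by norm_num) (by norm_num)
  have a6 := riesz (α := 24.5) (by norm_num) (by norm_num)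
  have a7 := riesz (α := 21.5) (by norm_num) (by norm_num)
  have a8 := riesz (α := 18.5) (by norm_num) (by norm_num)
  have h := ((((((a1.add a2).add a3).add a4).sub (a5.const_mul 2)).sub (a6.const_mul 2)).add
    (a7.const_mul 2)).sub (a8.const_mul 2)
  have e : (49 : ℝ) ^ 2 / 2 + 44 ^ 2 / 2 + 43 ^ 2 / 2 + 30 ^ 2 / 2 - 2 * (25.5 ^ 2 / 2) -
      2 * (24.5 ^ 2 / 2) + 2 * (21.5 ^ 2 / 2) - 2 * (18.5 ^ 2 / 2) = 2412.5 := by norm_num
  rw [e] at h
  refine h.congr fun N => ?_
  simp only [dl, add_mul, sub_mul, mul_assoc, sum_add_distrib, sum_sub_distrib, ← mul_sum]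
  ring

theorem small_sum : Tendsto (fun N : ℕ =>
      (∑ p ∈ (range (49 * N + 1)).filter (fun p => p.Prime ∧ p ^ 2 ≤ 49 * N),
        ((72 * N * Nat.log p (49 * N) : ℕ) : ℝ) * Real.log p) / (N : ℝ) ^ 2) atTop (𝓝 0) := by
  have h1 : Tendsto (fun x : ℝ => Real.log x / x ^ (1 / 2 : ℝ)) atTop (𝓝 0) :=
    (isLittleO_log_rpow_atTop (by norm_num : (0 : ℝ) < 1 / 2)).tendsto_div_nhds_zero
  have h2 : Tendsto (fun N : ℕ => ((49 * N : ℕ) : ℝ)) atTop atTop :=
    tendsto_natCast_atTop_atTop.comp (tendsto_id.const_mul_atTop' (by norm_num))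
  have h3 := (h1.comp h2).const_mul (72 * 98)
  rw [mul_zero] at h3
  refine tendsto_of_tendsto_of_tendsto_of_le_of_le' tendsto_const_nhds h3
    (Eventually.of_forall fun N => ?_) ?_
  · exact div_nonneg (sum_nonneg fun p _ => mul_nonneg (Nat.cast_nonneg _)
      (Real.log_natCast_nonneg p)) (by positivity)
  · filter_upwards [eventually_gt_atTop 0] with N hN
    have hN0 : (0 : ℝ) < N := by positivity
    have hN1 : (1 : ℝ) ≤ N := by exact_mod_cast hN
    set X : ℕ := 49 * N with hX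
    have hX0 : X ≠ 0 := by omega
    have hXr : (X : ℝ) = 49 * N := by rw [hX]; push_cast; ring
    have hlog : 0 ≤ Real.log X := Real.log_natCast_nonneg X
    have hterm : ∀ p ∈ (range (X + 1)).filter (fun p => p.Prime ∧ p ^ 2 ≤ X),
        ((72 * N * Nat.log p X : ℕ) : ℝ) * Real.log p ≤ 72 * N * Real.log X := by
      intro p hp
      have hp2 := (mem_filter.1 hp).2.1.pos
      have k1 : p ^ Nat.log p X ≤ X := Nat.pow_log_le_self p hX0
      have k2 : ((p : ℝ)) ^ Nat.log p X ≤ X := by exact_mod_cast k1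
      have k3 := Real.log_le_log (by positivity) k2
      rw [Real.log_pow] at k3
      push_cast
      rw [mul_assoc (72 * (N : ℝ))]
      exact mul_le_mul_of_nonneg_left k3 (by positivity)
    have hcard : ((range (X + 1)).filter (fun p => p.Prime ∧ p ^ 2 ≤ X)).card ≤ Nat.sqrt X + 1 := by
      rw [← card_range (Nat.sqrt X + 1)]
      refine card_le_card fun p hp => ?_
      have := Nat.le_sqrt'.2 (mem_filter.1 hp).2.2
      rw [mem_range]
      omega
    have hs : ((Nat.sqrt X : ℕ) : ℝ) ≤ √(X : ℝ) := Real.nat_sqrt_le_real_sqrt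
    have hs1 : (1 : ℝ) ≤ √(X : ℝ) := Real.one_le_sqrt.2 (by rw [hXr]; linarith)
    have hss : √(X : ℝ) * √(X : ℝ) = 49 * N := by rw [Real.mul_self_sqrt (by positivity), hXr]
    have hc : (((range (X + 1)).filter (fun p => p.Prime ∧ p ^ 2 ≤ X)).card : ℝ) ≤ 2 * √(X : ℝ) := by
      have : (((range (X + 1)).filter (fun p => p.Prime ∧ p ^ 2 ≤ X)).card : ℝ) ≤
          (Nat.sqrt X : ℝ) + 1 := by exact_mod_cast hcard
      linarith
    have hsum := sum_le_card_nsmul _ _ _ hterm
    rw [nsmul_eq_mul] at hsum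
    have hsum2 := hsum.trans (mul_le_mul_of_nonneg_right hc (by positivity))
    simp only [Function.comp]
    rw [← Real.sqrt_eq_rpow, div_le_iff₀ (by positivity), ← hX]
    refine hsum2.trans (le_of_eq ?_)
    generalize √(X : ℝ) = r at hs1 hss
    have hr : r ≠ 0 := by positivity
    have e : (N : ℝ) = r * r / 49 := by linarith
    rw [e]
    field_simp
    ring

end Crest.Agent.R6
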