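import Crest.Agent.R6.PRow

/-!
# Row 6: rank loss of the whole polar part, `p > H/2`.

Notation as in `PoddS`.  Exchange the sums:
`Ent = ∑_{j<L} Q_j Ψ(j+1) - ∑_{v∈[1,L]} κ v ℓ v`, `κ v = ∑_{v≤j<L} Q_j/(j+1-v)`.
For `c < H - p` (`≤ p`): `κ(c+1) = Q_{c+p}/p + κ' c` with `κ' c` integral (`L ≤ c + 2p`), and
`Q_{c+p} = 0` unless `c < L - p`.  Terms with `v > H - p` (`F1_ell`, `κ v` integral) and
`Q_j Ψ(j+1)` with `H - p ≤ j < p` (`F1_Psi`) are integral.  Group for `c < H - p`
`Q_c Ψ(c+1) - κ(c+1) ℓ(c+1) + Q_{c+p} Ψ(c+p+1)`.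
* `c < b`: `Q_c = 0`, `Ψ(c+p+1)` integral; one rank-one term `ℓ(c+1) ⊗ (-κ(c+1))`, exponent `2` if
  `c < L - p`, else `1`.
* `b ≤ c`: with `ψ = pΨ(c+1)`, `δ = ψ - ℓ(c+1)` integral (`F2`), the group is
  `(Q_c/p - κ(c+1)) ψ + κ' δ + Q_{c+p} (δ/p + Ψ(c+p+1))`: a term of exponent `2`, an integral term,
  and (only for `c < L - p`) a term of exponent `1` (`c < A`, `F1_Psi`) or `2` (`F0_Psi`).
Apply `pn_det_decomp` with `e0 = 0`, `κ = ℕ ⊕ ℕ` (or `ℕ × Bool`); move powers of `p` from the column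
vector to the row vector (`a = ψ/p`, `b = Q_c - p κ`).
-/

set_option autoImplicit false

namespace Crest.Agent.R6

open Polynomial Finset

section aux
variable {p : ℕ} [Fact p.Prime]

/-- `κ (c+1)` -/
def T_kap (p : ℕ) (Q : ℕ → ℚ) (c : ℕ) : ℚ :=
  ∑ j ∈ range (p + p), if c < j then Q j / ((j - c : ℕ) : ℚ) else 0

theorem T_one {x y : ℚ} (hx : padicNorm p x ≤ 1) (hy : padicNorm p y ≤ 1) : padicNorm p (x * y) ≤ 1 :=
  (pn_mul_le hx hy).trans_eq (mul_one _)

theorem T_p : padicNorm p (p : ℚ) ≤ 1 := padicNorm.of_nat p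

theorem T_inv : padicNorm p (1 / (p : ℚ)) ≤ p :=
  pn_inv_nat_of_lt_sq (by nlinarith [(Fact.out : p.Prime).two_le])

theorem T_kap_sub {Q : ℕ → ℚ} (hQ : ∀ j, padicNorm p (Q j) ≤ 1) (h0 : ∀ j, p + p ≤ j → Q j = 0) (c : ℕ) :
    padicNorm p (T_kap p Q c - Q (p + c) / p) ≤ 1 := by
  have hp := (Fact.out : p.Prime).pos
  have e : Q (p + c) / p = ∑ j ∈ range (p + p), if j = p + c then Q j / p else 0 := by
    rw [sum_ite_eq']
    split_ifs with h
    · rfl
    · rw [h0 _ (by simpa using h), zero_div]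
  rw [e, T_kap, ← sum_sub_distrib]
  refine pn_sum_le zero_le_one fun j hj => ?_
  have hj' := mem_range.1 hj
  split_ifs with h1 h2 h2
  · rw [h2, Nat.add_sub_cancel, sub_self, padicNorm.zero]
    exact zero_le_one
  · rw [sub_zero, div_eq_mul_one_div]
    refine T_one (hQ j) (pn_inv_nat_of_not_dvd ?_).le
    rintro ⟨t, ht⟩
    rcases t with _ | _ | t
    · omega
    · omega
    · have : p * (t + 1 + 1) = p * t + p + p := by ring
      omega
  · omega
  · rw [sub_zero, padicNorm.zero]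
    exact zero_le_one

theorem T_swap (Q ψ l : ℕ → ℚ) (M : ℕ) :
    ∑ j ∈ range M, Q j * (ψ j - ∑ v ∈ Icc 1 j, l v / ((j + 1 - v : ℕ) : ℚ)) =
      ∑ j ∈ range M, Q j * ψ j -
        ∑ c ∈ range M, l (c + 1) * ∑ j ∈ range M, if c < j then Q j / ((j - c : ℕ) : ℚ) else 0 := by
  simp only [mul_sub, sum_sub_distrib, mul_sum]
  congr 1
  rw [sum_comm (s := range M) (t := range M)]
  refine sum_congr rfl fun j hj => ?_
  have hj' := mem_range.1 hj
  rw [← Ico_add_one_right_eq_Icc, sum_Ico_eq_sum_range, Nat.add_sub_cancel]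
  simp only [mul_ite, mul_zero]
  rw [← sum_filter]
  refine sum_congr ?_ fun c _ => ?_
  · ext c
    simp only [mem_range, mem_filter]
    omega
  · rw [add_comm 1 c, Nat.add_sub_add_right]
    ring

theorem T_e1 (T b M n : ℕ) :
    ∑ c ∈ range n, (if c < T then if c < b ∧ M ≤ c then 1 else 2 else 0) =
      min n T + min (min b M) (min n T) + (min n T - b) := by
  induction n with
  | zero => simp
  | succ n ih =>
    rw [sum_range_succ, ih]
    split_ifs <;> omega

theorem T_e2 {A b : ℕ} (h : b ≤ A) (M n : ℕ) :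
    ∑ c ∈ range n, (if b ≤ c ∧ c < M then if c < A then 1 else 2 else 0) =
      (min n M - b) + (min n M - A) := by
  induction n with
  | zero => simp
  | succ n ih =>
    rw [sum_range_succ, ih]
    split_ifs <;> omega

/-- `ψ r j = Ψ_r (j+1)`, `l r c = ℓ_r (c+1)` -/
theorem T_main {n A b L H : ℕ} (hbA : b ≤ A) (hLH : L ≤ H) (hH : H ≤ p + p) (ψ l Q : Fin n → ℕ → ℚ)
    (hQ : ∀ k j, padicNorm p (Q k j) ≤ 1) (hQ0 : ∀ k j, j < b ∨ L ≤ j → Q k j = 0)
    (ψ0 : ∀ r j, j < H → padicNorm p (ψ r j) ≤ (p : ℚ) ^ 2)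
    (ψ1 : ∀ r j, H ≤ j + p → j < A + p → padicNorm p (ψ r j) ≤ 1)
    (l0 : ∀ r c, padicNorm p (l r c) ≤ p) (l1 : ∀ r c, H ≤ c + p → padicNorm p (l r c) ≤ 1)
    (h2 : ∀ r c, c < p → padicNorm p (p * ψ r c - l r c) ≤ 1) :
    padicNorm p (Matrix.det (Matrix.of fun r k => ∑ j ∈ range (p + p), Q k j * ψ r j -
      ∑ c ∈ range (p + p), l r c * T_kap p (Q k) c)) ≤
      (p : ℚ) ^ ((H - p) + min b (L - p) + (H - p - b) + (L - p - b) + (L - p - A)) := by
  have hp : (p : ℚ) ≠ 0 := Nat.cast_ne_zero.2 (Fact.out : p.Prime).ne_zero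
  have p1 : (1 : ℚ) ≤ p := Nat.one_le_cast.2 (Fact.out : p.Prime).pos
  have z : padicNorm p 0 ≤ 1 := by simp
  have k1 : ∀ k c, padicNorm p (T_kap p (Q k) c - Q k (p + c) / p) ≤ 1 := fun k =>
    T_kap_sub (hQ k) fun j hj => hQ0 k j (Or.inr (by omega))
  have k0 : ∀ k c, L ≤ p + c → padicNorm p (T_kap p (Q k) c) ≤ 1 := fun k c hc => by
    simpa [hQ0 k _ (Or.inr hc)] using k1 k c
  have k2 : ∀ k c, padicNorm p (p * T_kap p (Q k) c) ≤ 1 := fun k c => by
    have := pn_add_le (T_one T_p (k1 k c)) (hQ k (p + c))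
    rwa [mul_sub, mul_div_cancel₀ _ hp, sub_add_cancel] at this
  let a1 : ℕ → Fin n → ℚ := fun c r =>
    if c < H - p then if c < b then if L - p ≤ c then -l r c else -l r c * (1 / p) else ψ r c else 0
  let b1 : ℕ → Fin n → ℚ := fun c k =>
    if c < b then if L - p ≤ c then T_kap p (Q k) c else p * T_kap p (Q k) c else Q k c - p * T_kap p (Q k) c
  let a2 : ℕ → Fin n → ℚ := fun c r =>
    if b ≤ c ∧ c < L - p then (p * ψ r c - l r c) * (1 / p) + ψ r (p + c) else 0
  refine (pn_det_decomp ((range p).disjSum (range p)) _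
    (fun r k => ∑ c ∈ range p, (Q k c * ψ r c + Q k (p + c) * ψ r (p + c) - l r c * T_kap p (Q k) c -
      a1 c r * b1 c k - a2 c r * Q k (p + c) - l r (p + c) * T_kap p (Q k) (p + c)))
    (Sum.elim a1 a2) (Sum.elim b1 fun c k => Q k (p + c)) 0
    (Sum.elim (fun c => if c < H - p then if c < b ∧ L - p ≤ c then 1 else 2 else 0)
      fun c => if b ≤ c ∧ c < L - p then if c < A then 1 else 2 else 0)
    (fun r k => ?_) (fun r k => ?_) ?_ ?_).trans_eq ?_
  · simp only [sum_disjSum, Sum.elim_inl, Sum.elim_inr, sum_range_add, sum_sub_distrib, sum_add_distrib]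
    ring
  · rw [pow_zero]
    refine pn_sum_le zero_le_one fun c hc => pn_sub_le ?_ (T_one (l1 r _ (by omega)) (k0 k _ (by omega)))
    have hc' := mem_range.1 hc
    simp only [a1, a2, b1]
    by_cases c1 : c < H - p
    · by_cases c2 : c < b
      · rw [if_pos c1, if_pos c2, if_pos c2, if_neg (by omega : ¬ (b ≤ c ∧ c < L - p)), hQ0 k c (Or.inl c2)]
        have := T_one (hQ k (p + c)) (ψ1 r (p + c) (by omega) (by omega))
        split_ifs
        · convert this using 2
          ring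
        · convert this using 2
          field_simp
          ring
      · rw [if_pos c1, if_neg c2, if_neg c2]
        have := T_one (h2 r c hc') (k1 k c)
        split_ifs with c3
        · convert this using 2
          ring
        · rw [hQ0 k (p + c) (Or.inr (by omega))] at this ⊢
          convert this using 2
          ring
    · rw [if_neg c1, if_neg (by omega : ¬ (b ≤ c ∧ c < L - p)), hQ0 k (p + c) (Or.inr (by omega))]
      simp only [zero_mul, add_zero, sub_zero]
      exact pn_sub_le (T_one (hQ k c) (ψ1 r c (by omega) (by omega)))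
        (T_one (l1 r c (by omega)) (k0 k c (by omega)))
  · rintro (c | c) hc r
    · simp only [Sum.elim_inl, a1, zero_add]
      by_cases c1 : c < H - p
      · by_cases c2 : c < b
        · by_cases c3 : L - p ≤ c
          · rw [if_pos c1, if_pos c1, if_pos c2, if_pos c3, if_pos ⟨c2, c3⟩, padicNorm.neg, pow_one]
            exact l0 r c
          · rw [if_pos c1, if_pos c1, if_pos c2, if_neg c3, if_neg (by omega), neg_mul, padicNorm.neg, sq]
            exact pn_mul_le (l0 r c) T_inv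
        · rw [if_pos c1, if_pos c1, if_neg c2, if_neg (by omega)]
          exact ψ0 r c (by omega)
      · rw [if_neg c1, if_neg c1, pow_zero]
        exact z
    · have hc' : c < p := by simpa using hc
      simp only [Sum.elim_inr, a2, zero_add]
      have t := (pn_mul_le (h2 r c hc') T_inv).trans_eq (one_mul _)
      split_ifs with c1 c2
      · rw [pow_one]
        exact pn_add_le t ((ψ1 r _ (by omega) (by omega)).trans p1)
      · exact pn_add_le (t.trans (le_self_pow₀ p1 two_ne_zero)) (ψ0 r _ (by omega))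
      · rw [pow_zero]
        exact z
  · rintro (c | c) hc k
    · simp only [Sum.elim_inl, b1]
      split_ifs with c1 c2
      · exact k0 k c (by omega)
      · exact k2 k c
      · exact pn_sub_le (hQ k c) (k2 k c)
    · exact hQ k _
  · simp only [sum_disjSum, Sum.elim_inl, Sum.elim_inr, T_e1, T_e2 hbA]
    congr 1
    omega

end aux

theorem odd_T {p : ℕ} [Fact p.Prime] (hp : p ≠ 2) {γ : ℚ} (hγ : PI p γ) {N : ℕ}
    (hH : 49 * N < p ^ 2) (h2 : 49 * N ≤ 2 * p) :
    padicNorm p (Delta γ N) ≤ (p : ℚ) ^ ((49 * N - p) + min (6 * N) (44 * N - p) + (43 * N - p)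
      + (38 * N - p) + (30 * N - p)) := by
  have hP := rowP_supp' (N := N)
  have hD := rowD_supp' (N := N)
  have h := T_main (p := p) (A := 14 * N) (b := 6 * N) (L := 44 * N) (H := 49 * N) (by omega) (by omega)
    (by omega)
    (fun (r : Fin (36 * N)) j => Psi γ (rowP N ((r : ℕ) - 3 * (N : ℤ))) (rowD N ((r : ℕ) - 3 * (N : ℤ))) (j + 1))
    (fun r c => ell (rowP N ((r : ℕ) - 3 * (N : ℤ))) (rowD N ((r : ℕ) - 3 * (N : ℤ))) (c + 1))
    (fun k j => ((colQ N k).coeff j : ℚ)) (fun k j => padicNorm.of_int _)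
    (fun k j hj => by rw [colQ_supp' k j hj, Int.cast_zero])
    (fun r j hj => F0_Psi hp hγ hH (hP r) (hD r) (by omega) hj)
    (fun r j h1 h3 => F1_Psi hp hγ (hP r) (hD r) (by omega) h3)
    (fun r c => F0_ell hp hH (hP r) (hD r) (by omega))
    (fun r c hc => F1_ell hp (hP r) (hD r) (by omega))
    (fun r c hc => F2 hp hγ (hP r) (hD r) (by omega) (by omega))
  convert h using 2
  · unfold Delta
    congr 2
    funext r k
    rw [Ent, Phi_eq_lin, lin_eq_sum _ (A := p + p) fun i hi => colQ_supp' k i (Or.inr (by omega))]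
    simp only [Phi_X_pow]
    exact T_swap _ _ _ _
  · omega

end Crest.Agent.R6
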