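import Crest.Agent.R6.PoddS
import Crest.Agent.R6.PoddT
import Crest.Agent.R6.P2d
import Crest.Agent.R6.PNTSum

/-!
# Row 6: arithmetic lower bound.

`odd_bound`: `2p ≤ 37N`: `delta_triv` (`log_p(49N) ≤ 1`, exponent `72N`); `37N < 2p ≤ 51N`: `odd_S`;
`51N < 2p`: `odd_T`.  In each range unfold `dl`, split the `max`/`min`/truncated subtractions
(`omega` for the natural-number exponent in each of the ranges with breakpoints
`18.5, 21.5, 24.5, 25.5, 30, 38, 43, 44, 49`, then `max_eq_left/right` and `linarith`).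
`lower`: apply `prod_formula` to `x = γ.den^(36N) · Delta` with `S` = primes `≤ 49N`;
`‖γ.den‖_p · max 1 ‖γ‖_p ≤ 1`.  Exponents: `p = 2`: `two_bound` (`κ = 2 log₂(49N+1) + 1 + κ₀`);
odd `p² ≤ 49N`: `72 N log_p(49N)` (`delta_triv`); odd `p² > 49N`: `odd_bound` (for `N` large
`p > γ.den`, so `PI p γ`); `p > 49N`: `delta_triv`.  Use `0 ≤ dl`, `pnt_sum`, `small_sum`,
`log 2 < 0.6931471808`, `2412.5 + 132.25 log 2 < 2504.17`, and `N log N = o(N²)`.
-/

set_option autoImplicit false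

namespace Crest.Agent.R6

open Finset Filter

theorem dl_nonneg {N p : ℝ} (hN : 0 ≤ N) (hp : 0 ≤ p) : 0 ≤ dl N p := by
  have _ := hp
  have k : ∀ a b : ℝ, a ≤ b → max (a * N - p) 0 ≤ max (b * N - p) 0 := fun a b h =>
    max_le_max (sub_le_sub_right (mul_le_mul_of_nonneg_right h hN) p) le_rfl
  have h1 := k 25.5 49 (by norm_num)
  have h2 := k 25.5 44 (by norm_num)
  have h3 := k 24.5 43 (by norm_num)
  have h4 := k 24.5 30 (by norm_num)
  have h5 := k 18.5 21.5 (by norm_num)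
  unfold dl
  linarith

theorem Lower_cast (a b : ℕ) : ((a - b : ℕ) : ℝ) = max ((a : ℝ) - b) 0 := by
  rcases le_total a b with h | h
  · rw [Nat.sub_eq_zero_of_le h, max_eq_right (sub_nonpos.2 (Nat.cast_le.2 h)), Nat.cast_zero]
  · rw [Nat.cast_sub h, max_eq_left (sub_nonneg.2 (Nat.cast_le.2 h))]

theorem Lower_two_max (x : ℝ) : 2 * max x 0 = max (2 * x) 0 := by
  rw [mul_max_of_nonneg _ _ (by norm_num : (0 : ℝ) ≤ 2), mul_zero]

theorem Lower_le_dl {N p e : ℕ}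
    (h : e + (51 * N - 2 * p) + (49 * N - 2 * p) + (37 * N - 2 * p) ≤
      (49 * N - p) + (44 * N - p) + (43 * N - p) + (30 * N - p) + (43 * N - 2 * p)) :
    (e : ℝ) ≤ dl N p := by
  have h' := (Nat.cast_le (α := ℝ)).2 h
  simp only [Nat.cast_add, Lower_cast, Nat.cast_mul, Nat.cast_ofNat] at h'
  unfold dl
  rw [Lower_two_max, Lower_two_max, Lower_two_max, Lower_two_max,
    show (2 : ℝ) * (25.5 * N - p) = 51 * N - 2 * p by ring,
    show (2 : ℝ) * (24.5 * N - p) = 49 * N - 2 * p by ring,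
    show (2 : ℝ) * (21.5 * N - p) = 43 * N - 2 * p by ring,
    show (2 : ℝ) * (18.5 * N - p) = 37 * N - 2 * p by ring]
  linarith

theorem odd_bound {p : ℕ} [Fact p.Prime] (hp : p ≠ 2) {γ : ℚ} (hγ : PI p γ) {N : ℕ}
    (hH : 49 * N < p ^ 2) : ∃ e : ℕ, (e : ℝ) ≤ dl N p ∧ padicNorm p (Delta γ N) ≤ (p : ℚ) ^ e := by
  by_cases h1 : 2 * p ≤ 37 * N
  · refine ⟨72 * N, Lower_le_dl (by omega), (delta_triv hp γ N).trans ?_⟩
    have h2 : Nat.log p (49 * N) < 2 := Nat.log_lt_of_lt_pow' two_ne_zero hH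
    have h3 : (1 : ℚ) ≤ p := by exact_mod_cast (Fact.out : p.Prime).one_lt.le
    rw [max_eq_left hγ, one_mul, ← pow_mul]
    refine pow_le_pow_right₀ h3 ?_
    calc 2 * Nat.log p (49 * N) * (36 * N) ≤ 2 * 1 * (36 * N) := by gcongr; omega
      _ = 72 * N := by ring
  · by_cases h2 : 2 * p ≤ 51 * N
    · exact ⟨_, Lower_le_dl (by omega), odd_S hp hγ hH⟩
    · exact ⟨_, Lower_le_dl (by omega), odd_T hp hγ hH (by omega)⟩

theorem Lower_den {p : ℕ} [Fact p.Prime] (γ : ℚ) :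
    padicNorm p (γ.den : ℚ) * max 1 (padicNorm p γ) ≤ 1 := by
  rw [mul_max_of_nonneg _ _ (padicNorm.nonneg _), mul_one, ← padicNorm.mul, Rat.den_mul_eq_num]
  exact max_le (padicNorm.of_nat _) (padicNorm.of_int _)

theorem Lower_triv {p : ℕ} [Fact p.Prime] (hp : p ≠ 2) (γ : ℚ) (N : ℕ) :
    padicNorm p ((γ.den : ℚ) ^ (36 * N) * Delta γ N) ≤
      (p : ℚ) ^ (72 * N * Nat.log p (49 * N)) := by
  rw [padicNorm.mul, pn_pow]
  refine (mul_le_mul_of_nonneg_left (delta_triv hp γ N)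
    (pow_nonneg (padicNorm.nonneg _) _)).trans ?_
  rw [← mul_pow, ← mul_assoc,
    show 72 * N * Nat.log p (49 * N) = 2 * Nat.log p (49 * N) * (36 * N) by ring,
    pow_mul (p : ℚ) (2 * Nat.log p (49 * N))]
  refine pow_le_pow_left₀ (mul_nonneg (mul_nonneg (padicNorm.nonneg _)
    (le_trans zero_le_one (le_max_left _ _))) (by positivity)) ?_ _
  exact mul_le_of_le_one_left (by positivity) (Lower_den γ)

theorem Lower_drop {p : ℕ} [Fact p.Prime] (γ : ℚ) (N : ℕ) :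
    padicNorm p ((γ.den : ℚ) ^ (36 * N) * Delta γ N) ≤ padicNorm p (Delta γ N) := by
  rw [padicNorm.mul, pn_pow]
  exact mul_le_of_le_one_left (padicNorm.nonneg _)
    (pow_le_one₀ (padicNorm.nonneg _) (padicNorm.of_nat _))

theorem Lower_PI {p : ℕ} [Fact p.Prime] {γ : ℚ} (h : γ.den < p) : PI p γ := by
  have h1 := Lower_den (p := p) γ
  rw [(padicNorm.nat_eq_one_iff _).2 (Nat.not_dvd_of_pos_of_lt γ.den_pos h), one_mul] at h1
  exact (le_max_right _ _).trans h1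

theorem Lower_sq (L : ℕ) : L ^ 2 ≤ 2 * 2 ^ L := by
  induction L with
  | zero => norm_num
  | succ L ih =>
    have := Nat.lt_two_pow_self (n := L)
    have e : (L + 1) ^ 2 = L ^ 2 + 2 * L + 1 := by ring
    rw [e, pow_succ 2 L]
    omega

theorem Lower_log {N : ℕ} (hN : 2500000000 ≤ N) : 5000 * Nat.log 2 (49 * N + 1) ≤ N := by
  have h1 := Lower_sq (Nat.log 2 (49 * N + 1))
  have h2 := Nat.pow_log_le_self 2 (x := 49 * N + 1) (by omega)
  generalize Nat.log 2 (49 * N + 1) = L at *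
  have h3 : L ^ 2 ≤ 100 * N := by omega
  by_contra hc
  have h4 : N * N ≤ (5000 * L) * (5000 * L) := Nat.mul_le_mul (by omega) (by omega)
  have h5 : N < 5000 * L := by omega
  nlinarith

theorem Lower_exp (γ : ℚ) {N κ : ℕ} (hd : γ.den ^ 2 ≤ 49 * N) (hγ : padicNorm 2 γ ≤ 2 ^ κ)
    (hκ : 2 * Nat.log 2 (49 * N + 1) + 1 ≤ κ) (p : ℕ) : ∃ e : ℕ, p.Prime →
      padicNorm p ((γ.den : ℚ) ^ (36 * N) * Delta γ N) ≤ (p : ℚ) ^ e ∧
      (e : ℝ) * Real.log p ≤
        (if p = 2 then (529 * (N : ℝ) ^ 2 + 200 * N + 276 * N * κ) / 4 * Real.log 2 else 0) +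
        dl N p * Real.log p +
        if p ^ 2 ≤ 49 * N then ((72 * N * Nat.log p (49 * N) : ℕ) : ℝ) * Real.log p else 0 := by
  by_cases hp : p.Prime
  swap
  · exact ⟨0, fun h => absurd h hp⟩
  have := Fact.mk hp
  have hl : 0 ≤ Real.log p := Real.log_natCast_nonneg p
  have h1 : 0 ≤ dl N p * Real.log p :=
    mul_nonneg (dl_nonneg (Nat.cast_nonneg _) (Nat.cast_nonneg _)) hl
  have h2 : 0 ≤ if p ^ 2 ≤ 49 * N then ((72 * N * Nat.log p (49 * N) : ℕ) : ℝ) * Real.log p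
      else 0 := by
    split_ifs
    · exact mul_nonneg (Nat.cast_nonneg _) hl
    · exact le_rfl
  by_cases h3 : p = 2
  · subst h3
    obtain ⟨e, he, he'⟩ := two_bound γ N κ hγ hκ
    refine ⟨e, fun _ => ⟨(Lower_drop γ N).trans (by exact_mod_cast he'), ?_⟩⟩
    rw [if_pos rfl]
    have h4 : (4 : ℝ) * e ≤ 529 * (N : ℝ) ^ 2 + 200 * N + 276 * N * κ := by exact_mod_cast he
    have h5 : (e : ℝ) * Real.log 2 ≤
        (529 * (N : ℝ) ^ 2 + 200 * N + 276 * N * κ) / 4 * Real.log 2 :=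
      mul_le_mul_of_nonneg_right (by linarith) (Real.log_nonneg one_le_two)
    exact h5.trans (le_add_of_le_of_nonneg (le_add_of_nonneg_right h1) h2)
  · rw [if_neg h3]
    by_cases h4 : p ^ 2 ≤ 49 * N
    · refine ⟨_, fun _ => ⟨Lower_triv h3 γ N, ?_⟩⟩
      rw [if_pos h4]
      linarith
    · have h5 : γ.den < p := lt_of_pow_lt_pow_left₀ 2 (Nat.zero_le _) (by omega)
      obtain ⟨e, he, he'⟩ := odd_bound h3 (Lower_PI h5) (not_le.1 h4)
      refine ⟨e, fun _ => ⟨(Lower_drop γ N).trans he', ?_⟩⟩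
      have := mul_le_mul_of_nonneg_right he hl
      linarith

theorem lower (γ : ℚ) : ∀ᶠ N : ℕ in atTop, Delta γ N ≠ 0 →
    Real.exp (-2504.3 * (N : ℝ) ^ 2) ≤ |(Delta γ N : ℝ)| := by
  obtain ⟨κ₀, hκ₀⟩ := pow_unbounded_of_one_lt (padicNorm 2 γ) (one_lt_two (α := ℚ))
  have e1 := pnt_sum.eventually (eventually_le_nhds (show (2412.5 : ℝ) < 2412.53 by norm_num))
  have e2 := small_sum.eventually (eventually_le_nhds (show (0 : ℝ) < 0.03 by norm_num))
  have e3 := (tendsto_natCast_atTop_atTop (R := ℝ)).eventually_ge_atTop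
    (25 * (50 + 69 * (1 + κ₀) + 36 * Real.log γ.den))
  filter_upwards [e1, e2, e3, eventually_ge_atTop 2500000000, eventually_ge_atTop (γ.den ^ 2)]
    with N h1 h2 h3 h4 h5 hne
  have hN : (0 : ℝ) < N := by exact_mod_cast (by omega : 0 < N)
  have hN2 : (0 : ℝ) < (N : ℝ) ^ 2 := by positivity
  rw [div_le_iff₀ hN2] at h1 h2
  have hden : (0 : ℝ) < γ.den := by exact_mod_cast γ.den_pos
  choose e he using Lower_exp γ (N := N) (κ := 2 * Nat.log 2 (49 * N + 1) + 1 + κ₀) (by omega)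
    (hκ₀.le.trans (pow_le_pow_right₀ one_le_two (by omega))) (by omega)
  have hx : (γ.den : ℚ) ^ (36 * N) * Delta γ N ≠ 0 :=
    mul_ne_zero (pow_ne_zero _ (by exact_mod_cast γ.den_nz)) hne
  have key := prod_formula hx ((range (49 * N + 1)).filter Nat.Prime)
    (fun p hp => (mem_filter.1 hp).2) e (fun p hp => (he p (mem_filter.1 hp).2).1)
    (fun p hp hn => by
      have := Fact.mk hp
      have a1 : 49 * N < p := by
        by_contra hc
        exact hn (mem_filter.2 ⟨mem_range.2 (by omega), hp⟩)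
      have a2 := Lower_triv (p := p) (by omega) γ N
      rwa [Nat.log_of_lt a1, mul_zero, pow_zero] at a2)
  have hs := sum_le_sum (s := (range (49 * N + 1)).filter Nat.Prime)
    fun p hp => (he p (mem_filter.1 hp).2).2
  rw [sum_add_distrib, sum_add_distrib, sum_ite_eq', ← sum_filter, filter_filter,
    if_pos (mem_filter.2 ⟨mem_range.2 (by omega), Nat.prime_two⟩)] at hs
  have hL : (5000 : ℝ) * Nat.log 2 (49 * N + 1) ≤ N := by exact_mod_cast Lower_log h4
  have hl2 := Real.log_two_lt_d9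
  have hl2' : 0 ≤ Real.log 2 := Real.log_nonneg one_le_two
  have hκ : (0 : ℝ) ≤ κ₀ := Nat.cast_nonneg _
  have hL0 : (0 : ℝ) ≤ Nat.log 2 (49 * N + 1) := Nat.cast_nonneg _
  push_cast at hs key h2
  generalize (Nat.log 2 (49 * N + 1) : ℝ) = L at *
  have b1 : (529 * (N : ℝ) ^ 2 + 200 * N + 276 * N * (2 * L + 1 + κ₀)) / 4 * Real.log 2 ≤
      91.67 * (N : ℝ) ^ 2 + N * (50 + 69 * (2 * L + 1 + κ₀)) := by
    have c1 : (N : ℝ) ^ 2 * Real.log 2 ≤ (N : ℝ) ^ 2 * 0.6931471808 :=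
      mul_le_mul_of_nonneg_left hl2.le hN2.le
    have c2 : N * (50 + 69 * (2 * L + 1 + κ₀)) * Real.log 2 ≤
        N * (50 + 69 * (2 * L + 1 + κ₀)) * 1 :=
      mul_le_mul_of_nonneg_left (by linarith) (by positivity)
    linarith
  have b2 : N * (50 + 69 * (2 * L + 1 + κ₀) + 36 * Real.log γ.den) ≤ N * (0.07 * N) :=
    mul_le_mul_of_nonneg_left (by linarith) hN.le
  rw [abs_mul, abs_of_pos (pow_pos hden _)] at key
  have b3 : (γ.den : ℝ) ^ (36 * N) = Real.exp (36 * N * Real.log γ.den) := by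
    rw [show (36 : ℝ) * N = ((36 * N : ℕ) : ℝ) by push_cast; rfl, Real.exp_nat_mul,
      Real.exp_log hden]
  rw [b3, ← div_le_iff₀' (Real.exp_pos _), ← Real.exp_sub] at key
  refine le_trans (Real.exp_le_exp.2 ?_) key
  linarith

end Crest.Agent.R6
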