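import Crest.Agent.R6.Upper
import Crest.Agent.R6.Lower
import Crest.Agent.R6.FDet
import Crest.Agent.R6.BNum
import Crest.Agent.R6.CertA

/-! # Row 6: assembly. -/

set_option autoImplicit false

namespace Crest.Agent.R6

open Filter

theorem catalan_irrational : Irrational GG := by
  rintro ⟨γ, hγ⟩
  have h := (upper cert_zero cert_twelve hγ).and ((lower γ).and ((eventually_PI γ).and
    ((eventually_unit Bdet_zero_ne).and ((eventually_unit Bdet_one_ne).and
      ((eventually_unit Bdet_neg_one_ne).and (eventually_ge_atTop 60))))))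
  obtain ⟨M, hM⟩ := eventually_atTop.1 h
  obtain ⟨p, hpM, hp⟩ := Nat.exists_infinite_primes M
  obtain ⟨hU, hL, hPI, h0, h1, h2, h60⟩ := hM p hpM
  haveI : Fact p.Prime := ⟨hp⟩
  have hne := delta_ne_zero h60 (hPI hp) (h0 _) (h1 _) (h2 _)
  have h3 := Real.exp_le_exp.1 ((hL hne).trans hU)
  have h4 : (60 : ℝ) ≤ p := by exact_mod_cast h60
  nlinarith

end Crest.Agent.R6
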