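import Crest.Agent.R6.PLoc

/-!
# Row 6: the `2`-adic values of the periods.

`G' = -(∑_{v<X} mm v²)/8`, `Π' = -∑_{l<X} mm l/(l+2)`.
`j ≤ i`, `d = i - j`: for `d` odd `AN d = mm(d-1) OO d` is integral; for `d` even
`AN d + 4 G' cc d = -(cc d/2) ∑_{d-1≤v<X} mm v²` and `‖cc d · mm v²/2‖ ≤ 2^d 2^{-(v+2)} 2 ≤ 1`
(`pn2_cc`, `pn2_mm`).  `i < j`, `k = j - i - 1`: `k` odd: `mm(k-1) cc l` is integral (`pn2_cc_mm`) and
`cc l = 0` unless `l + 1` is odd; `k` even: `AP k + Π' cc k = -∑_{k-1≤l<X} cc k mm l/(l+2)`.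
-/

set_option autoImplicit false

namespace Crest.Agent.R6

open Finset

theorem p2a_two : padicNorm 2 (2 : ℚ) = 2⁻¹ := by
  have := padicNorm.padicNorm_p (p := 2) (by norm_num)
  simpa using this

theorem p2a_half : padicNorm 2 (1 / 2 : ℚ) = 2 := by
  rw [padicNorm.div, p2a_two]; simp

theorem p2a_eighth : padicNorm 2 (1 / 8 : ℚ) = 8 := by
  have h : (1 / 8 : ℚ) = (1 / 2) * (1 / 2) * (1 / 2) := by norm_num
  rw [h, padicNorm.mul, padicNorm.mul, p2a_half]; norm_num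

theorem p2a_mm_half (v : ℕ) : padicNorm 2 (mm v) ≤ 1 / 2 := by
  rcases Nat.mod_two_eq_zero_or_one v with h | h
  · obtain ⟨w, rfl⟩ : ∃ w, v = 2 * w := ⟨v / 2, by omega⟩
    refine (pn2_mm w).trans ?_
    rw [one_div]
    apply inv_anti₀ (by norm_num)
    calc (2 : ℚ) = 2 ^ 1 := by norm_num
      _ ≤ 2 ^ (w + 1) := pow_le_pow_right₀ (by norm_num) (by omega)
  · rw [mm_odd h]; simp

theorem p2a_mm_one (v : ℕ) : padicNorm 2 (mm v) ≤ 1 :=
  (p2a_mm_half v).trans (by norm_num)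

theorem p2a_cc_mm {k l : ℕ} (h : k - 1 ≤ l) : padicNorm 2 (cc k * mm l) ≤ 1 := by
  by_cases hkl : k ≤ l
  · exact pn2_cc_mm hkl
  · have hk : k = l + 1 := by omega
    rcases Nat.mod_two_eq_zero_or_one l with h0 | h1
    · rw [cc_odd (d := k) (by omega)]; simp
    · rw [mm_odd h1]; simp

theorem p2a_one_le (X : ℕ) : (1 : ℚ) ≤ 2 ^ Nat.log 2 (X + 1) := one_le_pow₀ (by norm_num)

theorem p2a_inv {l X : ℕ} (h : l ≤ X + 1) :
    padicNorm 2 (1 / (l : ℚ)) ≤ 2 ^ Nat.log 2 (X + 1) := by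
  have := pn_inv_nat (p := 2) h
  simpa using this

theorem p2a_tail (X i j : ℕ) (hj : j ≤ X) :
    padicNorm 2 (∑ v ∈ Icc 1 j, lm i v / ((j + 1 - v : ℕ) : ℚ)) ≤ 2 ^ Nat.log 2 (X + 1) := by
  apply pn_sum_le (by positivity)
  intro v hv
  have h1 : padicNorm 2 (lm i v) ≤ 1 := by
    unfold lm
    split_ifs
    · exact p2a_mm_one _
    · simp
  have h2 := p2a_inv (l := j + 1 - v) (X := X) (by omega)
  have := pn_mul_le h1 h2
  rw [one_mul, mul_one_div] at this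
  exact this

theorem p2a_AN (X d : ℕ) (hd : d ≤ X) :
    padicNorm 2 (AN d + 4 * (-(∑ v ∈ range X, mm v ^ 2) / 8) * cc d) ≤ 2 ^ Nat.log 2 (X + 1) := by
  have hs : ∑ v ∈ range X, mm v ^ 2 =
      ∑ v ∈ range (d - 1), mm v ^ 2 + ∑ v ∈ Ico (d - 1) X, mm v ^ 2 :=
    (sum_range_add_sum_Ico _ (by omega)).symm
  have he : AN d + 4 * (-(∑ v ∈ range X, mm v ^ 2) / 8) * cc d =
      mm (d - 1) * OO d - ∑ v ∈ Ico (d - 1) X, (cc d * mm v) * (mm v * (1 / 2)) := by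
    have h2 : ∑ v ∈ Ico (d - 1) X, (cc d * mm v) * (mm v * (1 / 2)) =
        cc d / 2 * ∑ v ∈ Ico (d - 1) X, mm v ^ 2 := by
      rw [mul_sum]
      exact sum_congr rfl fun v _ => by ring
    rw [h2, hs, AN]; ring
  rw [he]
  apply pn_sub_le
  · have h1 := pn_OO (p := 2) (d := d) (X := X + 1) (by omega)
    have := pn_mul_le (p2a_mm_one (d - 1)) h1
    simpa using this
  · apply pn_sum_le (by positivity)
    intro v hv
    have hv' := (mem_Ico.mp hv).1
    have h1 := p2a_cc_mm hv'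
    have h2 := pn_mul_le (p2a_mm_half v) p2a_half.le
    have h3 := pn_mul_le h1 h2
    refine h3.trans ?_
    have := p2a_one_le X
    linarith

theorem p2a_AP (X k : ℕ) (hk : k ≤ X) :
    padicNorm 2 (AP k + (-∑ l ∈ range X, mm l / ((l : ℚ) + 2)) * cc k) ≤
      2 ^ Nat.log 2 (X + 1) := by
  have hs : ∑ l ∈ range X, mm l / ((l : ℚ) + 2) =
      ∑ l ∈ range (k - 1), mm l / ((l : ℚ) + 2) + ∑ l ∈ Ico (k - 1) X, mm l / ((l : ℚ) + 2) :=
    (sum_range_add_sum_Ico _ (by omega)).symm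
  have he : AP k + (-∑ l ∈ range X, mm l / ((l : ℚ) + 2)) * cc k =
      ∑ l ∈ range k, (cc l * mm (k - 1)) * (1 / ((l + 1 : ℕ) : ℚ)) -
        ∑ l ∈ Ico (k - 1) X, (cc k * mm l) * (1 / ((l + 2 : ℕ) : ℚ)) := by
    have h1 : ∑ l ∈ range k, (cc l * mm (k - 1)) * (1 / ((l + 1 : ℕ) : ℚ)) =
        mm (k - 1) * ∑ l ∈ range k, cc l / ((l : ℚ) + 1) := by
      rw [mul_sum]
      exact sum_congr rfl fun l _ => by push_cast; ring
    have h2 : ∑ l ∈ Ico (k - 1) X, (cc k * mm l) * (1 / ((l + 2 : ℕ) : ℚ)) =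
        cc k * ∑ l ∈ Ico (k - 1) X, mm l / ((l : ℚ) + 2) := by
      rw [mul_sum]
      exact sum_congr rfl fun l _ => by push_cast; ring
    rw [h1, h2, hs, AP]; ring
  rw [he]
  apply pn_sub_le
  · apply pn_sum_le (by positivity)
    intro l hl
    have hl' := mem_range.mp hl
    have h1 := pn2_cc_mm (k := l) (l := k - 1) (by omega)
    have h2 := p2a_inv (l := l + 1) (X := X) (by omega)
    simpa using pn_mul_le h1 h2
  · apply pn_sum_le (by positivity)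
    intro l hl
    have hl' := mem_Ico.mp hl
    have h1 := p2a_cc_mm hl'.1
    have h2 := p2a_inv (l := l + 2) (X := X) (by omega)
    simpa using pn_mul_le h1 h2

theorem exists_two_adic (X : ℕ) : ∃ G' Pi' : ℚ, padicNorm 2 G' ≤ 2 ∧
    padicNorm 2 Pi' ≤ 2 ^ Nat.log 2 (X + 1) ∧ ∀ i ≤ X, ∀ j ≤ X,
      padicNorm 2 (MG 0 i j + 4 * G' * cg i j + Pi' * cpi i j) ≤ 2 ^ Nat.log 2 (X + 1) := by
  refine ⟨-(∑ v ∈ range X, mm v ^ 2) / 8, -∑ l ∈ range X, mm l / ((l : ℚ) + 2), ?_, ?_, ?_⟩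
  · have h1 : padicNorm 2 (∑ v ∈ range X, mm v ^ 2) ≤ 1 / 2 * (1 / 2) := by
      apply pn_sum_le (by norm_num)
      intro v _
      rw [sq]
      exact pn_mul_le (p2a_mm_half v) (p2a_mm_half v)
    have h2 := pn_mul_le h1 p2a_eighth.le
    rw [neg_div, padicNorm.neg, ← mul_one_div]
    exact h2.trans (by norm_num)
  · rw [padicNorm.neg]
    apply pn_sum_le (by positivity)
    intro l hl
    have hl' := mem_range.mp hl
    have h2 := p2a_inv (l := l + 2) (X := X) (by omega)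
    have := pn_mul_le (p2a_mm_one l) h2
    rw [one_mul, mul_one_div] at this
    simpa using this
  · intro i hi j hj
    by_cases hji : j ≤ i
    · have he : MG 0 i j + 4 * (-(∑ v ∈ range X, mm v ^ 2) / 8) * cg i j +
          (-∑ l ∈ range X, mm l / ((l : ℚ) + 2)) * cpi i j =
          (AN (i - j) + 4 * (-(∑ v ∈ range X, mm v ^ 2) / 8) * cc (i - j)) -
            ∑ v ∈ Icc 1 j, lm i v / ((j + 1 - v : ℕ) : ℚ) := by
        have e1 : i + 1 - (j + 1) = i - j := by omega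
        rw [MG, BM, cg, cpi, if_pos (by omega), if_pos hji, if_neg (by omega), e1]
        ring
      rw [he]
      exact pn_sub_le (p2a_AN X _ (by omega)) (p2a_tail X i j hj)
    · have he : MG 0 i j + 4 * (-(∑ v ∈ range X, mm v ^ 2) / 8) * cg i j +
          (-∑ l ∈ range X, mm l / ((l : ℚ) + 2)) * cpi i j =
          (AP (j - i - 1) + (-∑ l ∈ range X, mm l / ((l : ℚ) + 2)) * cc (j - i - 1)) -
            ∑ v ∈ Icc 1 j, lm i v / ((j + 1 - v : ℕ) : ℚ) := by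
        have e1 : j + 1 - i - 2 = j - i - 1 := by omega
        rw [MG, BM, cg, cpi, if_neg (by omega), if_neg hji, if_pos (by omega), e1]
        ring
      rw [he]
      exact pn_sub_le (p2a_AP X _ (by omega)) (p2a_tail X i j hj)

end Crest.Agent.R6
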