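import Crest.Agent.R6.Basic

/-!
# Row 6: the row basis adapted to `p = 2`.

For `ρ = 2k + e < 36N` (`e ≤ 1`) put `P' ρ = ∑_{i≤k} binom(k,i) rowP N (e + 2i - 3N)`, same for `D'`.
The matrix `U ρ r = ∑_{i ≤ k, r = e + 2i} binom(k,i)` is lower unitriangular
(`Matrix.det_of_lowerTriangular`), so the determinant is unchanged (`Phi_sum_row`, `Phi_C_mul_row`).
`∑_i binom(k,i) T(μ - k + 2i) = (2X)^k T μ` (induction on `k`, `T_add_one`), same for `U`;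
here `μ = k + e - 3N`, `k + |μ| ≤ 33N - 1`.  `2 T μ = (Chebyshev.C μ).comp (2X)` (`C_comp_two_mul_X`),
so `2 (2X)^k T μ = ∑_j a_j 2^j X^j` with `a_j = (X^k C μ).coeff j`, and
`reflect (47N-1) (X^j) = X^(47N-1-j)`.
-/

set_option autoImplicit false

namespace Crest.Agent.R6

open Polynomial Finset

/-- the binomial expansion of `(2X)^k F μ` for a sequence with the Chebyshev recurrence -/
theorem p2b_binom (F : ℤ → ℤ[X]) (hF : ∀ n, F (n + 1) = 2 * X * F n - F (n - 1)) (k : ℕ) (μ : ℤ) :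
    (2 * X) ^ k * F μ = ∑ i ∈ range (k + 1), ((k.choose i : ℕ) : ℤ[X]) * F (μ - k + 2 * i) := by
  induction k generalizing μ with
  | zero => simp
  | succ k ih =>
    have h := Finset.sum_choose_succ_mul (R := ℤ[X])
      (fun i _ => F (μ - ((k + 1 : ℕ) : ℤ) + 2 * (i : ℤ))) k
    rw [h]
    have h1 := ih (μ - 1)
    have h2 := ih (μ + 1)
    have e1 : ∑ i ∈ range (k + 1), ((k.choose i : ℕ) : ℤ[X]) *
          F (μ - ((k + 1 : ℕ) : ℤ) + 2 * (i : ℤ)) =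
        ∑ i ∈ range (k + 1), ((k.choose i : ℕ) : ℤ[X]) * F (μ - 1 - k + 2 * i) := by
      refine Finset.sum_congr rfl fun i _ => ?_
      congr 2
      push_cast
      ring
    have e2 : ∑ i ∈ range (k + 1), ((k.choose i : ℕ) : ℤ[X]) *
          F (μ - ((k + 1 : ℕ) : ℤ) + 2 * ((i + 1 : ℕ) : ℤ)) =
        ∑ i ∈ range (k + 1), ((k.choose i : ℕ) : ℤ[X]) * F (μ + 1 - k + 2 * i) := by
      refine Finset.sum_congr rfl fun i _ => ?_
      congr 2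
      push_cast
      ring
    rw [e1, e2, ← h1, ← h2, hF μ]
    ring

theorem p2b_reflect_sum {ι : Type} (s : Finset ι) (f : ι → ℤ[X]) (M : ℕ) :
    reflect M (∑ i ∈ s, f i) = ∑ i ∈ s, reflect M (f i) := by
  ext n
  simp only [coeff_reflect, finsetSum_coeff]

/-- the change of basis -/
def p2bU (ρ r : ℕ) : ℤ :=
  ∑ i ∈ range (ρ / 2 + 1), if r = ρ % 2 + 2 * i then (((ρ / 2).choose i : ℕ) : ℤ) else 0

theorem p2bU_zero {ρ r : ℕ} (h : ρ < r) : p2bU ρ r = 0 := by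
  unfold p2bU
  refine Finset.sum_eq_zero fun i hi => ?_
  have := Finset.mem_range.1 hi
  rw [if_neg]
  omega

theorem p2bU_self (ρ : ℕ) : p2bU ρ ρ = 1 := by
  unfold p2bU
  rw [Finset.sum_eq_single (ρ / 2)]
  · rw [if_pos (by omega)]
    simp
  · intro i _ hi
    rw [if_neg]
    omega
  · intro h
    exact absurd (Finset.mem_range.2 (Nat.lt_succ_self _)) h

theorem p2bU_sum {n : ℕ} (ρ : Fin n) (G : ℕ → ℤ[X]) :
    ∑ r : Fin n, C (p2bU ρ r) * G r =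
      ∑ i ∈ range (ρ.val / 2 + 1), (((ρ.val / 2).choose i : ℕ) : ℤ[X]) * G (ρ.val % 2 + 2 * i) := by
  unfold p2bU
  simp only [map_sum, Finset.sum_mul]
  rw [Finset.sum_comm]
  refine Finset.sum_congr rfl fun i hi => ?_
  have hi' := Finset.mem_range.1 hi
  have hlt : ρ.val % 2 + 2 * i < n := by
    have := ρ.isLt
    omega
  rw [Finset.sum_eq_single (⟨ρ.val % 2 + 2 * i, hlt⟩ : Fin n)]
  · simp
  · intro r _ hr
    rw [if_neg, map_zero, zero_mul]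
    intro h
    exact hr (Fin.ext h)
  · intro h
    exact absurd (Finset.mem_univ _) h

/-- the generic row identity -/
theorem p2b_row (N : ℕ) (F : ℤ → ℤ[X]) (hF : ∀ n, F (n + 1) = 2 * X * F n - F (n - 1))
    (ρ : Fin (36 * N)) :
    C (2 ^ (ρ.val / 2)) * ((1 - X) ^ (2 * N) * reflect (47 * N - 1)
        (X ^ (ρ.val / 2) * F (((ρ.val / 2 + ρ.val % 2 : ℕ) : ℤ) - 3 * N))) =
      ∑ r : Fin (36 * N), C (p2bU ρ r) *
        ((1 - X) ^ (2 * N) * reflect (47 * N - 1) (F ((r : ℕ) - 3 * (N : ℤ)))) := by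
  rw [p2bU_sum ρ (fun r => (1 - X) ^ (2 * N) * reflect (47 * N - 1) (F ((r : ℕ) - 3 * (N : ℤ))))]
  have h := p2b_binom F hF (ρ.val / 2) (((ρ.val / 2 + ρ.val % 2 : ℕ) : ℤ) - 3 * N)
  have h2 : (C (2 ^ (ρ.val / 2)) : ℤ[X]) *
      (X ^ (ρ.val / 2) * F (((ρ.val / 2 + ρ.val % 2 : ℕ) : ℤ) - 3 * N)) =
      (2 * X) ^ (ρ.val / 2) * F (((ρ.val / 2 + ρ.val % 2 : ℕ) : ℤ) - 3 * N) := by
    rw [mul_pow, map_pow]
    simp only [map_ofNat]
    ring
  rw [mul_left_comm, ← reflect_C_mul, h2, h, p2b_reflect_sum, Finset.mul_sum]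
  refine Finset.sum_congr rfl fun i _ => ?_
  have h3 : ((((ρ.val / 2).choose i : ℕ) : ℤ[X])) = C ((((ρ.val / 2).choose i : ℕ) : ℤ)) := by
    simp
  rw [h3, reflect_C_mul, mul_left_comm]
  congr 4
  push_cast
  ring

theorem p2b_supp {N : ℕ} (hN : 0 < N) {F : ℤ[X]} (hF : F.natDegree ≤ 47 * N - 1) :
    Supp 0 (49 * N) ((1 - X) ^ (2 * N) * reflect (47 * N - 1) F) := by
  intro i hi
  rcases hi with hi | hi
  · omega
  apply coeff_eq_zero_of_natDegree_lt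
  have h1 : ((1 - X : ℤ[X]) ^ (2 * N)).natDegree ≤ 2 * N := by
    refine natDegree_pow_le.trans ?_
    have : (1 - X : ℤ[X]).natDegree ≤ 1 := by
      compute_degree
    nlinarith
  have h2 : (reflect (47 * N - 1) F).natDegree ≤ 47 * N - 1 :=
    natDegree_reflect_le.trans (max_le le_rfl hF)
  have h3 := natDegree_mul_le (p := (1 - X : ℤ[X]) ^ (2 * N)) (q := reflect (47 * N - 1) F)
  omega

theorem two_rows (γ : ℚ) (N : ℕ) :
    ∃ (P D : Fin (36 * N) → ℤ[X]) (a : Fin (36 * N) → Fin (33 * N) → ℤ),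
      Delta γ N = Matrix.det (Matrix.of fun ρ k : Fin (36 * N) =>
        Phi γ (C (2 ^ (ρ.val / 2)) * P ρ) (C (2 ^ (ρ.val / 2)) * D ρ) (colQ N k)) ∧
      (∀ ρ, Supp 0 (49 * N) (P ρ) ∧ Supp 0 (49 * N) (D ρ)) ∧
      (∀ ρ (j : Fin (33 * N)), j.val < ρ.val / 2 → a ρ j = 0) ∧
      (∀ ρ, C 2 * (C (2 ^ (ρ.val / 2)) * P ρ) = ∑ j : Fin (33 * N),
        C (a ρ j) * (C (2 ^ j.val) * ((1 - X) ^ (2 * N) * X ^ (47 * N - 1 - j.val)))) ∧
      (∀ ρ, ∃ c : Fin (36 * N) → ℤ,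
        C (2 ^ (ρ.val / 2)) * P ρ = ∑ r, C (c r) * rowP N ((r : ℕ) - 3 * (N : ℤ)) ∧
        C (2 ^ (ρ.val / 2)) * D ρ = ∑ r, C (c r) * rowD N ((r : ℕ) - 3 * (N : ℤ))) := by
  have hP : ∀ ρ : Fin (36 * N), C (2 ^ (ρ.val / 2)) * ((1 - X) ^ (2 * N) * reflect (47 * N - 1)
        (X ^ (ρ.val / 2) * Chebyshev.T ℤ (((ρ.val / 2 + ρ.val % 2 : ℕ) : ℤ) - 3 * N))) =
      ∑ r : Fin (36 * N), C (p2bU ρ r) * rowP N ((r : ℕ) - 3 * (N : ℤ)) := fun ρ =>
    p2b_row N (Chebyshev.T ℤ) (Chebyshev.T_add_one ℤ) ρ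
  have hD : ∀ ρ : Fin (36 * N), C (2 ^ (ρ.val / 2)) * ((1 - X) ^ (2 * N) * reflect (47 * N - 1)
        (X ^ (ρ.val / 2) * Chebyshev.U ℤ (((ρ.val / 2 + ρ.val % 2 : ℕ) : ℤ) - 3 * N - 1))) =
      ∑ r : Fin (36 * N), C (p2bU ρ r) * rowD N ((r : ℕ) - 3 * (N : ℤ)) := fun ρ =>
    p2b_row N (fun m => Chebyshev.U ℤ (m - 1)) (fun n => by
      have := Chebyshev.U_add_one ℤ (n - 1)
      rw [show n - 1 + 1 = n + 1 - 1 by ring] at this
      exact this) ρ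
  have hdeg : ∀ ρ : Fin (36 * N),
      ρ.val / 2 + ((((ρ.val / 2 + ρ.val % 2 : ℕ) : ℤ) - 3 * N)).natAbs < 33 * N := by
    intro ρ
    have := ρ.isLt
    omega
  have hdT : ∀ ρ : Fin (36 * N), (X ^ (ρ.val / 2) *
      Chebyshev.T ℤ (((ρ.val / 2 + ρ.val % 2 : ℕ) : ℤ) - 3 * N)).natDegree < 33 * N := by
    intro ρ
    refine lt_of_le_of_lt natDegree_mul_le ?_
    rw [natDegree_X_pow, Chebyshev.natDegree_T]
    exact hdeg ρ
  have hdU : ∀ ρ : Fin (36 * N), (X ^ (ρ.val / 2) *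
      Chebyshev.U ℤ (((ρ.val / 2 + ρ.val % 2 : ℕ) : ℤ) - 3 * N - 1)).natDegree < 33 * N := by
    intro ρ
    refine lt_of_le_of_lt natDegree_mul_le ?_
    rw [natDegree_X_pow, Chebyshev.natDegree_U, sub_add_cancel]
    have := hdeg ρ
    omega
  refine ⟨fun ρ => (1 - X) ^ (2 * N) * reflect (47 * N - 1)
        (X ^ (ρ.val / 2) * Chebyshev.T ℤ (((ρ.val / 2 + ρ.val % 2 : ℕ) : ℤ) - 3 * N)),
    fun ρ => (1 - X) ^ (2 * N) * reflect (47 * N - 1)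
        (X ^ (ρ.val / 2) * Chebyshev.U ℤ (((ρ.val / 2 + ρ.val % 2 : ℕ) : ℤ) - 3 * N - 1)),
    fun ρ j => (X ^ (ρ.val / 2) *
      Chebyshev.C ℤ (((ρ.val / 2 + ρ.val % 2 : ℕ) : ℤ) - 3 * N)).coeff j.val, ?_, ?_, ?_, ?_, ?_⟩
  · have hM : (Matrix.of fun ρ k : Fin (36 * N) =>
        Phi γ (C (2 ^ (ρ.val / 2)) * ((1 - X) ^ (2 * N) * reflect (47 * N - 1)
          (X ^ (ρ.val / 2) * Chebyshev.T ℤ (((ρ.val / 2 + ρ.val % 2 : ℕ) : ℤ) - 3 * N))))
          (C (2 ^ (ρ.val / 2)) * ((1 - X) ^ (2 * N) * reflect (47 * N - 1)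
          (X ^ (ρ.val / 2) * Chebyshev.U ℤ (((ρ.val / 2 + ρ.val % 2 : ℕ) : ℤ) - 3 * N - 1))))
          (colQ N k)) =
        (Matrix.of fun ρ r : Fin (36 * N) => ((p2bU ρ r : ℤ) : ℚ)) *
          (Matrix.of fun r k : Fin (36 * N) => Ent γ N ((r : ℕ) - 3 * (N : ℤ)) (colQ N k)) := by
      ext ρ k
      rw [Matrix.of_apply, hP, hD, Phi_sum_row, Matrix.mul_apply]
      refine Finset.sum_congr rfl fun r _ => ?_
      rw [Phi_C_mul_row]
      rfl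
    have hU : (Matrix.of fun ρ r : Fin (36 * N) => ((p2bU ρ r : ℤ) : ℚ)).det = 1 := by
      rw [Matrix.det_of_isLowerTriangular]
      · refine Finset.prod_eq_one fun ρ _ => ?_
        rw [Matrix.of_apply, p2bU_self]
        simp
      · intro ρ r h
        rw [Matrix.of_apply, p2bU_zero]
        · simp
        · exact h
    rw [hM, Matrix.det_mul, hU, one_mul]
    rfl
  · intro ρ
    have hN : 0 < N := by
      have := ρ.isLt
      omega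
    refine ⟨p2b_supp hN ?_, p2b_supp hN ?_⟩
    · have := hdT ρ
      omega
    · have := hdU ρ
      omega
  · intro ρ j hj
    simp only
    rw [coeff_X_pow_mul', if_neg (by omega)]
  · intro ρ
    simp only
    obtain ⟨μ, hμ⟩ : ∃ μ : ℤ, μ = (((ρ.val / 2 + ρ.val % 2 : ℕ) : ℤ) - 3 * N) := ⟨_, rfl⟩
    obtain ⟨k, hk⟩ : ∃ k : ℕ, k = ρ.val / 2 := ⟨_, rfl⟩
    have hd := hdT ρ
    rw [← hμ, ← hk] at hd ⊢
    have hG : (C 2 * (C (2 ^ k) * (X ^ k * Chebyshev.T ℤ μ)) : ℤ[X]) =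
        (X ^ k * Chebyshev.C ℤ μ).comp (C 2 * X) := by
      have h := Chebyshev.C_comp_two_mul_X ℤ μ
      rw [mul_comp, pow_comp, X_comp, map_pow]
      simp only [map_ofNat]
      rw [h]
      ring
    have hGd : (C 2 * (C (2 ^ k) * (X ^ k * Chebyshev.T ℤ μ)) : ℤ[X]).natDegree < 33 * N :=
      lt_of_le_of_lt ((natDegree_C_mul_le _ _).trans (natDegree_C_mul_le _ _)) hd
    have hS := as_sum_range_C_mul_X_pow' _ hGd
    have hS' : (C 2 * (C (2 ^ k) * (X ^ k * Chebyshev.T ℤ μ)) : ℤ[X]) =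
        ∑ j : Fin (33 * N), C ((X ^ k * Chebyshev.C ℤ μ).coeff j.val) *
          (C (2 ^ j.val) * X ^ j.val) := by
      rw [hS, Finset.sum_range]
      refine Finset.sum_congr rfl fun j _ => ?_
      rw [hG, comp_C_mul_X_coeff, map_mul, mul_assoc]
    have hR : (C 2 * (C (2 ^ k) * ((1 - X) ^ (2 * N) *
        reflect (47 * N - 1) (X ^ k * Chebyshev.T ℤ μ))) : ℤ[X]) =
        (1 - X) ^ (2 * N) *
          reflect (47 * N - 1) (C 2 * (C (2 ^ k) * (X ^ k * Chebyshev.T ℤ μ))) := by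
      rw [reflect_C_mul, reflect_C_mul]
      ring
    rw [hR, hS', p2b_reflect_sum, Finset.mul_sum]
    refine Finset.sum_congr rfl fun j _ => ?_
    have hj := j.isLt
    rw [reflect_C_mul, reflect_C_mul, reflect_monomial, revAt_le (by omega)]
    ring
  · intro ρ
    exact ⟨fun r => p2bU ρ r, hP ρ, hD ρ⟩

end Crest.Agent.R6
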