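import Crest.Agent.R6.Basic
import Crest.Agent.R6.Seq

/-!
# Row 6: the `π²` parts cancel.

Work in `ℚ⟦X⟧`.  `Cs = mk cc` satisfies `(1 - X²) Cs' = X Cs` (recurrence of `cc`), hence
`(1 - X²) Cs² = 1` (derivative zero, constant term one).  `f = (1 - X²) Cs`, `f Cs = 1`,
`f² = 1 - X²`, `1 - f = X ξ` for a power series `ξ`; `X (1 + ξ²) = 2 ξ` (multiply by `X`, cancel).
`R m = X·P_m·Cs - D_m` with `P_m = rowP N m`, `D_m = rowD N m` (mapped to `ℚ⟦X⟧`) satisfies
`X (R(m+1) + R(m-1)) = 2 R m` (`rowP_rec`, `rowD_rec`), `R 0 = W Cs`, `R 1 = W Cs ξ` with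
`W = (1-X)^{2N} X^{47N}`; so `R m = W Cs ξ^m` for `0 ≤ m`, and `X^{47N - k} ∣ R(-k)` by induction.
The coefficient of `X^j` in `X P Cs` is `∑_{i<j} P_i cc(j-i-1)`.
-/

set_option autoImplicit false

namespace Crest.Agent.R6

open Polynomial Finset

/-- the power series `1/√(1-X²)` -/
noncomputable def pcCs : PowerSeries ℚ := PowerSeries.mk cc

/-- integer polynomials as rational power series -/
noncomputable def pcTo : ℤ[X] →+* PowerSeries ℚ :=
  (Polynomial.coeToPowerSeries.ringHom).comp (Polynomial.mapRingHom (Int.castRingHom ℚ))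

theorem pcTo_coeff (P : ℤ[X]) (j : ℕ) : PowerSeries.coeff j (pcTo P) = (P.coeff j : ℚ) := by
  simp [pcTo, Polynomial.coeff_coe]

theorem pcTo_X : pcTo X = PowerSeries.X := by
  simp [pcTo]

theorem pcTo_C (a : ℤ) : pcTo (C a) = PowerSeries.C (a : ℚ) := by
  simp [pcTo]

theorem pc_deriv : (1 - PowerSeries.X ^ 2) * PowerSeries.derivative ℚ pcCs =
    PowerSeries.X * pcCs := by
  ext n
  rw [sub_mul, one_mul, map_sub, PowerSeries.coeff_X_pow_mul', PowerSeries.coeff_derivative]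
  rcases n with _ | _ | k
  · simp [pcCs, cc]
  · simp [pcCs, cc, PowerSeries.coeff_succ_X_mul]
    norm_num
  · rw [if_pos (by omega), PowerSeries.coeff_succ_X_mul, show k + 1 + 1 - 2 = k by omega,
      PowerSeries.coeff_derivative]
    simp only [pcCs, PowerSeries.coeff_mk]
    rw [show k + 1 + 1 + 1 = (k + 1) + 2 by omega, cc]
    push_cast
    field_simp
    ring

theorem pc_const : PowerSeries.constantCoeff pcCs = 1 := by
  rw [← PowerSeries.coeff_zero_eq_constantCoeff_apply, pcCs, PowerSeries.coeff_mk, cc]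

theorem pc_sq : (1 - PowerSeries.X ^ 2) * pcCs ^ 2 = 1 := by
  apply PowerSeries.derivative.ext
  · have h := pc_deriv
    simp only [Derivation.leibniz, Derivation.leibniz_pow, map_sub, Derivation.map_one_eq_zero,
      PowerSeries.derivative_X, smul_eq_mul, nsmul_eq_mul]
    push_cast
    linear_combination 2 * pcCs * h
  · simp [pc_const]

theorem pc_xi : ∃ ξ : PowerSeries ℚ, PowerSeries.X * (1 + ξ ^ 2) = 2 * ξ ∧
    pcCs * (PowerSeries.X * ξ) = pcCs - 1 := by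
  have h := pc_sq
  obtain ⟨ξ, hξ⟩ : (PowerSeries.X : PowerSeries ℚ) ∣ 1 - (1 - PowerSeries.X ^ 2) * pcCs := by
    rw [PowerSeries.X_dvd_iff]
    simp [pc_const]
  refine ⟨ξ, ?_, ?_⟩
  · apply mul_left_cancel₀ (PowerSeries.X_ne_zero (R := ℚ))
    have e : PowerSeries.X * (PowerSeries.X * (1 + ξ ^ 2)) =
        PowerSeries.X ^ 2 + (PowerSeries.X * ξ) ^ 2 := by ring
    have e' : PowerSeries.X * (2 * ξ) = 2 * (PowerSeries.X * ξ) := by ring
    rw [e, e', ← hξ]
    linear_combination (1 - PowerSeries.X ^ 2) * h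
  · rw [← hξ]
    linear_combination (-1 : PowerSeries ℚ) * h

theorem pc_lin (P : ℤ[X]) (j : ℕ) :
    lin (fun i => cpi i j) P = PowerSeries.coeff j (PowerSeries.X * pcTo P * pcCs) := by
  induction P using Polynomial.induction_on' with
  | add p q hp hq => rw [lin_add, hp, hq, map_add, mul_add, add_mul, map_add]
  | monomial i a =>
    rw [← C_mul_X_pow_eq_monomial, lin_C_mul, lin_X_pow, map_mul pcTo, map_pow pcTo, pcTo_X,
      pcTo_C]
    have e : PowerSeries.X * (PowerSeries.C (a : ℚ) * PowerSeries.X ^ i) * pcCs =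
        PowerSeries.C (a : ℚ) * (PowerSeries.X ^ (i + 1) * pcCs) := by ring
    rw [e, PowerSeries.coeff_C_mul, PowerSeries.coeff_X_pow_mul']
    congr 1
    unfold cpi
    by_cases h : i < j
    · rw [if_pos h, if_pos (by omega), pcCs, PowerSeries.coeff_mk, Nat.sub_sub]
    · rw [if_neg h, if_neg (by omega)]

/-- the remainder series -/
noncomputable def pcR (N : ℕ) (m : ℤ) : PowerSeries ℚ :=
  PowerSeries.X * pcTo (rowP N m) * pcCs - pcTo (rowD N m)

theorem pcR_rec {N : ℕ} {m : ℤ} (hm : m.natAbs + 2 ≤ 47 * N) :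
    PowerSeries.X * (pcR N (m + 1) + pcR N (m - 1)) = 2 * pcR N m := by
  have hP := congrArg pcTo (rowP_rec hm)
  have hD := congrArg pcTo (rowD_rec hm)
  rw [map_mul, map_mul, map_add, pcTo_X, pcTo_C] at hP hD
  have h2 : (PowerSeries.C ((2 : ℤ) : ℚ) : PowerSeries ℚ) = 2 := by
    rw [Int.cast_ofNat]; exact map_ofNat _ 2
  rw [h2] at hP hD
  unfold pcR
  linear_combination PowerSeries.X * pcCs * hP - hD

theorem pcR_zero {N : ℕ} (hN : 0 < N) :
    pcR N 0 = (1 - PowerSeries.X) ^ (2 * N) * PowerSeries.X ^ (47 * N) * pcCs := by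
  obtain ⟨c, hc⟩ : ∃ c, 47 * N = c + 1 := ⟨47 * N - 1, by omega⟩
  unfold pcR rowP rowD
  rw [zero_sub, Chebyshev.U_neg_one, Chebyshev.T_zero, reflect_zero, reflect_one, hc,
    Nat.add_sub_cancel]
  simp only [map_mul, map_pow, map_sub, map_one, pcTo_X, map_zero]
  ring

theorem pcR_one {N : ℕ} (hN : 0 < N) {ξ : PowerSeries ℚ}
    (h : pcCs * (PowerSeries.X * ξ) = pcCs - 1) :
    pcR N 1 = (1 - PowerSeries.X) ^ (2 * N) * PowerSeries.X ^ (47 * N) * pcCs * ξ := by
  obtain ⟨c, hc⟩ : ∃ c, 47 * N = c + 1 + 1 := ⟨47 * N - 2, by omega⟩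
  unfold pcR rowP rowD
  have hX : reflect (c + 1) (X : ℤ[X]) = X ^ c := by
    have := reflect_monomial (R := ℤ) (c + 1) 1
    rwa [pow_one, revAt_le (by omega), Nat.add_sub_cancel] at this
  rw [sub_self, Chebyshev.U_zero, Chebyshev.T_one, reflect_one, hc, Nat.add_sub_cancel, hX]
  simp only [map_mul, map_pow, map_sub, map_one, pcTo_X]
  linear_combination (-((1 - PowerSeries.X) ^ (2 * N) * PowerSeries.X ^ (c + 1))) * h

theorem pcR_pos {N : ℕ} (hN : 0 < N) {ξ : PowerSeries ℚ}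
    (h0 : PowerSeries.X * (1 + ξ ^ 2) = 2 * ξ) (h : pcCs * (PowerSeries.X * ξ) = pcCs - 1)
    (k : ℕ) (hk : k + 1 ≤ 47 * N) :
    pcR N k = (1 - PowerSeries.X) ^ (2 * N) * PowerSeries.X ^ (47 * N) * pcCs * ξ ^ k := by
  induction k using Nat.twoStepInduction with
  | zero => rw [pow_zero, mul_one]; exact pcR_zero hN
  | one => rw [pow_one]; exact pcR_one hN h
  | more k ih0 ih1 =>
    have hr := pcR_rec (N := N) (m := ((k + 1 : ℕ) : ℤ)) (by rw [Int.natAbs_natCast]; omega)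
    rw [show ((k + 1 : ℕ) : ℤ) + 1 = ((k + 2 : ℕ) : ℤ) by push_cast; ring,
      show ((k + 1 : ℕ) : ℤ) - 1 = (k : ℤ) by push_cast; ring, ih0 (by omega), ih1 (by omega)]
      at hr
    apply mul_left_cancel₀ (PowerSeries.X_ne_zero (R := ℚ))
    linear_combination hr -
      (1 - PowerSeries.X) ^ (2 * N) * PowerSeries.X ^ (47 * N) * pcCs * ξ ^ k * h0

theorem pcR_neg {N : ℕ} (hN : 0 < N) (k : ℕ) (hk : k + 2 ≤ 47 * N) :
    PowerSeries.X ^ (47 * N - k) ∣ pcR N (-(k : ℤ)) ∧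
      PowerSeries.X ^ (47 * N - k) ∣ pcR N (-(k : ℤ) + 1) := by
  obtain ⟨ξ, h0, h⟩ := pc_xi
  induction k with
  | zero =>
    simp only [Nat.cast_zero, neg_zero, zero_add, Nat.sub_zero]
    rw [pcR_zero hN, pcR_one hN h]
    exact ⟨Dvd.dvd.mul_right (Dvd.intro_left _ rfl) _,
      Dvd.dvd.mul_right (Dvd.dvd.mul_right (Dvd.intro_left _ rfl) _) _⟩
  | succ k ih =>
    obtain ⟨ih0, ih1⟩ := ih (by omega)
    have hr := pcR_rec (N := N) (m := -(k : ℤ)) (by rw [Int.natAbs_neg, Int.natAbs_natCast]; omega)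
    have e : 47 * N - k = (47 * N - (k + 1)) + 1 := by omega
    refine ⟨?_, ?_⟩
    · rw [show -((k + 1 : ℕ) : ℤ) = -(k : ℤ) - 1 by push_cast; ring]
      have hd : PowerSeries.X ^ (47 * N - k) ∣ PowerSeries.X * pcR N (-(k : ℤ) - 1) := by
        rw [show PowerSeries.X * pcR N (-(k : ℤ) - 1) =
          2 * pcR N (-(k : ℤ)) - PowerSeries.X * pcR N (-(k : ℤ) + 1) by linear_combination hr]
        exact dvd_sub (Dvd.dvd.mul_left ih0 _) (Dvd.dvd.mul_left ih1 _)
      rw [e, pow_succ'] at hd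
      exact (mul_dvd_mul_iff_left (PowerSeries.X_ne_zero (R := ℚ))).1 hd
    · rw [show -((k + 1 : ℕ) : ℤ) + 1 = -(k : ℤ) by push_cast; ring]
      exact (pow_dvd_pow _ (by omega)).trans ih0

theorem pi_cancel {N : ℕ} {m : ℤ} (h1 : -(3 * (N : ℤ)) ≤ m) (h2 : m < 33 * (N : ℤ)) {j : ℕ}
    (hj : j < 44 * N) : lin (fun i => cpi i j) (rowP N m) = ((rowD N m).coeff j : ℚ) := by
  have hN : 0 < N := by omega
  have hd : PowerSeries.X ^ (44 * N) ∣ pcR N m := by
    rcases le_total 0 m with hm | hm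
    · obtain ⟨k, rfl⟩ := Int.eq_ofNat_of_zero_le hm
      obtain ⟨ξ, h0, h⟩ := pc_xi
      rw [pcR_pos hN h0 h k (by omega)]
      exact Dvd.dvd.mul_right (Dvd.dvd.mul_right
        (Dvd.dvd.mul_left (pow_dvd_pow _ (by omega)) _) _) _
    · obtain ⟨k, hk⟩ := Int.eq_ofNat_of_zero_le (neg_nonneg.2 hm)
      obtain rfl : m = -(k : ℤ) := by omega
      exact (pow_dvd_pow _ (by omega)).trans (pcR_neg hN k (by omega)).1
  have hc := PowerSeries.X_pow_dvd_iff.1 hd j hj
  unfold pcR at hc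
  rw [map_sub, ← pc_lin, pcTo_coeff] at hc
  exact sub_eq_zero.1 hc

end Crest.Agent.R6
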