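import Crest.Agent.R6.P2a
import Crest.Agent.R6.P2b
import Crest.Agent.R6.PiCancel

/-!
# Row 6: `2`-adic decomposition of the matrix.

Take `P, D, a` from `two_rows`, `G', Π'` from `exists_two_adic (49N)`, `λ = log₂(49N+1)`,
`Xf i j = MG 0 i j + 4G' cg i j + Π' cpi i j`.  Then (`MG_eq`)
`MG γ = Xf + 4(γ - G') cg - Π' cpi`.  With `P' = 2^k P`, `D' = 2^k D`:
`bil cpi P' Q = ∑_j Q_j D'_j` (`bil_swap`, `pi_cancel`, last clause of `two_rows`), so
`W = bil Xf P' Q - Π' ∑ Q_j D'_j - 3/2 bil Z0 D' Q` has norm `≤ 2^(2λ+1-k)` (`pn_Z0`), and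
`4(γ-G') bil cg P' Q = ∑_j a_j Y j` with
`Y j k' = 2 (γ - G') 2^j bil cg ((1-X)^{2N} X^{47N-1-j}) (colQ N k')`; on the support
`i - j' ≤ 43N - 1 - j - k'`, so `‖Y j k'‖ ≤ ‖γ - G'‖ 2^(43N - 2j - k')` (`pn2_cc`).
-/

set_option autoImplicit false

namespace Crest.Agent.R6

open Polynomial Finset

theorem p2c_bil_C_mul (f : ℕ → ℕ → ℚ) (a : ℤ) (P Q : ℤ[X]) :
    bil f (C a * P) Q = a * bil f P Q := by
  unfold bil; rw [lin_C_mul]

theorem p2c_bil_sum {ι : Type} (f : ℕ → ℕ → ℚ) (s : Finset ι) (P : ι → ℤ[X]) (Q : ℤ[X]) :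
    bil f (∑ i ∈ s, P i) Q = ∑ i ∈ s, bil f (P i) Q := by
  unfold bil; rw [lin_sum]

theorem p2c_bil_comb (f g h : ℕ → ℕ → ℚ) (b c : ℚ) (P Q : ℤ[X]) :
    bil (fun i j => f i j + b * g i j - c * h i j) P Q =
      bil f P Q + b * bil g P Q - c * bil h P Q := by
  unfold bil
  have e : ∀ i, lin (fun j => f i j + b * g i j - c * h i j) Q =
      lin (f i) Q + b * lin (g i) Q - c * lin (h i) Q := by
    intro i
    rw [lin_fun_sub (fun j => f i j + b * g i j) (fun j => c * h i j),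
      lin_fun_add (f i) (fun j => b * g i j), lin_fun_mul, lin_fun_mul]
  simp only [e]
  rw [lin_fun_sub (fun i => lin (f i) Q + b * lin (g i) Q) (fun i => c * lin (h i) Q),
    lin_fun_add (fun i => lin (f i) Q) (fun i => b * lin (g i) Q), lin_fun_mul, lin_fun_mul]

theorem p2c_pn_two : padicNorm 2 (2 : ℚ) = 2⁻¹ := by
  have := padicNorm.padicNorm_p_of_prime (p := 2)
  simpa using this

theorem p2c_pn_two_pow (k : ℕ) : padicNorm 2 ((2 : ℚ) ^ k) = (2 : ℚ) ^ (-(k : ℤ)) := by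
  rw [pn_pow, p2c_pn_two, zpow_neg, zpow_natCast, inv_pow]

theorem p2c_pn_three_half : padicNorm 2 (3 / 2 : ℚ) ≤ 2 := by
  rw [padicNorm.div, p2c_pn_two]
  have : padicNorm 2 (3 : ℚ) ≤ 1 := by
    have := padicNorm.of_nat (p := 2) 3
    simpa using this
  rw [div_inv_eq_mul]; linarith

theorem p2c_cpi {N : ℕ} {P D : ℤ[X]} (c : Fin (36 * N) → ℤ)
    (hP : P = ∑ r, C (c r) * rowP N ((r : ℕ) - 3 * (N : ℤ)))
    (hD : D = ∑ r, C (c r) * rowD N ((r : ℕ) - 3 * (N : ℤ))) (k : Fin (36 * N)) :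
    bil cpi P (colQ N k) = lin (fun j => (D.coeff j : ℚ)) (colQ N k) := by
  rw [bil_swap]
  refine lin_congr fun j hj => ?_
  have hj' : j < 44 * N := by
    by_contra h
    exact hj (colQ_supp' k j (Or.inr (by omega)))
  rw [hP, hD, lin_sum, finsetSum_coeff]
  push_cast
  refine Finset.sum_congr rfl fun r _ => ?_
  have hr := r.isLt
  rw [lin_C_mul, pi_cancel (by omega) (by omega) hj', coeff_C_mul]
  push_cast; ring

theorem p2c_cg {N : ℕ} (j : Fin (33 * N)) (k : Fin (36 * N)) :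
    padicNorm 2 (bil cg ((1 - X) ^ (2 * N) * X ^ (47 * N - 1 - j.val)) (colQ N k)) ≤
      (2 : ℚ) ^ (43 * (N : ℤ) - 1 - j.val - k.val) := by
  refine pn_bil_le (by positivity) fun i l hi hl => ?_
  have hl' : 6 * N + k.val ≤ l := by
    by_contra h
    exact hl (colQ_supp N k l (Or.inl (by omega)))
  have hi' : i ≤ 2 * N + (47 * N - 1 - j.val) := by
    refine (le_natDegree_of_ne_zero hi).trans (natDegree_mul_le.trans ?_)
    refine add_le_add ?_ (natDegree_X_pow_le _)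
    refine natDegree_pow_le.trans ?_
    have : (1 - X : ℤ[X]).natDegree ≤ 1 := by
      refine (natDegree_sub_le _ _).trans ?_
      simp
    calc 2 * N * (1 - X : ℤ[X]).natDegree ≤ 2 * N * 1 := Nat.mul_le_mul_left _ this
      _ = 2 * N := by ring
  have hj := j.isLt
  unfold cg
  split_ifs with h
  · refine (pn2_cc _).trans ?_
    rw [← zpow_natCast]
    exact zpow_le_zpow_right₀ (by norm_num) (by omega)
  · rw [padicNorm.zero]; positivity

theorem two_decomp (γ : ℚ) (N κ : ℕ) (hγ : padicNorm 2 γ ≤ 2 ^ κ)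
    (hκ : 2 * Nat.log 2 (49 * N + 1) + 1 ≤ κ) :
    ∃ (W : Fin (36 * N) → Fin (36 * N) → ℚ) (a : Fin (36 * N) → Fin (33 * N) → ℤ)
      (Y : Fin (33 * N) → Fin (36 * N) → ℚ),
      Delta γ N = Matrix.det (Matrix.of fun ρ k => W ρ k + ∑ j, (a ρ j : ℚ) * Y j k) ∧
      (∀ ρ k, padicNorm 2 (W ρ k) ≤ (2 : ℚ) ^ ((κ : ℤ) - (ρ.val / 2 : ℕ))) ∧
      (∀ ρ (j : Fin (33 * N)), j.val < ρ.val / 2 → a ρ j = 0) ∧
      ∀ j k, padicNorm 2 (Y j k) ≤ (2 : ℚ) ^ ((κ : ℤ) + 43 * N - 2 * j.val - k.val) := by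

  obtain ⟨P, D, a, hΔ, hS, ha, hPa, hc⟩ := two_rows γ N
  obtain ⟨G', Pi', hG, hPi, hX⟩ := exists_two_adic (49 * N)
  set L := Nat.log 2 (49 * N + 1) with hL
  let Xf : ℕ → ℕ → ℚ := fun i j => MG 0 i j + 4 * G' * cg i j + Pi' * cpi i j
  have hMG : MG γ = fun i j => Xf i j + (4 * (γ - G')) * cg i j - Pi' * cpi i j := by
    funext i j
    rw [MG_eq]; simp only [Xf]; ring
  have h1κ : (2 : ℚ) ^ L ≤ 2 ^ κ := pow_le_pow_right₀ (by norm_num) (by omega)
  have h2κ : (2 : ℚ) ≤ 2 ^ κ := by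
    calc (2 : ℚ) = 2 ^ 1 := by norm_num
      _ ≤ 2 ^ κ := pow_le_pow_right₀ (by norm_num) (by omega)
  refine ⟨fun ρ k => (2 : ℚ) ^ (ρ.val / 2) * (bil Xf (P ρ) (colQ N k) -
      Pi' * lin (fun j => ((D ρ).coeff j : ℚ)) (colQ N k) - 3 / 2 * bil Z0 (D ρ) (colQ N k)), a,
    fun j k => (γ - G') * (2 * (2 ^ j.val *
      bil cg ((1 - X) ^ (2 * N) * X ^ (47 * N - 1 - j.val)) (colQ N k))), ?_, ?_, ha, ?_⟩
  · rw [hΔ]
    congr 1
    ext ρ k
    simp only [Matrix.of_apply]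
    obtain ⟨c, hcP, hcD⟩ := hc ρ
    have e1 := p2c_cpi c hcP hcD k
    have e2 : lin (fun j => ((C (2 ^ (ρ.val / 2)) * D ρ).coeff j : ℚ)) (colQ N k) =
        (2 : ℚ) ^ (ρ.val / 2) * lin (fun j => ((D ρ).coeff j : ℚ)) (colQ N k) := by
      rw [← lin_fun_mul]
      congr 1
      funext j
      rw [coeff_C_mul]; push_cast; ring
    have e3 : 2 * bil cg (C (2 ^ (ρ.val / 2)) * P ρ) (colQ N k) = ∑ j : Fin (33 * N), (a ρ j : ℚ) *
        (2 ^ j.val * bil cg ((1 - X) ^ (2 * N) * X ^ (47 * N - 1 - j.val)) (colQ N k)) := by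
      have := p2c_bil_C_mul cg 2 (C (2 ^ (ρ.val / 2)) * P ρ) (colQ N k)
      rw [hPa ρ, p2c_bil_sum] at this
      push_cast at this
      rw [← this]
      refine Finset.sum_congr rfl fun j _ => ?_
      rw [p2c_bil_C_mul, p2c_bil_C_mul]
      push_cast; ring
    have e4 : ∑ j : Fin (33 * N), (a ρ j : ℚ) * ((γ - G') * (2 * (2 ^ j.val *
        bil cg ((1 - X) ^ (2 * N) * X ^ (47 * N - 1 - j.val)) (colQ N k)))) =
        2 * (γ - G') * (2 * bil cg (C (2 ^ (ρ.val / 2)) * P ρ) (colQ N k)) := by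
      rw [e3, Finset.mul_sum]
      exact Finset.sum_congr rfl fun j _ => by ring
    rw [e4]
    unfold Phi
    rw [hMG, p2c_bil_comb, e1, e2, p2c_bil_C_mul Xf, p2c_bil_C_mul Z0]
    push_cast; ring
  · intro ρ k
    have hP : ∀ i, (P ρ).coeff i ≠ 0 → i ≤ 49 * N := fun i hi => by
      by_contra h
      exact hi ((hS ρ).1 i (Or.inr (by omega)))
    have hD : ∀ i, (D ρ).coeff i ≠ 0 → i ≤ 49 * N := fun i hi => by
      by_contra h
      exact hi ((hS ρ).2 i (Or.inr (by omega)))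
    have hQ : ∀ i, (colQ N k).coeff i ≠ 0 → i ≤ 49 * N := fun i hi => by
      by_contra h
      exact hi (colQ_supp' k i (Or.inr (by omega)))
    have b1 : padicNorm 2 (bil Xf (P ρ) (colQ N k)) ≤ 2 ^ κ :=
      pn_bil_le (by positivity) fun i j hi hj => (hX i (hP i hi) j (hQ j hj)).trans h1κ
    have b2 : padicNorm 2 (Pi' * lin (fun j => ((D ρ).coeff j : ℚ)) (colQ N k)) ≤ 2 ^ κ := by
      have := pn_mul_le hPi (pn_lin_le (p := 2) (f := fun j => ((D ρ).coeff j : ℚ))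
        (P := colQ N k) (t := 1) (by norm_num) fun i _ => padicNorm.of_int _)
      rw [mul_one] at this
      exact this.trans h1κ
    have b3 : padicNorm 2 (3 / 2 * bil Z0 (D ρ) (colQ N k)) ≤ 2 ^ κ := by
      have := pn_mul_le p2c_pn_three_half (pn_bil_le (p := 2) (f := Z0) (P := D ρ)
        (Q := colQ N k) (t := 2 ^ (2 * L)) (by positivity) fun i j hi hj => by
          have := pn_Z0 (p := 2) (X := 49 * N + 1) ((hD i hi).trans (Nat.le_succ _))
            ((hQ j hj).trans (Nat.le_succ _))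
          simpa using this)
      refine this.trans ?_
      rw [← pow_succ']
      exact pow_le_pow_right₀ (by norm_num) (by omega)
    have := pn_mul_le (p2c_pn_two_pow (ρ.val / 2)).le (pn_sub_le (pn_sub_le b1 b2) b3)
    refine this.trans (le_of_eq ?_)
    rw [← zpow_natCast, ← zpow_add₀ (by norm_num)]
    congr 1; ring
  · intro j k
    have b1 : padicNorm 2 (γ - G') ≤ 2 ^ κ := pn_sub_le hγ (hG.trans h2κ)
    have b2 : padicNorm 2 (2 : ℚ) ≤ 1 := by rw [p2c_pn_two]; norm_num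
    have := pn_mul_le b1 (pn_mul_le b2 (pn_mul_le (p2c_pn_two_pow j.val).le (p2c_cg j k)))
    refine this.trans ?_
    rw [one_mul, ← zpow_natCast, ← zpow_add₀ (by norm_num), ← zpow_add₀ (by norm_num)]
    exact zpow_le_zpow_right₀ (by norm_num) (by omega)

end Crest.Agent.R6
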