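import Crest.Agent.R6.Basic

/-!
# Row 6: ultrametric toolbox.

`pn_det_le_pot`: `Matrix.det_apply`, `padicNorm.sum_le'`, multiplicativity, and
`∑ i, w (σ i) = ∑ i, w i`.
`pn_det_block`: `det (W + A B) = det (fromBlocks W (-A) B 1)` (`Matrix.det_fromBlocks_one₂₂`), then
`pn_det_le_pot` on the sum type.  `pn_det_decomp`: special case `u = e0`, `w = 0`, `w' = e`,
`u' = 0`.  `prod_formula`: `y = x ∏ p^(e p)` has `padicNorm q y ≤ 1` for every prime `q`, hence
`y.den = 1` (otherwise take a prime factor of the denominator; `padicNorm.not_int_of_not_padic_int`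
is the converse, use `padicValRat`), `y ≠ 0`, so `1 ≤ |y|`.
-/

set_option autoImplicit false

namespace Crest.Agent.R6

open Polynomial Finset

section
variable {p : ℕ} [Fact p.Prime]

theorem pn_add_le {x y t : ℚ} (hx : padicNorm p x ≤ t) (hy : padicNorm p y ≤ t) :
    padicNorm p (x + y) ≤ t := by
  exact padicNorm.nonarchimedean.trans (max_le hx hy)

theorem pn_sub_le {x y t : ℚ} (hx : padicNorm p x ≤ t) (hy : padicNorm p y ≤ t) :
    padicNorm p (x - y) ≤ t := by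
  exact padicNorm.sub.trans (max_le hx hy)

theorem pn_mul_le {x y s t : ℚ} (hx : padicNorm p x ≤ s) (hy : padicNorm p y ≤ t) :
    padicNorm p (x * y) ≤ s * t := by
  rw [padicNorm.mul]
  exact mul_le_mul hx hy (padicNorm.nonneg _) ((padicNorm.nonneg _).trans hx)

theorem pn_sum_le {ι : Type} {s : Finset ι} {f : ι → ℚ} {t : ℚ} (ht : 0 ≤ t)
    (h : ∀ i ∈ s, padicNorm p (f i) ≤ t) : padicNorm p (∑ i ∈ s, f i) ≤ t := by
  exact padicNorm.sum_le' h ht

theorem pn_pow (x : ℚ) (k : ℕ) : padicNorm p (x ^ k) = padicNorm p x ^ k := by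
  induction k with
  | zero => simp
  | succ k ih => rw [pow_succ, padicNorm.mul, ih, pow_succ]

theorem pn_lin_le {f : ℕ → ℚ} {P : ℤ[X]} {t : ℚ} (ht : 0 ≤ t)
    (h : ∀ i, P.coeff i ≠ 0 → padicNorm p (f i) ≤ t) : padicNorm p (lin f P) ≤ t := by
  unfold lin Polynomial.sum
  refine pn_sum_le ht fun i hi => ?_
  have := pn_mul_le (padicNorm.of_int (p := p) (P.coeff i)) (h i (mem_support_iff.1 hi))
  simpa using this

theorem pn_bil_le {f : ℕ → ℕ → ℚ} {P Q : ℤ[X]} {t : ℚ} (ht : 0 ≤ t)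
    (h : ∀ i j, P.coeff i ≠ 0 → Q.coeff j ≠ 0 → padicNorm p (f i j) ≤ t) :
    padicNorm p (bil f P Q) ≤ t := by
  exact pn_lin_le ht fun i hi => pn_lin_le ht fun j hj => h i j hi hj

theorem pn_inv_nat_eq {l : ℕ} (hl : l ≠ 0) :
    padicNorm p (1 / (l : ℚ)) = (p : ℚ) ^ padicValNat p l := by
  have hl' : (l : ℚ) ≠ 0 := by exact_mod_cast hl
  rw [padicNorm.div, padicNorm.one, padicNorm.eq_zpow_of_nonzero hl', padicValRat.of_nat,
    zpow_neg, zpow_natCast, one_div, inv_inv]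

theorem one_le_pq : (1 : ℚ) ≤ p := by
  exact_mod_cast (Fact.out : p.Prime).one_lt.le

theorem pq_pos : (0 : ℚ) < p := lt_of_lt_of_le one_pos one_le_pq

theorem pn_inv_nat {l X : ℕ} (h : l ≤ X) : padicNorm p (1 / (l : ℚ)) ≤ (p : ℚ) ^ Nat.log p X := by
  rcases eq_or_ne l 0 with rfl | hl
  · simp
  · rw [pn_inv_nat_eq hl]
    refine pow_le_pow_right₀ one_le_pq ?_
    exact (padicValNat_le_nat_log l).trans (Nat.log_mono_right h)

theorem pn_inv_nat_of_not_dvd {l : ℕ} (h : ¬ p ∣ l) : padicNorm p (1 / (l : ℚ)) = 1 := by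
  rw [padicNorm.div, padicNorm.one, (padicNorm.nat_eq_one_iff l).2 h, div_one]

theorem pn_inv_nat_of_lt {l : ℕ} (h : l < p) : padicNorm p (1 / (l : ℚ)) ≤ 1 := by
  have := pn_inv_nat (p := p) (le_refl l)
  rwa [Nat.log_of_lt h, pow_zero] at this

theorem pn_inv_nat_of_lt_sq {l : ℕ} (h : l < p ^ 2) : padicNorm p (1 / (l : ℚ)) ≤ p := by
  rcases eq_or_ne l 0 with rfl | hl
  · simp
  · have := pn_inv_nat (p := p) (le_refl l)
    refine this.trans ?_
    have h1 : Nat.log p l ≤ 1 := by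
      have := (Nat.log_lt_iff_lt_pow (Fact.out : p.Prime).one_lt hl).2 h
      omega
    calc (p : ℚ) ^ Nat.log p l ≤ (p : ℚ) ^ 1 := pow_le_pow_right₀ one_le_pq h1
      _ = p := pow_one _

theorem pn_three_half (hp : p ≠ 2) : padicNorm p (3 / 2) ≤ 1 := by
  have h2 : padicNorm p (1 / ((2 : ℕ) : ℚ)) = 1 := pn_inv_nat_of_not_dvd fun h =>
    hp ((Nat.prime_dvd_prime_iff_eq Fact.out Nat.prime_two).1 h)
  have h3 := padicNorm.of_nat (p := p) 3
  have := pn_mul_le h3 h2.le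
  norm_num at this ⊢
  exact this

theorem pn_prod {ι : Type} (s : Finset ι) (f : ι → ℚ) :
    padicNorm p (∏ i ∈ s, f i) = ∏ i ∈ s, padicNorm p (f i) := by
  classical
  induction s using Finset.induction_on with
  | empty => simp
  | insert a s ha ih => rw [prod_insert ha, prod_insert ha, padicNorm.mul, ih]

theorem zpow_sum_q {ι : Type} (s : Finset ι) (f : ι → ℤ) :
    (p : ℚ) ^ (∑ i ∈ s, f i) = ∏ i ∈ s, (p : ℚ) ^ f i := by
  classical
  induction s using Finset.induction_on with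
  | empty => simp
  | insert a s ha ih => rw [prod_insert ha, sum_insert ha, zpow_add₀ pq_pos.ne', ih]

theorem pn_det_le_pot {ι : Type} [Fintype ι] [DecidableEq ι] (M : Matrix ι ι ℚ) (u w : ι → ℤ)
    (h : ∀ i j, padicNorm p (M i j) ≤ (p : ℚ) ^ (u i + w j)) :
    padicNorm p M.det ≤ (p : ℚ) ^ (∑ i, u i + ∑ j, w j) := by
  rw [Matrix.det_apply']
  refine pn_sum_le (zpow_nonneg pq_pos.le _) fun σ _ => ?_
  have h1 := padicNorm.of_int (p := p) ((Equiv.Perm.sign σ : ℤˣ) : ℤ)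
  have h2 : padicNorm p (∏ i, M (σ i) i) ≤ (p : ℚ) ^ (∑ i, u i + ∑ j, w j) := by
    rw [pn_prod, ← Equiv.sum_comp σ u, ← sum_add_distrib, zpow_sum_q]
    exact prod_le_prod (fun i _ => padicNorm.nonneg _) fun i _ => h _ _
  simpa using pn_mul_le h1 h2

theorem pn_det_block {ι κ : Type} [Fintype ι] [DecidableEq ι] [Fintype κ] [DecidableEq κ]
    (W : ι → ι → ℚ) (a : ι → κ → ℚ) (b : κ → ι → ℚ) (u w : ι → ℤ) (u' w' : κ → ℤ)
    (hW : ∀ r k, padicNorm p (W r k) ≤ (p : ℚ) ^ (u r + w k))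
    (ha : ∀ r j, padicNorm p (a r j) ≤ (p : ℚ) ^ (u r + w' j))
    (hb : ∀ j k, padicNorm p (b j k) ≤ (p : ℚ) ^ (u' j + w k))
    (h1 : ∀ j, 0 ≤ u' j + w' j) :
    padicNorm p (Matrix.det (Matrix.of fun r k => W r k + ∑ j, a r j * b j k)) ≤
      (p : ℚ) ^ (∑ r, u r + ∑ k, w k + ∑ j, (u' j + w' j)) := by
  have e : (Matrix.of fun r k => W r k + ∑ j, a r j * b j k) =
      Matrix.of W - (-Matrix.of a) * Matrix.of b := by
    ext r k
    simp [Matrix.mul_apply]
  rw [e, ← Matrix.det_fromBlocks_one₂₂]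
  have := pn_det_le_pot (p := p) (Matrix.fromBlocks (Matrix.of W) (-Matrix.of a) (Matrix.of b) 1)
    (Sum.elim u u') (Sum.elim w w') (by
      rintro (r | j) (k | j')
      · simpa using hW r k
      · simpa [padicNorm.neg] using ha r j'
      · simpa using hb j k
      · by_cases hj : j = j'
        · subst hj
          simpa using one_le_zpow₀ one_le_pq (h1 j)
        · simpa [Matrix.one_apply_ne hj] using zpow_nonneg (pq_pos (p := p)).le _)
  refine this.trans (le_of_eq ?_)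
  congr 1
  simp only [Fintype.sum_sum_type, Sum.elim_inl, Sum.elim_inr, sum_add_distrib]
  ring

/-- integral part of size `p^e0` plus rank-one terms of size `p^(e0 + e α)` -/
theorem pn_det_decomp {n : ℕ} {κ : Type} [DecidableEq κ] (s : Finset κ) (E W : Fin n → Fin n → ℚ)
    (a b : κ → Fin n → ℚ) (e0 : ℕ) (e : κ → ℕ)
    (hE : ∀ r k, E r k = W r k + ∑ α ∈ s, a α r * b α k)
    (hW : ∀ r k, padicNorm p (W r k) ≤ (p : ℚ) ^ e0)
    (ha : ∀ α ∈ s, ∀ r, padicNorm p (a α r) ≤ (p : ℚ) ^ (e0 + e α))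
    (hb : ∀ α ∈ s, ∀ k, padicNorm p (b α k) ≤ 1) :
    padicNorm p (Matrix.det (Matrix.of E)) ≤ (p : ℚ) ^ (e0 * n + ∑ α ∈ s, e α) := by
  have e1 : Matrix.of E = Matrix.of fun r k => W r k + ∑ j : s, a j r * b j k := by
    ext r k
    simp only [Matrix.of_apply, hE r k]
    rw [← Finset.sum_coe_sort s]
  have := pn_det_block (p := p) W (fun r (j : s) => a j r) (fun (j : s) k => b j k)
    (fun _ => (e0 : ℤ)) (fun _ => 0) (fun _ => 0) (fun j => (e j : ℤ))
    (fun r k => by simpa using hW r k)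
    (fun r j => by
      have := ha j j.2 r
      rwa [← zpow_natCast, Nat.cast_add] at this)
    (fun j k => by simpa using hb j j.2 k) (fun j => by simp)
  rw [e1]
  refine this.trans (le_of_eq ?_)
  rw [← zpow_natCast]
  congr 1
  simp only [sum_const, card_univ, Fintype.card_fin, zero_add, smul_zero, add_zero]
  push_cast
  rw [Finset.sum_coe_sort s fun j => (e j : ℤ)]
  simp [mul_comm]

end

theorem den_eq_one_of_pn {y : ℚ} (h : ∀ q : ℕ, q.Prime → padicNorm q y ≤ 1) : y.den = 1 := by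
  by_contra hd
  obtain ⟨q, hq, hqd⟩ := Nat.exists_prime_and_dvd hd
  have := Fact.mk hq
  have hn : ¬ (q : ℤ) ∣ y.num := by
    intro hn
    have h1 : q ∣ y.num.natAbs := Int.natCast_dvd.1 hn
    have := Nat.dvd_gcd h1 hqd
    rw [y.reduced] at this
    exact hq.one_lt.ne' (Nat.dvd_one.1 this)
  have e : (y.num : ℚ) = y * y.den := by
    rw [Rat.mul_den_eq_num]
  have h1 := (padicNorm.int_eq_one_iff (p := q) y.num).2 hn
  have h2 := (padicNorm.nat_lt_one_iff (p := q) y.den).2 hqd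
  rw [e, padicNorm.mul] at h1
  have h3 := h q hq
  have h4 := padicNorm.nonneg (p := q) y
  have h5 := padicNorm.nonneg (p := q) (y.den : ℚ)
  nlinarith

theorem prod_formula {x : ℚ} (hx : x ≠ 0) (S : Finset ℕ) (hS : ∀ p ∈ S, p.Prime) (e : ℕ → ℕ)
    (h1 : ∀ p ∈ S, padicNorm p x ≤ (p : ℚ) ^ e p)
    (h2 : ∀ p : ℕ, p.Prime → p ∉ S → padicNorm p x ≤ 1) :
    Real.exp (-∑ p ∈ S, (e p : ℝ) * Real.log p) ≤ |(x : ℝ)| := by
  set Pn : ℕ := ∏ p ∈ S, p ^ e p with hPn
  have hP0 : 0 < Pn := prod_pos fun p hp => pow_pos (hS p hp).pos _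
  have hy : (x * Pn).den = 1 := by
    refine den_eq_one_of_pn fun q hq => ?_
    have := Fact.mk hq
    by_cases hqS : q ∈ S
    · have e1 : (Pn : ℚ) = (q : ℚ) ^ e q * ((∏ p ∈ S.erase q, p ^ e p : ℕ) : ℚ) := by
        rw [hPn, ← mul_prod_erase S _ hqS]
        push_cast
        rfl
      rw [e1, padicNorm.mul, padicNorm.mul, pn_pow, padicNorm.padicNorm_p_of_prime]
      have h3 := padicNorm.of_nat (p := q) (∏ p ∈ S.erase q, p ^ e p)
      have h4 := padicNorm.nonneg (p := q) ((∏ p ∈ S.erase q, p ^ e p : ℕ) : ℚ)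
      have h5 : (0 : ℚ) < (q : ℚ) ^ e q := pow_pos pq_pos _
      calc padicNorm q x * ((q : ℚ)⁻¹ ^ e q * padicNorm q ((∏ p ∈ S.erase q, p ^ e p : ℕ) : ℚ))
          ≤ (q : ℚ) ^ e q * ((q : ℚ)⁻¹ ^ e q * 1) := by
            refine mul_le_mul (h1 q hqS) (mul_le_mul_of_nonneg_left h3 (by positivity)) ?_ h5.le
            positivity
        _ = 1 := by rw [mul_one, inv_pow, mul_inv_cancel₀ h5.ne']
    · simpa using pn_mul_le (h2 q hq hqS) (padicNorm.of_nat (p := q) Pn)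
  have hy0 : x * Pn ≠ 0 := mul_ne_zero hx (by exact_mod_cast hP0.ne')
  have hnum : ((x * Pn).num : ℚ) = x * Pn := Rat.coe_int_num_of_den_eq_one hy
  have h1le : (1 : ℝ) ≤ |(x : ℝ)| * Pn := by
    have h3 : (1 : ℤ) ≤ |(x * Pn).num| := Int.one_le_abs (Rat.num_ne_zero.2 hy0)
    have h4 : (1 : ℚ) ≤ |x * Pn| := by
      rw [← hnum]
      exact_mod_cast h3
    have h5 : (1 : ℝ) ≤ |(x : ℝ) * Pn| := by exact_mod_cast h4
    rwa [abs_mul, Nat.abs_cast] at h5
  have hP : (Pn : ℝ) = Real.exp (∑ p ∈ S, (e p : ℝ) * Real.log p) := by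
    rw [Real.exp_sum, hPn]
    push_cast
    refine prod_congr rfl fun p hp => ?_
    have : (0 : ℝ) < p := by exact_mod_cast (hS p hp).pos
    rw [Real.exp_nat_mul, Real.exp_log this]
  rw [Real.exp_neg, ← hP, inv_le_iff_one_le_mul₀ (by exact_mod_cast hP0)]
  exact h1le

end Crest.Agent.R6
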