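import Crest.Agent.R6.PLoc

/-!
# Row 6: local facts on `Psi`, `ell` for `p² > H`.

Everything is proved monomial by monomial (`pn_lin_le`; `A ≤ i < H` when the coefficient is
nonzero) from the bounds of `PLoc` with `X = p² - 1` (`log = 1`) or `X = p - 1` (`log = 0`).
`F2`: `p * Psi - ell = lin (p BM - lm) P - 3/2 lin (p BZ - lz) D`.  If `i + 1 < v` the boundary terms
are integral and `lm = lz = 0`.  Otherwise `d = i + 1 - v ≤ 2p - 1`.  `d` odd: `cc d = 0`,
`p AN d - mm (d-1) = mm(d-1) (p OO d - 1)`; for `d < p` all is integral, for `p ≤ d < 2p`,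
`OO d = 1/p + integral` so `p OO d - 1 ∈ p ℤ_(p)` and `‖mm‖ ≤ p`.  `d` even: `mm(d-1) = 0` (or `d = 0`),
`p cc d/2 ∑_{v<d-1} mm v²` is integral: for `d ≤ p` by `pn_mm`, for `p < d < 2p` by `pn_cc_lt`.
`p HH d/d - 1/d = (p HH d - 1)/d`: `d < p` integral; `p ≤ d < 2p`: `p HH d - 1 ∈ p ℤ_(p)`.
-/

set_option autoImplicit false

namespace Crest.Agent.R6

open Polynomial Finset

variable {p : ℕ} [Fact p.Prime] {γ : ℚ} {A H : ℕ} {P D : ℤ[X]}

omit [Fact p.Prime] in
theorem prow_supp (hP : Supp A H P) {i : ℕ} (hi : P.coeff i ≠ 0) : A ≤ i ∧ i < H := by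
  by_contra hc
  exact hi (hP i (by omega))

theorem prow_log_sq : Nat.log p (p ^ 2 - 1) = 1 := by
  have h2 := (Fact.out : p.Prime).two_le
  have h3 : p * 2 ≤ p ^ 2 := by rw [sq]; exact Nat.mul_le_mul_left p h2
  refine Nat.log_eq_of_pow_le_of_lt_pow ?_ ?_
  · rw [pow_one]; omega
  · show p ^ 2 - 1 < p ^ 2
    omega

theorem prow_log_one : Nat.log p (p - 1) = 0 := by
  have h2 := (Fact.out : p.Prime).two_le
  exact Nat.log_of_lt (by omega)

theorem prow_comb (hp : p ≠ 2) {f g : ℕ → ℚ} {t : ℚ} (ht : 0 ≤ t)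
    (hf : ∀ i, P.coeff i ≠ 0 → padicNorm p (f i) ≤ t)
    (hg : ∀ i, D.coeff i ≠ 0 → padicNorm p (g i) ≤ t) :
    padicNorm p (lin f P - 3 / 2 * lin g D) ≤ t := by
  refine pn_sub_le (pn_lin_le ht hf) ?_
  have := pn_mul_le (pn_three_half hp) (pn_lin_le ht hg)
  rwa [one_mul] at this

theorem prow_BM (hp : p ≠ 2) (hγ : PI p γ) {i v X : ℕ} (hi : i + 1 ≤ X + v)
    (hv : v ≤ X + i + 2) : padicNorm p (BM γ i v) ≤ (p : ℚ) ^ (2 * Nat.log p X) := by
  have := pn_BM hp γ hi hv
  rwa [max_eq_left hγ, one_mul] at this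

theorem prow_p : padicNorm p (p : ℚ) = (p : ℚ)⁻¹ :=
  padicNorm.padicNorm_p_of_prime

theorem prow_p_le : padicNorm p (p : ℚ) ≤ 1 := by
  simpa using padicNorm.of_nat (p := p) p

theorem prow_pos : (0 : ℚ) < p := by
  exact_mod_cast (Fact.out : p.Prime).pos

/-- exactly one term of the sum is `1/p` -/
theorem prow_sum {f : ℕ → ℚ} {d : ℕ} (hd : p ≤ d) (h0 : f (p - 1) = 1 / p)
    (h : ∀ l < d, l ≠ p - 1 → padicNorm p (f l) ≤ 1) :
    padicNorm p (p * ∑ l ∈ range d, f l - 1) ≤ (p : ℚ)⁻¹ := by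
  have h2 := (Fact.out : p.Prime).two_le
  have hm : p - 1 ∈ range d := mem_range.2 (by omega)
  have e : (p : ℚ) * ∑ l ∈ range d, f l - 1 = p * ∑ l ∈ (range d).erase (p - 1), f l := by
    rw [← add_sum_erase _ _ hm, h0, mul_add, mul_one_div_cancel prow_pos.ne']
    ring
  rw [e]
  have := pn_mul_le (prow_p (p := p)).le (pn_sum_le (p := p) (s := (range d).erase (p - 1))
    (f := f) zero_le_one fun l hl => h l (mem_range.1 (mem_of_mem_erase hl)) (ne_of_mem_erase hl))
  rwa [mul_one] at this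

theorem prow_inv {d l : ℕ} (hd : d < 2 * p) (hl : l < d) (hne : l ≠ p - 1) :
    padicNorm p (1 / ((l : ℚ) + 1)) ≤ 1 := by
  have h2 := (Fact.out : p.Prime).two_le
  have : ¬ p ∣ l + 1 := by
    rintro ⟨k, hk⟩
    rcases k with _ | _ | k
    · omega
    · omega
    · have : p * (k + 1 + 1) = p * k + 2 * p := by ring
      omega
  have := pn_inv_nat_of_not_dvd this
  push_cast at this
  exact this.le

theorem prow_cast : (((p - 1 : ℕ) : ℚ) + 1) = p := by
  have h2 := (Fact.out : p.Prime).two_le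
  rw [Nat.cast_sub (by omega)]
  simp

theorem prow_mm {v : ℕ} (hv : v + 1 < 2 * p) : padicNorm p (mm v) ≤ p := by
  have h2 := (Fact.out : p.Prime).two_le
  have h3 : p * 2 ≤ p ^ 2 := by rw [sq]; exact Nat.mul_le_mul_left p h2
  refine (pn_mm v).trans ?_
  have h4 : Nat.log p (v + 1) ≤ 1 :=
    (Nat.log_mono_right (show v + 1 ≤ p ^ 2 - 1 by omega)).trans prow_log_sq.le
  have h5 : (1 : ℚ) ≤ p := by exact_mod_cast (by omega : 1 ≤ p)
  simpa using pow_le_pow_right₀ h5 h4

theorem prow_AN (hp : p ≠ 2) {d : ℕ} (h1 : p ≤ d) (h2 : d < 2 * p) :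
    padicNorm p (p * AN d - mm (d - 1)) ≤ 1 := by
  have hp2 := (Fact.out : p.Prime).two_le
  have hodd : p % 2 = 1 := (Fact.out : p.Prime).eq_two_or_odd.resolve_left hp
  have e : p * AN d - mm (d - 1) = mm (d - 1) * (p * OO d - 1) +
      p * cc d * (3 / 2 - 1) * ∑ v ∈ range (d - 1), mm v ^ 2 := by
    unfold AN; ring
  rw [e]
  refine pn_add_le ?_ ?_
  · have h3 : padicNorm p (p * OO d - 1) ≤ (p : ℚ)⁻¹ := by
      refine prow_sum h1 ?_ fun l hl hne => ?_
      · rw [if_pos (by omega), prow_cast]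
      · split_ifs
        · exact prow_inv h2 hl hne
        · simp
    have := pn_mul_le (prow_mm (p := p) (v := d - 1) (by omega)) h3
    rwa [mul_inv_cancel₀ prow_pos.ne'] at this
  · rcases h1.eq_or_lt with rfl | h1
    · rw [cc_odd hodd]; simp
    · have h3 : padicNorm p (∑ v ∈ range (d - 1), mm v ^ 2) ≤ (p : ℚ) ^ 2 := by
        refine pn_sum_le (by positivity) fun v hv => ?_
        rw [pn_pow]
        exact pow_le_pow_left₀ (padicNorm.nonneg _)
          (prow_mm (by have := mem_range.1 hv; omega)) 2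
      have h4 : padicNorm p (3 / 2 - 1) ≤ 1 := pn_sub_le (pn_three_half hp) (by simp)
      have := pn_mul_le (pn_mul_le (pn_mul_le (prow_p (p := p)).le (pn_cc_lt hp h1 h2)) h4) h3
      refine this.trans (le_of_eq ?_)
      have := prow_pos (p := p)
      field_simp

theorem prow_HH {d : ℕ} (h1 : p ≤ d) (h2 : d < 2 * p) :
    padicNorm p (p * (HH d / d) - 1 / d) ≤ 1 := by
  have hp2 := (Fact.out : p.Prime).two_le
  have h3 : p * 2 ≤ p ^ 2 := by rw [sq]; exact Nat.mul_le_mul_left p hp2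
  have e : p * (HH d / d) - 1 / d = (p * HH d - 1) * (1 / d) := by ring
  have h4 : padicNorm p (p * HH d - 1) ≤ (p : ℚ)⁻¹ :=
    prow_sum h1 (by rw [prow_cast]) fun l hl hne => prow_inv h2 hl hne
  have := pn_mul_le h4 (pn_inv_nat_of_lt_sq (p := p) (l := d) (by omega))
  rwa [inv_mul_cancel₀ prow_pos.ne', ← e] at this

theorem F0_Psi (hp : p ≠ 2) (hγ : PI p γ) (hH : H < p ^ 2) (hP : Supp A H P) (hD : Supp A H D)
    {v : ℕ} (h1 : 1 ≤ v) (hv : v ≤ H) : padicNorm p (Psi γ P D v) ≤ (p : ℚ) ^ 2 := by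
  refine prow_comb hp (by positivity) (fun i hi => ?_) fun i hi => ?_
  · have := prow_supp hP hi
    have := prow_BM hp hγ (i := i) (v := v) (X := p ^ 2 - 1) (by omega) (by omega)
    rwa [prow_log_sq] at this
  · have := prow_supp hD hi
    have := pn_BZ (p := p) (i := i) (v := v) (X := p ^ 2 - 1) (by omega) (by omega)
    rwa [prow_log_sq] at this

theorem F0_ell (hp : p ≠ 2) (hH : H < p ^ 2) (hP : Supp A H P) (hD : Supp A H D) {v : ℕ}
    (h1 : 1 ≤ v) : padicNorm p (ell P D v) ≤ p := by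
  refine prow_comb hp (by positivity) (fun i hi => ?_) fun i hi => ?_
  · have := prow_supp hP hi
    have := pn_lm (p := p) (i := i) (v := v) (X := p ^ 2 - 1) (by omega)
    rwa [prow_log_sq, pow_one] at this
  · have := prow_supp hD hi
    have := pn_lz (p := p) (i := i) (v := v) (X := p ^ 2 - 1) (by omega)
    rwa [prow_log_sq, pow_one] at this

theorem F1_ell (hp : p ≠ 2) (hP : Supp A H P) (hD : Supp A H D) {v : ℕ} (hv : H < v + p) :
    padicNorm p (ell P D v) ≤ 1 := by
  have hp2 := (Fact.out : p.Prime).two_le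
  refine prow_comb hp zero_le_one (fun i hi => ?_) fun i hi => ?_
  · have := prow_supp hP hi
    have := pn_lm (p := p) (i := i) (v := v) (X := p - 1) (by omega)
    rwa [prow_log_one, pow_zero] at this
  · have := prow_supp hD hi
    have := pn_lz (p := p) (i := i) (v := v) (X := p - 1) (by omega)
    rwa [prow_log_one, pow_zero] at this

theorem F1_Psi (hp : p ≠ 2) (hγ : PI p γ) (hP : Supp A H P) (hD : Supp A H D) {v : ℕ}
    (hv : H < v + p) (hv' : v ≤ A + p) : padicNorm p (Psi γ P D v) ≤ 1 := by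
  have hp2 := (Fact.out : p.Prime).two_le
  refine prow_comb hp zero_le_one (fun i hi => ?_) fun i hi => ?_
  · have := prow_supp hP hi
    have := prow_BM hp hγ (i := i) (v := v) (X := p - 1) (by omega) (by omega)
    rwa [prow_log_one, mul_zero, pow_zero] at this
  · have := prow_supp hD hi
    have := pn_BZ (p := p) (i := i) (v := v) (X := p - 1) (by omega) (by omega)
    rwa [prow_log_one, mul_zero, pow_zero] at this

theorem F2 (hp : p ≠ 2) (hγ : PI p γ) (hP : Supp A H P) (hD : Supp A H D) {v : ℕ}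
    (hv : H < v + 2 * p) (hv' : v ≤ A + p) :
    padicNorm p (p * Psi γ P D v - ell P D v) ≤ 1 := by
  have hp2 := (Fact.out : p.Prime).two_le
  have e : p * Psi γ P D v - ell P D v = lin (fun i => p * BM γ i v - lm i v) P -
      3 / 2 * lin (fun i => p * BZ i v - lz i v) D := by
    rw [lin_fun_sub, lin_fun_sub, lin_fun_mul, lin_fun_mul, Psi, ell]
    ring
  rw [e]
  refine prow_comb hp zero_le_one (fun i hi => ?_) fun i hi => ?_
  · have := prow_supp hP hi
    by_cases hd : i + 1 ≤ p - 1 + v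
    · have h1 := prow_BM hp hγ (i := i) (v := v) (X := p - 1) hd (by omega)
      have h2 := pn_lm (p := p) (i := i) (v := v) (X := p - 1) hd
      rw [prow_log_one] at h1 h2
      refine pn_sub_le ?_ (by simpa using h2)
      simpa using pn_mul_le prow_p_le h1
    · have e1 : p * BM γ i v - lm i v = (p * AN (i + 1 - v) - mm (i + 1 - v - 1)) +
          ((4 * p : ℕ) : ℚ) * γ * cc (i + 1 - v) := by
        rw [BM, lm, if_pos (by omega), if_pos (by omega), show i + 1 - v - 1 = i - v by omega]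
        push_cast
        ring
      rw [e1]
      refine pn_add_le (prow_AN hp (by omega) (by omega)) ?_
      simpa using pn_mul_le (pn_mul_le (padicNorm.of_nat (p := p) (4 * p)) hγ)
        (pn_cc hp (i + 1 - v))
  · have := prow_supp hD hi
    by_cases hd : i + 1 ≤ p - 1 + v
    · have h1 := pn_BZ (p := p) (i := i) (v := v) (X := p - 1) hd (by omega)
      have h2 := pn_lz (p := p) (i := i) (v := v) (X := p - 1) hd
      rw [prow_log_one] at h1 h2
      refine pn_sub_le ?_ (by simpa using h2)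
      simpa using pn_mul_le prow_p_le h1
    · have e1 : ((i - v : ℕ) : ℚ) + 1 = ((i + 1 - v : ℕ) : ℚ) := by
        rw [show i + 1 - v = i - v + 1 by omega]
        push_cast
        rfl
      rw [BZ, lz, if_pos (by omega), if_pos (by omega), e1]
      exact prow_HH (by omega) (by omega)

end Crest.Agent.R6
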