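import Crest.Agent.R6.PRow

/-!
# Row 6: rank loss of the `p^{-2}` part.

Write `L = 44N, H = 49N, A = 14N, b = 6N`; for a row let `Ψ v = Psi …`, `ℓ v = ell …`;
`Ent = ∑_{b≤j<L} Q_j (Ψ(j+1) - ∑_{v∈[1,j]} ℓ v/(j+1-v))` (`Phi_eq_lin`, `Phi_X_pow`, `lin_eq_sum`).
Put `θ j = Ψ(j+1) - ∑_{v∈[1,j], p ∣ j+1-v} ℓ v/(j+1-v)` (norm `≤ p²`); the remaining terms have
norm `≤ p`.  For `j ∈ Jα = [max(b, H-p), min(p,L))` the sum in `θ j` is empty and `θ j` is integral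
(`F1_Psi`).  For `c ∈ Jβ = [max(b, H-2p), min(A, L-p, p))`: `θ c = Ψ(c+1)`,
`θ(c+p) = Ψ(c+p+1) - ℓ(c+1)/p`, so `‖θ c + θ(c+p)‖ ≤ p` (`F1_Psi`, `F2`), and
`Q_c θ c + Q_{c+p} θ(c+p) = (Q_c - Q_{c+p}) θ c + Q_{c+p}(θ c + θ(c+p))`.
Apply `pn_det_decomp` with `e0 = 1`, `e = 1`, `s = [b,L) \ Jα \ (Jβ + p)`, `a j r = θ_r j`,
`b j k = Q_{k,j} - [j ∈ Jβ] Q_{k,j+p}`.
-/

set_option autoImplicit false

namespace Crest.Agent.R6

open Polynomial Finset

theorem PoddS_split {T Ja Jb : Finset ℕ} {p : ℕ} (h1 : Ja ⊆ T) (h2 : Jb.image (· + p) ⊆ T \ Ja)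
    (h3 : Jb ⊆ (T \ Ja) \ Jb.image (· + p)) (θ Q : ℕ → ℚ) :
    ∑ j ∈ T, Q j * θ j = (∑ j ∈ Ja, Q j * θ j + ∑ c ∈ Jb, Q (c + p) * (θ c + θ (c + p))) +
      ∑ j ∈ (T \ Ja) \ Jb.image (· + p), θ j * (Q j - if j ∈ Jb then Q (j + p) else 0) := by
  rw [← sum_sdiff h1, ← sum_sdiff h2, sum_image fun a _ b _ h => Nat.add_right_cancel h]
  simp only [mul_sub, mul_ite, mul_zero, sum_sub_distrib, sum_ite_mem, inter_eq_right.2 h3, mul_add,
    sum_add_distrib]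
  simp only [mul_comm (θ _)]
  generalize (T \ Ja) \ Jb.image (· + p) = S
  ring

/-- the `p^{-2}` part of `Phi` on a monomial -/
def PoddS_th (p : ℕ) (γ : ℚ) (P D : ℤ[X]) (j : ℕ) : ℚ :=
  Psi γ P D (j + 1) - ∑ v ∈ (Icc 1 j).filter (fun v => p ∣ j + 1 - v), ell P D v / ((j + 1 - v : ℕ) : ℚ)

/-- the remaining part -/
def PoddS_rest (p : ℕ) (P D : ℤ[X]) (j : ℕ) : ℚ :=
  ∑ v ∈ (Icc 1 j).filter (fun v => ¬ p ∣ j + 1 - v), ell P D v / ((j + 1 - v : ℕ) : ℚ)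

theorem PoddS_Phi (p : ℕ) (γ : ℚ) (P D : ℤ[X]) (j : ℕ) :
    Phi γ P D (X ^ j) = PoddS_th p γ P D j - PoddS_rest p P D j := by
  rw [Phi_X_pow, PoddS_th, PoddS_rest, ← sum_filter_add_sum_filter_not (Icc 1 j)
    (fun v => p ∣ j + 1 - v)]
  ring

theorem PoddS_th_lt {p : ℕ} (γ : ℚ) (P D : ℤ[X]) {j : ℕ} (hj : j < p) :
    PoddS_th p γ P D j = Psi γ P D (j + 1) := by
  rw [PoddS_th, filter_false_of_mem, sum_empty, sub_zero]
  intro v hv hd
  rw [mem_Icc] at hv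
  have := Nat.le_of_dvd (by omega) hd
  omega

theorem PoddS_th_add {p : ℕ} (γ : ℚ) (P D : ℤ[X]) {c : ℕ} (hc : c < p) :
    PoddS_th p γ P D (c + p) = Psi γ P D (c + p + 1) - ell P D (c + 1) / p := by
  have e : (Icc 1 (c + p)).filter (fun v => p ∣ c + p + 1 - v) = {c + 1} := by
    ext v
    simp only [mem_filter, mem_Icc, mem_singleton]
    constructor
    · rintro ⟨hv, k, hk⟩
      have h1 : k ≠ 0 := by
        rintro rfl
        omega
      have h2 : k < 2 := by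
        by_contra h
        have := Nat.mul_le_mul_left p (not_lt.1 h)
        omega
      obtain rfl : k = 1 := by omega
      omega
    · rintro rfl
      exact ⟨by omega, 1, by omega⟩
  rw [PoddS_th, e, sum_singleton, show c + p + 1 - (c + 1) = p by omega]

section
variable {p : ℕ} [Fact p.Prime] {γ : ℚ} {A H : ℕ} {P D : ℤ[X]}

theorem PoddS_one_le : (1 : ℚ) ≤ p := by exact_mod_cast (Fact.out : p.Prime).one_lt.le

theorem PoddS_rest_le (hp : p ≠ 2) (hH : H < p ^ 2) (hP : Supp A H P) (hD : Supp A H D) (j : ℕ) :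
    padicNorm p (PoddS_rest p P D j) ≤ p := by
  refine pn_sum_le (Nat.cast_nonneg _) fun v hv => ?_
  rw [mem_filter, mem_Icc] at hv
  rw [div_eq_mul_one_div]
  simpa using pn_mul_le (F0_ell hp hH hP hD hv.1.1) (pn_inv_nat_of_not_dvd hv.2).le

theorem PoddS_th_le (hp : p ≠ 2) (hγ : PI p γ) (hH : H < p ^ 2) (hP : Supp A H P)
    (hD : Supp A H D) {j : ℕ} (hj : j < H) : padicNorm p (PoddS_th p γ P D j) ≤ (p : ℚ) ^ 2 := by
  refine pn_sub_le (F0_Psi hp hγ hH hP hD (by omega) hj) (pn_sum_le (by positivity) fun v hv => ?_)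
  rw [mem_filter, mem_Icc] at hv
  rw [div_eq_mul_one_div, sq]
  exact pn_mul_le (F0_ell hp hH hP hD hv.1.1) (pn_inv_nat_of_lt_sq (by omega))

theorem PoddS_th_pair (hp : p ≠ 2) (hγ : PI p γ) (hP : Supp A H P) (hD : Supp A H D) {c : ℕ}
    (h1 : c < p) (h2 : c < A) (h3 : H ≤ c + 2 * p) :
    padicNorm p (PoddS_th p γ P D c + PoddS_th p γ P D (c + p)) ≤ p := by
  have hp1 := (Fact.out : p.Prime).one_lt
  have hp0 : (p : ℚ) ≠ 0 := by exact_mod_cast (by omega : p ≠ 0)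
  have e : PoddS_th p γ P D c + PoddS_th p γ P D (c + p) =
      (p * Psi γ P D (c + 1) - ell P D (c + 1)) * (1 / p) + Psi γ P D (c + p + 1) := by
    rw [PoddS_th_lt γ P D h1, PoddS_th_add γ P D h1]
    field_simp
    ring
  rw [e]
  refine pn_add_le ?_ ((F1_Psi hp hγ hP hD (by omega) (by omega)).trans PoddS_one_le)
  simpa using pn_mul_le (F2 hp hγ hP hD (v := c + 1) (by omega) (by omega))
    (pn_inv_nat_of_lt_sq (p := p) (l := p) (by nlinarith))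

theorem PoddS_mul_le (a : ℤ) {x t : ℚ} (h : padicNorm p x ≤ t) : padicNorm p (a * x) ≤ t := by
  simpa using pn_mul_le (padicNorm.of_int (p := p) a) h

end

theorem odd_S {p : ℕ} [Fact p.Prime] (hp : p ≠ 2) {γ : ℚ} (hγ : PI p γ) {N : ℕ}
    (hH : 49 * N < p ^ 2) :
    padicNorm p (Delta γ N) ≤ (p : ℚ) ^ (36 * N + (38 * N
      - (min p (44 * N) - max (6 * N) (49 * N - p))
      - (min (14 * N) (min (44 * N - p) p) - max (6 * N) (49 * N - 2 * p)))) := by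
  obtain ⟨Ja, hJa⟩ : ∃ J, J = Ico (max (6 * N) (49 * N - p)) (min p (44 * N)) := ⟨_, rfl⟩
  obtain ⟨Jb, hJb⟩ : ∃ J, J = Ico (max (6 * N) (49 * N - 2 * p))
    (min (14 * N) (min (44 * N - p) p)) := ⟨_, rfl⟩
  have ma : ∀ j, j ∈ Ja ↔ (6 * N ≤ j ∧ 49 * N - p ≤ j) ∧ j < p ∧ j < 44 * N := fun j => by
    simp [hJa]
  have mb : ∀ j, j ∈ Jb ↔ (6 * N ≤ j ∧ 49 * N - 2 * p ≤ j) ∧ j < 14 * N ∧ j < 44 * N - p ∧ j < p :=
    fun j => by simp [hJb]
  have h1 : Ja ⊆ Ico (6 * N) (44 * N) := fun j hj => by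
    rw [ma] at hj
    rw [mem_Ico]
    omega
  have h2 : Jb.image (· + p) ⊆ Ico (6 * N) (44 * N) \ Ja := fun j hj => by
    obtain ⟨c, hc, rfl⟩ := mem_image.1 hj
    rw [mb] at hc
    rw [mem_sdiff, mem_Ico, ma]
    omega
  have h3 : Jb ⊆ (Ico (6 * N) (44 * N) \ Ja) \ Jb.image (· + p) := fun j hj => by
    rw [mb] at hj
    rw [mem_sdiff, mem_sdiff, mem_Ico, ma, mem_image]
    refine ⟨by omega, ?_⟩
    rintro ⟨c, -, hc⟩
    omega
  have key := pn_det_decomp (p := p) ((Ico (6 * N) (44 * N) \ Ja) \ Jb.image (· + p))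
    (fun r k : Fin (36 * N) => Ent γ N ((r : ℕ) - 3 * (N : ℤ)) (colQ N k))
    (fun r k => (∑ j ∈ Ja, ((colQ N k).coeff j : ℚ) *
        PoddS_th p γ (rowP N ((r : ℕ) - 3 * (N : ℤ))) (rowD N ((r : ℕ) - 3 * (N : ℤ))) j +
      ∑ c ∈ Jb, ((colQ N k).coeff (c + p) : ℚ) *
        (PoddS_th p γ (rowP N ((r : ℕ) - 3 * (N : ℤ))) (rowD N ((r : ℕ) - 3 * (N : ℤ))) c +
        PoddS_th p γ (rowP N ((r : ℕ) - 3 * (N : ℤ))) (rowD N ((r : ℕ) - 3 * (N : ℤ))) (c + p))) -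
      ∑ j ∈ Ico (6 * N) (44 * N), ((colQ N k).coeff j : ℚ) *
        PoddS_rest p (rowP N ((r : ℕ) - 3 * (N : ℤ))) (rowD N ((r : ℕ) - 3 * (N : ℤ))) j)
    (fun j r => PoddS_th p γ (rowP N ((r : ℕ) - 3 * (N : ℤ))) (rowD N ((r : ℕ) - 3 * (N : ℤ))) j)
    (fun j k => ((colQ N k).coeff j : ℚ) - if j ∈ Jb then ((colQ N k).coeff (j + p) : ℚ) else 0)
    1 (fun _ => 1) (fun r k => ?_) (fun r k => ?_) (fun j hj r => ?_) (fun j _ k => ?_)
  · rw [sum_const, smul_eq_mul, card_sdiff_of_subset h2, card_sdiff_of_subset h1,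
      card_image_of_injective _ (add_left_injective p), Nat.card_Ico, hJa, hJb, Nat.card_Ico,
      Nat.card_Ico, one_mul, mul_one, show 44 * N - 6 * N = 38 * N by omega] at key
    exact key
  · have hQ := colQ_supp' k
    rw [sub_add_eq_add_sub, ← PoddS_split h1 h2 h3 _ fun j => ((colQ N k).coeff j : ℚ),
      ← sum_sub_distrib, Ent, Phi_eq_lin, lin_eq_sum _ fun i hi => hQ i (Or.inr hi)]
    symm
    refine (sum_subset (fun j hj => mem_range.2 (mem_Ico.1 hj).2) fun j hj hj' => ?_).trans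
      (sum_congr rfl fun j _ => by rw [PoddS_Phi p, mul_sub])
    rw [mem_range] at hj
    rw [mem_Ico] at hj'
    rw [hQ j (Or.inl (by omega))]
    simp
  · have hP := rowP_supp' r
    have hD := rowD_supp' r
    rw [pow_one]
    refine pn_sub_le (pn_add_le (pn_sum_le (Nat.cast_nonneg _) fun j hj => PoddS_mul_le _ ?_)
      (pn_sum_le (Nat.cast_nonneg _) fun c hc => PoddS_mul_le _ ?_))
      (pn_sum_le (Nat.cast_nonneg _) fun j _ => PoddS_mul_le _ (PoddS_rest_le hp hH hP hD j))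
    · rw [ma] at hj
      rw [PoddS_th_lt _ _ _ hj.2.1]
      exact (F1_Psi hp hγ hP hD (by omega) (by omega)).trans PoddS_one_le
    · rw [mb] at hc
      exact PoddS_th_pair hp hγ hP hD (by omega) (by omega) (by omega)
  · have := (mem_Ico.1 (mem_sdiff.1 (mem_sdiff.1 hj).1).1).2
    exact PoddS_th_le hp hγ hH (rowP_supp' r) (rowD_supp' r) (by omega)
  · refine pn_sub_le (padicNorm.of_int _) ?_
    split_ifs
    · exact padicNorm.of_int _
    · simp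

end Crest.Agent.R6
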