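import Crest.Agent.R6.Seq

/-!
# Row 6: `mm` as an integral.

`1/√(1-t²)` is the nonnegative derivative of `arcsin` (`intervalIntegral.intervalIntegrable_deriv_of_nonneg`,
`integral_eq_sub_of_hasDerivAt_of_le`).  `I v = ∫_0^1 t^(v+1)/f`: `I 0 = 1` (primitive `-f`), and
`(t^(v+2) f)' = (v+2) t^(v+1)/f - (v+3) t^(v+3)/f` gives `(v+3) I(v+2) = (v+2) I v`.  The part over
`(-1,0)` is `(-1)^v I v` (`intervalIntegral.integral_comp_neg`).
-/

set_option autoImplicit false

namespace Crest.Agent.R6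

open MeasureTheory Set

theorem ff_pos {t : ℝ} (ht : t ∈ Ioo (-1 : ℝ) 1) : 0 < ff t := by
  exact Real.sqrt_pos.2 (by nlinarith [ht.1, ht.2])

theorem ff_le_one (t : ℝ) : ff t ≤ 1 := by
  exact Real.sqrt_le_one.2 (by nlinarith [sq_nonneg t])

theorem RB1_arcsin {t : ℝ} (ht : t ∈ Ioo (-1 : ℝ) 1) : HasDerivAt Real.arcsin (ff t)⁻¹ t := by
  simpa only [one_div, ff] using Real.hasDerivAt_arcsin ht.1.ne' ht.2.ne

theorem RB1_cont : Continuous ff := by
  unfold ff
  fun_prop

theorem RB1_deriv {t : ℝ} (ht : t ∈ Ioo (-1 : ℝ) 1) : HasDerivAt ff (-t / ff t) t := by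
  have h := ((hasDerivAt_pow 2 t).const_sub 1).sqrt (by nlinarith [ht.1, ht.2])
  have h0 := (ff_pos ht).ne'
  refine h.congr_deriv ?_
  rw [show √(1 - t ^ 2) = ff t from rfl]
  field_simp
  norm_num

theorem integrableOn_inv_ff : IntegrableOn (fun t => (ff t)⁻¹) (Ioo (-1 : ℝ) 1) := by
  exact (intervalIntegral.integrableOn_deriv_of_nonneg Real.continuous_arcsin.continuousOn
    (fun _ => RB1_arcsin) fun t ht => inv_nonneg.2 (ff_pos ht).le).mono_set Ioo_subset_Ioc_self

theorem integral_inv_ff : ∫ t in Ioo (-1 : ℝ) 1, (ff t)⁻¹ = Real.pi := by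
  rw [← integral_Ioc_eq_integral_Ioo, ← intervalIntegral.integral_of_le (by norm_num),
    intervalIntegral.integral_eq_sub_of_hasDerivAt_of_le (by norm_num)
      Real.continuous_arcsin.continuousOn (fun _ => RB1_arcsin)
      ((intervalIntegrable_iff_integrableOn_Ioo_of_le (by norm_num)).2 integrableOn_inv_ff)]
  simp

theorem RB1_int {g : ℝ → ℝ} (hg : Continuous g) (h : ∀ t ∈ Ioo (-1 : ℝ) 1, |g t| ≤ 1) :
    IntegrableOn (fun t => g t / ff t) (Ioo (-1 : ℝ) 1) := by
  refine Integrable.mono' integrableOn_inv_ff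
    (hg.measurable.div RB1_cont.measurable).aestronglyMeasurable
    ((ae_restrict_iff' measurableSet_Ioo).2 (Filter.Eventually.of_forall fun t ht => ?_))
  rw [Real.norm_eq_abs, abs_div, abs_of_pos (ff_pos ht), ← one_div]
  exact div_le_div_of_nonneg_right (h t ht) (ff_pos ht).le

theorem RB1_sub : Ioo (0 : ℝ) 1 ⊆ Ioo (-1) 1 := Ioo_subset_Ioo_left (by norm_num)

theorem RB1_ii (n : ℕ) : IntervalIntegrable (fun t => t ^ n / ff t) volume 0 1 :=
  (intervalIntegrable_iff_integrableOn_Ioo_of_le zero_le_one).2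
    ((RB1_int (by fun_prop) fun t ht => by
      rw [abs_pow]
      exact pow_le_one₀ (abs_nonneg _) (abs_lt.2 ht).le).mono_set RB1_sub)

theorem RB1_one : ∫ t in (0 : ℝ)..1, t ^ 1 / ff t = 1 := by
  rw [intervalIntegral.integral_eq_sub_of_hasDerivAt_of_le zero_le_one (f := fun t => -ff t)
    RB1_cont.neg.continuousOn (fun t ht => ?_) (RB1_ii 1)]
  · simp [ff]
  · simpa only [neg_div, neg_neg, pow_one] using (RB1_deriv (RB1_sub ht)).fun_neg

theorem RB1_rec (n : ℕ) : ((n : ℝ) + 2) * ∫ t in (0 : ℝ)..1, t ^ (n + 2) / ff t =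
    ((n : ℝ) + 1) * ∫ t in (0 : ℝ)..1, t ^ n / ff t := by
  have h1 := (RB1_ii n).const_mul ((n : ℝ) + 1)
  have h2 := (RB1_ii (n + 2)).const_mul ((n : ℝ) + 2)
  have h := intervalIntegral.integral_eq_sub_of_hasDerivAt_of_le zero_le_one
    (f := fun t => t ^ (n + 1) * ff t) ((continuous_pow _).mul RB1_cont).continuousOn
    (fun t ht => ?_) (h1.sub h2)
  · rw [intervalIntegral.integral_sub h1 h2, intervalIntegral.integral_const_mul,
      intervalIntegral.integral_const_mul] at h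
    have h3 : ff 1 = 0 := by simp [ff]
    rw [h3, mul_zero, zero_pow n.succ_ne_zero, zero_mul, sub_zero, sub_eq_zero] at h
    exact h.symm
  · have h0 := (ff_pos (RB1_sub ht)).ne'
    have h3 : ff t ^ 2 = 1 - t ^ 2 := Real.sq_sqrt (by nlinarith [ht.1, ht.2])
    refine ((hasDerivAt_pow (n + 1) t).fun_mul (RB1_deriv (RB1_sub ht))).congr_deriv ?_
    rw [Nat.add_sub_cancel]
    field_simp
    rw [h3]
    push_cast
    ring

theorem RB1_half (w : ℕ) : ∫ t in (0 : ℝ)..1, t ^ (2 * w + 1) / ff t = (mm (2 * w) : ℝ) / 2 := by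
  induction w with
  | zero => simpa [mm] using RB1_one
  | succ w ih =>
    have h := RB1_rec (2 * w + 1)
    rw [ih] at h
    rw [show 2 * (w + 1) + 1 = 2 * w + 1 + 2 by ring, show 2 * (w + 1) = 2 * w + 2 by ring, mm,
      eq_div_of_mul_eq (by positivity) ((mul_comm _ _).trans h)]
    push_cast
    field_simp
    ring

theorem integrableOn_mm (v : ℕ) : IntegrableOn (fun t => |t| * t ^ v / ff t) (Ioo (-1 : ℝ) 1) := by
  refine RB1_int (by fun_prop) fun t ht => ?_
  rw [abs_mul, abs_abs, abs_pow, ← pow_succ']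
  exact pow_le_one₀ (abs_nonneg _) (abs_lt.2 ht).le

theorem mm_half (w : ℕ) : ∫ t in Ioo (0 : ℝ) 1, t ^ (2 * w + 1) / ff t = (mm (2 * w) : ℝ) / 2 := by
  rw [← integral_Ioc_eq_integral_Ioo, ← intervalIntegral.integral_of_le zero_le_one, RB1_half]

theorem mm_integral (v : ℕ) : ∫ t in Ioo (-1 : ℝ) 1, |t| * t ^ v / ff t = (mm v : ℝ) := by
  have h1 : ∫ t in (0 : ℝ)..1, |t| * t ^ v / ff t = ∫ t in (0 : ℝ)..1, t ^ (v + 1) / ff t :=
    intervalIntegral.integral_congr fun t ht => by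
      rw [uIcc_of_le zero_le_one] at ht
      simp only [abs_of_nonneg ht.1, pow_succ']
  have h2 : ∫ t in (-1 : ℝ)..0, |t| * t ^ v / ff t =
      (-1) ^ v * ∫ t in (0 : ℝ)..1, t ^ (v + 1) / ff t := by
    have h := intervalIntegral.integral_comp_neg (a := 0) (b := 1) fun t : ℝ => |t| * t ^ v / ff t
    rw [neg_zero] at h
    rw [← h, ← h1, ← intervalIntegral.integral_const_mul]
    refine intervalIntegral.integral_congr fun t _ => ?_
    simp only [ff, abs_neg, neg_sq, neg_pow t]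
    ring
  rw [← integral_Ioc_eq_integral_Ioo, ← intervalIntegral.integral_of_le (by norm_num),
    ← intervalIntegral.integral_add_adjacent_intervals (b := 0)
      ((intervalIntegrable_iff_integrableOn_Ioo_of_le (by norm_num)).2
        ((integrableOn_mm v).mono_set (Ioo_subset_Ioo_right zero_le_one)))
      ((intervalIntegrable_iff_integrableOn_Ioo_of_le zero_le_one).2
        ((integrableOn_mm v).mono_set RB1_sub)), h1, h2]
  rcases Nat.even_or_odd' v with ⟨w, rfl | rfl⟩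
  · rw [RB1_half, pow_mul, neg_one_sq, one_pow, one_mul, add_halves]
  · rw [mm_odd (by omega), pow_succ, pow_mul, neg_one_sq, one_pow, one_mul, neg_one_mul,
      neg_add_cancel, Rat.cast_zero]

theorem RB1_le (v : ℕ) {a : ℝ} (ha : 0 < a) (h : a ≤ v + 2) : (mm v : ℝ) ≤ 3 / √a := by
  have h1 : ((v : ℝ) + 2) * (mm v : ℝ) ^ 2 ≤ 8 := by exact_mod_cast mm_sq_le v
  rw [le_div_iff₀ (Real.sqrt_pos.2 ha)]
  refine le_of_sq_le_sq ?_ (by norm_num)
  rw [mul_pow, Real.sq_sqrt ha.le]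
  nlinarith [sq_nonneg (mm v : ℝ)]

theorem RB1_nonneg (v : ℕ) : 0 ≤ (mm v : ℝ) := by exact_mod_cast mm_nonneg v

theorem summable_mm (i j : ℕ) : Summable fun u : ℕ => (mm (i + u) : ℝ) / ((j : ℝ) + u + 1) := by
  have h := ((summable_nat_add_iff 1).2
    (Real.summable_nat_rpow_inv.2 (by norm_num : (1 : ℝ) < 3 / 2))).mul_left 3
  refine h.of_nonneg_of_le (fun u => div_nonneg (RB1_nonneg _) (by positivity)) fun u => ?_
  have h0 : (0 : ℝ) < u + 1 := by positivity
  have h1 := RB1_le (i + u) h0 (by push_cast; linarith [Nat.cast_nonneg (α := ℝ) i])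
  calc (mm (i + u) : ℝ) / ((j : ℝ) + u + 1) ≤ 3 / √((u : ℝ) + 1) / (u + 1) :=
        div_le_div₀ (by positivity) h1 h0 (by linarith [Nat.cast_nonneg (α := ℝ) j])
    _ = _ := by
      rw [Nat.cast_succ, show (3 / 2 : ℝ) = 1 / 2 + 1 by norm_num, Real.rpow_add_one h0.ne',
        ← Real.sqrt_eq_rpow, div_div, div_eq_mul_inv]

theorem tendsto_mm : Filter.Tendsto (fun v : ℕ => (mm v : ℝ)) Filter.atTop (nhds 0) := by
  refine squeeze_zero RB1_nonneg (fun v => RB1_le v (by positivity) le_rfl) ?_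
  exact (Real.tendsto_sqrt_atTop.comp (Filter.tendsto_atTop_add_const_right _ 2
    tendsto_natCast_atTop_atTop)).const_div_atTop 3

end Crest.Agent.R6
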