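import Crest.Agent.R6.RBase1

/-!
# Row 6: `∑ mm u/(u+1) = 4G`.

Only even `u = 2w` contribute (`mm_odd`; `HasSum.even_add_odd` or `Function.Injective.hasSum_iff`).
`∑_w mm(2w)/(2w+1) = ∫_0^1 (2t/f) ∑ t^(2w)/(2w+1) = ∫_0^1 log((1+t)/(1-t))/f dt`
(`mm_half`, `hasSum_integral_of_summable_integral_norm`, `Real.hasSum_log_sub_log_of_abs_lt_one`).
Substitute `t = (1-y²)/(1+y²)` (`integral_image_eq_integral_abs_deriv_smul` on `Ioo 0 1`):
`(1+t)/(1-t) = y⁻²`, `f = 2y/(1+y²)`, `|t'| = 4y/(1+y²)²`, giving `∫_0^1 -4 log y/(1+y²) dy`.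
Expand `1/(1+y²) = ∑ (-1)^j y^(2j)`, `∫_0^1 -log y · y^k = 1/(k+1)²` (primitive
`y^(k+1)(1/(k+1)² - log y/(k+1))`), the norms `1/(2j+1)²` are summable.
-/

set_option autoImplicit false

namespace Crest.Agent.R6

open MeasureTheory Set

theorem RBase2_int (k : ℕ) :
    IntegrableOn (fun y : ℝ => -Real.log y * y ^ k) (Ioo (0 : ℝ) 1) := by
  have h : IntervalIntegrable (fun y : ℝ => -Real.log y * y ^ k) volume 0 1 :=
    (intervalIntegral.intervalIntegrable_log' (a := 0) (b := 1)).neg.mul_continuousOn (by fun_prop)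
  exact (intervalIntegrable_iff_integrableOn_Ioo_of_le zero_le_one).1 h

theorem RBase2_log (k : ℕ) :
    ∫ y in Ioo (0 : ℝ) 1, -Real.log y * y ^ k = 1 / ((k : ℝ) + 1) ^ 2 := by
  have hk : (0 : ℝ) < (k : ℝ) + 1 := by positivity
  rw [← integral_Ioc_eq_integral_Ioo, ← intervalIntegral.integral_of_le zero_le_one,
    intervalIntegral.integral_eq_sub_of_hasDerivAt_of_le
      (f := fun y : ℝ => y ^ (k + 1) / ((k : ℝ) + 1) ^ 2 - y ^ k * (y * Real.log y) / ((k : ℝ) + 1))
      zero_le_one]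
  · simp
  · refine Continuous.continuousOn (Continuous.sub (by fun_prop) (Continuous.div_const ?_ _))
    exact (continuous_pow k).mul Real.continuous_mul_log
  · intro y hy
    have hy0 : y ≠ 0 := hy.1.ne'
    have h1 : HasDerivAt (fun y : ℝ => y ^ (k + 1) * Real.log y)
        (((k + 1 : ℕ) : ℝ) * y ^ k * Real.log y + y ^ (k + 1) * y⁻¹) y := by
      exact (hasDerivAt_pow (k + 1) y).mul (Real.hasDerivAt_log hy0)
    have h0 : HasDerivAt (fun y : ℝ => y ^ (k + 1)) (((k + 1 : ℕ) : ℝ) * y ^ k) y :=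
      hasDerivAt_pow (k + 1) y
    have h2 : HasDerivAt (fun y : ℝ => y ^ (k + 1) / ((k : ℝ) + 1) ^ 2 -
        y ^ (k + 1) * Real.log y / ((k : ℝ) + 1)) _ y :=
      (h0.div_const (((k : ℝ) + 1) ^ 2)).sub (h1.div_const ((k : ℝ) + 1))
    refine (h2.congr_deriv ?_).congr_of_eventuallyEq (Filter.Eventually.of_forall fun z => ?_)
    · push_cast
      field_simp
      ring
    · ring
  · exact (intervalIntegrable_iff_integrableOn_Ioo_of_le zero_le_one).2 (RBase2_int k)

theorem RBase2_GG : ∫ y in Ioo (0 : ℝ) 1, -Real.log y / (1 + y ^ 2) = GG := by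
  have hs : Summable fun j : ℕ => 1 / ((2 * j + 1 : ℝ) ^ 2) := by
    have h := (summable_nat_add_iff 1).2 (Real.summable_one_div_nat_pow.2 one_lt_two)
    refine Summable.of_nonneg_of_le (fun j => by positivity) (fun j => ?_) h
    push_cast
    gcongr
    have : (0 : ℝ) ≤ j := Nat.cast_nonneg j
    linarith
  have h := hasSum_integral_of_summable_integral_norm (μ := volume.restrict (Ioo (0 : ℝ) 1))
    (F := fun (j : ℕ) (y : ℝ) => (-1 : ℝ) ^ j * (-Real.log y * y ^ (2 * j)))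
    (fun j => (RBase2_int (2 * j)).const_mul _) (by
      refine hs.congr fun j => ?_
      have := RBase2_log (2 * j)
      push_cast at this
      rw [← this]
      refine setIntegral_congr_fun measurableSet_Ioo fun y hy => ?_
      have h1 : 0 ≤ -Real.log y := by linarith [Real.log_nonpos hy.1.le hy.2.le]
      have h2 : 0 ≤ y ^ (2 * j) := pow_nonneg hy.1.le _
      simp only [norm_mul, norm_pow, norm_neg, norm_one, one_pow, one_mul, Real.norm_eq_abs]
      rw [← abs_neg, abs_of_nonneg h1, abs_of_pos hy.1])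
  have e1 : (fun j : ℕ => ∫ y in Ioo (0 : ℝ) 1, (-1 : ℝ) ^ j * (-Real.log y * y ^ (2 * j))) =
      fun j : ℕ => (-1 : ℝ) ^ j / ((2 * j + 1 : ℝ) ^ 2) := by
    funext j
    rw [integral_const_mul, RBase2_log]
    push_cast
    ring
  rw [e1] at h
  rw [GG, h.tsum_eq]
  refine setIntegral_congr_fun measurableSet_Ioo fun y hy => ?_
  have h1 : |(-y ^ 2)| < 1 := by
    rw [abs_neg, abs_of_nonneg (sq_nonneg y)]
    nlinarith [hy.1, hy.2]
  have h2 := (hasSum_geometric_of_abs_lt_one h1).mul_left (-Real.log y)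
  rw [show -Real.log y / (1 + y ^ 2) = -Real.log y * (1 - -y ^ 2)⁻¹ by ring, ← h2.tsum_eq]
  refine tsum_congr fun j => ?_
  rw [neg_pow (y ^ 2), ← pow_mul]
  ring

theorem RBase2_subst : ∫ t in Ioo (0 : ℝ) 1, (Real.log (1 + t) - Real.log (1 - t)) / ff t =
    ∫ y in Ioo (0 : ℝ) 1, 4 * (-Real.log y / (1 + y ^ 2)) := by
  have him : (fun y : ℝ => (1 - y ^ 2) / (1 + y ^ 2)) '' Ioo 0 1 = Ioo 0 1 := by
    ext t
    constructor
    · rintro ⟨y, hy, rfl⟩
      have h1 : 0 < 1 + y ^ 2 := by positivity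
      have h2 : 0 < y ^ 2 := pow_pos hy.1 2
      have h3 : y ^ 2 < 1 := by nlinarith [hy.1, hy.2]
      exact ⟨div_pos (by linarith) h1, (div_lt_one h1).2 (by linarith)⟩
    · intro ht
      have h1 : 0 < 1 + t := by linarith [ht.1]
      have h2 : 0 < (1 - t) / (1 + t) := div_pos (by linarith [ht.2]) h1
      refine ⟨√((1 - t) / (1 + t)), ⟨Real.sqrt_pos.2 h2, ?_⟩, ?_⟩
      · rw [Real.sqrt_lt' one_pos, one_pow, div_lt_one h1]
        linarith [ht.1]
      · simp only
        rw [Real.sq_sqrt h2.le]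
        field_simp
        ring
  have hd : ∀ y ∈ Ioo (0 : ℝ) 1, HasDerivWithinAt (fun y : ℝ => (1 - y ^ 2) / (1 + y ^ 2))
      (-(4 * y) / (1 + y ^ 2) ^ 2) (Ioo 0 1) y := by
    intro y _
    have h1 : (1 + y ^ 2) ≠ 0 := by positivity
    have h2 := ((hasDerivAt_pow 2 y).const_sub 1).div ((hasDerivAt_pow 2 y).const_add 1) h1
    refine HasDerivAt.hasDerivWithinAt (h2.congr_deriv ?_)
    push_cast
    ring
  have hi : InjOn (fun y : ℝ => (1 - y ^ 2) / (1 + y ^ 2)) (Ioo 0 1) := by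
    intro a ha b hb hab
    have h1 : (1 + a ^ 2) ≠ 0 := by positivity
    have h2 : (1 + b ^ 2) ≠ 0 := by positivity
    simp only at hab
    rw [div_eq_div_iff h1 h2] at hab
    have : a ^ 2 = b ^ 2 := by linarith
    exact (pow_left_inj₀ ha.1.le hb.1.le two_ne_zero).1 this
  have h := integral_image_eq_integral_abs_deriv_smul measurableSet_Ioo hd hi
    (fun t => (Real.log (1 + t) - Real.log (1 - t)) / ff t)
  rw [him] at h
  rw [h]
  refine setIntegral_congr_fun measurableSet_Ioo fun y hy => ?_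
  have hy0 := hy.1
  have h1 : 0 < 1 + y ^ 2 := by positivity
  have e1 : ff ((1 - y ^ 2) / (1 + y ^ 2)) = 2 * y / (1 + y ^ 2) := by
    rw [ff, Real.sqrt_eq_iff_mul_self_eq_of_pos (by positivity)]
    field_simp
    ring
  have e2 : 1 + (1 - y ^ 2) / (1 + y ^ 2) = 2 / (1 + y ^ 2) := by
    field_simp
    ring
  have e3 : 1 - (1 - y ^ 2) / (1 + y ^ 2) = 2 / (1 + y ^ 2) * y ^ 2 := by
    field_simp
    ring
  simp only [smul_eq_mul]
  rw [e1, e2, e3, Real.log_mul (by positivity) (by positivity), Real.log_pow, neg_div, abs_neg,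
    abs_of_pos (by positivity)]
  push_cast
  field_simp
  ring

theorem RBase2_mm (w : ℕ) :
    IntegrableOn (fun t : ℝ => t ^ (2 * w + 1) / ff t) (Ioo (0 : ℝ) 1) := by
  refine ((integrableOn_mm (2 * w)).mono_set (Ioo_subset_Ioo_left (by norm_num))).congr_fun
    (fun t ht => ?_) measurableSet_Ioo
  simp only
  rw [abs_of_pos ht.1]
  ring

theorem RBase2_even :
    HasSum (fun w : ℕ => (mm (2 * w) : ℝ) / (((2 * w : ℕ) : ℝ) + 1)) (4 * GG) := by
  have hs : Summable fun w : ℕ => (mm (2 * w) : ℝ) / (((2 * w : ℕ) : ℝ) + 1) := by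
    have := (summable_mm 0 0).comp_injective (i := fun w : ℕ => 2 * w)
      (mul_right_injective₀ two_ne_zero)
    refine this.congr fun w => ?_
    simp
  have e0 : ∀ w : ℕ, ∫ t in Ioo (0 : ℝ) 1, 2 / (2 * (w : ℝ) + 1) * (t ^ (2 * w + 1) / ff t) =
      (mm (2 * w) : ℝ) / (((2 * w : ℕ) : ℝ) + 1) := by
    intro w
    rw [integral_const_mul, mm_half]
    push_cast
    ring
  have h := hasSum_integral_of_summable_integral_norm (μ := volume.restrict (Ioo (0 : ℝ) 1))
    (F := fun (w : ℕ) (t : ℝ) => 2 / (2 * (w : ℝ) + 1) * (t ^ (2 * w + 1) / ff t))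
    (fun w => (RBase2_mm w).const_mul _) (by
      refine hs.congr fun w => ?_
      rw [← e0]
      refine setIntegral_congr_fun measurableSet_Ioo fun t ht => ?_
      have h1 := ff_pos (t := t) ⟨by linarith [ht.1], ht.2⟩
      have h2 := ht.1
      beta_reduce
      rw [Real.norm_of_nonneg (by positivity)])
  simp only [e0] at h
  suffices e : 4 * GG = ∫ t in Ioo (0 : ℝ) 1,
      ∑' w : ℕ, 2 / (2 * (w : ℝ) + 1) * (t ^ (2 * w + 1) / ff t) by rw [e]; exact h
  rw [← RBase2_GG, ← integral_const_mul, ← RBase2_subst]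
  refine setIntegral_congr_fun measurableSet_Ioo fun t ht => ?_
  have h1 : |t| < 1 := by rw [abs_of_pos ht.1]; exact ht.2
  have h2 := (Real.hasSum_log_sub_log_of_abs_lt_one h1).div_const (ff t)
  rw [← h2.tsum_eq]
  refine tsum_congr fun w => ?_
  ring

theorem hasSum_base1 : HasSum (fun u : ℕ => (mm u : ℝ) / ((u : ℝ) + 1)) (4 * GG) := by
  have h : HasSum (fun w : ℕ => (mm (2 * w + 1) : ℝ) / (((2 * w + 1 : ℕ) : ℝ) + 1)) 0 := by
    convert hasSum_zero with w
    rw [mm_odd (by omega)]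
    simp
  simpa using HasSum.even_add_odd (f := fun u : ℕ => (mm u : ℝ) / ((u : ℝ) + 1)) RBase2_even h

end Crest.Agent.R6
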