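import Crest.Agent.R6.RBase1

/-!
# Row 6: `∑ mm u/(u+2) = π²/4`.

Only even `u = 2w` contribute.  `∑_w mm(2w)/(2w+2) = ∫_0^1 (1/(t f)) ∑ t^(2w+2)/(w+1)
= ∫_0^1 -log(1-t²)/(t f) dt` (`mm_half`, `hasSum_integral_of_summable_integral_norm`,
`Real.hasSum_pow_div_log_of_abs_lt_one`).  Substitute `t = 2x/(1+x²)`
(`integral_image_eq_integral_abs_deriv_smul` on `Ioo 0 1`): `f = (1-x²)/(1+x²)`, `dt/(t f) = dx/x`, giving
`∫_0^1 (2/x)(log(1+x²) - log(1-x²)) dx = ∑_k 4 ∫ x^(4k+1)/(2k+1) = ∑_k 2/(2k+1)² = π²/4`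
(`hasSum_zeta_two`, remove the even terms).
-/

set_option autoImplicit false

namespace Crest.Agent.R6

open MeasureTheory Set

/-- The proof used here: `L k = ∫_0^{π/2} θ cos^k θ`, `(k+1) L k - (k+2) L (k+2) = 1/(k+2)`, so
`T k = (k+1) mm k L k` telescopes the series; `L k ≤ (π/2)/(k+1)` by Jordan's inequality. -/
noncomputable def RB3_L (k : ℕ) : ℝ := ∫ θ in (0 : ℝ)..Real.pi / 2, θ * Real.cos θ ^ k

theorem RB3_L_zero : RB3_L 0 = Real.pi ^ 2 / 8 := by
  simp only [RB3_L, pow_zero, mul_one, integral_id]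
  ring

theorem RB3_L_rec (k : ℕ) :
    ((k : ℝ) + 1) * RB3_L k - ((k : ℝ) + 2) * RB3_L (k + 2) = 1 / ((k : ℝ) + 2) := by
  have hk : (k : ℝ) + 2 ≠ 0 := by positivity
  have hd : ∀ θ ∈ uIcc (0 : ℝ) (Real.pi / 2), HasDerivAt
      (fun θ => -(θ * Real.cos θ ^ (k + 1) * Real.sin θ + Real.cos θ ^ (k + 2) / ((k : ℝ) + 2)))
      (((k : ℝ) + 1) * (θ * Real.cos θ ^ k) - ((k : ℝ) + 2) * (θ * Real.cos θ ^ (k + 2))) θ := by
    intro θ _
    have h := ((((hasDerivAt_id' θ).mul ((Real.hasDerivAt_cos θ).pow (k + 1))).mul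
      (Real.hasDerivAt_sin θ)).add (((Real.hasDerivAt_cos θ).pow (k + 2)).div_const
        ((k : ℝ) + 2))).neg
    refine h.congr_deriv ?_
    have h2 := Real.sin_sq_add_cos_sq θ
    simp only [Nat.add_sub_cancel, Pi.mul_apply, Pi.pow_apply,
      show k + 2 - 1 = k + 1 from rfl]
    push_cast
    rw [mul_assoc ((k : ℝ) + 2), mul_div_cancel_left₀ _ hk]
    linear_combination (((k : ℝ) + 1) * θ * Real.cos θ ^ k) * h2
  have h := intervalIntegral.integral_eq_sub_of_hasDerivAt hd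
    (Continuous.intervalIntegrable (by fun_prop) _ _)
  rw [intervalIntegral.integral_sub (Continuous.intervalIntegrable (by fun_prop) _ _)
    (Continuous.intervalIntegrable (by fun_prop) _ _), intervalIntegral.integral_const_mul,
    intervalIntegral.integral_const_mul] at h
  rw [RB3_L, RB3_L, h]
  simp

theorem RB3_L_nonneg (k : ℕ) : 0 ≤ RB3_L k :=
  intervalIntegral.integral_nonneg (by positivity) fun θ hθ => mul_nonneg hθ.1
    (pow_nonneg (Real.cos_nonneg_of_mem_Icc ⟨by linarith [hθ.1, Real.pi_pos], hθ.2⟩) _)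

theorem RB3_L_le (k : ℕ) : ((k : ℝ) + 1) * RB3_L k ≤ Real.pi / 2 := by
  have hd : ∀ θ ∈ uIcc (0 : ℝ) (Real.pi / 2), HasDerivAt
      (fun θ => -(Real.pi / 2 * Real.cos θ ^ (k + 1)))
      (((k : ℝ) + 1) * (Real.pi / 2 * Real.sin θ * Real.cos θ ^ k)) θ := by
    intro θ _
    refine (((Real.hasDerivAt_cos θ).pow (k + 1)).const_mul (Real.pi / 2)).neg.congr_deriv ?_
    simp only [Nat.add_sub_cancel]
    push_cast
    ring
  have h := intervalIntegral.integral_eq_sub_of_hasDerivAt hd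
    (Continuous.intervalIntegrable (by fun_prop) _ _)
  rw [intervalIntegral.integral_const_mul] at h
  have h1 : RB3_L k ≤ ∫ θ in (0 : ℝ)..Real.pi / 2, Real.pi / 2 * Real.sin θ * Real.cos θ ^ k := by
    refine intervalIntegral.integral_mono_on (by positivity)
      (Continuous.intervalIntegrable (by fun_prop) _ _)
      (Continuous.intervalIntegrable (by fun_prop) _ _) fun θ hθ => ?_
    refine mul_le_mul_of_nonneg_right ?_
      (pow_nonneg (Real.cos_nonneg_of_mem_Icc ⟨by linarith [hθ.1, Real.pi_pos], hθ.2⟩) _)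
    have := mul_le_mul_of_nonneg_left (Real.mul_le_sin hθ.1 hθ.2) (by positivity : 0 ≤ Real.pi / 2)
    rwa [← mul_assoc, show Real.pi / 2 * (2 / Real.pi) = 1 by field_simp, one_mul] at this
  refine (mul_le_mul_of_nonneg_left h1 (by positivity)).trans_eq ?_
  rw [h]
  simp

theorem hasSum_base2 : HasSum (fun u : ℕ => (mm u : ℝ) / ((u : ℝ) + 2)) (Real.pi ^ 2 / 4) := by
  obtain ⟨T, hT⟩ : ∃ T : ℕ → ℝ, ∀ k, T k = (mm k : ℝ) * (((k : ℝ) + 1) * RB3_L k) :=
    ⟨_, fun _ => rfl⟩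
  have hm : ∀ k, (0 : ℝ) ≤ mm k := fun k => by exact_mod_cast mm_nonneg k
  have hrec : ∀ k, T k - T (k + 2) = (mm k : ℝ) / ((k : ℝ) + 2) := fun k => by
    have h3 : (k : ℝ) + 3 ≠ 0 := by positivity
    have e : (mm (k + 2) : ℝ) * ((k : ℝ) + 3) = mm k * ((k : ℝ) + 2) := by
      rw [mm]
      push_cast
      field_simp
    rw [hT, hT, div_eq_mul_one_div, ← RB3_L_rec]
    push_cast
    linear_combination (-RB3_L (k + 2)) * e
  have hsum : ∀ n, ∑ u ∈ Finset.range n, (mm u : ℝ) / ((u : ℝ) + 2) =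
      Real.pi ^ 2 / 4 - T n - T (n + 1) := fun n => by
    induction n with
    | zero =>
      rw [hT, hT, RB3_L_zero]
      simp [mm]
      ring
    | succ n ih =>
      rw [Finset.sum_range_succ, ih, ← hrec]
      ring
  have hlim : Filter.Tendsto T Filter.atTop (nhds 0) := by
    refine squeeze_zero (fun k => ?_) (fun k => ?_)
      (by simpa using tendsto_mm.mul_const (Real.pi / 2))
    · rw [hT]
      exact mul_nonneg (hm k) (mul_nonneg (by positivity) (RB3_L_nonneg k))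
    · rw [hT]
      exact mul_le_mul_of_nonneg_left (RB3_L_le k) (hm k)
  rw [hasSum_iff_tendsto_nat_of_nonneg fun u => div_nonneg (hm u) (by positivity)]
  simp only [hsum]
  simpa using (tendsto_const_nhds.sub hlim).sub (hlim.comp (Filter.tendsto_add_atTop_nat 1))

end Crest.Agent.R6
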