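import Crest.Agent.R6.RSer
import Crest.Agent.R6.PiCancel

/-!
# Row 6: integral representation of the entries.

`Q = colQ N k`, `aeval s Q = s^(6N+k)(1-s)^(2N)`, so `0 ≤ (1-ts)⁻¹ Q(s) ≤ 1` for `t ≤ 1`, `s ∈ (0,1)`
(`1 - s ≤ 1 - ts`), `0 ≤ psi Q t ≤ 1`.  For `|t| < 1`: `psi Q t = ∑_u t^u κ u`,
`κ u = ∫_0^1 s^u Q = ∑_j Q_j/(j+u+1)`, `0 ≤ κ u ≤ ∫ s^u (1-s) = 1/((u+1)(u+2))`.
`|rho N m t| ≤ C/f t`, so `∫ rho · psi = ∑_u κ u λ u` (`hasSum_integral_of_summable_integral_norm`),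
`λ u = ∫ rho t^u = ∑_i (P_i mm(i+u) - 3/2 D_i/(i+u+1))` (`mm_integral`).  Finite sums of
`hasSum_M`, `hasSum_Z`; the `π²` terms cancel by `pi_cancel` (`π²/4 = 3/2 · π²/6`); `MG_eq`.
Measurability of `psi Q`: on `Ioo (-1) 1` it is the pointwise sum of the series (or
`StronglyMeasurable.integral_prod_right`).
-/

set_option autoImplicit false

namespace Crest.Agent.R6

open MeasureTheory Set Polynomial

theorem aeval_colQ (N k : ℕ) (s : ℝ) : aeval s (colQ N k) = s ^ (6 * N + k) * (1 - s) ^ (2 * N) := by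
  simp only [colQ, col, map_mul, map_pow, map_sub, map_one, aeval_X]
  ring

theorem RI_aeval (P : ℤ[X]) (t : ℝ) :
    aeval t P = ∑ i ∈ P.support, (P.coeff i : ℝ) * t ^ i := by
  rw [aeval_def, eval₂_eq_sum, Polynomial.sum]
  simp

theorem RI_St : volume.restrict St = volume.restrict (Ioo (-1 : ℝ) 1) :=
  Measure.restrict_congr_set (sdiff_null_ae_eq_self (by simp))

theorem RI_q {N : ℕ} (hN : 1 ≤ N) (k : ℕ) {s : ℝ} (hs : s ∈ Ioo (0 : ℝ) 1) :
    0 ≤ aeval s (colQ N k) ∧ aeval s (colQ N k) ≤ 1 - s := by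
  rw [aeval_colQ]
  have h1 : 0 ≤ 1 - s := by linarith [hs.2]
  have h2 : s ^ (6 * N + k) ≤ 1 := pow_le_one₀ hs.1.le hs.2.le
  have h3 : (1 - s) ^ (2 * N) ≤ (1 - s) ^ 1 :=
    pow_le_pow_of_le_one h1 (by linarith [hs.1]) (by omega)
  refine ⟨mul_nonneg (pow_nonneg hs.1.le _) (pow_nonneg h1 _), ?_⟩
  calc s ^ (6 * N + k) * (1 - s) ^ (2 * N) ≤ 1 * (1 - s) ^ 1 :=
        mul_le_mul h2 h3 (pow_nonneg h1 _) zero_le_one
    _ = 1 - s := by ring

theorem RI_ker {N : ℕ} (hN : 1 ≤ N) (k : ℕ) {t s : ℝ} (ht : t ∈ Ioo (-1 : ℝ) 1)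
    (hs : s ∈ Ioo (0 : ℝ) 1) : ‖(1 - t * s)⁻¹ * aeval s (colQ N k)‖ ≤ 1 := by
  obtain ⟨h1, h2⟩ := RI_q hN k hs
  have h3 : 1 - s ≤ 1 - t * s := by nlinarith [ht.2, hs.1]
  have h4 : 0 < 1 - t * s := by linarith [hs.2]
  rw [Real.norm_of_nonneg (mul_nonneg (inv_nonneg.2 h4.le) h1), inv_mul_le_iff₀ h4]
  linarith

theorem RI_ae {S : Set ℝ} (hS : MeasurableSet S) {p : ℝ → Prop} (h : ∀ x ∈ S, p x) :
    ∀ᵐ x ∂volume.restrict S, p x :=
  (ae_restrict_iff' hS).2 (Filter.Eventually.of_forall h)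

theorem RI_cont (P : ℤ[X]) : Continuous fun t : ℝ => aeval t P := P.continuous_aeval

theorem integrableOn_psi {N : ℕ} (hN : 1 ≤ N) {t : ℝ} (ht : t ∈ Ioo (-1 : ℝ) 1) (k' : ℕ) :
    IntegrableOn (fun s => (1 - t * s)⁻¹ * aeval s (colQ N k')) (Ioo (0 : ℝ) 1) := by
  refine Measure.integrableOn_of_bounded (M := 1) (by simp) ?_
    (RI_ae measurableSet_Ioo fun s hs => RI_ker hN k' ht hs)
  have := (RI_cont (colQ N k')).measurable
  exact Measurable.aestronglyMeasurable (by fun_prop)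

theorem RI_psi_meas (Q : ℤ[X]) : StronglyMeasurable (psi Q) := by
  have h := (RI_cont Q).measurable
  have : Measurable (Function.uncurry fun t s : ℝ => (1 - t * s)⁻¹ * aeval s Q) :=
    ((measurable_const.sub (measurable_fst.mul measurable_snd)).inv).mul (h.comp measurable_snd)
  exact this.stronglyMeasurable.integral_prod_right

theorem RI_psi_le {N : ℕ} (hN : 1 ≤ N) (k : ℕ) {t : ℝ} (ht : t ∈ Ioo (-1 : ℝ) 1) :
    ‖psi (colQ N k) t‖ ≤ 1 := by
  have := norm_setIntegral_le_of_norm_le_const (μ := volume) (s := Ioo (0 : ℝ) 1) (C := 1)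
    (f := fun s => (1 - t * s)⁻¹ * aeval s (colQ N k)) (by simp) fun s hs => RI_ker hN k ht hs
  simpa [psi] using this

theorem RI_ic {g : ℝ → ℝ} (hg : Continuous g) (a b : ℝ) : IntegrableOn g (Ioo a b) :=
  (hg.integrableOn_Icc).mono_set Ioo_subset_Icc_self

theorem RI_pow (n : ℕ) : ∫ s in Ioo (0 : ℝ) 1, s ^ n = 1 / ((n : ℝ) + 1) := by
  rw [← integral_Ioc_eq_integral_Ioo, ← intervalIntegral.integral_of_le zero_le_one, integral_pow]
  simp

/-- moments of a polynomial on `(0,1)` -/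
noncomputable def RIk (Q : ℤ[X]) (u : ℕ) : ℝ := ∫ s in Ioo (0 : ℝ) 1, s ^ u * aeval s Q

theorem RIk_eq (Q : ℤ[X]) (u : ℕ) :
    RIk Q u = ∑ j ∈ Q.support, (Q.coeff j : ℝ) * (1 / ((j : ℝ) + u + 1)) := by
  simp only [RIk, RI_aeval, Finset.mul_sum]
  rw [integral_finsetSum _ fun j _ => RI_ic (by fun_prop) _ _]
  refine Finset.sum_congr rfl fun j _ => ?_
  have : ∀ s : ℝ, s ^ u * ((Q.coeff j : ℝ) * s ^ j) = (Q.coeff j : ℝ) * s ^ (j + u) := by
    intro s; ring
  simp only [this]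
  rw [integral_const_mul, RI_pow]
  push_cast
  rfl

theorem RIk_nonneg {N : ℕ} (hN : 1 ≤ N) (k u : ℕ) : 0 ≤ RIk (colQ N k) u :=
  setIntegral_nonneg measurableSet_Ioo fun _ hs =>
    mul_nonneg (pow_nonneg hs.1.le _) (RI_q hN k hs).1

theorem RIk_summable {N : ℕ} (hN : 1 ≤ N) (k : ℕ) : Summable (RIk (colQ N k)) := by
  have h := (summable_nat_add_iff 1).2 (Real.summable_nat_pow_inv.2 (by norm_num : 1 < 2))
  refine h.of_nonneg_of_le (RIk_nonneg hN k) fun u => ?_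
  have := RI_cont (colQ N k)
  calc RIk (colQ N k) u ≤ ∫ s in Ioo (0 : ℝ) 1, (s ^ u - s ^ (u + 1)) := by
        refine setIntegral_mono_on (RI_ic (by fun_prop) _ _) (RI_ic (by fun_prop) _ _)
          measurableSet_Ioo fun s hs => ?_
        have := mul_le_mul_of_nonneg_left (RI_q hN k hs).2 (pow_nonneg hs.1.le u)
        rw [pow_succ]
        linarith
    _ = 1 / ((u : ℝ) + 1) - 1 / ((u : ℝ) + 2) := by
        rw [integral_sub (RI_ic (by fun_prop) _ _) (RI_ic (by fun_prop) _ _), RI_pow, RI_pow]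
        push_cast
        ring
    _ ≤ _ := by
        have h0 : (0 : ℝ) < u + 1 := by positivity
        rw [div_sub_div _ _ h0.ne' (by positivity), Nat.cast_succ, ← one_div,
          div_le_div_iff₀ (by positivity) (by positivity)]
        nlinarith

theorem RI_psi_hasSum {N : ℕ} (hN : 1 ≤ N) (k : ℕ) {t : ℝ} (ht : t ∈ Ioo (-1 : ℝ) 1) :
    HasSum (fun u => t ^ u * RIk (colQ N k) u) (psi (colQ N k) t) := by
  have hc := RI_cont (colQ N k)
  have ht' : |t| < 1 := abs_lt.2 ht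
  have h := hasSum_integral_of_summable_integral_norm (μ := volume.restrict (Ioo (0 : ℝ) 1))
    (F := fun u s => t ^ u * (s ^ u * aeval s (colQ N k))) (fun u => RI_ic (by fun_prop) _ _) (by
      refine (RIk_summable hN k).of_nonneg_of_le
        (fun u => integral_nonneg fun _ => norm_nonneg _) fun u => ?_
      refine setIntegral_mono_on (RI_ic (by fun_prop) _ _) (RI_ic (by fun_prop) _ _)
        measurableSet_Ioo fun s hs => ?_
      have h1 : 0 ≤ s ^ u * aeval s (colQ N k) :=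
        mul_nonneg (pow_nonneg hs.1.le _) (RI_q hN k hs).1
      rw [norm_mul, Real.norm_of_nonneg h1, Real.norm_eq_abs, abs_pow]
      exact mul_le_of_le_one_left h1 (pow_le_one₀ (abs_nonneg _) ht'.le))
  simp only [integral_const_mul] at h
  refine Eq.subst (motive := fun x => HasSum _ x) ?_ h
  symm
  refine setIntegral_congr_fun measurableSet_Ioo fun s hs => ?_
  have h2 : |t * s| < 1 := by
    rw [abs_mul, abs_of_pos hs.1]
    nlinarith [abs_nonneg t, hs.1, hs.2]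
  simp only [← mul_assoc, ← mul_pow]
  rw [tsum_mul_right, tsum_geometric_of_abs_lt_one h2]

theorem RI_P_int (P : ℤ[X]) (u : ℕ) :
    IntegrableOn (fun t => |t| * aeval t P / ff t * t ^ u) (Ioo (-1 : ℝ) 1) ∧
      ∫ t in Ioo (-1 : ℝ) 1, |t| * aeval t P / ff t * t ^ u =
        ∑ i ∈ P.support, (P.coeff i : ℝ) * (mm (i + u) : ℝ) := by
  have e : (fun t => |t| * aeval t P / ff t * t ^ u) =
      fun t => ∑ i ∈ P.support, (P.coeff i : ℝ) * (|t| * t ^ (i + u) / ff t) := by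
    funext t
    rw [RI_aeval, Finset.mul_sum, Finset.sum_div, Finset.sum_mul]
    exact Finset.sum_congr rfl fun i _ => by ring
  have hi : ∀ i ∈ P.support, Integrable (fun t => (P.coeff i : ℝ) * (|t| * t ^ (i + u) / ff t))
      (volume.restrict (Ioo (-1 : ℝ) 1)) := fun i _ => (integrableOn_mm (i + u)).const_mul _
  rw [e]
  refine ⟨integrable_finsetSum _ hi, ?_⟩
  rw [integral_finsetSum _ hi]
  simp only [integral_const_mul, mm_integral]

theorem RI_D_int (D : ℤ[X]) (u : ℕ) :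
    IntegrableOn (fun t : ℝ => (if 0 < t then 3 / 2 * aeval t D else 0) * t ^ u) (Ioo (-1 : ℝ) 1) ∧
      ∫ t in Ioo (-1 : ℝ) 1, (if 0 < t then 3 / 2 * aeval t D else 0) * t ^ u =
        3 / 2 * RIk D u := by
  have e : (fun t : ℝ => (if 0 < t then 3 / 2 * aeval t D else 0) * t ^ u) =
      (Ioi (0 : ℝ)).indicator fun t => 3 / 2 * (t ^ u * aeval t D) := by
    funext t
    by_cases h : 0 < t
    · rw [if_pos h, indicator_of_mem (show t ∈ Ioi 0 from h)]
      ring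
    · rw [if_neg h, indicator_of_notMem (show t ∉ Ioi 0 from h), zero_mul]
  have hc := RI_cont D
  rw [e]
  refine ⟨Integrable.indicator (RI_ic (by fun_prop) _ _) measurableSet_Ioi, ?_⟩
  rw [setIntegral_indicator measurableSet_Ioi, Ioo_inter_Ioi, integral_const_mul, RIk]
  norm_num

theorem RI_rho (N : ℕ) (m : ℤ) (u : ℕ) :
    IntegrableOn (fun t => rho N m t * t ^ u) (Ioo (-1 : ℝ) 1) ∧
      ∫ t in Ioo (-1 : ℝ) 1, rho N m t * t ^ u =
        ∑ i ∈ (rowP N m).support, ((rowP N m).coeff i : ℝ) * (mm (i + u) : ℝ) -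
          3 / 2 * RIk (rowD N m) u := by
  simp only [rho, sub_mul]
  obtain ⟨h1, h2⟩ := RI_P_int (rowP N m) u
  obtain ⟨h3, h4⟩ := RI_D_int (rowD N m) u
  exact ⟨h1.sub h3, by rw [integral_sub h1 h3, h2, h4]⟩

theorem RI_rho0 (N : ℕ) (m : ℤ) : IntegrableOn (rho N m) (Ioo (-1 : ℝ) 1) := by
  simpa using (RI_rho N m 0).1

theorem integrableOn_rho_psi {N : ℕ} (hN : 1 ≤ N) (m : ℤ) (k : ℕ) :
    IntegrableOn (fun t => rho N m t * psi (colQ N k) t) St := by
  unfold IntegrableOn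
  rw [RI_St]
  exact Integrable.mul_bdd (RI_rho0 N m) (RI_psi_meas _).aestronglyMeasurable
    (RI_ae measurableSet_Ioo fun t ht => RI_psi_le hN k ht)

theorem RI_main {N : ℕ} (hN : 1 ≤ N) (m : ℤ) (k : ℕ) :
    HasSum (fun u => (∫ t in Ioo (-1 : ℝ) 1, rho N m t * t ^ u) * RIk (colQ N k) u)
      (∫ t in Ioo (-1 : ℝ) 1, rho N m t * psi (colQ N k) t) := by
  have hi : ∀ u : ℕ, Integrable (fun t => rho N m t * t ^ u * RIk (colQ N k) u)
      (volume.restrict (Ioo (-1 : ℝ) 1)) := fun u => (RI_rho N m u).1.mul_const _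
  have h := hasSum_integral_of_summable_integral_norm (μ := volume.restrict (Ioo (-1 : ℝ) 1))
    (F := fun u t => rho N m t * t ^ u * RIk (colQ N k) u) hi (by
      refine ((RIk_summable hN k).mul_left (∫ t in Ioo (-1 : ℝ) 1, ‖rho N m t‖)).of_nonneg_of_le
        (fun u => integral_nonneg fun _ => norm_nonneg _) fun u => ?_
      rw [← integral_mul_const]
      refine setIntegral_mono_on (hi u).norm ((RI_rho0 N m).norm.mul_const _)
        measurableSet_Ioo fun t ht => ?_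
      rw [norm_mul, norm_mul, Real.norm_of_nonneg (RIk_nonneg hN k u)]
      refine mul_le_mul_of_nonneg_right (mul_le_of_le_one_right (norm_nonneg _) ?_)
        (RIk_nonneg hN k u)
      rw [Real.norm_eq_abs, abs_pow]
      exact pow_le_one₀ (abs_nonneg _) (abs_lt.2 ht).le)
  simp only [integral_mul_const] at h
  refine Eq.subst (motive := fun x => HasSum _ x) ?_ h
  symm
  refine setIntegral_congr_fun measurableSet_Ioo fun t ht => ?_
  simp only [mul_assoc]
  rw [tsum_mul_left, (RI_psi_hasSum hN k ht).tsum_eq]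

theorem RI_series (P D Q : ℤ[X]) :
    HasSum (fun u : ℕ => (∑ i ∈ P.support, (P.coeff i : ℝ) * (mm (i + u) : ℝ) - 3 / 2 * RIk D u) *
        RIk Q u)
      (∑ j ∈ Q.support, (Q.coeff j : ℝ) * ((∑ i ∈ P.support, (P.coeff i : ℝ) *
        ((MG 0 i j : ℝ) + 4 * GG * (cg i j : ℝ) + Real.pi ^ 2 / 4 * (cpi i j : ℝ))) -
        3 / 2 * ∑ i ∈ D.support, (D.coeff i : ℝ) *
          ((Z0 i j : ℝ) + if i = j then Real.pi ^ 2 / 6 else 0))) := by
  have h := hasSum_sum fun j (_ : j ∈ Q.support) =>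
    (((hasSum_sum fun i (_ : i ∈ P.support) => (hasSum_M i j).mul_left (P.coeff i : ℝ)).sub
      ((hasSum_sum fun i (_ : i ∈ D.support) =>
        (hasSum_Z i j).mul_left (D.coeff i : ℝ)).mul_left (3 / 2))).mul_left (Q.coeff j : ℝ))
  refine Eq.subst (motive := fun f => HasSum f _) (funext fun u => ?_) h
  symm
  rw [RIk_eq Q, Finset.mul_sum]
  refine Finset.sum_congr rfl fun j _ => ?_
  rw [RIk_eq D, mul_left_comm, sub_mul, mul_assoc, Finset.sum_mul, Finset.sum_mul]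
  congr 2
  · exact Finset.sum_congr rfl fun i _ => by ring
  · congr 1
    refine Finset.sum_congr rfl fun i _ => ?_
    rw [mul_assoc, div_mul_div_comm, one_mul]

theorem ent_integral {γ : ℚ} (hγ : (γ : ℝ) = GG) {N : ℕ} {m : ℤ} (h1 : -(3 * (N : ℤ)) ≤ m)
    (h2 : m < 33 * (N : ℤ)) {k : ℕ} (hk : k < 36 * N) :
    (Ent γ N m (colQ N k) : ℝ) = ∫ t in St, rho N m t * psi (colQ N k) t := by
  have hN : 1 ≤ N := by omega
  have h := RI_main hN m k
  simp only [(RI_rho N m _).2] at h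
  rw [RI_St, h.unique (RI_series _ _ _), Ent, Phi, bil_swap, bil_swap, ← lin_fun_mul,
    ← lin_fun_sub, lin, Polynomial.sum, Rat.cast_sum]
  refine Finset.sum_congr rfl fun j hj => ?_
  have hj' : j < 44 * N := by
    by_contra hc
    exact mem_support_iff.1 hj (colQ_supp N k j (Or.inr (by omega)))
  have hp : ∑ i ∈ (rowP N m).support, ((rowP N m).coeff i : ℝ) * (cpi i j : ℝ) =
      ((rowD N m).coeff j : ℝ) := by
    have := congrArg (fun x : ℚ => (x : ℝ)) (pi_cancel h1 h2 hj')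
    simpa [lin, Polynomial.sum] using this
  have hd : ∑ i ∈ (rowD N m).support, ((rowD N m).coeff i : ℝ) *
      (if i = j then Real.pi ^ 2 / 6 else 0) = ((rowD N m).coeff j : ℝ) * (Real.pi ^ 2 / 6) := by
    simp only [mul_ite, mul_zero, Finset.sum_ite_eq']
    split_ifs with h
    · rfl
    · rw [notMem_support_iff.1 h]
      simp
  have e1 : ∀ i, ((MG γ i j : ℚ) : ℝ) = (MG 0 i j : ℝ) + 4 * GG * (cg i j : ℝ) := by
    intro i
    rw [MG_eq γ, ← hγ]
    push_cast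
    rfl
  simp only [lin, Polynomial.sum]
  push_cast
  simp only [e1]
  congr 1
  simp only [mul_add, Finset.sum_add_distrib, hd]
  have e2 : ∑ i ∈ (rowP N m).support, ((rowP N m).coeff i : ℝ) * (Real.pi ^ 2 / 4 * (cpi i j : ℝ))
      = Real.pi ^ 2 / 4 * ((rowD N m).coeff j : ℝ) := by
    rw [← hp, Finset.mul_sum]
    exact Finset.sum_congr rfl fun i _ => by ring
  rw [e2]
  ring

end Crest.Agent.R6
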