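import Crest.Agent.R6.Basic
import Crest.Agent.R6.RBase1

/-!
# Row 6: the rows in the variable `x`.

`x = xx t`, `f = ff t`: `f² = 1 - t²`, `x⁻¹ = (1+f)/t`, `x + x⁻¹ = 2/t`, `x⁻¹ - x = 2f/t`.
By induction on `m ∈ ℤ` (`Chebyshev.induct`): `2 T_m(1/t) = x^m + x^(-m)` and
`2 (f/t) U_{m-1}(1/t) = x^(-m) - x^m`.  `aeval t (reflect C F) = t^C aeval t⁻¹ F`
(`eval₂_reflect_mul_pow`).
-/

set_option autoImplicit false

namespace Crest.Agent.R6

open Polynomial

theorem RRow_sq {t : ℝ} (ht : t ∈ St) : ff t ^ 2 = 1 - t ^ 2 :=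
  Real.sq_sqrt (by nlinarith [ht.1.1, ht.1.2])

theorem RRow_ne {t : ℝ} (ht : t ∈ St) : t ≠ 0 := ht.2

theorem RRow_rec {a b : ℤ → ℝ} {c : ℝ} (ha : ∀ n, a (n + 2) = c * a (n + 1) - a n)
    (hb : ∀ n, b (n + 2) = c * b (n + 1) - b n) (h0 : a 0 = b 0) (h1 : a 1 = b 1) (m : ℤ) :
    a m = b m := by
  induction m using Chebyshev.induct with
  | zero => exact h0
  | one => exact h1
  | add_two n h h' => rw [ha, hb, h, h']
  | neg_add_one n h h' =>
    have h2 := ha (-n - 1)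
    have h3 := hb (-n - 1)
    rw [show (-n - 1 + 2 : ℤ) = -n + 1 by ring, show (-n - 1 + 1 : ℤ) = -n by ring] at h2 h3
    rw [h, h', h3] at h2
    linarith

theorem RRow_pow {x : ℝ} (hx : x ≠ 0) (a b : ℝ) (n : ℤ) :
    a * x ^ (-(n + 2)) + b * x ^ (n + 2) =
      (x + x⁻¹) * (a * x ^ (-(n + 1)) + b * x ^ (n + 1)) - (a * x ^ (-n) + b * x ^ n) := by
  have h := zpow_ne_zero n hx
  simp only [zpow_neg, zpow_add₀ hx, zpow_ofNat]
  field_simp
  ring

theorem RRow_T {x y : ℝ} (hx : x ≠ 0) (h : 2 * y = x + x⁻¹) (m : ℤ) :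
    2 * aeval y (Chebyshev.T ℤ m) = 1 * x ^ (-m) + 1 * x ^ m := by
  refine RRow_rec (a := fun m => 2 * aeval y (Chebyshev.T ℤ m))
    (b := fun m => 1 * x ^ (-m) + 1 * x ^ m) (fun n => ?_) (RRow_pow hx 1 1) ?_ ?_ m
  · simp only [Chebyshev.T_add_two, map_sub, map_mul, aeval_X, map_ofNat, ← h]
    ring
  · norm_num
  · simp [h, add_comm]

theorem RRow_U {x y : ℝ} (hx : x ≠ 0) (h : 2 * y = x + x⁻¹) (m : ℤ) :
    (x⁻¹ - x) * aeval y (Chebyshev.U ℤ (m - 1)) = 1 * x ^ (-m) + -1 * x ^ m := by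
  refine RRow_rec (a := fun m => (x⁻¹ - x) * aeval y (Chebyshev.U ℤ (m - 1)))
    (b := fun m => 1 * x ^ (-m) + -1 * x ^ m) (fun n => ?_) (RRow_pow hx 1 (-1)) ?_ ?_ m
  · rw [show n + 2 - 1 = n - 1 + 2 by ring, show n + 1 - 1 = n - 1 + 1 by ring]
    simp only [Chebyshev.U_add_two, map_sub, map_mul, aeval_X, map_ofNat, ← h]
    ring
  · simp
  · simp [sub_eq_add_neg]

theorem RRow_reflect {t : ℝ} (ht : t ≠ 0) {c : ℕ} {F : ℤ[X]} (h : F.natDegree ≤ c) :
    aeval t (reflect c F) = t ^ c * aeval t⁻¹ F := by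
  have := invertibleOfNonzero (inv_ne_zero ht)
  have h1 := eval₂_reflect_mul_pow (algebraMap ℤ ℝ) t⁻¹ c F h
  rw [invOf_eq_inv, inv_inv] at h1
  rw [aeval_def, aeval_def, ← h1, inv_pow]
  field_simp

theorem xx_mem {t : ℝ} (ht : t ∈ St) : xx t ∈ St := by
  have h := ff_pos ht.1
  refine ⟨⟨?_, ?_⟩, div_ne_zero ht.2 (by positivity)⟩
  · rw [xx, lt_div_iff₀ (by positivity)]
    linarith [ht.1.1]
  · rw [xx, div_lt_iff₀ (by positivity)]
    linarith [ht.1.2]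

theorem xx_pos_iff {t : ℝ} (ht : t ∈ St) : 0 < xx t ↔ 0 < t := by
  have h := ff_pos ht.1
  exact div_pos_iff_of_pos_right (by positivity)

theorem t_eq_xx {t : ℝ} (ht : t ∈ St) : t = 2 * xx t / (1 + xx t ^ 2) := by
  have h := ff_pos ht.1
  have h1 := RRow_sq ht
  rw [eq_div_iff (by positivity), xx]
  field_simp
  linear_combination t * h1

theorem xx_injOn : Set.InjOn xx St := by
  intro s hs t ht h
  rw [t_eq_xx hs, h, ← t_eq_xx ht]

theorem xiX_xx {t : ℝ} (ht : t ∈ St) : xiX (xx t) = (t - 1) / (t + 3) := by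
  have h := t_eq_xx ht
  generalize xx t = x at h
  have h1 : 3 * x ^ 2 + 2 * x + 3 ≠ 0 := by nlinarith [sq_nonneg (x + 1), sq_nonneg x]
  have h2 : t + 3 ≠ 0 := by linarith [ht.1.1]
  rw [eq_div_iff (by positivity)] at h
  rw [xiX, div_eq_div_iff h1 h2]
  linear_combination (-4 : ℝ) * h

theorem log_one_sub_t {t : ℝ} (ht : t ∈ St) :
    Real.log (1 - t) = 2 * Real.log (1 - xx t) - Real.log (1 + xx t ^ 2) := by
  have h := t_eq_xx ht
  have h1 : 1 - xx t ≠ 0 := by linarith [(xx_mem ht).1.2]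
  generalize xx t = x at h h1
  rw [h, show 1 - 2 * x / (1 + x ^ 2) = (1 - x) ^ 2 / (1 + x ^ 2) by field_simp; ring,
    Real.log_div (pow_ne_zero _ h1) (by positivity), Real.log_pow, Nat.cast_ofNat]

theorem log_abs_t {t : ℝ} (ht : t ∈ St) :
    Real.log |t| = Real.log 2 + Real.log |xx t| - Real.log (1 + xx t ^ 2) := by
  have h := t_eq_xx ht
  have h1 := RRow_ne (xx_mem ht)
  generalize xx t = x at h h1
  rw [h, Real.log_abs, Real.log_abs, Real.log_div (by positivity) (by positivity),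
    Real.log_mul two_ne_zero h1]

theorem rho_eq {N : ℕ} {m : ℤ} (hm : m.natAbs + 1 ≤ 47 * N) {t : ℝ} (ht : t ∈ St) :
    rho N m t = (1 - t) ^ (2 * N) * t ^ (47 * N) / ff t * (if 0 < t then -1 / 4 else -1 / 2) *
      (xx t ^ (-m) + (if 0 < t then -5 else 1) * xx t ^ m) := by
  have h := ff_pos ht.1
  have h0 := RRow_ne ht
  have h1 := RRow_sq ht
  have h2 : 2 * t⁻¹ = xx t + (xx t)⁻¹ := by
    rw [xx]
    field_simp
    linear_combination (-1 : ℝ) * h1
  have h3 : (xx t)⁻¹ - xx t = 2 * ff t / t := by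
    rw [xx]
    field_simp
    linear_combination (-1 : ℝ) * h1
  have h4 := eq_div_of_mul_eq two_ne_zero
    ((mul_comm _ _).trans (RRow_T (RRow_ne (xx_mem ht)) h2 m))
  have h5 := RRow_U (RRow_ne (xx_mem ht)) h2 m
  rw [h3] at h5
  have h6 := eq_div_of_mul_eq (by positivity) ((mul_comm _ _).trans h5)
  have h7 : t ^ (47 * N) = t ^ (47 * N - 1) * t := by
    rw [← pow_succ]
    congr 1
    omega
  rw [rho, rowP, rowD, map_mul, map_mul,
    RRow_reflect h0 ((Chebyshev.natDegree_T ℤ m).trans_le (by omega)),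
    RRow_reflect h0 ((Basic_natDegree_U m).trans (by omega)), h4, h6, h7]
  simp only [map_pow, map_sub, map_one, aeval_X]
  split_ifs with h8
  · rw [abs_of_pos h8]
    field_simp
    ring
  · rw [abs_of_nonpos (not_lt.1 h8)]
    field_simp
    ring

end Crest.Agent.R6
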