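import Crest.Agent.R6.Defs

/-!
# Row 6: spectral bound and the weight on the imaginary segment.

`det_le_of_form`: `R = CFC.sqrt S` (or write `S = Bᴴ B` with `B` invertible,
`Matrix.posDef_iff_eq_conjTranspose_mul_self`-type lemma), `det (1 + Λ Bᵀ B) = det (1 + B Λ Bᵀ)`;
`M = B Λ Bᵀ` is symmetric, `|bᵀ M b| ≤ μ |b|²` (`b = B a`), so all eigenvalues of `M` have modulus
`≤ μ`; those of `1 + M` have modulus `≤ 1 + μ` (`Matrix.IsHermitian.det_eq_prod_eigenvalues` for `1 + M`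
with `|bᵀ(1+M)b| ≤ (1+μ)|b|²` at eigenvectors).
`weight_le`: `v = 0` trivial.  Let `τ = -log|v|`, `σ = -log|x|`, `G = ½ log((1+x²v²)/(x²+v²))`,
`f = (1-x²)/(1+x²)`.  (a) `G ≤ f τ`: `ψ(v) = log(1+x²v²) - log(x²+v²) + 2 f log v` has `ψ(1) = 0`,
`ψ' ≥ 0` on `(0,1]` (reduces to `x²(1-v²)² ≥ 0`).  (b) `f ≤ (4 + σ)/6`: with `y = x²`:
`y ≥ 1/5` trivial; `y ≤ 1/55`: `σ ≥ 2`; in between use tangent lines
`-log y ≥ log c + 1 - c y` (`c = 20` on `[1/55, 1/10]`, `c = 8` on `[1/10, 1/5]`).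
(c) `G ≤ min σ τ ≤ σ/3 + 2τ/3`.  With `n = 36N`: if `τ ≤ 2`,
`∑G - (30N-1)τ ≤ τ + (τ/2) ∑(σ-1)/3`; if `τ ≥ 2`, `≤ ∑σ/3 - (6N-1)τ ≤ ∑(σ-1)/3 + 2`.
-/

set_option autoImplicit false

namespace Crest.Agent.R6

open Finset

open Matrix in
open scoped MatrixOrder in
theorem det_le_of_form {n : ℕ} {S : Matrix (Fin n) (Fin n) ℝ} (hS : S.PosDef) (l : Fin n → ℝ)
    {μ : ℝ} (hμ : 0 ≤ μ)
    (h : ∀ a : Fin n → ℝ, |∑ j, l j * (∑ i, a i * S i j) ^ 2| ≤ μ * ∑ i, ∑ j, a i * a j * S i j) :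
    |Matrix.det (1 + Matrix.diagonal l * S)| ≤ (1 + μ) ^ n := by
  classical
  have hdet : S.det ≠ 0 := hS.det_pos.ne'
  obtain ⟨B, hB⟩ := CStarAlgebra.nonneg_iff_eq_star_mul_self.mp hS.posSemidef.nonneg
  have hBt : star B = Bᵀ := by
    ext i j; simp
  rw [hBt] at hB
  have hBdet : B.det ≠ 0 := by
    intro h0
    apply hdet
    rw [hB, Matrix.det_mul, h0, mul_zero]
  have hBu : IsUnit B.det := isUnit_iff_ne_zero.mpr hBdet
  have e1 : Matrix.det (1 + Matrix.diagonal l * S) =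
      Matrix.det (1 + B * (Matrix.diagonal l * Bᵀ)) := by
    rw [hB, ← Matrix.mul_assoc, Matrix.det_one_add_mul_comm]
  set M : Matrix (Fin n) (Fin n) ℝ := 1 + B * (Matrix.diagonal l * Bᵀ) with hM
  have hH : M.IsHermitian := by
    unfold Matrix.IsHermitian
    rw [hM]
    simp [Matrix.conjTranspose_eq_transpose_of_trivial, Matrix.transpose_mul, Matrix.mul_assoc]
  have key : ∀ b : Fin n → ℝ, |b ⬝ᵥ (M *ᵥ b)| ≤ (1 + μ) * (b ⬝ᵥ b) := by
    intro b
    set a : Fin n → ℝ := B⁻¹ *ᵥ b with ha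
    have hba : B *ᵥ a = b := by
      rw [ha, Matrix.mulVec_mulVec, Matrix.mul_nonsing_inv _ hBu, Matrix.one_mulVec]
    have hSa : ∀ j, ∑ i, a i * S i j = (Bᵀ *ᵥ b) j := by
      intro j
      have h1 : (Bᵀ *ᵥ b) = Sᵀ *ᵥ a := by
        rw [hB, Matrix.transpose_mul, Matrix.transpose_transpose, ← Matrix.mulVec_mulVec, hba]
      rw [h1]
      simp [Matrix.mulVec, dotProduct, mul_comm]
    have hq : ∑ i, ∑ j, a i * a j * S i j = b ⬝ᵥ b := by
      have h1 : ∑ i, ∑ j, a i * a j * S i j = a ⬝ᵥ (S *ᵥ a) := by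
        simp only [Matrix.mulVec, dotProduct, Finset.mul_sum]
        refine Finset.sum_congr rfl fun i _ => Finset.sum_congr rfl fun j _ => by ring
      rw [h1, hB, ← Matrix.mulVec_mulVec, Matrix.dotProduct_mulVec, Matrix.vecMul_transpose, hba]
    have hf : b ⬝ᵥ (M *ᵥ b) = b ⬝ᵥ b + ∑ j, l j * ((Bᵀ *ᵥ b) j) ^ 2 := by
      rw [hM, Matrix.add_mulVec, Matrix.one_mulVec, dotProduct_add, ← Matrix.mulVec_mulVec,
        ← Matrix.mulVec_mulVec, Matrix.dotProduct_mulVec b B, ← Matrix.mulVec_transpose]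
      congr 1
      simp only [dotProduct, Matrix.mulVec_diagonal]
      refine Finset.sum_congr rfl fun j _ => by ring
    have h2 := h a
    simp only [hSa] at h2
    rw [hq] at h2
    have hb : 0 ≤ b ⬝ᵥ b := by
      simp only [dotProduct]; exact Finset.sum_nonneg fun i _ => mul_self_nonneg _
    rw [hf]
    calc |b ⬝ᵥ b + ∑ j, l j * ((Bᵀ *ᵥ b) j) ^ 2| ≤ |b ⬝ᵥ b| + |∑ j, l j * ((Bᵀ *ᵥ b) j) ^ 2| :=
          abs_add_le _ _
      _ ≤ (1 + μ) * (b ⬝ᵥ b) := by rw [abs_of_nonneg hb]; linarith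
  rw [e1, hH.det_eq_prod_eigenvalues, Finset.abs_prod]
  have hev : ∀ i, |hH.eigenvalues i| ≤ 1 + μ := by
    intro i
    have h1 := hH.eigenvalues_eq i
    have h2 := key (hH.eigenvectorBasis i).ofLp
    have h3 : (hH.eigenvectorBasis i).ofLp ⬝ᵥ (hH.eigenvectorBasis i).ofLp = 1 := by
      have := hH.eigenvectorBasis.orthonormal.1 i
      have h4 := EuclideanSpace.real_norm_sq_eq (hH.eigenvectorBasis i)
      rw [this] at h4
      simp only [dotProduct]
      rw [one_pow] at h4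
      rw [h4]
      exact Finset.sum_congr rfl fun j _ => by ring
    rw [h3, mul_one] at h2
    rw [h1]
    simpa using h2
  calc ∏ i, |((hH.eigenvalues i : ℝ) : ℝ)| ≤ ∏ _i : Fin n, (1 + μ) :=
        Finset.prod_le_prod (fun i _ => abs_nonneg _) fun i _ => hev i
    _ = (1 + μ) ^ n := by simp

lemma ts3_a {y w : ℝ} (hy : 0 < y) (hy1 : y < 1) (hw : 0 < w) (hw1 : w ≤ 1) :
    Real.log ((1 + y * w) / (y + w)) ≤ -((1 - y) / (1 + y)) * Real.log w := by
  set f := (1 - y) / (1 + y) with hf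
  let ψ : ℝ → ℝ := fun t => Real.log (1 + y * t) - Real.log (y + t) + f * Real.log t
  have hd : ∀ t, 0 < t → HasDerivAt ψ (y / (1 + y * t) - 1 / (y + t) + f * t⁻¹) t := by
    intro t ht
    have h1 : HasDerivAt (fun t => 1 + y * t) y t := by
      simpa using ((hasDerivAt_id t).const_mul y).const_add 1
    have h2 : HasDerivAt (fun t => y + t) 1 t := by
      simpa using (hasDerivAt_id t).const_add y
    exact ((h1.log (by positivity)).sub (h2.log (by positivity))).add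
      ((Real.hasDerivAt_log ht.ne').const_mul f)
  have hmono : MonotoneOn ψ (Set.Ioi 0) := by
    refine monotoneOn_of_deriv_nonneg (convex_Ioi 0) ?_ ?_ ?_
    · exact fun t ht => (hd t ht).continuousAt.continuousWithinAt
    · rw [interior_Ioi]; exact fun t ht => (hd t ht).differentiableAt.differentiableWithinAt
    · rw [interior_Ioi]
      intro t ht
      have ht : 0 < t := ht
      rw [(hd t ht).deriv]
      have : y / (1 + y * t) - 1 / (y + t) + f * t⁻¹ =
          (1 - y) * (y * (1 - t) ^ 2) / ((1 + y) * t * (1 + y * t) * (y + t)) := by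
        rw [hf]; field_simp; ring
      rw [this]
      have : 0 < 1 - y := by linarith
      positivity
  have h1 := hmono (show w ∈ Set.Ioi (0 : ℝ) from hw) (show (1 : ℝ) ∈ Set.Ioi (0 : ℝ) from Set.mem_Ioi.mpr one_pos)
    hw1
  simp only [ψ, mul_one, Real.log_one, mul_zero, add_zero] at h1
  rw [add_comm y 1, sub_self] at h1
  rw [Real.log_div (by positivity) (by positivity)]
  linarith

lemma ts3_b {y : ℝ} (hy : 0 < y) (hy1 : y < 1) :
    (1 - y) / (1 + y) ≤ (4 - Real.log y / 2) / 6 := by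
  have hl := Real.log_two_gt_d9
  have ht : ∀ k : ℕ, Real.log y ≤ 2 ^ k * y - 1 - k * Real.log 2 := by
    intro k
    have h1 := Real.log_le_sub_one_of_pos (show 0 < (2 : ℝ) ^ k * y by positivity)
    rw [Real.log_mul (by positivity) hy.ne', Real.log_pow] at h1
    linarith
  rw [div_le_iff₀ (by positivity)]
  have h0 : Real.log y ≤ 0 := Real.log_nonpos hy.le hy1.le
  rcases le_total y (1 / 25) with h | h
  · have h5 := ht 5
    norm_num at h5
    have : Real.log y ≤ 32 * y - 4.465 := by linarith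
    nlinarith
  · rcases le_total y (1 / 5) with h' | h'
    · have h4 := ht 4
      norm_num at h4
      have : Real.log y ≤ 16 * y - 3.772 := by linarith
      nlinarith
    · nlinarith

lemma ts3_c {y w : ℝ} (hy : 0 < y) (hy1 : y ≤ 1) (hw : 0 < w) :
    Real.log ((1 + y * w) / (y + w)) ≤ -Real.log y := by
  rw [← Real.log_inv]
  refine Real.log_le_log (by positivity) ?_
  rw [div_le_iff₀ (by positivity), inv_mul_eq_div, le_div_iff₀ hy]
  nlinarith [mul_nonneg hw.le (show 0 ≤ 1 - y * y by nlinarith)]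

theorem weight_le {N : ℕ} (hN : 1 ≤ N) {x : Fin (36 * N) → ℝ} (hx : ∀ i, x i ∈ St) {v : ℝ}
    (hv : |v| ≤ 1) :
    |v| ^ (30 * N - 1) * ∏ k, √((1 + x k ^ 2 * v ^ 2) / (x k ^ 2 + v ^ 2)) ≤
      Real.exp (2 + max 0 (∑ k, (-Real.log |x k| - 1) / 3)) := by
  rcases eq_or_ne v 0 with rfl | hv0
  · rw [abs_zero, zero_pow (by omega), zero_mul]; positivity
  have hva : 0 < |v| := abs_pos.mpr hv0
  have hw : 0 < v ^ 2 := by positivity
  have hw1 : v ^ 2 ≤ 1 := by rw [← sq_abs]; nlinarith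
  have hx0 : ∀ k, x k ≠ 0 := fun k => (hx k).2
  have hy : ∀ k, 0 < x k ^ 2 := fun k => by have := hx0 k; positivity
  have hy1 : ∀ k, x k ^ 2 < 1 := fun k => by
    have := (hx k).1; nlinarith [this.1, this.2]
  set τ := -Real.log |v| with hτ
  have hτ0 : 0 ≤ τ := by have := Real.log_nonpos hva.le hv; linarith
  have hlw : Real.log (v ^ 2) = -2 * τ := by
    rw [hτ, Real.log_pow, Real.log_abs]; push_cast; ring
  have hly : ∀ k, Real.log (x k ^ 2) = 2 * Real.log |x k| := fun k => by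
    rw [Real.log_pow, Real.log_abs]; push_cast; ring
  set G : Fin (36 * N) → ℝ := fun k =>
    Real.log ((1 + x k ^ 2 * v ^ 2) / (x k ^ 2 + v ^ 2)) / 2 with hG
  have hsq : ∀ k, √((1 + x k ^ 2 * v ^ 2) / (x k ^ 2 + v ^ 2)) = Real.exp (G k) := fun k => by
    have hp : 0 < (1 + x k ^ 2 * v ^ 2) / (x k ^ 2 + v ^ 2) := by have := hy k; positivity
    rw [Real.sqrt_eq_iff_mul_self_eq hp.le (Real.exp_pos _).le, ← Real.exp_add, hG]
    simp only [add_halves]
    exact (Real.exp_log hp).symm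
  have hpow : |v| ^ (30 * N - 1) = Real.exp (-(30 * N - 1 : ℝ) * τ) := by
    have : (-(30 * N - 1 : ℝ) * τ) = ((30 * N - 1 : ℕ) : ℝ) * Real.log |v| := by
      rw [Nat.cast_sub (by omega), hτ]; push_cast; ring
    rw [this, Real.exp_nat_mul, Real.exp_log hva]
  simp only [hsq]
  rw [hpow, ← Real.exp_sum, ← Real.exp_add]
  apply Real.exp_le_exp.mpr
  set S := ∑ k, (-Real.log |x k| - 1) / 3 with hS
  have hN' : (1 : ℝ) ≤ N := by exact_mod_cast hN
  rcases le_total τ 2 with h2 | h2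
  · have hk : ∀ k, G k ≤ 5 / 6 * τ + τ / 2 * ((-Real.log |x k| - 1) / 3) := by
      intro k
      have ha := ts3_a (hy k) (hy1 k) hw hw1
      have hb := ts3_b (hy k) (hy1 k)
      rw [hlw] at ha
      rw [hly] at hb
      have := mul_le_mul_of_nonneg_right hb hτ0
      simp only [hG]
      nlinarith
    have hs := Finset.sum_le_sum fun k (_ : k ∈ Finset.univ) => hk k
    rw [Finset.sum_add_distrib, ← Finset.mul_sum (a := τ / 2), ← hS] at hs
    simp only [Finset.sum_const, Finset.card_univ, Fintype.card_fin, nsmul_eq_mul] at hs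
    push_cast at hs
    have h3 : τ / 2 * S ≤ max 0 S := by
      have h4 := le_max_left 0 S
      have h5 := le_max_right 0 S
      nlinarith
    nlinarith
  · have hk : ∀ k, G k ≤ (1 / 3 + 2 / 3 * τ) + (-Real.log |x k| - 1) / 3 := by
      intro k
      have ha := ts3_c (hy k) (hy1 k).le hw
      have hb := ts3_c hw hw1 (hy k)
      rw [hly] at ha
      rw [hlw, mul_comm (v ^ 2), add_comm (v ^ 2)] at hb
      simp only [hG]
      linarith
    have hs := Finset.sum_le_sum fun k (_ : k ∈ Finset.univ) => hk k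
    rw [Finset.sum_add_distrib, ← hS] at hs
    simp only [Finset.sum_const, Finset.card_univ, Fintype.card_fin, nsmul_eq_mul] at hs
    push_cast at hs
    have h5 := le_max_right 0 S
    nlinarith

end Crest.Agent.R6
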