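import Crest.Agent.R6.TS2c
import Crest.Agent.R6.TS3

/-!
# Row 6: the two-sheet bound.

`Sz x` is positive definite: symmetric, the form is `≥ 0` by `fa_circle`, and `det ≠ 0` by
`cauchy_det`, `VV_ne_zero` (`Matrix.PosSemidef.posDef_iff_det_ne_zero`-type lemma, or eigenvalues).
`two_sheet_alg` with `r0 = 30N - 1`, `g = 3N`; `det_le_of_form` with `μ = 6(1 + w/2)`,
`w = exp(2 + max …) ≥ 1` (`res_pos`, `res_neg`, `weight_le`); `1 + μ ≤ 10 w ≤ 100 exp(max …)`.
-/

set_option autoImplicit false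

namespace Crest.Agent.R6

open Finset

theorem TS_abs_lt {n : ℕ} {x : Fin n → ℝ} (hx : ∀ i, x i ∈ St) (i : Fin n) : |x i| < 1 :=
  abs_lt.2 (hx i).1

theorem TS_form_nonneg {n : ℕ} {x : Fin n → ℝ} (hx : ∀ i, x i ∈ St) (a : Fin n → ℝ) :
    0 ≤ ∑ i, ∑ j, a i * a j * (1 - x i * x j)⁻¹ := by
  have h1 := fa_circle (TS_abs_lt hx) a
  have h2 : 0 ≤ ∫ θ in (-Real.pi)..Real.pi, ‖fa x a (Complex.exp (θ * Complex.I))‖ ^ 2 :=
    intervalIntegral.integral_nonneg (by linarith [Real.pi_pos]) fun θ _ => by positivity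
  rw [h1] at h2
  exact nonneg_of_mul_nonneg_right h2 (by positivity)

theorem Sz_posDef {n : ℕ} {x : Fin n → ℝ} (hx : ∀ i, x i ∈ St) (hi : Function.Injective x) :
    (Sz x).PosDef := by
  have h1 : (Sz x).PosSemidef := by
    refine Matrix.posSemidef_iff_dotProduct_mulVec.2 ⟨?_, fun a => ?_⟩
    · ext i j
      simp [Sz, mul_comm]
    · refine (TS_form_nonneg hx a).trans (le_of_eq ?_)
      simp only [dotProduct, Matrix.mulVec, Sz, Matrix.of_apply, star_trivial, mul_sum]
      exact sum_congr rfl fun i _ => sum_congr rfl fun j _ => by ring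
  refine h1.posDef_iff_det_ne_zero.2 fun h0 => ?_
  have h2 : ∀ i j, 1 - x i * x j ≠ 0 := fun i j => by
    have := abs_lt.1 (show |x i * x j| < 1 by
      rw [abs_mul]
      exact mul_lt_one_of_nonneg_of_lt_one_left (abs_nonneg _) (TS_abs_lt hx i) (TS_abs_lt hx j).le)
    linarith [this.2]
  have h3 := cauchy_det x x h2
  rw [show Matrix.det (Matrix.of fun i j => (1 - x i * x j)⁻¹) = 0 from h0, zero_mul] at h3
  exact mul_ne_zero (VV_ne_zero hi) (VV_ne_zero hi) h3.symm

theorem two_sheet {N : ℕ} (hN : 1 ≤ N) {x : Fin (36 * N) → ℝ} (hx : ∀ i, x i ∈ St)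
    (hi : Function.Injective x) :
    |Matrix.det (Matrix.of fun r i : Fin (36 * N) =>
        x i ^ (-((r : ℕ) - 3 * (N : ℤ))) +
          (if 0 < x i then -5 else 1) * x i ^ (((r : ℕ) : ℤ) - 3 * (N : ℤ)))| ≤
      |VV x| * (∏ i, |x i|⁻¹ ^ (33 * N - 1)) *
        (100 * Real.exp (max 0 (∑ k, (-Real.log |x k| - 1) / 3))) ^ (36 * N) := by
  have h1 := two_sheet_alg (n := 36 * N) (g := 3 * N) (r0 := 30 * N - 1) (by omega) hx hi
    fun i => if 0 < x i then -5 else 1
  rw [show 30 * N - 1 + 3 * N = 33 * N - 1 by omega] at h1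
  push_cast at h1
  rw [h1]
  refine mul_le_mul_of_nonneg_left ?_ (mul_nonneg (abs_nonneg _) (prod_nonneg fun i _ => by positivity))
  set M := max 0 (∑ k, (-Real.log |x k| - 1) / 3) with hM
  set w := Real.exp (2 + M) with hw
  have hw0 : 0 < w := Real.exp_pos _
  have hW : ∀ v : ℝ, |v| ≤ 1 →
      |v| ^ (30 * N - 1) * ∏ k, √((1 + x k ^ 2 * v ^ 2) / (x k ^ 2 + v ^ 2)) ≤ w :=
    fun v hv => weight_le hN hx hv
  refine (det_le_of_form (Sz_posDef hx hi) _ (μ := 6 * (1 + w / 2)) (by positivity) fun a => ?_).trans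
    (pow_le_pow_left₀ (by positivity) ?_ _)
  · have p1 := res_pos hx hi _ hW a
    have p2 := res_neg hx hi _ hW a
    have e : ∑ j, ((if 0 < x j then -5 else 1) * lam x (30 * N - 1) j) * (∑ i, a i * Sz x i j) ^ 2 =
        -5 * ∑ j ∈ univ.filter (fun j => 0 < x j),
          lam x (30 * N - 1) j * (∑ i, a i * (1 - x i * x j)⁻¹) ^ 2 +
        ∑ j ∈ univ.filter (fun j => x j < 0),
          lam x (30 * N - 1) j * (∑ i, a i * (1 - x i * x j)⁻¹) ^ 2 := by
      rw [sum_filter, sum_filter, mul_sum, ← sum_add_distrib]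
      refine sum_congr rfl fun j _ => ?_
      simp only [Sz, Matrix.of_apply]
      rcases lt_trichotomy (x j) 0 with h | h | h
      · rw [if_neg h.not_gt, if_neg h.not_gt, if_pos h]
        ring
      · exact absurd h (hx j).2
      · rw [if_pos h, if_pos h, if_neg h.not_gt]
        ring
    rw [e]
    refine (abs_add_le _ _).trans ?_
    rw [abs_mul, show |(-5 : ℝ)| = 5 by norm_num]
    simp only [Sz, Matrix.of_apply]
    linarith
  · have h2 : 1 ≤ Real.exp M := Real.one_le_exp (le_max_left _ _)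
    have h3 : Real.exp 2 ≤ 9 := by
      have := Real.exp_one_lt_d9
      have h4 : Real.exp 2 = Real.exp 1 ^ 2 := by rw [← Real.exp_nat_mul]; norm_num
      rw [h4]
      nlinarith [Real.exp_pos 1]
    have h5 : w ≤ 9 * Real.exp M := by
      rw [hw, Real.exp_add]
      exact mul_le_mul_of_nonneg_right h3 (by positivity)
    linarith

end Crest.Agent.R6
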