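import Crest.Agent.R6.EN1
import Crest.Agent.R6.EN2
import Crest.Agent.R6.TS
import Crest.Agent.R6.RRow
import Crest.Agent.R6.RInt

/-!
# Row 6: pointwise bound for the integrand.

`point_log`: with `x i = xx (t i)`; `energy_one T₁` at `x`, `energy_one T₃` at `2s - 1`
(`VV (2s-1) = 2^(n(n-1)/2) VV s`, i.e. `log|VV s| = log|VV(2s-1)| - (648N² - 18N) log 2`),
`mobius` + `energy_two T₂` at `xiX x = (t-1)/(t+3)` and `etaS s`; `log_one_sub_t`, `log_abs_t`;
sum `Gx ≤ Mx`, `Gs ≤ Ms` over the `36N` points.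
`point_bound`: if `t` or `s` is not injective a determinant vanishes (`Matrix.det_zero_of_column_eq`).
Otherwise `rho_eq` + `Matrix.det_mul_row`-type lemmas + `two_sheet`; the column determinant is
`∏ s^(6N)(1-s)^(2N) · VV s` (`aeval_colQ`, `det_vandermonde`, transpose).  According to which term
realises the `max` use `Cert 0` or `Cert 12` (`36N · ∑(σ-1)/3 = -N ∑ 12 (log|x| + 1)`);
`|x|⁻¹^(33N-1) ≤ |x|⁻¹^(33N)`, `100^(36N) ≤ exp(0.01 N²)`.
-/

set_option autoImplicit false

namespace Crest.Agent.R6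

open Finset Filter Polynomial

theorem RPoint_VV_two {n : ℕ} {s : Fin n → ℝ} (hs : Function.Injective s) :
    2 * Real.log |VV fun j => 2 * s j - 1| = n * (n - 1) * Real.log 2 + 2 * Real.log |VV s| := by
  rw [log_abs_VV hs, log_abs_VV (a := fun j => 2 * s j - 1) fun i j h => hs (by linarith)]
  have e : ∀ i : Fin n, ∑ j ∈ univ.erase i, Real.log |2 * s i - 1 - (2 * s j - 1)| =
      (n - 1) * Real.log 2 + ∑ j ∈ univ.erase i, Real.log |s i - s j| := by
    intro i
    have h1 : ((#(univ.erase i) : ℕ) : ℝ) = n - 1 := by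
      rw [card_erase_of_mem (mem_univ i), card_univ, Fintype.card_fin, Nat.cast_sub i.pos, Nat.cast_one]
    rw [← h1, ← nsmul_eq_mul, ← sum_const, ← sum_add_distrib]
    refine sum_congr rfl fun j hj => ?_
    rw [show 2 * s i - 1 - (2 * s j - 1) = 2 * (s i - s j) by ring, abs_mul, abs_two,
      Real.log_mul two_ne_zero (abs_ne_zero.2 (sub_ne_zero.2 fun h => (mem_erase.1 hj).1 (hs h).symm))]
  simp only [e, sum_add_distrib, sum_const, card_univ, Fintype.card_fin, nsmul_eq_mul]
  ring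

theorem point_log {α : ℝ} (h : Cert α) : ∀ᶠ N : ℕ in atTop, ∀ t s : Fin (36 * N) → ℝ,
    (∀ i, t i ∈ St) → (∀ j, s j ∈ Set.Ioo (0 : ℝ) 1) → Function.Injective t → Function.Injective s →
      ∑ i, (2 * N * Real.log (1 - t i) + 47 * N * Real.log |t i| - 33 * N * Real.log |xx (t i)|
          - N * α * (Real.log |xx (t i)| + 1))
        + Real.log |VV fun i => xx (t i)|
        + Real.log |Matrix.det (Matrix.of fun i j => (1 - t i * s j)⁻¹)|
        + ∑ j, (6 * N * Real.log (s j) + 2 * N * Real.log (1 - s j)) + Real.log |VV s|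
        ≤ -2504.58 * (N : ℝ) ^ 2 := by
  obtain ⟨T₁, T₂, T₃, ε, Mx, Ms, hε, hx, hs, hc⟩ := h
  filter_upwards [energy_one T₁ (ε := 0.005) (by norm_num), energy_one T₃ (ε := 0.005) (by norm_num),
    energy_two T₂ (ε := 0.005) (by norm_num) hε, eventually_ge_atTop 10800] with N h1 h3 h2 hN t s ht hs' hti hsi
  have hN' : (10800 : ℝ) ≤ N := by exact_mod_cast hN
  have e1 := h1 (fun i => xx (t i)) (fun i => abs_le.2 ⟨(xx_mem (ht i)).1.1.le, (xx_mem (ht i)).1.2.le⟩)
    fun i j h => hti (xx_injOn (ht i) (ht j) h)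
  have e3 := h3 (fun j => 2 * s j - 1)
    (fun j => abs_le.2 ⟨by linarith [(hs' j).1], by linarith [(hs' j).2]⟩) fun i j h => hsi (by linarith)
  have e2 := h2 (fun i => (t i - 1) / (t i + 3)) (fun j => etaS (s j))
    (fun i => by
      have a := (ht i).1.1
      have b := (ht i).1.2
      exact ⟨by rw [le_div_iff₀ (by linarith)]; linarith, div_neg_of_neg_of_pos (by linarith) (by linarith)⟩)
    (fun j => by
      have a := (hs' j).1
      have b := (hs' j).2
      exact ⟨div_pos (by linarith) (by linarith), by rw [etaS, div_le_one (by linarith)]; linarith⟩)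
    (fun i j h => hti (by
      have a := (ht i).1.1
      have b := (ht j).1.1
      simp only at h
      rw [div_eq_div_iff (by linarith) (by linarith)] at h
      linarith))
    (fun i j h => hsi (by
      have a := (hs' i).1
      have b := (hs' j).1
      simp only [etaS] at h
      rw [div_eq_div_iff (by linarith) (by linarith)] at h
      linarith))
  have e4 := mobius (fun i => (ht i).1) hs' hti hsi
  have e5 := RPoint_VV_two hsi
  have e6 : ∑ i, (2 * N * Real.log (1 - t i) + 47 * N * Real.log |t i| - 33 * N * Real.log |xx (t i)|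
        - N * α * (Real.log |xx (t i)| + 1)) + N * ∑ i, T₁.pot (xx (t i)) +
      N * ∑ i, (T₂.pot ((t i - 1) / (t i + 3)) - ε * Real.log (-((t i - 1) / (t i + 3)))) ≤
      N * (36 * N * Mx) := by
    rw [mul_sum, mul_sum, ← sum_add_distrib, ← sum_add_distrib]
    refine (sum_le_card_nsmul _ _ (N * Mx) fun i _ => ?_).trans (le_of_eq ?_)
    · refine le_trans (le_of_eq ?_) (mul_le_mul_of_nonneg_left (hx _ (xx_mem (ht i))) (Nat.cast_nonneg N))
      rw [Gx, xiX_xx (ht i), log_one_sub_t (ht i), log_abs_t (ht i)]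
      ring
    · rw [card_univ, Fintype.card_fin, nsmul_eq_mul]
      push_cast
      ring
  have e7 : ∑ j, (6 * N * Real.log (s j) + 2 * N * Real.log (1 - s j)) + N * ∑ j, T₃.pot (2 * s j - 1) +
      N * ∑ j, (-T₂.pot (etaS (s j)) - ε * Real.log (etaS (s j))) ≤ N * (36 * N * Ms) := by
    rw [mul_sum, mul_sum, ← sum_add_distrib, ← sum_add_distrib]
    refine (sum_le_card_nsmul _ _ (N * Ms) fun j _ => ?_).trans (le_of_eq ?_)
    · refine le_trans (le_of_eq ?_) (mul_le_mul_of_nonneg_left (hs _ (hs' j)) (Nat.cast_nonneg N))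
      rw [Gs]
      ring
    · rw [card_univ, Fintype.card_fin, nsmul_eq_mul]
      push_cast
      ring
  have e8 := mul_le_mul_of_nonneg_left hc (sq_nonneg (N : ℝ))
  have e9 : N * Real.log 2 ≤ N * 1 :=
    mul_le_mul_of_nonneg_left (by linarith [Real.log_two_lt_d9]) (Nat.cast_nonneg N)
  have e10 : 10800 * (N : ℝ) ≤ N * N := mul_le_mul_of_nonneg_right hN' (Nat.cast_nonneg N)
  push_cast at e4 e5
  nlinarith

theorem RPoint_row {N : ℕ} (hN : 1 ≤ N) {t : Fin (36 * N) → ℝ} (ht : ∀ i, t i ∈ St)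
    (hti : Function.Injective t) :
    |Matrix.det (Matrix.of fun r i : Fin (36 * N) => rho N ((r : ℕ) - 3 * (N : ℤ)) (t i))| ≤
      Real.exp (∑ i, (2 * N * Real.log (1 - t i) + 47 * N * Real.log |t i| - 33 * N * Real.log |xx (t i)|) +
        Real.log |VV fun i => xx (t i)| +
        36 * N * (100 + max 0 (∑ k, (-Real.log |xx (t k)| - 1) / 3))) * ∏ i, (ff (t i))⁻¹ := by
  have h := two_sheet hN (fun i => xx_mem (ht i)) fun i j h => hti (xx_injOn (ht i) (ht j) h)
  have e : (Matrix.of fun r i : Fin (36 * N) => rho N ((r : ℕ) - 3 * (N : ℤ)) (t i)) =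
      Matrix.of fun r i : Fin (36 * N) =>
        ((1 - t i) ^ (2 * N) * t i ^ (47 * N) / ff (t i) * (if 0 < t i then -1 / 4 else -1 / 2)) *
        Matrix.of (fun r i : Fin (36 * N) => xx (t i) ^ (-((r : ℕ) - 3 * (N : ℤ))) +
          (if 0 < xx (t i) then -5 else 1) * xx (t i) ^ (((r : ℕ) : ℤ) - 3 * (N : ℤ))) r i := by
    ext r i
    have := r.2
    simp only [Matrix.of_apply, xx_pos_iff (ht i)]
    exact rho_eq (by omega) (ht i)
  rw [e, Matrix.det_mul_row, abs_mul]
  refine (mul_le_mul_of_nonneg_left h (abs_nonneg _)).trans ?_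
  set M := max 0 (∑ k, (-Real.log |xx (t k)| - 1) / 3)
  have h1 : |∏ i, (1 - t i) ^ (2 * N) * t i ^ (47 * N) / ff (t i) * (if 0 < t i then -1 / 4 else -1 / 2)| *
      ∏ i, |xx (t i)|⁻¹ ^ (33 * N - 1) ≤ Real.exp (∑ i, (2 * N * Real.log (1 - t i) +
        47 * N * Real.log |t i| - 33 * N * Real.log |xx (t i)|)) * ∏ i, (ff (t i))⁻¹ := by
    rw [abs_prod, Real.exp_sum, ← prod_mul_distrib, ← prod_mul_distrib]
    refine prod_le_prod (fun i _ => by positivity) fun i _ => ?_
    have a1 : 0 < 1 - t i := sub_pos.2 (ht i).1.2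
    have a2 : 0 < |t i| := abs_pos.2 (ht i).2
    have a3 : 0 < |xx (t i)| := abs_pos.2 (xx_mem (ht i)).2
    have a4 : 1 ≤ |xx (t i)|⁻¹ :=
      (one_le_inv₀ a3).2 (abs_le.2 ⟨(xx_mem (ht i)).1.1.le, (xx_mem (ht i)).1.2.le⟩)
    have a5 : 0 ≤ ff (t i) := Real.sqrt_nonneg _
    have a6 : |if 0 < t i then (-1 / 4 : ℝ) else -1 / 2| ≤ 1 := by
      split_ifs <;> rw [abs_le] <;> constructor <;> norm_num
    have b : Real.exp (2 * N * Real.log (1 - t i) + 47 * N * Real.log |t i| - 33 * N * Real.log |xx (t i)|) =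
        (1 - t i) ^ (2 * N) * |t i| ^ (47 * N) * |xx (t i)|⁻¹ ^ (33 * N) := by
      rw [← Real.exp_log (x := (1 - t i) ^ (2 * N) * |t i| ^ (47 * N) * |xx (t i)|⁻¹ ^ (33 * N))
        (by positivity), Real.log_mul (by positivity) (by positivity),
        Real.log_mul (by positivity) (by positivity), Real.log_pow, Real.log_pow, Real.log_pow, Real.log_inv]
      push_cast
      congr 1
      ring
    rw [b, abs_mul, abs_div, abs_mul, abs_pow, abs_pow, abs_of_pos a1, abs_of_nonneg a5]
    calc _ ≤ (1 - t i) ^ (2 * N) * |t i| ^ (47 * N) / ff (t i) * 1 * |xx (t i)|⁻¹ ^ (33 * N) :=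
          mul_le_mul (mul_le_mul_of_nonneg_left a6 (by positivity))
            (pow_le_pow_right₀ a4 (Nat.sub_le _ _)) (by positivity) (by positivity)
      _ = _ := by ring
  have h2 : (100 * Real.exp M) ^ (36 * N) ≤ Real.exp (36 * N * (100 + M)) := by
    rw [show (36 * N * (100 + M) : ℝ) = (36 * N : ℕ) * (100 + M) by push_cast; ring, Real.exp_nat_mul,
      Real.exp_add]
    refine pow_le_pow_left₀ (by positivity) (mul_le_mul_of_nonneg_right ?_ (Real.exp_pos _).le) _
    linarith [Real.add_one_le_exp 100]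
  have h3 := mul_le_mul (mul_le_mul h1 (Real.le_exp_log |VV fun i => xx (t i)|) (abs_nonneg _)
    (le_trans (by positivity) h1)) h2 (by positivity) (mul_nonneg (le_trans (by positivity) h1) (Real.exp_pos _).le)
  rw [Real.exp_add, Real.exp_add]
  refine le_trans (le_of_eq ?_) (h3.trans (le_of_eq ?_)) <;> ring

theorem RPoint_col {N : ℕ} {s : Fin (36 * N) → ℝ} (hs : ∀ j, s j ∈ Set.Ioo (0 : ℝ) 1) :
    |Matrix.det (Matrix.of fun k j : Fin (36 * N) => aeval (s j) (colQ N k))| ≤
      Real.exp (∑ j, (6 * N * Real.log (s j) + 2 * N * Real.log (1 - s j)) + Real.log |VV s|) := by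
  have e : (Matrix.of fun k j : Fin (36 * N) => aeval (s j) (colQ N k)) =
      Matrix.of fun k j : Fin (36 * N) => (s j ^ (6 * N) * (1 - s j) ^ (2 * N)) *
        (Matrix.vandermonde s).transpose k j := by
    ext k j
    simp only [Matrix.of_apply, aeval_colQ, Matrix.transpose_apply, Matrix.vandermonde_apply]
    ring
  rw [e, Matrix.det_mul_row, Matrix.det_transpose, Matrix.det_vandermonde, abs_mul, Real.exp_add]
  refine mul_le_mul (le_of_eq ?_) (Real.le_exp_log _) (abs_nonneg _) (Real.exp_pos _).le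
  rw [abs_prod, Real.exp_sum]
  refine prod_congr rfl fun j _ => ?_
  have a1 := (hs j).1
  have a2 := sub_pos.2 (hs j).2
  rw [abs_of_pos (by positivity), ← Real.exp_log (x := s j ^ (6 * N) * (1 - s j) ^ (2 * N)) (by positivity),
    Real.log_mul (by positivity) (by positivity), Real.log_pow, Real.log_pow]
  push_cast
  rfl

theorem point_bound (h0 : Cert 0) (h12 : Cert 12) : ∀ᶠ N : ℕ in atTop,
    ∀ t s : Fin (36 * N) → ℝ, (∀ i, t i ∈ St) → (∀ j, s j ∈ Set.Ioo (0 : ℝ) 1) →
      |Matrix.det (Matrix.of fun r i : Fin (36 * N) => rho N ((r : ℕ) - 3 * (N : ℤ)) (t i))| *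
        |Matrix.det (Matrix.of fun i j => (1 - t i * s j)⁻¹) *
          Matrix.det (Matrix.of fun k j : Fin (36 * N) => aeval (s j) (colQ N k))| ≤
      Real.exp (-2504.55 * (N : ℝ) ^ 2) * ∏ i, (ff (t i))⁻¹ := by
  filter_upwards [point_log h0, point_log h12, eventually_ge_atTop 120000] with N p0 p12 hN t s ht hs
  have hf : 0 ≤ ∏ i, (ff (t i))⁻¹ := prod_nonneg fun i _ => inv_nonneg.2 (Real.sqrt_nonneg _)
  by_cases hti : Function.Injective t
  swap
  · obtain ⟨i, j, h, hne⟩ := Function.not_injective_iff.1 hti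
    rw [Matrix.det_zero_of_column_eq hne fun k => by simp only [Matrix.of_apply, h], abs_zero, zero_mul]
    positivity
  by_cases hsi : Function.Injective s
  swap
  · obtain ⟨i, j, h, hne⟩ := Function.not_injective_iff.1 hsi
    rw [Matrix.det_zero_of_column_eq (M := Matrix.of fun i j => (1 - t i * s j)⁻¹) hne
      fun k => by simp only [Matrix.of_apply, h], zero_mul, abs_zero, mul_zero]
    positivity
  have hN' : (120000 : ℝ) ≤ N := by exact_mod_cast hN
  have h1 := RPoint_row (by omega) ht hti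
  have h2 := mul_le_mul (Real.le_exp_log |Matrix.det (Matrix.of fun i j => (1 - t i * s j)⁻¹)|)
    (RPoint_col hs) (abs_nonneg _) (Real.exp_pos _).le
  rw [abs_mul]
  refine (mul_le_mul h1 h2 (by positivity) (by positivity)).trans ?_
  rw [mul_right_comm, ← Real.exp_add, ← Real.exp_add]
  refine mul_le_mul_of_nonneg_right (Real.exp_le_exp.2 ?_) hf
  have e10 : 120000 * (N : ℝ) ≤ N * N := mul_le_mul_of_nonneg_right hN' (Nat.cast_nonneg N)
  have q0 := p0 t s ht hs hti hsi
  have q12 := p12 t s ht hs hti hsi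
  simp only [mul_zero, zero_mul, sub_zero] at q0
  rw [sum_sub_distrib] at q12
  have e : ∑ i, (N : ℝ) * 12 * (Real.log |xx (t i)| + 1) =
      -(36 * N * ∑ k, (-Real.log |xx (t k)| - 1) / 3) := by
    rw [mul_sum, ← sum_neg_distrib]
    exact sum_congr rfl fun i _ => by ring
  rw [e] at q12
  rcases max_cases 0 (∑ k, (-Real.log |xx (t k)| - 1) / 3) with ⟨h, -⟩ | ⟨h, -⟩ <;> rw [h] <;> nlinarith

end Crest.Agent.R6
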