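import Crest.Agent.R6.RBase2
import Crest.Agent.R6.RBase3
import Crest.Agent.R6.Basic

/-!
# Row 6: the series `M(i,j)`, `Z(i,j)`.

`a d = ∑_u mm(d+u)/(u+1)`: termwise `(d+2) mm(v+2)/(u+1) - (d+1) mm v/(u+1) = mm v - mm(v+2)`
(`v = d + u`; both sides vanish for odd `v`), telescoping (`tendsto_mm`) gives
`(d+2) a(d+2) = (d+1) a d + mm d + mm(d+1)`; compare `AN_rec` and the recurrence of `cc`.
`a 0 = 4G`, `a 1 = ∑ mm u/(u+3) = ∑ (mm u - mm(u+2)) = 2`.
`b k = ∑_u mm u/(k+u+2)`: `(k+2) mm u/(k+u+4) - (k+1) mm(u+2)/(k+u+4) = mm u - mm(u+2)`, so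
`(k+2) b(k+2) = (k+1) b k + 2/(k+2)`; `b 0 = π²/4`, `b 1 = 2`; compare `AP_rec`.
General `(i,j)`: induction along diagonals with `MG_succ`, `Z0_succ` (`hasSum_nat_add_iff`).
`Z`: `∑ 1/((d+u+1)(u+1)) = HH d/d` (`d ≥ 1`, telescoping), `ζ(2)` for `d = 0` (`hasSum_zeta_two`).
-/

set_option autoImplicit false

namespace Crest.Agent.R6

open Filter Topology

theorem RSer_cg {f g : ℕ → ℝ} {a b : ℝ} (h : HasSum f a) (hf : ∀ u, g u = f u) (ha : b = a) :
    HasSum g b := by
  rw [funext hf, ha]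
  exact h

theorem RSer_mm (v : ℕ) : ((v : ℝ) + 3) * (mm (v + 2) : ℝ) = ((v : ℝ) + 2) * (mm v : ℝ) := by
  exact_mod_cast Seq_mm' v

theorem RSer_mm_diff (v : ℕ) : (mm v : ℝ) - (mm (v + 2) : ℝ) = (mm v : ℝ) / ((v : ℝ) + 3) := by
  have h := RSer_mm v
  have h3 : (v : ℝ) + 3 ≠ 0 := by positivity
  field_simp
  linarith

theorem RSer_tele (d : ℕ) : HasSum (fun u : ℕ => (mm (d + u) : ℝ) - (mm (d + u + 2) : ℝ))
    ((mm d : ℝ) + (mm (d + 1) : ℝ)) := by
  rw [hasSum_iff_tendsto_nat_of_nonneg]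
  · have e : ∀ n : ℕ, ∑ u ∈ Finset.range n, ((mm (d + u) : ℝ) - (mm (d + u + 2) : ℝ)) =
        (mm d : ℝ) + (mm (d + 1) : ℝ) - (mm (n + d) : ℝ) - (mm (n + (d + 1)) : ℝ) := by
      intro n
      induction n with
      | zero => simp
      | succ n ih =>
        rw [Finset.sum_range_succ, ih, show n + 1 + d = n + (d + 1) by omega,
          show n + 1 + (d + 1) = d + n + 2 by omega, show n + d = d + n by omega]
        ring
    simp only [e]
    have h1 := (tendsto_add_atTop_iff_nat d).2 tendsto_mm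
    have h2 := (tendsto_add_atTop_iff_nat (d + 1)).2 tendsto_mm
    simpa using (tendsto_const_nhds.sub h1).sub h2
  · intro u
    rw [RSer_mm_diff]
    have : (0 : ℝ) ≤ mm (d + u) := by exact_mod_cast mm_nonneg _
    positivity

theorem RSer_third : HasSum (fun u : ℕ => (mm u : ℝ) / ((u : ℝ) + 3)) 2 := by
  have := RSer_tele 0
  simp only [zero_add, RSer_mm_diff] at this
  simpa [mm] using this

theorem RSer_A (d : ℕ) : HasSum (fun u : ℕ => (mm (d + u) : ℝ) / ((u : ℝ) + 1))
    ((AN d : ℝ) + 4 * GG * (cc d : ℝ)) := by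
  induction d using Nat.twoStepInduction with
  | zero => simpa [AN_zero, cc] using hasSum_base1
  | one =>
    rw [← hasSum_nat_add_iff' 1]
    refine RSer_cg (RSer_third) (fun u => ?_) ?_
    · have h := RSer_mm u
      have h2 : (u : ℝ) + 2 ≠ 0 := by positivity
      have h3 : (u : ℝ) + 3 ≠ 0 := by positivity
      rw [show 1 + (u + 1) = u + 2 by omega]
      push_cast
      rw [show (u : ℝ) + 1 + 1 = u + 2 by ring, div_eq_div_iff h2 h3]
      linarith
    · simp [AN_one, cc, mm]
  | more d ih _ =>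
    have h2 : (d : ℝ) + 2 ≠ 0 := by positivity
    refine RSer_cg (((ih.mul_left ((d : ℝ) + 1)).add (RSer_tele d)).div_const ((d : ℝ) + 2)) (fun u => ?_) ?_
    · have h := RSer_mm (d + u)
      have h1 : (u : ℝ) + 1 ≠ 0 := by positivity
      rw [show d + 2 + u = d + u + 2 by omega]
      push_cast at h
      field_simp
      linarith
    · have e1 : ((d : ℝ) + 2) * (AN (d + 2) : ℝ) =
          ((d : ℝ) + 1) * (AN d : ℝ) + (mm d : ℝ) + (mm (d + 1) : ℝ) := by
        exact_mod_cast AN_rec d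
      have e2 : ((d : ℝ) + 2) * (cc (d + 2) : ℝ) = ((d : ℝ) + 1) * (cc d : ℝ) := by
        exact_mod_cast Seq_cc' d
      rw [eq_div_iff h2]
      linear_combination e1 + 4 * GG * e2

theorem RSer_B (k : ℕ) : HasSum (fun u : ℕ => (mm u : ℝ) / ((k : ℝ) + u + 2))
    ((AP k : ℝ) + Real.pi ^ 2 / 4 * (cc k : ℝ)) := by
  induction k using Nat.twoStepInduction with
  | zero => simpa [AP_zero, cc] using hasSum_base2
  | one =>
    refine RSer_cg (RSer_third) (fun u => ?_) ?_
    · congr 1
      push_cast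
      ring
    · simp [AP_one, cc]
  | more k ih _ =>
    have h2 : (k : ℝ) + 2 ≠ 0 := by positivity
    have ih2 := (hasSum_nat_add_iff' 2).2 ih
    refine RSer_cg (((ih2.mul_left ((k : ℝ) + 1)).add (RSer_tele 0)).div_const ((k : ℝ) + 2)) (fun u => ?_) ?_
    · have h := RSer_mm u
      have h1 : (k : ℝ) + u + 4 ≠ 0 := by positivity
      simp only [zero_add]
      push_cast
      rw [show (k : ℝ) + 2 + u + 2 = k + u + 4 by ring, show (k : ℝ) + (u + 2) + 2 = k + u + 4 by ring]
      field_simp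
      linarith
    · have e1 : ((k : ℝ) + 2) * (AP (k + 2) : ℝ) =
          ((k : ℝ) + 1) * (AP k : ℝ) + 2 / ((k : ℝ) + 2) := by
        have := congrArg (Rat.cast : ℚ → ℝ) (AP_rec k)
        push_cast at this
        exact this
      have e2 : ((k : ℝ) + 2) * (cc (k + 2) : ℝ) = ((k : ℝ) + 1) * (cc k : ℝ) := by
        exact_mod_cast Seq_cc' k
      have e3 : ((k : ℝ) + 2) * (2 / ((k : ℝ) + 2)) = 2 := by field_simp
      rw [eq_div_iff h2]
      simp only [Finset.sum_range_succ, Finset.sum_range_zero, mm, zero_add, Nat.cast_zero,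
        add_zero, Rat.cast_ofNat, Rat.cast_zero, zero_div]
      linear_combination e1 + Real.pi ^ 2 / 4 * e2 + e3

theorem hasSum_M (i j : ℕ) : HasSum (fun u : ℕ => (mm (i + u) : ℝ) / ((j : ℝ) + u + 1))
    ((MG 0 i j : ℝ) + 4 * GG * (cg i j : ℝ) + Real.pi ^ 2 / 4 * (cpi i j : ℝ)) := by
  induction i generalizing j with
  | zero =>
    rcases j with _ | j
    · simpa [MG, BM, cg, cpi] using RSer_A 0
    · have e : MG 0 0 (j + 1) = AP j := by
        rw [MG, BM, if_neg (by omega), Finset.sum_eq_zero, sub_zero]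
        · congr 1
        · intro v hv
          rw [lm, if_neg (by have := (Finset.mem_Icc.1 hv).1; omega), zero_div]
      refine RSer_cg (RSer_B j) (fun u => ?_) ?_
      · rw [zero_add]
        congr 1
        push_cast
        ring
      · simp [e, cg, cpi]
  | succ i ih =>
    rcases j with _ | j
    · simpa [MG, BM, cg, cpi] using RSer_A (i + 1)
    · refine RSer_cg ((hasSum_nat_add_iff' 1).2 (ih j)) (fun u => ?_) ?_
      · rw [show i + 1 + u = i + (u + 1) by omega]
        congr 1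
        push_cast
        ring
      · have e1 : cg (i + 1) (j + 1) = cg i j := by
          simp only [cg, add_le_add_iff_right, Nat.add_sub_add_right]
        have e2 : cpi (i + 1) (j + 1) = cpi i j := by
          simp only [cpi, add_lt_add_iff_right, Nat.add_sub_add_right]
        rw [MG_succ, e1, e2]
        simp only [Finset.sum_range_one, add_zero, Nat.cast_zero]
        push_cast
        ring

theorem RSer_tele1 (d : ℕ) :
    HasSum (fun u : ℕ => 1 / ((d : ℝ) + u + 1) - 1 / ((d : ℝ) + u + 2)) (1 / ((d : ℝ) + 1)) := by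
  rw [hasSum_iff_tendsto_nat_of_nonneg]
  · have e : ∀ n : ℕ, ∑ u ∈ Finset.range n, (1 / ((d : ℝ) + u + 1) - 1 / ((d : ℝ) + u + 2)) =
        1 / ((d : ℝ) + 1) - 1 / (((n + d : ℕ) : ℝ) + 1) := by
      intro n
      induction n with
      | zero => simp
      | succ n ih =>
        rw [Finset.sum_range_succ, ih]
        push_cast
        rw [show (n : ℝ) + d + 1 = d + n + 1 by ring, show (n : ℝ) + 1 + d + 1 = d + n + 2 by ring]
        ring
    simp only [e]
    have h1 := (tendsto_add_atTop_iff_nat d).2 (tendsto_one_div_add_atTop_nhds_zero_nat (𝕜 := ℝ))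
    simpa using tendsto_const_nhds.sub h1
  · intro u
    rw [sub_nonneg]
    exact one_div_le_one_div_of_le (by positivity) (by linarith)

theorem RSer_H (d : ℕ) :
    HasSum (fun u : ℕ => 1 / ((u : ℝ) + 1) - 1 / ((d : ℝ) + u + 1)) (HH d : ℝ) := by
  induction d with
  | zero => simpa [HH] using hasSum_zero
  | succ d ih =>
    refine RSer_cg (ih.add (RSer_tele1 d)) (fun u => ?_) ?_
    · push_cast
      rw [show (d : ℝ) + 1 + u + 1 = d + u + 2 by ring]
      ring
    · rw [HH, HH, Finset.sum_range_succ]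
      push_cast
      ring

theorem RSer_Z (d : ℕ) :
    HasSum (fun u : ℕ => 1 / ((((d + 1 : ℕ) : ℝ) + u + 1) * ((u : ℝ) + 1)))
      ((HH (d + 1) : ℝ) / ((d + 1 : ℕ) : ℝ)) := by
  refine RSer_cg ((RSer_H (d + 1)).div_const ((d + 1 : ℕ) : ℝ)) (fun u => ?_) rfl
  have h1 : (u : ℝ) + 1 ≠ 0 := by positivity
  have h2 : ((d + 1 : ℕ) : ℝ) + u + 1 ≠ 0 := by positivity
  have h3 : ((d + 1 : ℕ) : ℝ) ≠ 0 := by positivity
  field_simp
  ring

theorem hasSum_Z (i j : ℕ) : HasSum (fun u : ℕ => 1 / (((i : ℝ) + u + 1) * ((j : ℝ) + u + 1)))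
    ((Z0 i j : ℝ) + if i = j then Real.pi ^ 2 / 6 else 0) := by
  induction i generalizing j with
  | zero =>
    rcases j with _ | j
    · refine RSer_cg ((hasSum_nat_add_iff' 1).2 hasSum_zeta_two) (fun u => ?_) ?_
      · push_cast
        ring
      · simp [Z0, BZ, HH]
    · have e : Z0 0 (j + 1) = HH (j + 1) / ((j + 1 : ℕ) : ℚ) := by
        rw [Z0, BZ, if_neg (by omega), Finset.sum_eq_zero, sub_zero]
        · congr 2
        · intro v hv
          rw [lz, if_neg (by have := (Finset.mem_Icc.1 hv).1; omega), zero_div]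
      refine RSer_cg (RSer_Z j) (fun u => ?_) ?_
      · rw [mul_comm]
        simp
      · simp [e]
  | succ i ih =>
    rcases j with _ | j
    · refine RSer_cg (RSer_Z i) (fun u => ?_) ?_
      · simp
      · simp [Z0, BZ]
    · refine RSer_cg ((hasSum_nat_add_iff' 1).2 (ih j)) (fun u => ?_) ?_
      · push_cast
        ring
      · rw [Z0_succ]
        simp only [Finset.sum_range_one, add_zero, Nat.cast_zero, add_left_inj]
        push_cast
        ring

end Crest.Agent.R6
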