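import Crest.Agent.R6.PBasic

/-!
# Row 6: reduction of `p`-integral rationals modulo `p`.

`PI p x ↔ ¬ p ∣ x.den` (`PI_iff`; `padicValRat`, coprimality of `num`, `den`), then
`Rat.cast_add_of_ne_zero`, `Rat.cast_mul_of_ne_zero`, `ZMod.natCast_eq_zero_iff`.
`eventually_unit`: primes larger than `|x.num|` and `x.den`.
-/

set_option autoImplicit false

namespace Crest.Agent.R6

open Polynomial Finset Filter

section
variable {p : ℕ} [Fact p.Prime]

theorem red_pn_eq (x : ℚ) :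
    padicNorm p x = padicNorm p (x.num : ℚ) / padicNorm p ((x.den : ℕ) : ℚ) := by
  rw [← padicNorm.div, Rat.num_div_den]

theorem PI_iff {x : ℚ} : PI p x ↔ ¬ p ∣ x.den := by
  have hd0 : padicNorm p ((x.den : ℕ) : ℚ) ≠ 0 :=
    padicNorm.nonzero (by exact_mod_cast x.den_nz)
  have hd : 0 < padicNorm p ((x.den : ℕ) : ℚ) :=
    lt_of_le_of_ne (padicNorm.nonneg _) hd0.symm
  unfold PI
  rw [red_pn_eq, div_le_one hd]
  constructor
  · intro h hp
    have h1 : padicNorm p ((x.den : ℕ) : ℚ) < 1 := (padicNorm.nat_lt_one_iff _).2 hp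
    have h2 : (p : ℤ) ∣ x.num := (padicNorm.int_lt_one_iff _).1 (h.trans_lt h1)
    have h3 : p ∣ x.num.natAbs := Int.natCast_dvd.1 h2
    have h4 := Nat.dvd_gcd h3 hp
    rw [x.reduced] at h4
    exact (Fact.out : p.Prime).one_lt.ne' (Nat.dvd_one.1 h4)
  · intro hp
    rw [(padicNorm.nat_eq_one_iff _).2 hp]
    exact padicNorm.of_int _

theorem PI.add {x y : ℚ} (hx : PI p x) (hy : PI p y) : PI p (x + y) := by
  exact padicNorm.nonarchimedean.trans (max_le hx hy)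

theorem PI.sub {x y : ℚ} (hx : PI p x) (hy : PI p y) : PI p (x - y) := by
  exact padicNorm.sub.trans (max_le hx hy)

theorem PI.neg {x : ℚ} (hx : PI p x) : PI p (-x) := by
  unfold PI at *
  rwa [padicNorm.neg]

theorem PI.mul {x y : ℚ} (hx : PI p x) (hy : PI p y) : PI p (x * y) := by
  unfold PI at *
  rw [padicNorm.mul]
  exact mul_le_one₀ hx (padicNorm.nonneg _) hy

theorem PI.pow {x : ℚ} (hx : PI p x) (k : ℕ) : PI p (x ^ k) := by
  induction k with
  | zero => unfold PI; rw [pow_zero, padicNorm.one]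
  | succ k ih => rw [pow_succ]; exact ih.mul hx

theorem PI_int (z : ℤ) : PI p z := by
  exact padicNorm.of_int z

theorem PI_nat (z : ℕ) : PI p z := by
  exact padicNorm.of_nat z

theorem PI_sum {ι : Type} {s : Finset ι} {f : ι → ℚ} (h : ∀ i ∈ s, PI p (f i)) :
    PI p (∑ i ∈ s, f i) := by
  exact padicNorm.sum_le' h zero_le_one

theorem PI.div_nat {x : ℚ} (hx : PI p x) {l : ℕ} (hl : ¬ p ∣ l) : PI p (x / l) := by
  unfold PI at *
  rwa [padicNorm.div, (padicNorm.nat_eq_one_iff _).2 hl, div_one]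

theorem PI.den_ne {x : ℚ} (hx : PI p x) : ((x.den : ℕ) : ZMod p) ≠ 0 := by
  rw [Ne, ZMod.natCast_eq_zero_iff]
  exact PI_iff.1 hx

theorem PI_prod {ι : Type} {s : Finset ι} {f : ι → ℚ} (h : ∀ i ∈ s, PI p (f i)) :
    PI p (∏ i ∈ s, f i) :=
  Finset.prod_induction f (PI p) (fun _ _ => PI.mul) (by simpa using PI_nat (p := p) 1) h

theorem red_add {x y : ℚ} (hx : PI p x) (hy : PI p y) :
    ((x + y : ℚ) : ZMod p) = (x : ZMod p) + (y : ZMod p) := by
  exact Rat.cast_add_of_ne_zero hx.den_ne hy.den_ne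

theorem red_sub {x y : ℚ} (hx : PI p x) (hy : PI p y) :
    ((x - y : ℚ) : ZMod p) = (x : ZMod p) - (y : ZMod p) := by
  exact Rat.cast_sub_of_ne_zero hx.den_ne hy.den_ne

theorem red_mul {x y : ℚ} (hx : PI p x) (hy : PI p y) :
    ((x * y : ℚ) : ZMod p) = (x : ZMod p) * (y : ZMod p) := by
  exact Rat.cast_mul_of_ne_zero hx.den_ne hy.den_ne

theorem red_pow {x : ℚ} (hx : PI p x) (k : ℕ) : ((x ^ k : ℚ) : ZMod p) = (x : ZMod p) ^ k := by
  induction k with
  | zero => simp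
  | succ k ih => rw [pow_succ, red_mul (hx.pow k) hx, ih, pow_succ]

theorem red_div_nat {x : ℚ} (hx : PI p x) {l : ℕ} (hl : ¬ p ∣ l) :
    ((x / l : ℚ) : ZMod p) = (x : ZMod p) / (l : ZMod p) := by
  rw [Rat.cast_div_of_ne_zero hx.den_ne, Rat.cast_natCast]
  rw [Rat.num_natCast, Int.cast_natCast, Ne, ZMod.natCast_eq_zero_iff]
  exact hl

theorem red_sum {ι : Type} {s : Finset ι} {f : ι → ℚ} (h : ∀ i ∈ s, PI p (f i)) :
    ((∑ i ∈ s, f i : ℚ) : ZMod p) = ∑ i ∈ s, (f i : ZMod p) := by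
  classical
  induction s using Finset.induction_on with
  | empty => simp
  | insert a s ha ih =>
    have h1 : ∀ i ∈ s, PI p (f i) := fun i hi => h i (mem_insert_of_mem hi)
    rw [sum_insert ha, sum_insert ha, red_add (h a (mem_insert_self _ _)) (PI_sum h1), ih h1]

theorem red_prod {ι : Type} {s : Finset ι} {f : ι → ℚ} (h : ∀ i ∈ s, PI p (f i)) :
    ((∏ i ∈ s, f i : ℚ) : ZMod p) = ∏ i ∈ s, (f i : ZMod p) := by
  classical
  induction s using Finset.induction_on with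
  | empty => simp
  | insert a s ha ih =>
    have h1 : ∀ i ∈ s, PI p (f i) := fun i hi => h i (mem_insert_of_mem hi)
    rw [prod_insert ha, prod_insert ha, red_mul (h a (mem_insert_self _ _)) (PI_prod h1), ih h1]

theorem red_eq_zero_iff {x : ℚ} (hx : PI p x) : (x : ZMod p) = 0 ↔ padicNorm p x < 1 := by
  rw [red_pn_eq, (padicNorm.nat_eq_one_iff _).2 (PI_iff.1 hx), div_one, padicNorm.int_lt_one_iff,
    Rat.cast_def, div_eq_zero_iff, or_iff_left hx.den_ne, ZMod.intCast_zmod_eq_zero_iff_dvd]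

theorem red_p_mul {x : ℚ} (hx : PI p x) : (((p : ℚ) * x : ℚ) : ZMod p) = 0 := by
  rw [red_mul (PI_nat p) hx, Rat.cast_natCast, ZMod.natCast_self, zero_mul]

theorem PI_lin {f : ℕ → ℚ} {P : ℤ[X]} (h : ∀ i, P.coeff i ≠ 0 → PI p (f i)) : PI p (lin f P) := by
  exact PI_sum fun i hi => (PI_int _).mul (h i (mem_support_iff.1 hi))

theorem red_lin {f : ℕ → ℚ} {P : ℤ[X]} {A : ℕ} (hA : ∀ i, A ≤ i → P.coeff i = 0)
    (h : ∀ i < A, PI p (f i)) :
    ((lin f P : ℚ) : ZMod p) = ∑ i ∈ range A, (P.coeff i : ZMod p) * (f i : ZMod p) := by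
  rw [lin_eq_sum f hA, red_sum fun i hi => (PI_int _).mul (h i (mem_range.1 hi))]
  refine sum_congr rfl fun i hi => ?_
  rw [red_mul (PI_int _) (h i (mem_range.1 hi)), Rat.cast_intCast]

theorem red_det {ι : Type} [Fintype ι] [DecidableEq ι] (M : ι → ι → ℚ) (h : ∀ i j, PI p (M i j)) :
    PI p (Matrix.det (Matrix.of M)) ∧
      ((Matrix.det (Matrix.of M) : ℚ) : ZMod p) =
        Matrix.det (Matrix.of fun i j => (M i j : ZMod p)) := by
  have h1 : ∀ σ : Equiv.Perm ι, PI p (∏ i, Matrix.of M (σ i) i) := fun σ =>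
    PI_prod fun i _ => h _ _
  rw [Matrix.det_apply', Matrix.det_apply']
  refine ⟨PI_sum fun σ _ => (PI_int _).mul (h1 σ), ?_⟩
  rw [red_sum fun σ _ => (PI_int _).mul (h1 σ)]
  refine sum_congr rfl fun σ _ => ?_
  rw [red_mul (PI_int _) (h1 σ), Rat.cast_intCast, red_prod fun i _ => by exact h _ _]
  rfl

end

theorem eventually_unit {x : ℚ} (hx : x ≠ 0) :
    ∀ᶠ p : ℕ in atTop, ∀ _ : Fact p.Prime, (x : ZMod p) ≠ 0 := by
  filter_upwards [eventually_gt_atTop x.num.natAbs, eventually_gt_atTop x.den] with p h1 h2 _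
  rw [Rat.cast_def]
  refine div_ne_zero ?_ ?_
  · rw [Ne, ZMod.intCast_zmod_eq_zero_iff_dvd, Int.natCast_dvd]
    exact Nat.not_dvd_of_pos_of_lt (Int.natAbs_pos.2 (Rat.num_ne_zero.2 hx)) h1
  · rw [Ne, ZMod.natCast_eq_zero_iff]
    exact Nat.not_dvd_of_pos_of_lt x.den_pos h2

theorem eventually_PI (x : ℚ) : ∀ᶠ p : ℕ in atTop, p.Prime → PI p x := by
  filter_upwards [eventually_gt_atTop x.den] with p h2 hp
  have := Fact.mk hp
  exact PI_iff.2 (Nat.not_dvd_of_pos_of_lt x.den_pos h2)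

end Crest.Agent.R6
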