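import Crest.Agent.R6.Cauchy

/-!
# Row 6: two-sheet determinant, algebra.

`y_j = x_j⁻¹`, `m_r = r - g`.  Lagrange interpolation of `z^r` (`r < n`) at the nodes `y_j`
(`Lagrange.eq_interpolate`/`Lagrange.sum_basis`, `eval_basis`) gives
`x_i^(r-g) = ∑_j y_j^(r-g) K j i`, `K j i = y_j^g x_i^(-g) ∏_{k≠j} (x_i - y_k)/(y_j - y_k)
= d_j (1 - x_i x_j)⁻¹ e_i` with `d_j = -x_j y_j^g/∏_{k≠j}(y_j - y_k)`, `e_i = x_i^(-g) ∏_k (x_i - y_k)`.
So the matrix is `Y (1 + D 𝒞 E c)`, `det (1 + D (𝒞 E c)) = det (1 + 𝒞 E c D) = det (1 + (E c D) 𝒞)`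
(`Matrix.det_one_add_mul_comm`), and `d_j e_j = lam x (n-1-2g) j`.
`|det Y|`: `Matrix.det_vandermonde`, `|y_j - y_i| = |x_j - x_i|/(|x_i||x_j|)`.
-/

set_option autoImplicit false

namespace Crest.Agent.R6

open Finset

/-- residue of `z^r ∏(1 - x_k z)/∏(z - x_k)` at `x_j` -/
noncomputable def lam {n : ℕ} (x : Fin n → ℝ) (r : ℕ) (j : Fin n) : ℝ :=
  x j ^ r * (∏ k, (1 - x k * x j)) / ∏ k ∈ univ.erase j, (x j - x k)

/-- Szegő kernel matrix -/
noncomputable def Sz {n : ℕ} (x : Fin n → ℝ) : Matrix (Fin n) (Fin n) ℝ :=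
  Matrix.of fun i j => (1 - x i * x j)⁻¹

theorem ts1_one_sub {a b : ℝ} (ha : a ∈ St) (hb : b ∈ St) : 1 - a * b ≠ 0 := by
  obtain ⟨⟨h1, h2⟩, -⟩ := ha
  obtain ⟨⟨h3, h4⟩, -⟩ := hb
  have : a * b < 1 := by nlinarith
  linarith

/-- Lagrange interpolation of `z ^ r` at the nodes `(x j)⁻¹` -/
theorem ts1_lagrange {n : ℕ} {x : Fin n → ℝ} (h0 : ∀ i, x i ≠ 0) (hi : Function.Injective x)
    (r : Fin n) (z : ℝ) : z ^ (r : ℕ) = ∑ j, (x j)⁻¹ ^ (r : ℕ) * (x j ^ (n - 1) *
      (∏ k ∈ univ.erase j, (1 - x k * z)) / ∏ k ∈ univ.erase j, (x j - x k)) := by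
  have h1 := Lagrange.eq_interpolate (s := univ) (v := fun j => (x j)⁻¹)
    (f := (Polynomial.X : Polynomial ℝ) ^ (r : ℕ))
    (fun a _ b _ h => hi (inv_injective h)) (by simp)
  have h2 := congrArg (Polynomial.eval z) h1
  rw [Lagrange.interpolate_apply, Polynomial.eval_finsetSum] at h2
  simp only [Polynomial.eval_pow, Polynomial.eval_X, Polynomial.eval_mul, Polynomial.eval_C,
    Lagrange.basis, Polynomial.eval_prod, Lagrange.basisDivisor, Polynomial.eval_sub] at h2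
  rw [h2]
  refine sum_congr rfl fun j _ => ?_
  congr 1
  have e : x j ^ (n - 1) = ∏ _k ∈ univ.erase j, x j := by
    rw [prod_const, card_erase_of_mem (mem_univ _), card_univ, Fintype.card_fin]
  rw [e, ← prod_mul_distrib, ← prod_div_distrib]
  refine prod_congr rfl fun k hk => ?_
  have h3 : x j - x k ≠ 0 := sub_ne_zero.2 fun h => (mem_erase.1 hk).1 (hi h).symm
  have h4 : (x j)⁻¹ - (x k)⁻¹ = -(x j - x k) / (x j * x k) := by
    have := h0 j
    have := h0 k
    field_simp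
    ring
  have := h0 j
  have := h0 k
  rw [h4]
  field_simp
  ring

theorem two_sheet_alg {n g r0 : ℕ} (hn : n = r0 + 1 + 2 * g) {x : Fin n → ℝ} (hx : ∀ i, x i ∈ St)
    (hi : Function.Injective x) (c : Fin n → ℝ) :
    |Matrix.det (Matrix.of fun r i : Fin n =>
        x i ^ (-((r : ℕ) - (g : ℤ))) + c i * x i ^ (((r : ℕ) : ℤ) - (g : ℤ)))| =
      |VV x| * (∏ i, |x i|⁻¹ ^ (r0 + g)) *
        |Matrix.det (1 + Matrix.diagonal (fun j => c j * lam x r0 j) * Sz x)| := by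
  have h0 : ∀ i, x i ≠ 0 := fun i h => (hx i).2 h
  set Y : Matrix (Fin n) (Fin n) ℝ := Matrix.of fun r j => (x j)⁻¹ ^ (r : ℕ) * x j ^ g with hY
  set d : Fin n → ℝ := fun j => x j ^ (r0 + g) / ∏ k ∈ univ.erase j, (x j - x k) with hd
  set e : Fin n → ℝ := fun i => (x i)⁻¹ ^ g * (∏ k, (1 - x k * x i)) * c i with he
  have hA : (Matrix.of fun r i : Fin n =>
      x i ^ (-((r : ℕ) - (g : ℤ))) + c i * x i ^ (((r : ℕ) : ℤ) - (g : ℤ))) =
      Y * (1 + Matrix.diagonal d * (Sz x * Matrix.diagonal e)) := by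
    ext r i
    rw [Matrix.mul_add, Matrix.mul_one, Matrix.add_apply, Matrix.mul_apply, Matrix.of_apply]
    congr 1
    · rw [hY, Matrix.of_apply, neg_sub, zpow_sub₀ (h0 i), zpow_natCast, zpow_natCast, inv_pow,
        div_eq_inv_mul]
    · rw [zpow_sub₀ (h0 i), zpow_natCast, zpow_natCast, ts1_lagrange h0 hi r (x i), sum_div,
        mul_sum]
      refine sum_congr rfl fun j _ => ?_
      rw [Matrix.diagonal_mul, Matrix.mul_diagonal, hY, Matrix.of_apply, Sz, Matrix.of_apply]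
      simp only [hd, he]
      rw [← mul_prod_erase univ (fun k => 1 - x k * x i) (mem_univ j),
        show n - 1 = r0 + g + g by omega, pow_add _ (r0 + g) g, inv_pow (x i)]
      have h1 := ts1_one_sub (hx j) (hx i)
      generalize ∏ k ∈ univ.erase j, (1 - x k * x i) = Q
      field_simp
  have hdY : |Y.det| = |VV x| * ∏ i, |x i|⁻¹ ^ (r0 + g) := by
    have e1 : Y = (Matrix.vandermonde x).transpose.submatrix Fin.revPerm (Equiv.refl _) *
        Matrix.diagonal fun j => (x j)⁻¹ ^ (r0 + g) := by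
      ext r j
      rw [Matrix.mul_diagonal, hY, Matrix.of_apply, Matrix.submatrix_apply, Matrix.transpose_apply,
        Matrix.vandermonde_apply, Fin.revPerm_apply, Fin.val_rev, Equiv.refl_apply, inv_pow, inv_pow]
      have h1 := h0 j
      have h2 := r.2
      field_simp
      rw [← pow_add, ← pow_add]
      congr 1
      omega
    rw [e1, Matrix.det_mul, abs_mul, Matrix.abs_det_submatrix_equiv_equiv, Matrix.det_transpose,
      Matrix.det_vandermonde, Matrix.det_diagonal, abs_prod univ fun j => (x j)⁻¹ ^ (r0 + g)]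
    simp only [abs_pow, abs_inv]
    rfl
  rw [hA, Matrix.det_mul, abs_mul, hdY, Matrix.det_one_add_mul_comm, Matrix.mul_assoc,
    Matrix.det_one_add_mul_comm, Matrix.diagonal_mul_diagonal]
  have e2 : (fun j => e j * d j) = fun j => c j * lam x r0 j := by
    funext j
    simp only [hd, he, lam]
    have h1 := h0 j
    rw [pow_add, inv_pow]
    generalize ∏ k, (1 - x k * x j) = Q
    field_simp
  rw [e2]

end Crest.Agent.R6
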