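import Crest.Agent.R6.Defs

/-!
# Row 6: integrals along the boundary of the right half disc.

`hd F = ∫_{arc} F dz - ∫_{segment} F dz`.  If `F` has a primitive on an open set containing the arc
(resp. the segment), the integral is the difference of the values at `I` and `-I`
(`intervalIntegral.integral_eq_sub_of_hasDerivAt`, chain rule `HasDerivAt.comp_ofReal`/`scomp`).
`hd_holo`: `DifferentiableOn.isExactOn_ball`.  `hd_inv_neg`: primitive `log (z - a)`.
`hd_inv_pos`: `log (z - a)` on the arc, `log (a - z)` on the segment, and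
`log (I - a) = log (a - I) + π I`, `log (-I - a) = log (a + I) - π I` (`Complex.arg_neg_eq_arg_add_pi_of_im_neg`, …).
-/

set_option autoImplicit false

namespace Crest.Agent.R6

open Complex

noncomputable def hd (F : ℂ → ℂ) : ℂ :=
  (∫ θ in (-(Real.pi / 2))..(Real.pi / 2), F (cexp (θ * I)) * (I * cexp (θ * I))) -
    ∫ v in (-1 : ℝ)..1, F (v * I) * I

theorem ts2a_norm_arc (θ : ℝ) : ‖cexp (θ * I)‖ = 1 := norm_exp_ofReal_mul_I θ

theorem ts2a_re_arc {θ : ℝ} (hθ : θ ∈ Set.uIcc (-(Real.pi / 2)) (Real.pi / 2)) :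
    0 ≤ (cexp (θ * I)).re := by
  rw [exp_ofReal_mul_I_re]
  rw [Set.uIcc_of_le (by linarith [Real.pi_pos])] at hθ
  exact Real.cos_nonneg_of_mem_Icc hθ

theorem ts2a_seg {v : ℝ} (hv : v ∈ Set.uIcc (-1 : ℝ) 1) :
    ((v : ℂ) * I).re = 0 ∧ ‖(v : ℂ) * I‖ ≤ 1 := by
  rw [Set.uIcc_of_le (by norm_num)] at hv
  refine ⟨by simp, ?_⟩
  rw [norm_mul, norm_I, mul_one, norm_real, Real.norm_eq_abs]
  exact abs_le.2 hv

theorem ts2a_int_arc {F : ℂ → ℂ} (hF : ContinuousOn F {z | ‖z‖ = 1 ∧ 0 ≤ z.re}) :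
    IntervalIntegrable (fun θ : ℝ => F (cexp (θ * I)) * (I * cexp (θ * I))) MeasureTheory.volume
      (-(Real.pi / 2)) (Real.pi / 2) := by
  refine ContinuousOn.intervalIntegrable (ContinuousOn.mul ?_ (by fun_prop))
  exact hF.comp (f := fun θ : ℝ => cexp (θ * I)) (by fun_prop)
    fun θ hθ => ⟨ts2a_norm_arc θ, ts2a_re_arc hθ⟩

theorem ts2a_int_seg {F : ℂ → ℂ} (hF : ContinuousOn F {z | z.re = 0 ∧ ‖z‖ ≤ 1}) :
    IntervalIntegrable (fun v : ℝ => F (v * I) * I) MeasureTheory.volume (-1) 1 := by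
  refine ContinuousOn.intervalIntegrable (ContinuousOn.mul ?_ (by fun_prop))
  exact hF.comp (f := fun v : ℝ => (v : ℂ) * I) (by fun_prop) fun v hv => ts2a_seg hv

/-- the arc integral from a primitive -/
theorem ts2a_arc {F G : ℂ → ℂ} (hF : ContinuousOn F {z | ‖z‖ = 1 ∧ 0 ≤ z.re})
    (hG : ∀ z, ‖z‖ = 1 → 0 ≤ z.re → HasDerivAt G (F z) z) :
    ∫ θ in (-(Real.pi / 2))..(Real.pi / 2), F (cexp (θ * I)) * (I * cexp (θ * I)) =
      G I - G (-I) := by
  have h := intervalIntegral.integral_eq_sub_of_hasDerivAt (f := fun θ : ℝ => G (cexp (θ * I)))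
    (fun θ hθ => ?_) (ts2a_int_arc hF)
  · rw [h]
    have e1 : cexp (((Real.pi / 2 : ℝ) : ℂ) * I) = I := by
      rw [exp_mul_I]
      push_cast
      simp
    have e2 : cexp (((-(Real.pi / 2) : ℝ) : ℂ) * I) = -I := by
      rw [exp_mul_I]
      push_cast
      simp
    simp only [e1, e2]
  · have h1 : HasDerivAt (fun w : ℂ => cexp (w * I)) (cexp (θ * I) * (1 * I)) (θ : ℂ) :=
      ((hasDerivAt_id (θ : ℂ)).mul_const I).cexp
    have h2 := ((hG _ (ts2a_norm_arc θ) (ts2a_re_arc hθ)).comp (θ : ℂ) h1).comp_ofReal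
    exact h2.congr_deriv (by ring)

/-- the segment integral from a primitive -/
theorem ts2a_segm {F G : ℂ → ℂ} (hF : ContinuousOn F {z | z.re = 0 ∧ ‖z‖ ≤ 1})
    (hG : ∀ z, z.re = 0 → ‖z‖ ≤ 1 → HasDerivAt G (F z) z) :
    ∫ v in (-1 : ℝ)..1, F (v * I) * I = G I - G (-I) := by
  have h := intervalIntegral.integral_eq_sub_of_hasDerivAt (f := fun v : ℝ => G (v * I))
    (fun v hv => ?_) (ts2a_int_seg hF)
  · rw [h]
    simp
  · have h1 : HasDerivAt (fun w : ℂ => w * I) (1 * I) (v : ℂ) :=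
      (hasDerivAt_id (v : ℂ)).mul_const I
    have h2 := ((hG _ (ts2a_seg hv).1 (ts2a_seg hv).2).comp (v : ℂ) h1).comp_ofReal
    exact h2.congr_deriv (by ring)

theorem ts2a_log {a z : ℂ} (h : z - a ∈ slitPlane) :
    HasDerivAt (fun w => log (w - a)) (z - a)⁻¹ z := by
  have := ((hasDerivAt_id z).sub_const a).clog h
  simpa only [id, one_div] using this

theorem ts2a_cont {a : ℂ} {s : Set ℂ} (h : ∀ z ∈ s, z - a ≠ 0) :
    ContinuousOn (fun z => (z - a)⁻¹) s :=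
  ContinuousOn.inv₀ (by fun_prop) h

theorem hd_holo {F : ℂ → ℂ} {R : ℝ} (hR : 1 < R) (hF : DifferentiableOn ℂ F (Metric.ball 0 R)) :
    hd F = 0 := by
  obtain ⟨G, hG⟩ := hF.isExactOn_ball
  have hb : ∀ z : ℂ, ‖z‖ ≤ 1 → z ∈ Metric.ball (0 : ℂ) R := fun z hz =>
    mem_ball_zero_iff.2 (hz.trans_lt hR)
  unfold hd
  rw [ts2a_arc (hF.continuousOn.mono fun z hz => hb z hz.1.le) fun z hz _ => hG z (hb z hz.le),
    ts2a_segm (hF.continuousOn.mono fun z hz => hb z hz.2) fun z _ hz => hG z (hb z hz), sub_self]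

theorem hd_inv_neg {a : ℝ} (ha : a < 0) (ha' : -1 < a) : hd (fun z => (z - a)⁻¹) = 0 := by
  have _ := ha'
  have hs : ∀ z : ℂ, 0 ≤ z.re → z - a ∈ slitPlane := fun z hz =>
    Or.inl (by simp only [sub_re, ofReal_re]; linarith)
  unfold hd
  rw [ts2a_arc (F := fun z => (z - a)⁻¹) (ts2a_cont fun z hz => slitPlane_ne_zero (hs z hz.2))
      fun z _ hz => ts2a_log (hs z hz),
    ts2a_segm (F := fun z => (z - a)⁻¹) (ts2a_cont fun z hz => slitPlane_ne_zero (hs z hz.1.ge))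
      fun z hz _ => ts2a_log (hs z hz.ge), sub_self]

theorem hd_inv_pos {a : ℝ} (ha : 0 < a) (ha' : a < 1) :
    hd (fun z => (z - a)⁻¹) = 2 * Real.pi * I := by
  have hs : ∀ z : ℂ, ‖z‖ = 1 → 0 ≤ z.re → z - a ∈ slitPlane := fun z hz hre => by
    by_cases him : z.im = 0
    · left
      have h1 : |z.re| = 1 := by rw [← hz, ← abs_re_eq_norm.2 him]
      rw [abs_of_nonneg hre] at h1
      simp only [sub_re, ofReal_re]
      linarith
    · right
      simpa using him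
  have hs' : ∀ z : ℂ, z.re = 0 → (a : ℂ) - z ∈ slitPlane := fun z hz =>
    Or.inl (by simp only [sub_re, ofReal_re]; linarith)
  have hd' : ∀ z : ℂ, z.re = 0 → HasDerivAt (fun w => log ((a : ℂ) - w)) (z - a)⁻¹ z :=
    fun z hz => by
      have := ((hasDerivAt_id z).const_sub (a : ℂ)).clog (hs' z hz)
      refine this.congr_deriv ?_
      rw [id, ← neg_sub z, neg_div_neg_eq, one_div]
  unfold hd
  rw [ts2a_arc (F := fun z => (z - a)⁻¹)
      (ts2a_cont fun z hz => slitPlane_ne_zero (hs z hz.1 hz.2))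
      fun z h1 h2 => ts2a_log (hs z h1 h2),
    ts2a_segm (F := fun z => (z - a)⁻¹)
      (ts2a_cont fun z hz h0 => slitPlane_ne_zero (hs' z hz.1) (by rw [← neg_sub, h0, neg_zero]))
      fun z hz _ => hd' z hz]
  have e1 : log (I - a) = log (a - I) + Real.pi * I := by
    rw [show I - (a : ℂ) = -(a - I) by ring]
    unfold log
    rw [arg_neg_eq_arg_add_pi_of_im_neg (by simp), norm_neg]
    push_cast
    ring
  have e2 : log (-I - a) = log (a - -I) - Real.pi * I := by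
    rw [show -I - (a : ℂ) = -(a - -I) by ring]
    unfold log
    rw [arg_neg_eq_arg_sub_pi_of_im_pos (by simp), norm_neg]
    push_cast
    ring
  rw [e1, e2]
  ring

/-- linearity, for functions continuous on the unit circle and the imaginary segment -/
theorem hd_sum {ι : Type} (s : Finset ι) (c : ι → ℂ) (F : ι → ℂ → ℂ) (G : ℂ → ℂ)
    (hF : ∀ i ∈ s, ContinuousOn (F i) ({z | ‖z‖ = 1} ∪ {z | z.re = 0 ∧ ‖z‖ ≤ 1}))
    (hG : ContinuousOn G ({z | ‖z‖ = 1} ∪ {z | z.re = 0 ∧ ‖z‖ ≤ 1})) :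
    hd (fun z => ∑ i ∈ s, c i * F i z + G z) = ∑ i ∈ s, c i * hd (F i) + hd G := by
  have hA : {z : ℂ | ‖z‖ = 1 ∧ 0 ≤ z.re} ⊆ {z | ‖z‖ = 1} ∪ {z | z.re = 0 ∧ ‖z‖ ≤ 1} :=
    fun z hz => Or.inl hz.1
  have hB : {z : ℂ | z.re = 0 ∧ ‖z‖ ≤ 1} ⊆ {z | ‖z‖ = 1} ∪ {z | z.re = 0 ∧ ‖z‖ ≤ 1} :=
    fun z hz => Or.inr hz
  have a1 := fun i hi => (ts2a_int_arc ((hF i hi).mono hA)).const_mul (c i)
  have b1 := fun i hi => (ts2a_int_seg ((hF i hi).mono hB)).const_mul (c i)
  have a2 : IntervalIntegrable (fun θ : ℝ => ∑ i ∈ s,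
      c i * (F i (cexp (θ * I)) * (I * cexp (θ * I)))) MeasureTheory.volume
      (-(Real.pi / 2)) (Real.pi / 2) := by
    have := IntervalIntegrable.sum s a1
    rwa [Finset.sum_fn] at this
  have b2 : IntervalIntegrable (fun v : ℝ => ∑ i ∈ s, c i * (F i (v * I) * I))
      MeasureTheory.volume (-1) 1 := by
    have := IntervalIntegrable.sum s b1
    rwa [Finset.sum_fn] at this
  unfold hd
  simp only [add_mul, Finset.sum_mul, mul_assoc]
  rw [intervalIntegral.integral_add a2 (ts2a_int_arc (hG.mono hA)),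
    intervalIntegral.integral_add b2 (ts2a_int_seg (hG.mono hB)),
    intervalIntegral.integral_finsetSum a1, intervalIntegral.integral_finsetSum b1]
  simp only [intervalIntegral.integral_const_mul, mul_sub, Finset.sum_sub_distrib]
  ring

theorem hd_congr {F G : ℂ → ℂ} (h : ∀ z, (‖z‖ = 1 ∨ (z.re = 0 ∧ ‖z‖ ≤ 1)) → F z = G z) :
    hd F = hd G := by
  unfold hd
  congr 1
  · refine intervalIntegral.integral_congr fun θ _ => ?_
    simp only [h _ (Or.inl (ts2a_norm_arc θ))]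
  · refine intervalIntegral.integral_congr fun v hv => ?_
    simp only [h _ (Or.inr (ts2a_seg hv))]

end Crest.Agent.R6
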