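import Crest.Agent.R6.TS2a

/-!
# Row 6: `H²` norm of `fa x a` and the Fejér–Riesz inequality.

`fa_circle`: `‖f‖² = f · conj f = ∑ a_i a_j (1 - x_i z)⁻¹ (1 - x_j z̄)⁻¹` on the circle and
`∫_{-π}^{π} (1 - x e^{iθ})⁻¹ (1 - x' e^{-iθ})⁻¹ dθ = 2π/(1 - x x')` (Cauchy's formula
`Complex.circleIntegral_sub_inv_smul_of_differentiable_on_off_countable` /
`DiffContOnCl.circleIntegral_sub_inv_smul` for `(1 - x z)⁻¹` at `x'`; periodicity to move the interval).
`fejer_riesz`: `g z = f z · f (-z)` is holomorphic on a ball of radius `> 1`, `g (iv) = ‖f(iv)‖²`,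
`hd g = 0`, `‖f z‖‖f(-z)‖ ≤ (‖f z‖² + ‖f(-z)‖²)/2`; the right arc and its negative cover the circle.
-/

set_option autoImplicit false

namespace Crest.Agent.R6

open Complex Finset

noncomputable def fa {n : ℕ} (x a : Fin n → ℝ) (z : ℂ) : ℂ := ∑ j, (a j : ℂ) * (1 - x j * z)⁻¹

theorem fa_differentiableOn {n : ℕ} {x : Fin n → ℝ} (hx : ∀ i, |x i| < 1) (a : Fin n → ℝ) :
    ∃ R : ℝ, 1 < R ∧ (∀ z ∈ Metric.ball (0 : ℂ) R, ∀ j, 1 - (x j : ℂ) * z ≠ 0) ∧
      DifferentiableOn ℂ (fa x a) (Metric.ball 0 R) := by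
  have h1 : ‖x‖ < 1 := (pi_norm_lt_iff one_pos).2 hx
  have h0 := norm_nonneg x
  have hne : ∀ z ∈ Metric.ball (0 : ℂ) (2 / (1 + ‖x‖)), ∀ j, 1 - (x j : ℂ) * z ≠ 0 := by
    intro z hz j h
    rw [mem_ball_zero_iff, lt_div_iff₀ (by positivity)] at hz
    have h2 : ‖(x j : ℂ) * z‖ = 1 := by rw [← sub_eq_zero.1 h, norm_one]
    rw [norm_mul, Complex.norm_real] at h2
    have h3 := norm_le_pi_norm x j
    have h4 := norm_nonneg z
    nlinarith
  refine ⟨2 / (1 + ‖x‖), by rw [lt_div_iff₀ (by positivity)]; linarith, hne, ?_⟩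
  unfold fa
  refine DifferentiableOn.fun_sum fun j _ => DifferentiableOn.const_mul ?_ _
  exact DifferentiableOn.inv (by fun_prop) fun z hz => hne z hz j

theorem ts2b_ne {x : ℝ} (hx : |x| < 1) {z : ℂ} (hz : ‖z‖ ≤ 1) : 1 - (x : ℂ) * z ≠ 0 := by
  intro h
  have h2 : ‖(x : ℂ) * z‖ = 1 := by rw [← sub_eq_zero.1 h, norm_one]
  rw [norm_mul, Complex.norm_real, Real.norm_eq_abs] at h2
  have := abs_nonneg x
  nlinarith

theorem ts2b_conj {n : ℕ} (x a : Fin n → ℝ) (z : ℂ) :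
    fa x a ((starRingEnd ℂ) z) = (starRingEnd ℂ) (fa x a z) := by
  simp [fa]

theorem ts2b_exp_add (θ : ℝ) : cexp (((θ + 2 * Real.pi : ℝ) : ℂ) * I) = cexp (θ * I) := by
  push_cast
  rw [add_mul, Complex.exp_add, Complex.exp_two_pi_mul_I, mul_one]

theorem ts2b_cont {x : ℝ} (hx : |x| < 1) :
    Continuous fun θ : ℝ => (1 - (x : ℂ) * cexp (θ * I))⁻¹ :=
  Continuous.inv₀ (by fun_prop) fun θ => ts2b_ne hx (norm_exp_ofReal_mul_I θ).le

theorem ts2b_cont' {x : ℝ} (hx : |x| < 1) :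
    Continuous fun θ : ℝ => (1 - (x : ℂ) * (starRingEnd ℂ) (cexp (θ * I)))⁻¹ :=
  Continuous.inv₀ (by fun_prop) fun θ =>
    ts2b_ne hx (by rw [Complex.norm_conj]; exact (norm_exp_ofReal_mul_I θ).le)

theorem ts2b_pair {x y : ℝ} (hx : |x| < 1) (hy : |y| < 1) :
    ∫ θ in (-Real.pi)..Real.pi,
      (1 - (x : ℂ) * cexp (θ * I))⁻¹ * (1 - (y : ℂ) * (starRingEnd ℂ) (cexp (θ * I)))⁻¹ =
      2 * Real.pi * (1 - (x : ℂ) * y)⁻¹ := by
  have hper : Function.Periodic (fun θ : ℝ => (1 - (x : ℂ) * cexp (θ * I))⁻¹ *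
      (1 - (y : ℂ) * (starRingEnd ℂ) (cexp (θ * I)))⁻¹) (2 * Real.pi) := by
    intro θ
    simp only [ts2b_exp_add]
  have h1 := hper.intervalIntegral_add_eq (-Real.pi) 0
  rw [show -Real.pi + 2 * Real.pi = Real.pi by ring, zero_add] at h1
  rw [h1]
  have hd : DiffContOnCl ℂ (fun z : ℂ => (1 - (x : ℂ) * z)⁻¹) (Metric.ball 0 1) := by
    refine DifferentiableOn.diffContOnCl ?_
    rw [closure_ball _ one_ne_zero]
    exact DifferentiableOn.inv (by fun_prop) fun z hz => ts2b_ne hx (mem_closedBall_zero_iff.1 hz)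
  have h2 := hd.circleIntegral_sub_inv_smul (w := (y : ℂ))
    (by rwa [mem_ball_zero_iff, Complex.norm_real, Real.norm_eq_abs])
  rw [circleIntegral] at h2
  apply mul_left_cancel₀ I_ne_zero
  rw [← intervalIntegral.integral_const_mul]
  refine Eq.trans (intervalIntegral.integral_congr fun θ _ => ?_) (h2.trans ?_)
  · have h3 : (starRingEnd ℂ) (cexp (θ * I)) = (cexp (θ * I))⁻¹ := by
      rw [← Complex.exp_conj, ← Complex.exp_neg]; simp
    have h4 := Complex.exp_ne_zero (θ * I)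
    have h5 : cexp (θ * I) - y ≠ 0 := by
      intro h
      have := congrArg norm (sub_eq_zero.1 h)
      rw [norm_exp_ofReal_mul_I, Complex.norm_real, Real.norm_eq_abs] at this
      linarith
    simp only [deriv_circleMap, circleMap, smul_eq_mul, ofReal_one, zero_add, one_mul, h3]
    have h6 : 1 - (y : ℂ) * (cexp (θ * I))⁻¹ = (cexp (θ * I) - y) * (cexp (θ * I))⁻¹ := by
      field_simp
    rw [h6, mul_inv, inv_inv]
    ring
  · rw [smul_eq_mul]; ring

theorem ts2b_fa_cont {n : ℕ} {x : Fin n → ℝ} (hx : ∀ i, |x i| < 1) (a : Fin n → ℝ) :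
    Continuous fun θ : ℝ => fa x a (cexp (θ * I)) :=
  continuous_finsetSum _ fun j _ => continuous_const.mul (ts2b_cont (hx j))

theorem fa_circle {n : ℕ} {x : Fin n → ℝ} (hx : ∀ i, |x i| < 1) (a : Fin n → ℝ) :
    ∫ θ in (-Real.pi)..Real.pi, ‖fa x a (cexp (θ * I))‖ ^ 2 =
      2 * Real.pi * ∑ i, ∑ j, a i * a j * (1 - x i * x j)⁻¹ := by
  apply Complex.ofReal_injective
  rw [← intervalIntegral.integral_ofReal]
  have e : ∀ θ : ℝ, ((‖fa x a (cexp (θ * I))‖ ^ 2 : ℝ) : ℂ) = ∑ i, ∑ j, ((a i : ℂ) * a j) *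
      ((1 - (x i : ℂ) * cexp (θ * I))⁻¹ * (1 - (x j : ℂ) * (starRingEnd ℂ) (cexp (θ * I)))⁻¹) := by
    intro θ
    rw [ofReal_pow, ← Complex.mul_conj', ← ts2b_conj, fa, fa, sum_mul_sum]
    exact sum_congr rfl fun i _ => sum_congr rfl fun j _ => by ring
  have hc : ∀ i j, Continuous fun θ : ℝ => ((a i : ℂ) * a j) *
      ((1 - (x i : ℂ) * cexp (θ * I))⁻¹ * (1 - (x j : ℂ) * (starRingEnd ℂ) (cexp (θ * I)))⁻¹) :=
    fun i j => continuous_const.mul ((ts2b_cont (hx i)).mul (ts2b_cont' (hx j)))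
  simp only [e]
  rw [intervalIntegral.integral_finsetSum fun i _ =>
    (continuous_finsetSum _ fun j _ => hc i j).intervalIntegrable _ _]
  push_cast
  rw [mul_sum]
  refine sum_congr rfl fun i _ => ?_
  rw [intervalIntegral.integral_finsetSum fun j _ => (hc i j).intervalIntegrable _ _, mul_sum]
  refine sum_congr rfl fun j _ => ?_
  rw [intervalIntegral.integral_const_mul, ts2b_pair (hx i) (hx j)]
  ring

theorem fa_arc {n : ℕ} {x : Fin n → ℝ} (hx : ∀ i, |x i| < 1) (a : Fin n → ℝ) :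
    ∫ θ in (-(Real.pi / 2))..(Real.pi / 2), ‖fa x a (cexp (θ * I))‖ ^ 2 ≤
      2 * Real.pi * ∑ i, ∑ j, a i * a j * (1 - x i * x j)⁻¹ := by
  rw [← fa_circle hx a]
  have := Real.pi_pos
  refine intervalIntegral.integral_mono_interval (by linarith) (by linarith) (by linarith)
    (Filter.Eventually.of_forall fun θ => by positivity) ?_
  exact ((ts2b_fa_cont hx a).norm.pow 2).intervalIntegrable _ _

theorem fejer_riesz {n : ℕ} {x : Fin n → ℝ} (hx : ∀ i, |x i| < 1) (a : Fin n → ℝ) :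
    ∫ v in (-1 : ℝ)..1, ‖fa x a (v * I)‖ ^ 2 ≤
      Real.pi * ∑ i, ∑ j, a i * a j * (1 - x i * x j)⁻¹ := by
  obtain ⟨R, hR, -, hd'⟩ := fa_differentiableOn hx a
  have hpi := Real.pi_pos
  have h0 : hd (fun z => fa x a z * fa x a (-z)) = 0 := by
    refine hd_holo hR (hd'.mul (hd'.comp (by fun_prop) fun z hz => ?_))
    rwa [mem_ball_zero_iff, norm_neg, ← mem_ball_zero_iff]
  rw [hd, sub_eq_zero] at h0
  have e1 : ∀ v : ℝ, fa x a (v * I) * fa x a (-(v * I)) * I =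
      ((‖fa x a (v * I)‖ ^ 2 : ℝ) : ℂ) * I := by
    intro v
    rw [ofReal_pow, ← Complex.mul_conj', ← ts2b_conj]
    simp
  simp only [e1] at h0
  rw [intervalIntegral.integral_mul_const, intervalIntegral.integral_ofReal] at h0
  set F : ℝ → ℝ := fun θ => ‖fa x a (cexp (θ * I))‖ ^ 2 with hF
  have hFc : Continuous F := (ts2b_fa_cont hx a).norm.pow 2
  have hFc' : Continuous fun θ => F (θ + Real.pi) := hFc.comp (by fun_prop)
  have hneg : ∀ θ : ℝ, cexp (((θ + Real.pi : ℝ) : ℂ) * I) = -cexp (θ * I) := by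
    intro θ
    push_cast
    rw [add_mul, Complex.exp_add, Complex.exp_pi_mul_I, mul_neg_one]
  have h1 : ‖∫ θ in (-(Real.pi / 2))..(Real.pi / 2),
      fa x a (cexp (θ * I)) * fa x a (-cexp (θ * I)) * (I * cexp (θ * I))‖ ≤
      ∫ θ in (-(Real.pi / 2))..(Real.pi / 2), (1 / 2) * (F θ + F (θ + Real.pi)) := by
    refine intervalIntegral.norm_integral_le_of_norm_le (by linarith)
      (Filter.Eventually.of_forall fun θ _ => ?_)
      ((continuous_const.mul (hFc.add hFc')).intervalIntegrable _ _)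
    simp only [hF, hneg, norm_mul, norm_I, norm_exp_ofReal_mul_I, mul_one]
    nlinarith [sq_nonneg (‖fa x a (cexp (θ * I))‖ - ‖fa x a (-cexp (θ * I))‖)]
  rw [h0, norm_mul, norm_I, mul_one, Complex.norm_real, intervalIntegral.integral_const_mul,
    intervalIntegral.integral_add (hFc.intervalIntegrable _ _) (hFc'.intervalIntegrable _ _),
    intervalIntegral.integral_comp_add_right F,
    show -(Real.pi / 2) + Real.pi = Real.pi / 2 by ring,
    intervalIntegral.integral_add_adjacent_intervals (hFc.intervalIntegrable _ _)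
      (hFc.intervalIntegrable _ _)] at h1
  have hper : Function.Periodic F (2 * Real.pi) := by
    intro θ
    simp only [hF, ts2b_exp_add]
  have h2 := hper.intervalIntegral_add_eq (-Real.pi) (-(Real.pi / 2))
  rw [show -Real.pi + 2 * Real.pi = Real.pi by ring,
    show -(Real.pi / 2) + 2 * Real.pi = Real.pi / 2 + Real.pi by ring] at h2
  rw [← h2, fa_circle hx a] at h1
  refine (le_abs_self _).trans (h1.trans (le_of_eq ?_))
  ring

end Crest.Agent.R6
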