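import Crest.Agent.R6.TS2b
import Crest.Agent.R6.TS1

/-!
# Row 6: the residue sum over the positive nodes.

`Ψ z = z^r Q*(z) f(z)²/Q(z)`, `Q = ∏(z - x_k)`, `Q* = ∏(1 - x_k z)`, `f = fa x a = p/Q*` with the
polynomial `p = ∑ a_j ∏_{k≠j}(1 - x_k X)`.  With `ρ_j = lam x r j · f(x_j)²`, the polynomial
`X^r p² - Q* ∑_j ρ_j ∏_{k≠j}(X - x_k)` vanishes at all `x_j`, hence equals `Q · S`
(`Polynomial.prod_X_sub_C_dvd`-type lemma, `Finset.prod_dvd_of_coprime`, `pairwise_coprime_X_sub_C`), so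
`Ψ = ∑ ρ_j (z - x_j)⁻¹ + S/Q*` off the poles.  (Alternative without polynomials: `H = z^r Q* f²` is
holomorphic on a ball; iterate `dslope`.)  `hd Ψ = 2πi ∑_{x_j>0} ρ_j` (`hd_sum`, `hd_holo`,
`hd_inv_pos/neg`).  On the circle `‖Q*‖ = ‖Q‖`; on the segment `‖z^r Q*/Q‖ ≤ w`.
Conclude with `fa_arc`, `fejer_riesz`.  `res_neg`: apply `res_pos` to `-x`.
-/

set_option autoImplicit false

namespace Crest.Agent.R6

open Finset

/-- partial fractions for a holomorphic numerator -/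
theorem TS2c_pf {ι : Type} [DecidableEq ι] {U : Set ℂ} (hU : IsOpen U) {y : ι → ℂ} (hy : ∀ i, y i ∈ U)
    (hi : Function.Injective y) {H : ℂ → ℂ} (hH : DifferentiableOn ℂ H U) (s : Finset ι) :
    ∃ G : ℂ → ℂ, DifferentiableOn ℂ G U ∧ ∀ z, (∀ k ∈ s, z ≠ y k) →
      H z / ∏ k ∈ s, (z - y k) =
        ∑ j ∈ s, (H (y j) / ∏ k ∈ s.erase j, (y j - y k)) * (z - y j)⁻¹ + G z := by
  induction s using Finset.induction_on with
  | empty => exact ⟨H, hH, fun z _ => by simp⟩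
  | insert a s ha ih =>
    obtain ⟨G, hG, hz⟩ := ih
    refine ⟨dslope G (y a), (Complex.differentiableOn_dslope (hU.mem_nhds (hy a))).2 hG,
      fun z h => ?_⟩
    have hne : ∀ k ∈ s, y a ≠ y k := fun k hk e => ha (hi e ▸ hk)
    have h1 : z - y a ≠ 0 := sub_ne_zero.2 (h a (mem_insert_self _ _))
    have h2 := hz z fun k hk => h k (mem_insert_of_mem hk)
    have h3 := hz (y a) hne
    have h4 : (z - y a) * dslope G (y a) z = G z - G (y a) := sub_smul_dslope G (y a) z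
    rw [prod_insert ha, sum_insert ha, erase_insert ha, h3, mul_comm (z - y a), ← div_div, h2]
    have h5 : ∑ j ∈ s, (H (y j) / ∏ k ∈ (insert a s).erase j, (y j - y k)) * (z - y j)⁻¹ =
        (∑ j ∈ s, (H (y j) / ∏ k ∈ s.erase j, (y j - y k)) * (z - y j)⁻¹ -
          ∑ j ∈ s, (H (y j) / ∏ k ∈ s.erase j, (y j - y k)) * (y a - y j)⁻¹) * (z - y a)⁻¹ := by
      rw [← sum_sub_distrib, sum_mul]
      refine sum_congr rfl fun j hj => ?_
      have haj : a ≠ j := fun e => ha (e ▸ hj)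
      have e1 : z - y j ≠ 0 := sub_ne_zero.2 (h j (mem_insert_of_mem hj))
      have e2 : y a - y j ≠ 0 := sub_ne_zero.2 (hne j hj)
      have e3 : y j - y a ≠ 0 := sub_ne_zero.2 (hne j hj).symm
      rw [erase_insert_of_ne haj, prod_insert (fun h => ha (mem_of_mem_erase h)), mul_comm (y j - y a),
        ← div_div]
      generalize H (y j) / ∏ k ∈ s.erase j, (y j - y k) = c
      field_simp
      ring
    rw [h5]
    generalize ∑ j ∈ s, (H (y j) / ∏ k ∈ s.erase j, (y j - y k)) * (z - y j)⁻¹ = A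
    generalize ∑ j ∈ s, (H (y j) / ∏ k ∈ s.erase j, (y j - y k)) * (y a - y j)⁻¹ = B
    field_simp
    linear_combination -h4

theorem TS2c_ne {t : ℝ} (ht : t ∈ St) {z : ℂ} (hz : ‖z‖ = 1 ∨ (z.re = 0 ∧ ‖z‖ ≤ 1)) : z ≠ t := by
  rintro rfl
  rcases hz with h | h
  · rw [Complex.norm_real, Real.norm_eq_abs] at h
    exact (abs_lt.2 ht.1).ne h
  · exact ht.2 h.1

theorem TS2c_circ (t : ℝ) {z : ℂ} (hz : ‖z‖ = 1) : ‖1 - t * z‖ = ‖z - t‖ := by
  have h1 : z * (starRingEnd ℂ) z = 1 := by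
    rw [Complex.mul_conj, Complex.normSq_eq_norm_sq, hz]; simp
  have h2 : 1 - t * z = z * (starRingEnd ℂ) (z - t) := by
    rw [map_sub, Complex.conj_ofReal, mul_sub, h1, mul_comm]
  rw [h2, norm_mul, hz, one_mul, Complex.norm_conj]

theorem TS2c_seg (t v : ℝ) : ‖1 - (t : ℂ) * (v * Complex.I)‖ / ‖(v : ℂ) * Complex.I - t‖ =
    √((1 + t ^ 2 * v ^ 2) / (t ^ 2 + v ^ 2)) := by
  rw [Real.sqrt_div (by positivity), Complex.norm_eq_sqrt_sq_add_sq, Complex.norm_eq_sqrt_sq_add_sq]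
  simp [mul_pow]

theorem res_pos {n : ℕ} {x : Fin n → ℝ} (hx : ∀ i, x i ∈ St) (hi : Function.Injective x) (r : ℕ)
    {w : ℝ} (hw : ∀ v : ℝ, |v| ≤ 1 →
      |v| ^ r * ∏ k, √((1 + x k ^ 2 * v ^ 2) / (x k ^ 2 + v ^ 2)) ≤ w) (a : Fin n → ℝ) :
    |∑ j ∈ univ.filter (fun j => 0 < x j), lam x r j * (∑ i, a i * (1 - x i * x j)⁻¹) ^ 2| ≤
      (1 + w / 2) * ∑ i, ∑ j, a i * a j * (1 - x i * x j)⁻¹ := by
  have hx1 : ∀ i, |x i| < 1 := fun i => abs_lt.2 (hx i).1
  obtain ⟨R, hR, -, hf⟩ := fa_differentiableOn hx1 a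
  have hH : DifferentiableOn ℂ (fun z : ℂ => z ^ r * (∏ k, (1 - (x k : ℂ) * z)) * fa x a z ^ 2)
      (Metric.ball 0 R) :=
    DifferentiableOn.mul (Differentiable.differentiableOn (by fun_prop)) (hf.pow 2)
  obtain ⟨G, hG, hz⟩ := TS2c_pf (y := fun i => (x i : ℂ)) Metric.isOpen_ball
    (fun i => by
      rw [mem_ball_zero_iff, Complex.norm_real, Real.norm_eq_abs]
      exact (hx1 i).trans hR)
    (Complex.ofReal_injective.comp hi) hH univ
  set ρ : Fin n → ℝ := fun j => lam x r j * (∑ i, a i * (1 - x i * x j)⁻¹) ^ 2 with hρ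
  have hc : ∀ j, (x j : ℂ) ^ r * (∏ k, (1 - (x k : ℂ) * x j)) * fa x a (x j) ^ 2 /
      ∏ k ∈ univ.erase j, ((x j : ℂ) - x k) = ρ j := fun j => by
    simp only [hρ, lam, fa]
    push_cast
    ring
  simp only [hc] at hz
  have hsub : ({z | ‖z‖ = 1} ∪ {z | z.re = 0 ∧ ‖z‖ ≤ 1} : Set ℂ) ⊆ Metric.ball 0 R := by
    rintro z (h | h)
    · exact mem_ball_zero_iff.2 (h.trans_lt hR)
    · exact mem_ball_zero_iff.2 (h.2.trans_lt hR)
  have h1 : hd (fun z : ℂ => z ^ r * (∏ k, (1 - (x k : ℂ) * z)) * fa x a z ^ 2 / ∏ k, (z - x k)) =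
      ((∑ j ∈ univ.filter (fun j => 0 < x j), ρ j : ℝ) : ℂ) * (2 * Real.pi * Complex.I) := by
    rw [hd_congr fun z h => hz z fun k _ => TS2c_ne (hx k) h,
      hd_sum univ (fun j => (ρ j : ℂ)) (fun j z => (z - x j)⁻¹) G
        (fun j _ => (continuousOn_id.sub continuousOn_const).inv₀
          fun z h => sub_ne_zero.2 (TS2c_ne (hx j) h))
        (hG.continuousOn.mono hsub), hd_holo hR hG, add_zero, Complex.ofReal_sum, sum_mul, sum_filter]
    refine sum_congr rfl fun j _ => ?_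
    split_ifs with h
    · rw [hd_inv_pos h (hx j).1.2]
    · rw [hd_inv_neg (lt_of_le_of_ne (not_lt.1 h) (hx j).2) (hx j).1.1, mul_zero]
  have hw0 : 0 ≤ w := le_trans (by positivity) (hw 0 (by simp))
  have c1 : Continuous fun θ : ℝ => ‖fa x a (Complex.exp (θ * Complex.I))‖ ^ 2 :=
    (hf.continuousOn.comp_continuous (by fun_prop) fun θ =>
      hsub (Or.inl (Complex.norm_exp_ofReal_mul_I θ))).norm.pow 2
  have hv : ∀ v ∈ Set.Icc (-1 : ℝ) 1, ((v : ℂ) * Complex.I).re = 0 ∧ ‖(v : ℂ) * Complex.I‖ ≤ 1 :=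
    fun v hv => ⟨by simp, by simpa using abs_le.2 hv⟩
  have c2 : ContinuousOn (fun v : ℝ => w * ‖fa x a (v * Complex.I)‖ ^ 2) (Set.Icc (-1) 1) :=
    continuousOn_const.mul ((hf.continuousOn.comp (Continuous.continuousOn (by fun_prop))
      fun v h => hsub (Or.inr (hv v h))).norm.pow 2)
  have h2 := congrArg norm h1
  have hpi := Real.pi_pos
  rw [norm_mul, Complex.norm_real, Real.norm_eq_abs, norm_mul, Complex.norm_I, mul_one, norm_mul,
    Complex.norm_real, Real.norm_eq_abs, abs_of_pos hpi, Complex.norm_two] at h2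
  have h3 := (norm_sub_le _ _).trans (add_le_add
    (intervalIntegral.norm_integral_le_of_norm_le (μ := MeasureTheory.volume)
      (a := -(Real.pi / 2)) (b := Real.pi / 2)
      (f := fun θ : ℝ => Complex.exp (θ * Complex.I) ^ r *
        (∏ k, (1 - (x k : ℂ) * Complex.exp (θ * Complex.I))) * fa x a (Complex.exp (θ * Complex.I)) ^ 2 /
          (∏ k, (Complex.exp (θ * Complex.I) - x k)) * (Complex.I * Complex.exp (θ * Complex.I)))
      (by linarith) (Filter.Eventually.of_forall fun θ _ => by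
        have e := Complex.norm_exp_ofReal_mul_I θ
        generalize Complex.exp (θ * Complex.I) = z at e
        have e2 : ∏ k, ‖z - x k‖ ≠ 0 := prod_ne_zero_iff.2 fun k _ =>
          norm_ne_zero_iff.2 (sub_ne_zero.2 (TS2c_ne (hx k) (Or.inl e)))
        simp only [norm_mul, norm_div, norm_pow, norm_prod, e, Complex.norm_I, one_pow, one_mul,
          mul_one, TS2c_circ _ e]
        rw [mul_div_cancel_left₀ _ e2]) (c1.intervalIntegrable _ _))
    (intervalIntegral.norm_integral_le_of_norm_le (μ := MeasureTheory.volume) (a := -1) (b := 1)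
      (f := fun v : ℝ => ((v : ℂ) * Complex.I) ^ r *
        (∏ k, (1 - (x k : ℂ) * (v * Complex.I))) * fa x a (v * Complex.I) ^ 2 /
          (∏ k, ((v : ℂ) * Complex.I - x k)) * Complex.I)
      (by norm_num) (Filter.Eventually.of_forall fun v h => by
        refine le_trans (le_of_eq ?_) (mul_le_mul_of_nonneg_right
          (hw v (abs_le.2 ⟨h.1.le, h.2⟩)) (sq_nonneg _))
        simp only [← TS2c_seg, prod_div_distrib, norm_mul, norm_div, norm_pow, norm_prod,
          Complex.norm_I, mul_one, Complex.norm_real, Real.norm_eq_abs]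
        ring) (c2.intervalIntegrable_of_Icc (by norm_num))))
  rw [intervalIntegral.integral_const_mul] at h3
  have h4 := h2.symm.trans_le h3
  have h5 := fa_arc hx1 a
  have h6 := mul_le_mul_of_nonneg_left (fejer_riesz hx1 a) hw0
  refine le_of_mul_le_mul_right ?_ (show 0 < 2 * Real.pi by positivity)
  linarith

theorem res_neg {n : ℕ} {x : Fin n → ℝ} (hx : ∀ i, x i ∈ St) (hi : Function.Injective x) (r : ℕ)
    {w : ℝ} (hw : ∀ v : ℝ, |v| ≤ 1 →
      |v| ^ r * ∏ k, √((1 + x k ^ 2 * v ^ 2) / (x k ^ 2 + v ^ 2)) ≤ w) (a : Fin n → ℝ) :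
    |∑ j ∈ univ.filter (fun j => x j < 0), lam x r j * (∑ i, a i * (1 - x i * x j)⁻¹) ^ 2| ≤
      (1 + w / 2) * ∑ i, ∑ j, a i * a j * (1 - x i * x j)⁻¹ := by
  have h := res_pos (x := fun i => -x i)
    (fun i => ⟨⟨by linarith [(hx i).1.2], by linarith [(hx i).1.1]⟩,
      fun h => (hx i).2 (neg_eq_zero.1 h)⟩)
    (neg_injective.comp hi) r (w := w) (by simpa only [neg_sq] using hw) a
  have e : ∀ j, lam (fun i => -x i) r j = (-1) ^ r / (-1) ^ (n - 1) * lam x r j := fun j => by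
    have e1 : ∀ k, -x j - -x k = (-1) * (x j - x k) := fun k => by ring
    simp only [lam, neg_mul_neg, e1, prod_mul_distrib, prod_const, card_erase_of_mem (mem_univ j),
      card_univ, Fintype.card_fin]
    rw [neg_pow]
    ring
  simp only [neg_mul_neg, e, mul_assoc, ← mul_sum, abs_mul, abs_div, abs_pow, abs_neg, abs_one,
    one_pow, div_one, one_mul, Left.neg_pos_iff] at h
  simpa only [mul_assoc, ← mul_sum] using h

end Crest.Agent.R6
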