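import Crest.Agent.R6.RPoint
import Crest.Agent.R6.Andr

/-!
# Row 6: analytic upper bound.

Cast the determinant to `ℝ` (`RingHom.map_det`/`Rat.castHom`), `ent_integral`.  Outer `andreief_le` on
`St` with `φ r = rho N (r - 3N)`, `ψ k = psi (colQ N k)`, `w = (ff ·)⁻¹`, `B = exp(-2504.55 N²)`
(`∫_St w = π`: remove the null set `{0}`).  For fixed `t` let `d = |det rho(t)|`; if `d = 0` trivial,
otherwise inner `andreief_le` on `Ioo 0 1` with `φ i s = (1 - t i s)⁻¹`, `ψ k s = aeval s (colQ N k)`,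
`w = 1`, `B = exp(…) ∏ (ff (t i))⁻¹/d` (`point_bound`; `det_transpose`).  `π^(36N) ≤ exp(0.05 N²)`.
-/

set_option autoImplicit false

namespace Crest.Agent.R6

open Finset Filter MeasureTheory

theorem upper_St_meas : MeasurableSet St := measurableSet_Ioo.diff (measurableSet_singleton 0)

theorem upper_int_St : ∫ t in St, (ff t)⁻¹ = Real.pi := by
  rw [← integral_inv_ff]
  exact setIntegral_congr_set (sdiff_null_ae_eq_self (by simp))

theorem upper_pi_pow : ∀ᶠ N : ℕ in atTop, Real.pi ^ (36 * N) ≤ Real.exp (0.05 * (N : ℝ) ^ 2) := by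
  filter_upwards [eventually_ge_atTop 1440] with N hN
  have h1 : Real.pi ≤ Real.exp 2 := by
    have := Real.add_one_le_exp 1
    have h2 : Real.exp 2 = Real.exp 1 * Real.exp 1 := by rw [← Real.exp_add]; norm_num
    nlinarith [Real.pi_lt_four]
  calc Real.pi ^ (36 * N) ≤ Real.exp 2 ^ (36 * N) := pow_le_pow_left₀ Real.pi_pos.le h1 _
    _ = Real.exp (((36 * N : ℕ) : ℝ) * 2) := by rw [← Real.exp_nat_mul]
    _ ≤ Real.exp (0.05 * (N : ℝ) ^ 2) := by
      apply Real.exp_le_exp.2
      have : (1440 : ℝ) ≤ N := by exact_mod_cast hN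
      push_cast
      nlinarith

theorem upper (h0 : Cert 0) (h12 : Cert 12) {γ : ℚ} (hγ : (γ : ℝ) = GG) :
    ∀ᶠ N : ℕ in atTop, |(Delta γ N : ℝ)| ≤ Real.exp (-2504.5 * (N : ℝ) ^ 2) := by
  filter_upwards [point_bound h0 h12, upper_pi_pow, eventually_ge_atTop 1] with N hpt hpi hN
  have e1 : (Delta γ N : ℝ) = Matrix.det (Matrix.of fun r k : Fin (36 * N) =>
      ∫ t in St, rho N ((r : ℕ) - 3 * (N : ℤ)) t * psi (colQ N k) t) := by
    rw [Delta, ← Rat.coe_castHom, RingHom.map_det]
    congr 1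
    ext r k
    have hr := r.2
    simp only [RingHom.mapMatrix_apply, Matrix.map_apply, Matrix.of_apply, Rat.coe_castHom]
    exact ent_integral hγ (by omega) (by omega) k.2
  set E := Real.exp (-2504.55 * (N : ℝ) ^ 2) with hE
  have hE0 : 0 ≤ E := (Real.exp_pos _).le
  have key := andreief_le upper_St_meas
    (fun (r : Fin (36 * N)) t => rho N ((r : ℕ) - 3 * (N : ℤ)) t) (fun k t => psi (colQ N k) t)
    (fun t => (ff t)⁻¹) hE0 (fun r k => integrableOn_rho_psi hN _ _)
    (integrableOn_inv_ff.mono_set Set.sdiff_subset)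
    (fun t ht => (inv_pos.2 (ff_pos ht.1)).le) (by
      intro t ht
      set d := |Matrix.det (Matrix.of fun r i : Fin (36 * N) => rho N ((r : ℕ) - 3 * (N : ℤ)) (t i))|
        with hd
      have hP : 0 ≤ E * ∏ i, (ff (t i))⁻¹ :=
        mul_nonneg hE0 (Finset.prod_nonneg fun i _ => (inv_pos.2 (ff_pos (ht i).1)).le)
      rw [abs_mul, ← hd]
      have hd0 : 0 ≤ d := abs_nonneg _
      rcases hd0.eq_or_lt with h | h
      · rw [← h, zero_mul]; exact hP
      · have inner := andreief_le (S := Set.Ioo (0 : ℝ) 1) measurableSet_Ioo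
          (fun (i : Fin (36 * N)) s => (1 - t i * s)⁻¹)
          (fun (k : Fin (36 * N)) s => Polynomial.aeval s (colQ N k)) (fun _ => (1 : ℝ))
          (B := (E * ∏ i, (ff (t i))⁻¹) / d) (div_nonneg hP h.le)
          (fun i k => integrableOn_psi hN (ht i).1 k) (integrableOn_const (by simp))
          (fun _ _ => zero_le_one) (by
            intro s hs
            rw [Finset.prod_const_one, mul_one, le_div_iff₀ h, mul_comm]
            exact hpt t s ht hs)
        have e2 : ∫ _ in Set.Ioo (0 : ℝ) 1, (1 : ℝ) = 1 := by simp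
        rw [e2, one_pow, mul_one, le_div_iff₀ h, mul_comm] at inner
        rw [← Matrix.det_transpose]
        exact inner)
  rw [upper_int_St] at key
  rw [e1]
  refine key.trans ((mul_le_mul_of_nonneg_left hpi hE0).trans (le_of_eq ?_))
  rw [hE, ← Real.exp_add]
  congr 1
  ring

end Crest.Agent.R6
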